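import Vale.Agent.P153.SLE.Basic

/-! Points near a dying point are mapped near the driving point. -/

open Set Filter Topology Metric Complex MeasureTheory ProbabilityTheory
open scoped ENNReal NNReal BoundedContinuousFunction

noncomputable section
namespace Vale.Agent.P153.SLE

open Vale.Agent.P164 (Pth HP Zf Xf Yf Rf Up fi dom unbd Wie Sup Generates)
open Vale.Agent.P153.CA (cay icay)

namespace Acc

theorem back {W : Pth} {t c η : ℝ} {w : ℂ} (hc : 0 < c) (hηt : η < t) (hηc : η ≤ c ^ 2 / 32)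
    (hW : ∀ u ∈ Icc (t - η) t, |W u - W t| ≤ c / 8) (hw : w ∈ dom W t) (hR : c ≤ Rf W t w) :
    ∀ u ∈ Icc (t - η) t, c / 2 ≤ Rf W u w := by
  have hpos : ∀ u ∈ Icc (t - η) t, 0 < u := fun u hu => by linarith [hu.1]
  have hdom : ∀ u ∈ Icc (t - η) t, w ∈ dom W u := fun u hu =>
    fA.dom_anti W u t (hpos u hu).le hu.2 hw
  have hZ : ∀ u ∈ Icc (t - η) t, ContinuousAt (fun v => Zf W v w) u := fun u hu =>
    (fA.cont W u w (hpos u hu).le (hdom u hu)).1
  have hRc : ContinuousOn (fun v => Rf W v w) (Icc (t - η) t) := fun u hu =>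
    (hZ u hu).norm.continuousWithinAt
  intro u1 hu1
  by_contra hlt
  have hK : IsCompact (Icc (t - η) t ∩ (fun v => Rf W v w) ⁻¹' Iic (c / 2)) :=
    isCompact_Icc.of_isClosed_subset (hRc.preimage_isClosed_of_isClosed isClosed_Icc isClosed_Iic)
      inter_subset_left
  obtain ⟨u0, ⟨hu0, hr0⟩, hmax⟩ := hK.exists_isGreatest ⟨u1, hu1, (not_le.1 hlt).le⟩
  have hr0 : Rf W u0 w ≤ c / 2 := hr0
  have hne : u0 < t := lt_of_le_of_ne hu0.2 fun e => by rw [e] at hr0; linarith
  have hsub : Icc u0 t ⊆ Icc (t - η) t := Icc_subset_Icc_left hu0.1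
  have hgt : ∀ u ∈ Ioc u0 t, c / 2 ≤ Rf W u w := fun u hu => by
    by_contra h
    exact not_le.2 hu.1 (hmax ⟨hsub (Ioc_subset_Icc_self hu), (not_le.1 h).le⟩)
  have hge : c / 2 ≤ Rf W u0 w :=
    ContinuousWithinAt.closure_le (s := Ioc u0 t) (f := fun _ => c / 2) (g := fun v => Rf W v w)
      (by rw [closure_Ioc hne.ne]; exact left_mem_Icc.2 hne.le) continuousWithinAt_const
      (hZ u0 hu0).norm.continuousWithinAt hgt
  have hall : ∀ u ∈ Ico u0 t, c / 2 ≤ Rf W u w := fun u hu => by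
    rcases hu.1.eq_or_lt with rfl | h
    · exact hge
    · exact hgt u ⟨h, hu.2.le⟩
  have hder : ∀ u ∈ Icc u0 t, HasDerivAt (fun v => Zf W v w + (W v : ℂ)) (2 / Zf W u w) u :=
    fun u hu => (fA.der W u w (hpos u (hsub hu)) (hdom u (hsub hu))).1
  have key := norm_image_sub_le_of_norm_deriv_right_le_segment (C := 4 / c)
    (f := fun v => Zf W v w + (W v : ℂ)) (f' := fun u => 2 / Zf W u w)
    (fun u hu => (hder u hu).continuousAt.continuousWithinAt)
    (fun u hu => (hder u (Ico_subset_Icc_self hu)).hasDerivWithinAt)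
    (fun u hu => by
      have h : c / 2 ≤ ‖Zf W u w‖ := hall u hu
      rw [norm_div, Complex.norm_ofNat, div_le_div_iff₀ (lt_of_lt_of_le (half_pos hc) h) hc]
      linarith) t (right_mem_Icc.2 hne.le)
  have h1 : 4 / c * (t - u0) ≤ c / 8 := by
    rw [div_mul_eq_mul_div, div_le_iff₀ hc]
    nlinarith [hu0.1]
  have h2 : ‖(W u0 : ℂ) - W t‖ ≤ c / 8 := by
    rw [← ofReal_sub, norm_real]
    exact hW u0 hu0
  have h3 : Zf W t w = Zf W u0 w + ((Zf W t w + W t - (Zf W u0 w + W u0)) + ((W u0 : ℂ) - W t)) := by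
    ring
  have h4 : ‖Zf W t w‖ ≤ ‖Zf W u0 w‖ + (‖Zf W t w + W t - (Zf W u0 w + W u0)‖ +
      ‖(W u0 : ℂ) - W t‖) := by
    conv_lhs => rw [h3]
    exact (norm_add_le _ _).trans (add_le_add le_rfl (norm_add_le _ _))
  change ‖Zf W u0 w‖ ≤ c / 2 at hr0
  change c ≤ ‖Zf W t w‖ at hR
  linarith

end Acc

theorem s_acc (h1 : S_alv) : S_acc := by
  intro W t z ht hz hz'
  rw [Metric.tendsto_nhds]
  intro c hc
  by_contra hcon
  have hf : ∃ᶠ w in 𝓝[dom W t] z, c ≤ Rf W t w := by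
    refine (not_eventually.1 hcon).mono fun w hw => ?_
    rw [dist_zero_right] at hw
    exact not_lt.1 hw
  obtain ⟨d, hd, hW⟩ := Metric.continuousAt_iff.1 (W.continuous.continuousAt (x := t)) (c / 8)
    (by positivity)
  set η := min (min (t / 2) (d / 2)) (c ^ 2 / 32) with hη
  have hη0 : 0 < η := by positivity
  have hηt : η ≤ t / 2 := (min_le_left _ _).trans (min_le_left _ _)
  have hηd : η ≤ d / 2 := (min_le_left _ _).trans (min_le_right _ _)
  have hW' : ∀ u ∈ Icc (t - η) t, |W u - W t| ≤ c / 8 := fun u hu => by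
    refine (hW (x := u) ?_).le
    rw [Real.dist_eq, abs_lt]
    constructor <;> linarith [hu.1, hu.2]
  have hA : ∀ u ∈ Ico (t - η) t, c / 2 ≤ Rf W u z := fun u hu => by
    have hu0 : 0 ≤ u := by linarith [hu.1]
    have hcz : ContinuousAt (Zf W u) z :=
      (fM.Z_cont W u hu0).continuousAt ((fM.dom_open W u hu0).mem_nhds (hz' u ⟨hu0, hu.2⟩))
    refine ge_of_tendsto_of_frequently (hcz.norm.tendsto.mono_left
      (nhdsWithin_le_nhds (s := dom W t))) ?_
    refine (hf.and_eventually self_mem_nhdsWithin).mono fun w hw => ?_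
    exact Acc.back hc (by linarith) (min_le_right _ _) hW' hw.2 hw.1 u (Ico_subset_Icc_self hu)
  have hz1 := hz' (t - η) ⟨by linarith, by linarith⟩
  have hY : 0 < Yf W (t - η) z := (fA.alive W _ z (by linarith)).1 hz1
  refine hz (h1 W t (min (c / 2) (Yf W (t - η) z)) z ht.le (lt_min (half_pos hc) hY) hz1.1
    fun u hu hzu => ?_)
  have hut : u < t := lt_of_le_of_ne hu.2 fun e => hz (e ▸ hzu)
  rcases le_total (t - η) u with h | h
  · exact (min_le_left _ _).trans (hA u ⟨h, hut⟩)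
  · exact (min_le_right _ _).trans ((fA.Y_anti W z h).trans
      ((le_abs_self _).trans (P164.Yf_le_Rf W u z)))

end Vale.Agent.P153.SLE
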