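import Vale.Agent.P153.SLE.Basic

/-! The capacity of a hull in a half disc. -/

open Set Filter Topology Metric Complex MeasureTheory ProbabilityTheory
open scoped ENNReal NNReal BoundedContinuousFunction

namespace Vale.Agent.P153.SLE

open Vale.Agent.P164 (Pth HP Zf Xf Yf Rf Up fi dom unbd Wie Sup Generates)

namespace Cap

theorem est (h1 : S_bnd) (W : Pth) {t : ℝ} (ht : 0 ≤ t) : ∃ L : ℝ, ∀ z ∈ dom W t, L < ‖z‖ →
    ‖z * (Zf W t z + W t - z) - 2 * t‖ ≤ 2 * L / (‖z‖ - L) * t := by
  obtain ⟨M, -, hM, -⟩ := exists_bound W t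
  refine ⟨2 * t + 3 * M + 2, fun z hz hL => ?_⟩
  have hd : ∀ u ∈ Icc 0 t, z ∈ dom W u := fun u hu => fA.dom_anti W u t hu.1 hu.2 hz
  have hc : ContinuousOn (fun u => Zf W u z) (Icc 0 t) := fun u hu =>
    (fA.cont W u z hu.1 (hd u hu)).1.continuousWithinAt
  have hb : ∀ u ∈ Icc 0 t, ‖z - Zf W u z‖ ≤ 2 * t + 3 * M + 2 := fun u hu => by
    have a := (h1 W t M z hM).1 u hu (hd u hu)
    have b := norm_sub_le (W u : ℂ) (Zf W u z + W u - z)
    rw [norm_real, Real.norm_eq_abs, show (W u : ℂ) - (Zf W u z + W u - z) = z - Zf W u z by ring]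
      at b
    linarith [hM u hu]
  generalize 2 * t + 3 * M + 2 = L at hL hb ⊢
  have hl : ∀ u ∈ Icc 0 t, ‖z‖ - L ≤ ‖Zf W u z‖ := fun u hu => by
    linarith [hb u hu, norm_sub_norm_le z (Zf W u z)]
  have h0 : ∀ u ∈ Icc 0 t, Zf W u z ≠ 0 := fun u hu =>
    norm_pos_iff.1 ((sub_pos.2 hL).trans_le (hl u hu))
  have hi : IntervalIntegrable (fun u => 2 / Zf W u z) volume 0 t :=
    (continuousOn_const.div hc h0).intervalIntegrable_of_Icc ht
  have e := intervalIntegral.integral_eq_sub_of_hasDerivAt_of_le ht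
    (hc.add (continuous_ofReal.comp W.continuous).continuousOn)
    (fun u hu => (fA.der W u z hu.1 (hd u (Ioo_subset_Icc_self hu))).1) hi
  simp only [Pi.add_apply, Function.comp_apply, (fA.init W z hz.1).2.1, sub_add_cancel] at e
  have e2 : z * (Zf W t z + W t - z) - 2 * t = ∫ u in (0 : ℝ)..t, (z * (2 / Zf W u z) - 2) := by
    rw [intervalIntegral.integral_sub (hi.const_mul z) intervalIntegrable_const,
      intervalIntegral.integral_const_mul, e]
    simp [mul_comm]
  rw [e2]
  refine (intervalIntegral.norm_integral_le_of_norm_le_const (C := 2 * L / (‖z‖ - L))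
    fun u hu => ?_).trans_eq (by rw [sub_zero, abs_of_nonneg ht])
  rw [uIoc_of_le ht] at hu
  have hu := Ioc_subset_Icc_self hu
  have := h0 u hu
  rw [show z * (2 / Zf W u z) - 2 = 2 * (z - Zf W u z) / Zf W u z by field_simp, norm_div,
    norm_mul, Complex.norm_two]
  have L0 := (norm_nonneg _).trans (hb u hu)
  exact div_le_div₀ (by positivity) (by linarith [hb u hu]) (sub_pos.2 hL) (hl u hu)

theorem lim (h1 : S_bnd) (W : Pth) {t : ℝ} (ht : 0 ≤ t) :
    Tendsto (fun z => z * (Zf W t z + W t - z)) (cocompact ℂ ⊓ 𝓟 (dom W t)) (𝓝 (2 * t)) := by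
  obtain ⟨L, hL⟩ := est h1 W ht
  have n : Tendsto (fun z : ℂ => ‖z‖) (cocompact ℂ ⊓ 𝓟 (dom W t)) atTop :=
    tendsto_norm_cocompact_atTop.mono_left inf_le_left
  have b := ((tendsto_const_nhds (x := 2 * L)).div_atTop
    (tendsto_atTop_add_const_right _ (-L) n)).mul_const t
  rw [zero_mul] at b
  refine tendsto_iff_norm_sub_tendsto_zero.2 (squeeze_zero' (Eventually.of_forall fun _ =>
    norm_nonneg _) ?_ b)
  filter_upwards [n.eventually_gt_atTop L, mem_inf_of_right (mem_principal_self _)] with z h hz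
  exact hL z hz h

theorem norm_eq (F z : ℂ) (R : ℝ) :
    ‖exp (I * (F - R ^ 2 / z))‖ = Real.exp (-F.im - R ^ 2 * z.im / ‖z‖ ^ 2) := by
  rw [norm_exp, ← ofReal_pow, I_mul_re, sub_im, div_eq_mul_inv, im_ofReal_mul, inv_im,
    Complex.sq_norm]
  ring_nf

end Cap

open Cap

theorem s_cap (h1 : S_bnd) : S_cap := by
  intro W t R ht hR hU
  set U : Set ℂ := {z : ℂ | 0 < z.im ∧ R < ‖z‖} with hUd
  have oU : IsOpen U := (isOpen_lt continuous_const continuous_im).inter
    (isOpen_lt continuous_const continuous_norm)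
  have n0 : ∀ z ∈ U, z ≠ 0 := fun z hz => norm_pos_iff.1 (hR.trans hz.2)
  have l1 := (lim h1 W ht).mono_left (inf_le_inf_left _ (principal_mono.2 hU))
  have l0 : Tendsto (fun z : ℂ => z⁻¹) (cocompact ℂ ⊓ 𝓟 U) (𝓝 0) :=
    (tendsto_inv₀_cobounded.mono_left cobounded_eq_cocompact.ge).mono_left inf_le_left
  have mx := CA.s_max U (fun z => exp (I * (Zf W t z + W t - z - R ^ 2 / z))) 1 oU
    (fun z hz => ((((((cA.der W t z ht (hU hz)).differentiableAt.add_const _).sub
      differentiableAt_id).sub ((differentiableAt_const _).div differentiableAt_id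
        (n0 z hz))).const_mul I).cexp).differentiableWithinAt)
    (fun ζ hζ ε hε => by
      rw [oU.frontier_eq] at hζ
      have c : ζ ∈ {z : ℂ | 0 ≤ z.im} ∩ {z : ℂ | R ≤ ‖z‖} := closure_minimal
        (fun z hz => mem_inter hz.1.le hz.2.le) ((isClosed_le continuous_const continuous_im).inter
          (isClosed_le continuous_const continuous_norm)) hζ.1
      have z0 : ‖ζ‖ ≠ 0 := (hR.trans_le c.2).ne'
      have k : ContinuousAt (fun z : ℂ => Real.exp (z.im - R ^ 2 * z.im / ‖z‖ ^ 2)) ζ := by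
        fun_prop (disch := exact pow_ne_zero _ z0)
      have v : Real.exp (ζ.im - R ^ 2 * ζ.im / ‖ζ‖ ^ 2) < 1 + ε := by
        have : ζ.im - R ^ 2 * ζ.im / ‖ζ‖ ^ 2 = 0 := by
          rcases (show 0 ≤ ζ.im from c.1).eq_or_lt with h | h
          · simp [← h]
          · rw [le_antisymm c.2 (not_lt.1 fun h' => hζ.2 ⟨h, h'⟩)]
            field_simp
            ring
        rw [this, Real.exp_zero]
        linarith
      filter_upwards [mem_nhdsWithin_of_mem_nhds (k.eventually_lt continuousAt_const v),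
        self_mem_nhdsWithin] with z h _
      rw [norm_eq]
      refine (Real.exp_le_exp.2 ?_).trans h.le
      have : 0 ≤ (Zf W t z).im := fA.Y_nonneg W t z
      simp only [sub_im, add_im, ofReal_im]
      linarith)
    fun ε hε => by
      have a := (((l1.mul l0).sub (l0.const_mul ((R : ℂ) ^ 2))).const_mul I).cexp.norm
      simp only [mul_zero, sub_zero, exp_zero, norm_one] at a
      filter_upwards [a.eventually_lt_const (lt_add_of_pos_right 1 hε),
        mem_inf_of_right (mem_principal_self _)] with z h hz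
      have := n0 z hz
      refine le_of_eq_of_le ?_ h.le
      congr 3
      field_simp
  have ty : Tendsto (fun y : ℝ => (y : ℂ) * I) atTop (cocompact ℂ ⊓ 𝓟 U) := by
    refine tendsto_inf.2 ⟨?_, tendsto_principal.2 ?_⟩
    · rw [← cobounded_eq_cocompact, ← tendsto_norm_atTop_iff_cobounded]
      simpa using tendsto_abs_atTop_atTop
    · filter_upwards [eventually_gt_atTop R] with y hy
      exact ⟨by simpa using hR.trans hy, by simpa using hy.trans_le (le_abs_self y)⟩
  have l2 := (continuous_re.tendsto _).comp (l1.comp ty)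
  rw [show (2 * t : ℂ).re = 2 * t by simp] at l2
  refine le_of_tendsto l2 ?_
  filter_upwards [eventually_gt_atTop R, (tendsto_inf.1 ty).2 (mem_principal_self _)] with y hy hz
  have y0 := hR.trans hy
  have a := mx _ hz
  rw [norm_eq, Real.exp_le_one_iff] at a
  simp only [Function.comp_apply]
  generalize Zf W t (y * I) + W t - y * I = F at a ⊢
  simp only [mul_im, ofReal_re, I_im, ofReal_im, I_re, mul_re, norm_mul, norm_real, norm_I,
    Real.norm_eq_abs, mul_one, sq_abs, mul_zero, add_zero, sub_zero, zero_mul, zero_sub] at a ⊢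
  have e : R ^ 2 * y / y ^ 2 * y = R ^ 2 := by field_simp
  nlinarith

end Vale.Agent.P153.SLE
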