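import Vale.Agent.P153.SLE.Basic

/-! The composition rule for the Loewner flow. -/

open Set Filter Topology Metric Complex

namespace Vale.Agent.P153.SLE

open Vale.Agent.P164 (Pth HP Zf Xf Yf Rf Up fi dom Solves Zf_spec flowC_uniq flowC_pos)

namespace Comp

variable {W W' : Pth} {s v t : ℝ} {w z : ℂ} {g g' : ℝ → ℂ}

theorem Zf_eq (ht : 0 ≤ t) (hw : 0 < w.im) (h : Solves W w t g) : Zf W t w = g t - (W t : ℂ) := by
  obtain ⟨g', h1, h2⟩ := Zf_spec ht (⟨hw, g, h⟩ : w ∈ dom W t)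
  rw [h2, flowC_uniq h1 h ⟨ht, le_rfl⟩]

theorem restr (hst : s ≤ t) (h : Solves W w t g) : Solves W w s g :=
  ⟨h.1, fun r hr => ⟨(h.2 r ⟨hr.1, hr.2.trans hst⟩).1,
    (h.2 r ⟨hr.1, hr.2.trans hst⟩).2.mono (Icc_subset_Icc_right hst)⟩⟩

theorem shift (hs : 0 ≤ s) (hW : ∀ r, 0 ≤ r → W (s + r) - W s = W' r)
    (h : Solves W w (s + v) g) :
    Solves W' (g s - (W s : ℂ)) v fun r => g (s + r) - (W s : ℂ) := by
  refine ⟨by simp, fun r hr => ?_⟩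
  have hm : s + r ∈ Icc 0 (s + v) := ⟨add_nonneg hs hr.1, by linarith [hr.2]⟩
  have e : g (s + r) - (W s : ℂ) - (W' r : ℂ) = g (s + r) - (W (s + r) : ℂ) := by
    rw [← hW r hr.1]; push_cast; ring
  refine ⟨fun h0 => (h.2 _ hm).1 ?_, ?_⟩
  · rw [← sub_eq_zero, ← e, sub_eq_zero]; exact h0
  · have h1 : HasDerivWithinAt (fun r : ℝ => s + r) 1 (Icc 0 v) r :=
      ((hasDerivAt_id r).const_add s).hasDerivWithinAt
    have h2 := (h.2 _ hm).2.scomp r h1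
      fun x hx => ⟨add_nonneg hs hx.1, by linarith [hx.2]⟩
    rw [one_smul] at h2
    rw [e]
    exact h2.sub_const _

theorem glue (hs : 0 ≤ s) (hv : 0 ≤ v) (hW : ∀ r, 0 ≤ r → W (s + r) - W s = W' r)
    (h : Solves W w s g) (h' : Solves W' (g s - (W s : ℂ)) v g') :
    ∃ G, Solves W w (s + v) G := by
  classical
  set G : ℝ → ℂ := fun r => if r ≤ s then g r else g' (r - s) + (W s : ℂ) with hG
  have e1 : ∀ r ∈ Icc 0 s, G r = g r := fun r hr => if_pos hr.2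
  have e2 : ∀ r ∈ Icc s (s + v), G r = g' (r - s) + (W s : ℂ) := fun r hr => by
    rcases hr.1.eq_or_lt with e | e
    · rw [← e, e1 s ⟨hs, le_rfl⟩, sub_self, h'.1]; ring
    · exact if_neg e.not_ge
  have d1 : ∀ r ∈ Icc 0 s, G r ≠ (W r : ℂ) ∧
      HasDerivWithinAt G (2 / (G r - (W r : ℂ))) (Icc 0 s) r := fun r hr => by
    rw [e1 r hr]
    exact ⟨(h.2 r hr).1, (h.2 r hr).2.congr_of_mem e1 hr⟩
  have d2 : ∀ r ∈ Icc s (s + v), G r ≠ (W r : ℂ) ∧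
      HasDerivWithinAt G (2 / (G r - (W r : ℂ))) (Icc s (s + v)) r := fun r hr => by
    have hm : r - s ∈ Icc 0 v := ⟨by linarith [hr.1], by linarith [hr.2]⟩
    have e : G r - (W r : ℂ) = g' (r - s) - (W' (r - s) : ℂ) := by
      rw [e2 r hr, ← hW _ hm.1, add_sub_cancel]; push_cast; ring
    refine ⟨fun h0 => (h'.2 _ hm).1 ?_, ?_⟩
    · rw [← sub_eq_zero, ← e, sub_eq_zero]; exact h0
    · have h1 : HasDerivWithinAt (fun r : ℝ => r - s) 1 (Icc s (s + v)) r :=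
        ((hasDerivAt_id r).sub_const s).hasDerivWithinAt
      have h2 := (h'.2 _ hm).2.scomp r h1 fun x hx =>
        (⟨by linarith [hx.1], by linarith [hx.2]⟩ : x - s ∈ Icc 0 v)
      rw [one_smul] at h2
      rw [e]
      exact (h2.add_const (W s : ℂ)).congr_of_mem e2 hr
  refine ⟨G, (e1 0 ⟨le_rfl, hs⟩).trans h.1, fun r hr => ?_⟩
  rw [← Icc_union_Icc_eq_Icc hs (le_add_of_nonneg_right hv)]
  rcases lt_trichotomy r s with e | e | e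
  · refine ⟨(d1 r ⟨hr.1, e.le⟩).1, (d1 r ⟨hr.1, e.le⟩).2.union ?_⟩
    refine hasDerivWithinAt_iff_hasFDerivWithinAt.2 (HasFDerivWithinAt.of_notMem_closure ?_)
    rw [closure_Icc]; exact fun h0 => e.not_ge h0.1
  · exact ⟨(d1 r ⟨hr.1, e.le⟩).1, (d1 r ⟨hr.1, e.le⟩).2.union (d2 r ⟨e.ge, hr.2⟩).2⟩
  · refine ⟨(d2 r ⟨e.le, hr.2⟩).1, HasDerivWithinAt.union ?_ (d2 r ⟨e.le, hr.2⟩).2⟩
    refine hasDerivWithinAt_iff_hasFDerivWithinAt.2 (HasFDerivWithinAt.of_notMem_closure ?_)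
    rw [closure_Icc]; exact fun h0 => e.not_ge h0.2

theorem fwd (hs : 0 ≤ s) (hv : 0 ≤ v) (hW : ∀ r, 0 ≤ r → W (s + r) - W s = W' r)
    (hw : w ∈ dom W (s + v)) :
    Zf W s w ∈ dom W' v ∧ Zf W (s + v) w = Zf W' v (Zf W s w) := by
  obtain ⟨h0, g, hg⟩ := hw
  have hsv : s ≤ s + v := le_add_of_nonneg_right hv
  have hp : 0 < (g s - (W s : ℂ)).im := by simpa using flowC_pos hg h0 s ⟨hs, hsv⟩
  rw [Zf_eq hs h0 (restr hsv hg), Zf_eq (hs.trans hsv) h0 hg, Zf_eq hv hp (shift hs hW hg),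
    ← hW v hv]
  exact ⟨⟨hp, _, shift hs hW hg⟩, by push_cast; ring⟩

theorem bwd (hs : 0 ≤ s) (hv : 0 ≤ v) (hW : ∀ r, 0 ≤ r → W (s + r) - W s = W' r)
    (hw : w ∈ dom W s) (h : Zf W s w ∈ dom W' v) : w ∈ dom W (s + v) := by
  obtain ⟨h0, g, hg⟩ := hw
  obtain ⟨-, g', hg'⟩ := h
  rw [Zf_eq hs h0 hg] at hg'
  exact ⟨h0, glue hs hv hW hg hg'⟩

end Comp

theorem s_comp : S_comp := by
  intro W W' s v hs hv hW
  refine ⟨fun w hw => ⟨⟨fun h => (Comp.fwd hs hv hW h).1, Comp.bwd hs hv hW hw⟩,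
    fun h => (Comp.fwd hs hv hW h).2⟩, fun ζ hζ => ?_⟩
  obtain ⟨h1, h2⟩ := cB.right W' v ζ hv hζ
  obtain ⟨h3, h4⟩ := cB.right W s (fi W' v ζ) hs h1.1
  have h5 := Comp.bwd hs hv hW h3 (by rw [h4]; exact h1)
  have h6 := (Comp.fwd hs hv hW h5).2
  rw [h4, h2] at h6
  have := cB.left W (s + v) _ (add_nonneg hs hv) h5
  rwa [h6] at this

end Vale.Agent.P153.SLE
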