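import Vale.Agent.P153.SLE.Basic

/-! The trace in the disc and the reparametrisation of the curves. -/

open Set Filter Topology Metric Complex MeasureTheory ProbabilityTheory
open scoped ENNReal NNReal BoundedContinuousFunction

noncomputable section
namespace Vale.Agent.P153.SLE

open Vale.Agent.P164 (Pth HP Zf Xf Yf Rf Up fi dom unbd Wie Sup Generates)
open Vale.Agent.P153.CA (cay icay)

namespace Det

theorem far {γ : ℝ → ℂ} (h : ∀ t, 0 ≤ t → 0 ≤ (γ t).im) (hγ : Tendsto γ atTop (cocompact ℂ)) :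
    Tendsto (fun t => cay (γ t)) atTop (𝓝 1) := by
  have h1 : Tendsto (fun t => ‖γ t + I‖) atTop atTop :=
    tendsto_atTop_mono (fun t => by simpa using norm_sub_norm_le (γ t) (-I))
      (tendsto_atTop_add_const_right _ (-1) (tendsto_norm_cocompact_atTop.comp hγ))
  refine tendsto_iff_norm_sub_tendsto_zero.2 ((tendsto_const_nhds.div_atTop h1 (a := 2)).congr' ?_)
  filter_upwards [eventually_ge_atTop 0] with t ht
  rw [norm_cay_sub_one (h t ht)]

theorem iso {f : ℝ → ℝ} (hc : ContinuousOn f (Icc 0 1)) (hm : StrictMonoOn f (Icc 0 1))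
    (h0 : f 0 = 0) (h1 : f 1 = 1) : ∃ ρ : unitInterval ≃o unitInterval, ∀ t, f (ρ t) = t := by
  let g : unitInterval → unitInterval := fun s => ⟨f s,
    h0 ▸ hm.monotoneOn ⟨le_rfl, zero_le_one⟩ s.2 s.2.1,
    h1 ▸ hm.monotoneOn s.2 ⟨zero_le_one, le_rfl⟩ s.2.2⟩
  have hg : StrictMono g := fun a b h => hm a.2 b.2 h
  have hs : Function.Surjective g := fun t => by
    obtain ⟨s, hs, e⟩ := intermediate_value_Icc zero_le_one hc
      (show (t : ℝ) ∈ Icc (f 0) (f 1) by rw [h0, h1]; exact t.2)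
    exact ⟨⟨s, hs⟩, Subtype.ext e⟩
  exact ⟨(hg.orderIsoOfSurjective g hs).symm, fun t =>
    congrArg Subtype.val ((hg.orderIsoOfSurjective g hs).apply_symm_apply t)⟩

theorem frac_nonneg (t : unitInterval) : (0 : ℝ) ≤ t / (1 - t) :=
  div_nonneg t.2.1 (sub_nonneg.2 t.2.2)

theorem frac_lt {a b : ℝ} (ha : 0 ≤ a) (h : a < b) : a / (1 + a) < b / (1 + b) := by
  rw [div_lt_div_iff₀ (by linarith) (by linarith)]; linarith

/-- The change of parameter. -/
theorem par {c : ℝ → ℂ} {S T s0 : ℝ} {τ : ℝ → ℝ} {W : Pth} (h : Drv c S τ W) (hs : s0 ∈ Icc 0 S)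
    (hT : τ s0 = T) : ∃ ρ : unitInterval ≃o unitInterval, ∀ t : unitInterval,
      ((ρ t : ℝ) ≤ s0 → (t : ℝ) < 1 ∧ t / (1 - t) = τ (ρ t)) ∧
      (s0 ≤ ρ t → (t : ℝ) < 1 → T ≤ t / (1 - t)) := by
  have s1 : 0 < 1 - s0 := by linarith [hs.2, h.S1]
  have T0 : 0 ≤ T := hT ▸ h.nonneg hs
  have m : ∀ s ∈ Icc (0 : ℝ) 1, min s s0 ∈ Icc 0 S := fun s k =>
    ⟨le_min k.1 hs.1, (min_le_right _ _).trans hs.2⟩
  have c1 : ContinuousOn (fun s => τ (min s s0)) (Icc 0 1) :=
    h.cont.comp (continuous_id.min continuous_const).continuousOn m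
  have d0 : 0 < (1 - s0) * (1 + T) := by positivity
  obtain ⟨ρ, hρ⟩ := iso (f := fun s => τ (min s s0) / (1 + τ (min s s0)) +
    (max s s0 - s0) / ((1 - s0) * (1 + T)))
    ((c1.div (continuousOn_const.add c1) fun s k =>
      (add_pos_of_pos_of_nonneg one_pos (h.nonneg (m s k))).ne').add
      (Continuous.continuousOn (by fun_prop)))
    (fun a ha b hb hab => by
      rcases lt_or_ge a s0 with k | k
      · refine add_lt_add_of_lt_of_le (frac_lt (h.nonneg (m a ha)) (h.mono (m a ha) (m b hb) ?_))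
          (by gcongr)
        rw [min_eq_left k.le]
        exact lt_min hab k
      · simp only [min_eq_right k, min_eq_right (k.trans hab.le), max_eq_left k,
          max_eq_left (k.trans hab.le)]
        gcongr)
    (by simp [min_eq_left hs.1, max_eq_right hs.1, h.t0])
    (by
      simp only [min_eq_right (sub_pos.1 s1).le, max_eq_left (sub_pos.1 s1).le, hT]
      field_simp
      ring)
  refine ⟨ρ, fun t => ⟨fun k => ?_, fun k k1 => ?_⟩⟩
  · have e := hρ t
    have p := h.nonneg ⟨(ρ t).2.1, k.trans hs.2⟩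
    simp only [min_eq_left k, max_eq_right k, sub_self, zero_div, add_zero] at e
    rw [← e]
    refine ⟨(div_lt_one (by linarith)).2 (by linarith), ?_⟩
    field_simp
    ring
  · have e := hρ t
    simp only [min_eq_right k, max_eq_left k, hT] at e
    have : T / (1 + T) ≤ t := e ▸ le_add_of_nonneg_right (div_nonneg (sub_nonneg.2 k) d0.le)
    rw [div_le_iff₀ (by linarith)] at this
    rw [le_div_iff₀ (by linarith)]
    linarith

end Det

theorem s_det : S_det := by
  intro c S τ W V γ h hk e he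
  obtain ⟨k, k0, hb⟩ := h.back (e / 2) (by positivity)
  have m0 : 0 < min k e / 2 := by positivity
  have m1 : min k e ≤ k := min_le_left _ _
  have m2 : min k e ≤ e := min_le_right _ _
  obtain ⟨T, hT⟩ := eventually_atTop.1 ((eventually_ge_atTop 0).and
    (Metric.tendsto_nhds.1 (Det.far h.gd.gen.2.2.1 h.tr) _ m0))
  simp only [dist_eq_norm] at hT
  filter_upwards [h.drv, hb, hk T _ m0, h.cap.eventually_ge_atTop T] with n ⟨_, hd⟩ hb hk hc
  obtain ⟨s0, hs, e0⟩ := hd.surj ⟨hd.S0, le_rfl⟩ ⟨(hT T le_rfl).1, hc⟩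
  obtain ⟨ρ, hρ⟩ := Det.par hd hs e0
  refine ⟨ρ, fun t => ?_⟩
  rcases le_total (ρ t : ℝ) s0 with k1 | k1
  · obtain ⟨p1, p2⟩ := (hρ t).1 k1
    have q : (ρ t : ℝ) ∈ Icc 0 (S n) := ⟨(ρ t).2.1, k1.trans hs.2⟩
    rw [dsc, if_pos p1, p2]
    exact (hk _ q (e0 ▸ hd.mono.monotoneOn q hs k1)).trans (by linarith)
  · have a1 : ‖c n s0 - 1‖ < k := by
      have b1 := hk s0 hs e0.le
      have b2 := (hT T le_rfl).2
      rw [e0] at b1
      linarith [norm_sub_le_norm_sub_add_norm_sub (c n s0) (cay (γ T)) 1]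
    have a2 : ‖c n (ρ t) - 1‖ ≤ e / 2 := not_lt.1 fun q => hb ⟨s0, ρ t, hs.1, k1, (ρ t).2.2, a1, q⟩
    have a3 : ‖1 - dsc γ t‖ ≤ e / 2 := by
      rw [dsc]
      split_ifs with p
      · rw [norm_sub_rev]
        linarith [(hT _ ((hρ t).2 k1 p)).2]
      · simpa using (half_pos he).le
    linarith [norm_sub_le_norm_sub_add_norm_sub (c n (ρ t)) 1 (dsc γ t)]

theorem s_dsc : S_dsc := by
  intro V γ h hγ
  have him := h.gen.2.2.1
  have d1 : dsc γ 1 = 1 := by simp [dsc]
  have hc : Continuous (dsc γ) := by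
    refine continuous_iff_continuousAt.2 fun t => ?_
    rcases t.2.2.lt_or_eq with k | k
    · have c1 : ContinuousAt (fun s : unitInterval => (s : ℝ) / (1 - s)) t :=
        continuousAt_subtype_val.div (continuousAt_const.sub continuousAt_subtype_val)
          (sub_pos.2 k).ne'
      have c2 : ContinuousAt (fun s : unitInterval => γ (s / (1 - s))) t :=
        (continuousWithinAt_univ _ _).1 ((h.cont _ (Det.frac_nonneg t)).comp
          (f := fun s : unitInterval => (s : ℝ) / (1 - s)) c1.continuousWithinAt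
            fun s _ => Det.frac_nonneg s)
      refine ((continuousAt_cay (him _ (Det.frac_nonneg t))).comp
        (f := fun s : unitInterval => γ (s / (1 - s))) c2).congr ?_
      filter_upwards [continuousAt_subtype_val.eventually_lt continuousAt_const k] with s hs
      simp only [dsc, if_pos hs, Function.comp]
    · obtain rfl : t = 1 := Subtype.ext k
      have lt : ∀ᶠ s : unitInterval in 𝓝[≠] 1, (s : ℝ) < 1 :=
        eventually_nhdsWithin_of_forall fun s hs => s.2.2.lt_of_ne fun e => hs (Subtype.ext e)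
      have c0 : Tendsto (fun s : unitInterval => (s : ℝ)) (𝓝[≠] 1) (𝓝 1) :=
        (continuous_subtype_val.tendsto (1 : unitInterval)).mono_left nhdsWithin_le_nhds
      have c1 : Tendsto (fun s : unitInterval => 1 - (s : ℝ)) (𝓝[≠] 1) (𝓝[>] 0) :=
        tendsto_nhdsWithin_iff.2 ⟨by simpa using c0.const_sub 1, lt.mono fun s hs => sub_pos.2 hs⟩
      have c2 := c0.pos_mul_atTop one_pos (tendsto_inv_nhdsGT_zero.comp c1)
      rw [continuousAt_iff_punctured_nhds, d1]
      refine ((Det.far him hγ).comp c2).congr' (lt.mono fun s hs => ?_)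
      simp only [dsc, if_pos hs, Function.comp, div_eq_mul_inv]
  have hn : ∀ t, ‖dsc γ t‖ ≤ 1 := fun t => by
    rw [dsc]
    split_ifs
    · exact norm_cay_le (him _ (Det.frac_nonneg t))
    · simp
  refine ⟨hc, hn, fun ψ hψ => ⟨hψ.1.comp_continuous hc fun t => mem_closedBall_zero_iff.2 (hn t),
    by simp only [d1], γ, h.gen, fun t ht => ?_⟩⟩
  simp only [dsc, if_pos ht, cay]

end Vale.Agent.P153.SLE
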