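import Vale.Agent.P153.SLE.Basic

/-! The maximal inequality and the Gaussian tail of the oscillation. -/

open Set Filter Topology Metric Complex MeasureTheory ProbabilityTheory
open scoped ENNReal NNReal BoundedContinuousFunction

namespace Vale.Agent.P153.SLE

open Vale.Agent.P164 (Pth HP Zf Xf Yf Rf Up fi dom unbd Wie Sup Generates catS cat cat_add
  cat_of_le cat_eqOn measurable_ev CE CP)

namespace Doob

variable {μ : Measure Pth} {N : ℝ → Pth → ℝ≥0∞}

/-- Exceeding the level at one of the grid points. -/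
def A (N : ℝ → Pth → ℝ≥0∞) (a : ℝ≥0∞) (h : ℝ) (j : ℕ) : Set Pth :=
  {W | ∃ i : ℕ, i ≤ j ∧ a < N (i * h) W}

theorem grid (hμ : Wie 4 μ) (hN : Sup μ N)
    (hl : ∀ t (V W : Pth), 0 ≤ t → EqOn V W (Icc 0 t) → N t V = N t W) (a : ℝ≥0∞) {h : ℝ}
    (hh : 0 ≤ h) (j : ℕ) : a * μ (A N a h j) ≤ ∫⁻ W, N 0 W ∂μ := by
  classical
  have := hμ.prob
  have p : ∀ i : ℕ, 0 ≤ i * h := fun i => by positivity
  have mA : ∀ j, MeasurableSet (A N a h j) := fun j =>
    measurableSet_setOfPred.2 (Measurable.exists fun i => measurable_const.and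
      (measurableSet_setOfPred.1 (measurableSet_lt measurable_const (hN.1 _ (p i)))))
  have key : ∀ j : ℕ, ∫⁻ W, (if W ∈ A N a h j then a else N (j * h) W) ∂μ ≤ ∫⁻ W, N 0 W ∂μ := by
    intro j
    induction j with
    | zero =>
      refine lintegral_mono fun W => ?_
      split_ifs with hW
      · obtain ⟨i, hi, h1⟩ := hW
        rw [Nat.le_zero.1 hi, Nat.cast_zero, zero_mul] at h1
        exact h1.le
      · rw [Nat.cast_zero, zero_mul]
    | succ j ih =>
      have mF : Measurable fun W => if W ∈ A N a h (j + 1) then a else N ((j + 1 : ℕ) * h) W :=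
        Measurable.ite (mA (j + 1)) measurable_const (hN.1 _ (p _))
      rw [catS.total 4 μ hμ (j * h) _ (p j) mF]
      refine le_trans (lintegral_mono fun V => ?_) ih
      split_ifs with hV
      · refine (lintegral_mono (g := fun _ => a) fun W => ?_).trans (by simp)
        beta_reduce
        split_ifs with hW
        · exact le_rfl
        · exact not_lt.1 fun h1 => hW ⟨_, le_rfl, h1⟩
      · refine le_trans (lintegral_mono fun W => ?_) (hN.2 (j * h) h V (p j) hh)
        rw [show (j : ℝ) * h + h = (j + 1 : ℕ) * h by push_cast; ring]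
        beta_reduce
        split_ifs with hW
        · obtain ⟨i, hi, h1⟩ := hW
          rcases hi.eq_or_lt with rfl | hi
          · exact h1.le
          · refine absurd ⟨i, Nat.le_of_lt_succ hi, h1.trans_eq (hl _ _ _ (p i) ?_)⟩ hV
            exact (cat_eqOn _ V W).mono (Icc_subset_Icc_right (mul_le_mul_of_nonneg_right
              (Nat.cast_le.2 (Nat.le_of_lt_succ hi)) hh))
        · exact le_rfl
  rw [← lintegral_indicator_const (mA j)]
  refine le_trans (lintegral_mono fun W => ?_) (key j)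
  by_cases hW : W ∈ A N a h j <;> simp [hW]

theorem approx {T v : ℝ} (hT : 0 < T) (hv : 0 ≤ v) :
    Tendsto (fun n : ℕ => (⌊v / (T / (n + 1))⌋₊ : ℝ) * (T / (n + 1))) atTop (𝓝 v) := by
  have hp : ∀ n : ℕ, 0 < T / (n + 1) := fun n => by positivity
  have h3 : Tendsto (fun n : ℕ => T / ((n : ℝ) + 1)) atTop (𝓝 0) :=
    tendsto_const_nhds.div_atTop (tendsto_atTop_add_const_right _ _ tendsto_natCast_atTop_atTop)
  have h5 := h3.const_sub v
  rw [sub_zero] at h5
  refine tendsto_of_tendsto_of_tendsto_of_le_of_le h5 tendsto_const_nhds (fun n => ?_) fun n => ?_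
  · have h6 := (div_lt_iff₀ (hp n)).1 (Nat.lt_floor_add_one (v / (T / (n + 1))))
    simp only
    linarith
  · exact (le_div_iff₀ (hp n)).1 (Nat.floor_le (div_nonneg hv (hp n).le))

theorem sup (hμ : Wie 4 μ) (c : ℝ) :
    Sup μ fun t W => ENNReal.ofReal (Real.exp (c * (W t - W 0) - 2 * c ^ 2 * t)) := by
  refine ⟨fun t _ => Continuous.measurable (ENNReal.continuous_ofReal.comp (by fun_prop)),
    fun s t V hs ht => le_of_eq ?_⟩
  have h3 : Measurable fun W : Pth => W t - W 0 := (measurable_ev t).sub (measurable_ev 0)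
  have h4 : Measurable fun z : ℝ => ENNReal.ofReal (Real.exp (c * z)) := by fun_prop
  have e : ∀ W : Pth, ENNReal.ofReal (Real.exp (c * (cat s V W (s + t) - cat s V W 0) -
      2 * c ^ 2 * (s + t))) = ENNReal.ofReal (Real.exp (c * (V s - V 0) - 2 * c ^ 2 * (s + t))) *
        ENNReal.ofReal (Real.exp (c * (W t - W 0))) := fun W => by
    rw [cat_add _ _ ht, cat_of_le _ _ hs, ← ENNReal.ofReal_mul (Real.exp_pos _).le, ← Real.exp_add]
    ring_nf
  have m : ∫ z, Real.exp (c * z) ∂gaussianReal 0 (4 * t).toNNReal = _ :=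
    congrFun mgf_fun_id_gaussianReal c
  simp only [CE, e]
  rw [lintegral_const_mul' _ _ ENNReal.ofReal_ne_top, ← lintegral_map h4 h3, hμ.law t ht,
    ← ofReal_integral_eq_lintegral_ofReal (integrable_exp_mul_gaussianReal c)
      (Eventually.of_forall fun _ => (Real.exp_pos _).le), m,
    ← ENNReal.ofReal_mul (Real.exp_pos _).le, ← Real.exp_add, Real.coe_toNNReal _ (by positivity)]
  ring_nf

theorem side (h1 : S_doob) (hμ : Wie 4 μ) {h x σ : ℝ} (hh : 0 < h) (hx : 0 < x)
    (hσ : σ ^ 2 = 1) : μ {W | ∃ t ∈ Icc 0 h, x < σ * (W t - W 0)} ≤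
      ENNReal.ofReal (Real.exp (-(x ^ 2 / (8 * h)))) := by
  have := hμ.prob
  have d := h1 μ _ h (ENNReal.ofReal (Real.exp (x ^ 2 / (8 * h)))) hμ (sup hμ (σ * (x / (4 * h))))
    (fun t V W ht e => by simp only [e ⟨ht, le_rfl⟩, e ⟨le_rfl, ht⟩])
    fun W => (ENNReal.continuous_ofReal.comp (by fun_prop)).continuousOn
  simp only [sub_self, mul_zero, Real.exp_zero, ENNReal.ofReal_one, lintegral_const, measure_univ,
    mul_one] at d
  rw [Real.exp_neg, ENNReal.ofReal_inv_of_pos (Real.exp_pos _), ENNReal.le_inv_iff_mul_le,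
    mul_comm]
  refine le_trans (mul_le_mul_right (measure_mono ?_) _) d
  rintro W ⟨t, ht, hW⟩
  refine ⟨t, ht, (ENNReal.ofReal_lt_ofReal_iff (Real.exp_pos _)).2 (Real.exp_lt_exp.2 ?_)⟩
  have c0 : 0 < x / (4 * h) := by positivity
  have e1 : x ^ 2 / (8 * h) = x / (4 * h) * x - 2 * (x / (4 * h)) ^ 2 * h := by
    field_simp
    ring
  have a1 := mul_lt_mul_of_pos_left hW c0
  have a2 := mul_le_mul_of_nonneg_left ht.2 (by positivity : 0 ≤ 2 * (x / (4 * h)) ^ 2)
  rw [mul_pow, hσ, e1]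
  linarith

end Doob

open Doob

theorem s_doob : S_doob := by
  intro μ N T a hμ hN hl hc
  rcases lt_or_ge T 0 with hT | hT
  · simp [Icc_eq_empty hT.not_ge]
  have hm : Monotone fun M : ℕ => ⋂ n, ⋂ _ : M ≤ n, A N a (T / (n + 1)) (n + 1) :=
    fun a b hab => biInter_subset_biInter_left fun n hn => hab.trans hn
  have h2 : {W : Pth | ∃ t ∈ Icc 0 T, a < N t W} ⊆
      ⋃ M : ℕ, ⋂ n, ⋂ _ : M ≤ n, A N a (T / (n + 1)) (n + 1) := by
    rintro W ⟨v, hv, hW⟩
    rcases hv.1.eq_or_lt with rfl | v0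
    · exact mem_iUnion.2 ⟨0, mem_iInter₂.2 fun n _ => ⟨0, Nat.zero_le _, by simpa using hW⟩⟩
    have T0 := v0.trans_le hv.2
    have h8 := ((hc W v hv.1).tendsto.comp (tendsto_nhdsWithin_iff.2 ⟨approx T0 hv.1,
      Eventually.of_forall fun n => mem_Ici.2 (by positivity)⟩)).eventually_const_lt hW
    obtain ⟨M, hM⟩ := eventually_atTop.1 h8
    refine mem_iUnion.2 ⟨M, mem_iInter₂.2 fun n hn => ⟨_, ?_, hM n hn⟩⟩
    refine Nat.floor_le_of_le ?_
    rw [div_le_iff₀ (by positivity)]
    push_cast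
    rw [mul_div_cancel₀ _ (by positivity)]
    exact hv.2
  refine (mul_le_mul_right (measure_mono h2) a).trans ?_
  rw [hm.measure_iUnion, ENNReal.mul_iSup]
  exact iSup_le fun M => (mul_le_mul_right (measure_mono (biInter_subset_of_mem (le_refl M)))
    a).trans (grid hμ hN hl a (by positivity) _)

theorem s_tail (h1 : S_doob) : S_tail := by
  intro μ s h x hμ hs hh hx
  have := hμ.prob
  have o : IsOpen {W : Pth | ∃ t ∈ Icc s (s + h), x < |W t - W s|} := by
    simp only [ofPred_exists, ofPred_and]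
    exact isOpen_iUnion fun t => isOpen_const.inter (isOpen_lt continuous_const (by fun_prop))
  rw [catS.total' 4 μ hμ s _ hs o.measurableSet]
  refine (lintegral_mono (g := fun _ => ENNReal.ofReal (2 * Real.exp (-(x ^ 2 / (8 * h)))))
    fun V => ?_).trans (by simp)
  rw [two_mul, ENNReal.ofReal_add (Real.exp_pos _).le (Real.exp_pos _).le]
  refine le_trans (measure_mono ?_) ((measure_union_le _ _).trans (add_le_add
    (side h1 hμ hh hx (σ := 1) (by norm_num)) (side h1 hμ hh hx (σ := -1) (by norm_num))))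
  rintro W ⟨u, hu, hW⟩
  obtain ⟨v, hv, rfl⟩ : ∃ v ∈ Icc 0 h, u = s + v :=
    ⟨u - s, ⟨by linarith [hu.1], by linarith [hu.2]⟩, by ring⟩
  rw [cat_add _ _ hv.1, cat_of_le _ _ le_rfl, add_sub_cancel_left, lt_abs] at hW
  exact hW.imp (fun k => ⟨v, hv, by linarith⟩) fun k => ⟨v, hv, by linarith⟩

end Vale.Agent.P153.SLE
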