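import Vale.Agent.P153.SLE.Basic

/-! Joint continuity of the inverse Loewner maps. -/

open Set Filter Topology Metric Complex MeasureTheory ProbabilityTheory
open scoped ENNReal NNReal BoundedContinuousFunction

noncomputable section
namespace Vale.Agent.P153.SLE

open Vale.Agent.P164 (Pth HP Zf Xf Yf Rf Up fi dom unbd Wie Sup Generates)
open Vale.Agent.P153.CA (cay icay)

namespace Fic

open Vale.Agent.P164 (IsFlow reg flow0)

/-- Time reversal. -/
def rev (t : ℝ) (W : Pth) : Pth := ⟨fun u => W (t - u), by fun_prop⟩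

theorem rev_cont : Continuous fun p : Pth × ℝ × ℂ => rev p.2.1 p.1 :=
  ContinuousMap.continuous_of_continuous_uncurry _ (by
    change Continuous fun q : (Pth × ℝ × ℂ) × ℝ => q.1.1 (q.1.2.1 - q.2)
    fun_prop)

theorem fi_eq {δ : ℝ} (hδ : 0 < δ) {ψ : ℂ → Pth → ℝ → ℂ} (hψ : IsFlow δ (-1) ψ) (W : Pth) {t : ℝ}
    {ζ : ℂ} (ht : 0 ≤ t) (hζ : δ < ζ.im) : fi W t ζ = ψ (ζ + W t) (rev t W) t := by
  obtain ⟨φ, hφ⟩ := flow0 δ 1 hδ (by simp)
  have hg : ∀ u : ℝ, HasDerivAt (fun u => ψ (ζ + W t) (rev t W) (t - u))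
      (((1 : ℝ) : ℂ) * (2 / reg δ (ψ (ζ + W t) (rev t W) (t - u) - W u))) u := fun u => by
    have h := (hψ.der (ζ + W t) (rev t W) (t - u)).scomp u ((hasDerivAt_id u).const_sub t)
    refine h.congr_deriv ?_
    have e : rev t W (t - u) = W u := by simp [rev]
    rw [e]
    simp
  have he : φ (ψ (ζ + W t) (rev t W) t) W = fun u => ψ (ζ + W t) (rev t W) (t - u) :=
    ODE_solution_unique_univ (v := fun u z => ((1 : ℝ) : ℂ) * (2 / reg δ (z - W u)))
      (s := fun _ => univ) (t₀ := 0) (fun u => (P164.Surj.lip hδ (W u)).lipschitzOnWith)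
      (fun u => ⟨hφ.der _ W u, mem_univ _⟩) (fun u => ⟨hg u, mem_univ _⟩)
      (by simp [hφ.init])
  have e : φ (ψ (ζ + W t) (rev t W) t) W t = ζ + W t := by rw [he]; simp [hψ.init]
  obtain ⟨h1, h2⟩ := fC.of_flow _ φ hδ hφ (ψ (ζ + W t) (rev t W) t) W t ht
    (by rw [e]; simpa using hζ)
  rw [← cB.left W t _ ht h1, h2, e, add_sub_cancel_right]

end Fic

theorem s_fic : S_fic := by
  intro p hp
  have hδ := half_pos hp.2
  obtain ⟨ψ, hψ⟩ := P164.flow0 (p.2.2.im / 2) (-1) hδ (by simp)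
  have c : Continuous fun q : Pth × ℝ × ℂ => ψ (q.2.2 + q.1 q.2.1) (Fic.rev q.2.1 q.1) q.2.1 :=
    hψ.cont.comp (f := fun q : Pth × ℝ × ℂ => (q.2.2 + q.1 q.2.1, Fic.rev q.2.1 q.1, q.2.1))
      (Continuous.prodMk (by fun_prop) (Fic.rev_cont.prodMk (by fun_prop)))
  refine c.continuousWithinAt.congr_of_eventuallyEq ?_
    (Fic.fi_eq hδ hψ _ hp.1 (half_lt_self hp.2))
  have o : ∀ᶠ q : Pth × ℝ × ℂ in 𝓝 p, p.2.2.im / 2 < q.2.2.im :=
    (isOpen_lt continuous_const (by fun_prop)).mem_nhds (half_lt_self hp.2)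
  filter_upwards [self_mem_nhdsWithin, nhdsWithin_le_nhds o] with q h1 h2
  exact Fic.fi_eq hδ hψ _ h1.1 h2

end Vale.Agent.P153.SLE
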