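import Vale.Agent.P153.SLE.Basic

/-! The radial limit generates the chain. -/

open Set Filter Topology Metric Complex MeasureTheory ProbabilityTheory
open scoped ENNReal NNReal BoundedContinuousFunction

noncomputable section
namespace Vale.Agent.P153.SLE

open Vale.Agent.P164 (Pth HP Zf Xf Yf Rf Up fi dom unbd Wie Sup Generates slit)
open Vale.Agent.P153.CA (cay icay)

namespace Gen

variable {W : Pth} {γ : ℝ → ℂ} {t : ℝ}

theorem pt (h : Rad W γ) (ht : 0 ≤ t) :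
    Tendsto (fun y : ℝ => fi W t (y * I)) (𝓝[>] 0) (𝓝 (γ t)) :=
  (h t).tendsto_at ⟨ht, le_rfl⟩

theorem ray : Tendsto (fun y : ℝ => (y * I : ℂ)) (𝓝[>] 0) (𝓝 0) := by
  have : Continuous fun y : ℝ => (y * I : ℂ) := by fun_prop
  simpa using (this.tendsto 0).mono_left nhdsWithin_le_nhds

theorem rayp {y : ℝ} (hy : y ∈ Ioi (0 : ℝ)) : 0 < (y * I : ℂ).im := by simpa using hy

theorem not_mem (h : Rad W γ) (ht : 0 ≤ t) : γ t ∉ dom W t := fun k => by
  have h1 := ((fM.Z_cont W t ht).continuousAt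
    ((fM.dom_open W t ht).mem_nhds k)).tendsto.comp (pt h ht)
  have h3 := tendsto_nhds_unique h1 (ray.congr' (eventually_nhdsWithin_of_forall fun y hy =>
    (cB.right W t _ ht (rayp hy)).2.symm))
  have := (fA.alive W t _ ht).1 k
  simp [Yf, h3] at this

theorem cont (h1 : S_fic) (h : Rad W γ) : ContinuousOn γ (Ici 0) := fun t ht => by
  have k : ContinuousOn γ (Icc 0 (t + 1)) := (h (t + 1)).continuousOn
    (Eventually.frequently (eventually_nhdsWithin_of_forall fun y hy =>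
      h1.comp (f := fun u : ℝ => (W, u, (y * I : ℂ))) (by fun_prop) fun u hu => ⟨hu.1, rayp hy⟩))
  exact (k t ⟨ht, by linarith⟩).mono_of_mem_nhdsWithin
    (inter_mem_nhdsWithin (Ici 0) (Iic_mem_nhds (lt_add_one t)))

theorem zero (h : Rad W γ) : γ 0 = W 0 := by
  refine tendsto_nhds_unique (pt h le_rfl) ?_
  have k := ray.add_const (W 0 : ℂ)
  rw [zero_add] at k
  refine k.congr' (eventually_nhdsWithin_of_forall fun y hy => ?_)
  obtain ⟨a, b, -⟩ := fA.init W (y * I + W 0) (by simpa using hy)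
  have := cB.left W 0 _ le_rfl a
  rw [b, add_sub_cancel_right] at this
  exact this.symm

/-- A path that leaves the domain meets the curve. -/
theorem key (h2 : S_acc) (h3 : S_vis0) (h : Rad W γ) (ht : 0 ≤ t) {p : ℝ → ℂ} (hp : Continuous p)
    (hi : ∀ l ∈ Icc (0 : ℝ) 1, 0 < (p l).im) (p0 : p 0 ∈ dom W t) (p1 : p 1 ∉ dom W t) :
    ∃ l ∈ Icc (0 : ℝ) 1, p l ∈ γ '' Icc 0 t := by
  obtain ⟨l, ⟨a1, a2⟩, a3⟩ := (isCompact_Icc.inter_right
    ((fM.dom_open W t ht).isClosed_compl.preimage hp)).exists_isLeast ⟨1, ⟨zero_le_one, le_rfl⟩, p1⟩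
  have a4 : 0 < l := a1.1.lt_of_ne fun e => a2 (e ▸ p0)
  obtain ⟨τ, ⟨b1, b2⟩, b3⟩ := (isCompact_Icc.inter_right (isClosed_eq (fA.Y_cont W (p l))
    continuous_const)).exists_isLeast ⟨t, ⟨ht, le_rfl⟩, (fA.Y_nonneg W t _).antisymm'
      (not_lt.1 fun k => a2 ((fA.alive W t _ ht).2 k))⟩
  have b4 : p l ∉ dom W τ := fun k => ((fA.alive W τ _ b1.1).1 k).ne' b2
  have b5 : 0 < τ := b1.1.lt_of_ne fun e => b4 (e ▸ (fA.init W _ (hi l a1)).1)
  have b6 : ∀ u ∈ Ico 0 τ, p l ∈ dom W u := fun u hu => (fA.alive W u _ hu.1).2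
    ((fA.Y_nonneg W u _).lt_of_ne' fun e => hu.2.not_ge (b3 ⟨⟨hu.1, hu.2.le.trans b1.2⟩, e⟩))
  have a5 : ∀ v ∈ Ico 0 l, p v ∈ dom W τ := fun v hv => fA.dom_anti W τ t b1.1 b1.2
    (by_contra fun k => hv.2.not_ge (a3 ⟨⟨hv.1, hv.2.le.trans a1.2⟩, k⟩))
  have a6 : ∀ᶠ v in 𝓝[<] l, p v ∈ dom W τ := mem_of_superset (Ico_mem_nhdsLT a4) a5
  have a7 : Tendsto p (𝓝[<] l) (𝓝 (p l)) := (hp.tendsto l).mono_left nhdsWithin_le_nhds
  exact ⟨l, a1, τ, b1, (h3 W γ (fun v => Zf W τ (p v)) τ 0 l (p l) h b1.1 a4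
    ((fM.Z_cont W τ b1.1).comp hp.continuousOn a5) (fun v hv => (fA.alive W τ _ b1.1).1 (a5 v hv))
    ((h2 W τ _ b5 b4 b6).comp (tendsto_nhdsWithin_iff.2 ⟨a7, a6⟩))
    (a7.congr' (a6.mono fun v hv => (cB.left W τ _ b1.1 hv).symm))).symm⟩

end Gen

open Gen in
theorem s_gen (h1 : S_fic) (h2 : S_acc) (h3 : S_vis0) (h4 : S_bnd) : S_gen := by
  intro W γ h
  have hc := cont h1 h
  refine ⟨hc, zero h, fun t ht => ⟨?_, not_mem h ht, ?_⟩⟩
  · exact ge_of_tendsto ((continuous_im.tendsto _).comp (pt h ht))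
      (eventually_nhdsWithin_of_forall fun y hy => (cB.right W t _ ht (rayp hy)).1.1.le)
  have sub : dom W t ⊆ slit γ t := fun z hz => ⟨hz.1, fun ⟨u, hu, e⟩ =>
    not_mem h hu.1 (e ▸ fA.dom_anti W u t hu.1 hu.2 hz)⟩
  have op : IsOpen (slit γ t) := isOpen_HP.sdiff
    (isCompact_Icc.image_of_continuousOn (hc.mono Icc_subset_Ici_self)).isClosed
  obtain ⟨M, hM, k, -⟩ := exists_bound W t
  have far : ∀ w : ℂ, 0 < w.im → 2 * t + 3 * M + 3 ≤ ‖w‖ → w ∈ dom W t := fun w =>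
    (h4 W t M w k).2 ht
  refine Subset.antisymm (fun z hz => ⟨sub hz, fun b => ?_⟩) fun z ⟨hz, b⟩ => by_contra fun n => b ?_
  · obtain ⟨r, hr⟩ := (b.subset
      ((dom_pre W ht).subset_connectedComponentIn hz sub)).subset_closedBall 0
    have e : 0 < 2 * t + 3 * M + 3 + |r| + 1 := by positivity
    have e' : ‖((2 * t + 3 * M + 3 + |r| + 1 : ℝ) * I : ℂ)‖ = 2 * t + 3 * M + 3 + |r| + 1 := by
      rw [norm_mul, norm_I, mul_one, norm_real, Real.norm_of_nonneg e.le]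
    have := mem_closedBall_zero_iff.1 (hr (far _ (rayp e) (by
      rw [e']; linarith [abs_nonneg r])))
    rw [e'] at this
    linarith [le_abs_self r]
  have op' : IsOpen (slit γ t \ dom W t) := by
    refine isOpen_iff.2 fun x hx => ?_
    obtain ⟨e, he, hb⟩ := isOpen_iff.1 op x hx.1
    refine ⟨e, he, fun x' hx' => ⟨hb hx', fun d => ?_⟩⟩
    have s : ∀ l ∈ Icc (0 : ℝ) 1, AffineMap.lineMap x' x l ∈ slit γ t := fun l hl =>
      hb ((convex_ball x e).lineMap_mem hx' (mem_ball_self he) hl)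
    obtain ⟨l, hl, m⟩ := key h2 h3 h ht (p := fun l : ℝ => AffineMap.lineMap x' x l)
      AffineMap.lineMap_continuous (fun l hl => (s l hl).1) (by simpa using d) (by simpa using hx.2)
    exact (s l hl).2 m
  refine (isBounded_ball (x := (0 : ℂ)) (r := 2 * t + 3 * M + 3)).subset fun w hw => ?_
  have := isPreconnected_connectedComponentIn.subset_left_of_subset_union op' (fM.dom_open W t ht)
    disjoint_sdiff_left ((connectedComponentIn_subset _ _).trans (by simp))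
    ⟨z, mem_connectedComponentIn hz, hz, n⟩ hw
  exact mem_ball_zero_iff.2 (not_le.1 fun d => this.2 (far w this.1.1 d))

end Vale.Agent.P153.SLE
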