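import Vale.Agent.P153.SLE.Basic
import Vale.Agent.P164.Wien

/-! Almost every Brownian driving function has a simple trace; the law of Brownian motion. -/

open Set Filter Topology Metric Complex MeasureTheory ProbabilityTheory
open scoped ENNReal NNReal BoundedContinuousFunction

noncomputable section
namespace Vale.Agent.P153.SLE

open Vale.Agent.P164 (Pth HP Zf Xf Yf Rf Up fi dom unbd Wie Sup Generates)
open Vale.Agent.P153.CA (cay icay)

universe u

namespace Good

open Vale.Agent.P164 (cat cat_apply cat_add cat_of_le measurable_cat measurable_ev wien_rec wien_aem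
  wien_law)

/-- The shift. -/
def th (s : ℝ) (W : Pth) : Pth := ⟨fun t => W (s + max t 0) - W s, by fun_prop⟩

theorem th_meas (s : ℝ) : Measurable (th s) :=
  P164.measurable_pth fun _ => (measurable_ev _).sub (measurable_ev _)

theorem th_map {μ : Measure Pth} (h : BM μ) {s : ℝ} (hs : 0 ≤ s) : μ.map (th s) = μ := by
  have := h.1.prob
  have e : (th s ∘ fun p : Pth × Pth => cat s p.1 p.2) =ᵐ[μ.prod μ] Prod.snd := by
    filter_upwards [Measure.quasiMeasurePreserving_snd.ae h.2] with p hp
    ext t
    change cat s p.1 p.2 (s + max t 0) - cat s p.1 p.2 s = p.2 t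
    rw [cat_add _ _ (le_max_right _ _), cat_of_le _ _ le_rfl, hp 0 le_rfl]
    rcases le_total t 0 with k | k
    · rw [max_eq_right k, hp 0 le_rfl, hp t k]
      ring
    · rw [max_eq_left k]
      ring
  conv_lhs => rw [← h.1.cat s hs]
  rw [Measure.map_map (th_meas s) (measurable_cat s), Measure.map_congr e, Measure.map_snd_prod,
    measure_univ, one_smul]

theorem wien {κ : ℝ} (hκ : 0 < κ) {Ω : Type u} [MeasurableSpace Ω] {P : Measure Ω}
    {B : ℝ≥0 → Ω → ℝ} (hB : IsBrownianReal B P) : ∃ X : Ω → Pth, AEMeasurable X P ∧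
      Wie κ (P.map X) ∧ ∀ᵐ ω ∂P, ∀ t, X ω t = √κ * B t.toNNReal ω := by
  have := hB.isGaussianProcess.isProbabilityMeasure
  obtain ⟨r, hr, hrW⟩ := wien_rec
  let g : (ℚ → ℝ) → Pth := fun x => r fun q => √κ * x q
  have hg : Measurable g :=
    hr.comp (measurable_pi_lambda _ fun q => (measurable_pi_apply q).const_mul _)
  let F : (ℝ≥0 → ℝ) → Pth := fun f => g fun q => f (q : ℝ).toNNReal
  have hF : Measurable F := hg.comp (measurable_pi_lambda _ fun q => measurable_pi_apply _)
  have hFc : ∀ f : ℝ≥0 → ℝ, Continuous f → ∀ t, F f t = √κ * f t.toNNReal := by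
    intro f hf t
    have h1 := hrW ⟨fun t => √κ * f t.toNNReal,
      continuous_const.mul (hf.comp continuous_real_toNNReal)⟩
    exact DFunLike.congr_fun h1 t
  have hm : ∀ C : ℝ≥0 → Ω → ℝ, (∀ t, AEMeasurable (C t) P) →
      AEMeasurable (fun ω => F (C · ω)) P := fun C hC => hg.comp_aemeasurable (wien_aem hC)
  have hX := hm B hB.aemeasurable
  refine ⟨_, hX, ⟨Measure.isProbabilityMeasure_map hX, fun t ht => ?_, fun s hs => ?_⟩,
    hB.cont.mono fun ω h => hFc _ h⟩
  · have h1 : Measurable fun W : Pth => W t - W 0 := (measurable_ev t).sub (measurable_ev 0)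
    have h2 : Measurable fun x : ℝ => √κ * x := measurable_id.const_mul _
    have h3 : ((fun W : Pth => W t - W 0) ∘ fun ω => F (B · ω)) =ᵐ[P]
        (fun x : ℝ => √κ * x) ∘ B t.toNNReal := by
      filter_upwards [hB.cont, hB.eval_zero_ae_eq_zero] with ω h4 h5
      simp only [Function.comp_apply, hFc _ h4, Real.toNNReal_zero, h5, mul_zero, sub_zero]
    rw [AEMeasurable.map_map_of_aemeasurable h1.aemeasurable hX, Measure.map_congr h3,
      ← AEMeasurable.map_map_of_aemeasurable h2.aemeasurable (hB.aemeasurable _),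
      (hB.hasLaw_eval _).map_eq, gaussianReal_map_const_mul, mul_zero]
    congr 1
    ext
    simp [Real.sq_sqrt hκ.le, max_eq_left ht, max_eq_left (mul_nonneg hκ.le ht)]
  · have hB' := hB.shift s.toNNReal
    have hX' := hm _ hB'.aemeasurable
    have hlaw : (P.map fun ω => F fun t => B (s.toNNReal + t) ω - B s.toNNReal ω) =
        P.map fun ω => F (B · ω) := by
      have h1 := AEMeasurable.map_map_of_aemeasurable hg.aemeasurable (wien_aem hB'.aemeasurable)
      have h2 := AEMeasurable.map_map_of_aemeasurable hg.aemeasurable (wien_aem hB.aemeasurable)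
      rw [wien_law hB'.toIsPreBrownianReal hB.toIsPreBrownianReal] at h1
      exact h1.symm.trans h2
    let G : (Iic s.toNNReal → ℝ) → Pth := fun x =>
      F fun t => x ⟨min t s.toNNReal, mem_Iic.2 (min_le_right _ _)⟩
    have hG0 : Measurable fun (x : Iic s.toNNReal → ℝ) (t : ℝ≥0) =>
        x ⟨min t s.toNNReal, mem_Iic.2 (min_le_right _ _)⟩ :=
      measurable_pi_lambda _ fun _ => measurable_pi_apply _
    have hG : Measurable G := hF.comp hG0
    have hst : Measurable fun V : Pth => cat s V 0 :=
      (measurable_cat s).comp (measurable_id.prodMk measurable_const)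
    have hU : (G ∘ fun ω (t : Iic s.toNNReal) => B t ω) =ᵐ[P]
        (fun V : Pth => cat s V 0) ∘ fun ω => F (B · ω) := by
      filter_upwards [hB.cont] with ω h4
      ext t
      have h5 : Continuous fun u : ℝ≥0 => B (min u s.toNNReal) ω :=
        h4.comp (continuous_id.min continuous_const)
      refine (hFc _ h5 t).trans ?_
      simp only [Function.comp_apply, cat_apply, hFc _ h4, Real.toNNReal_monotone.map_min,
        ContinuousMap.zero_apply, sub_self, add_zero]
    have hind := ((hB.indepFun_shift s.toNNReal).comp hF hG).symm.congr hU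
      (Filter.EventuallyEq.refl _ _)
    have hA := hst.comp_aemeasurable hX
    have h6 := hind.map_prod_eq_prod_map_map hA hX'
    have h7 : (fun p : Pth × Pth => cat s p.1 p.2) =
        (fun p : Pth × Pth => cat s p.1 p.2) ∘ Prod.map (fun V : Pth => cat s V 0) id := by
      funext p
      ext t
      simp only [Function.comp_apply, Prod.map_fst, Prod.map_snd, id, cat_apply s (cat s p.1 0),
        cat_of_le p.1 0 (min_le_right t s), cat_apply s p.1]
    have h8 : (P.map ((fun V : Pth => cat s V 0) ∘ fun ω => F (B · ω))) =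
        (P.map fun ω => F (B · ω)).map fun V : Pth => cat s V 0 :=
      (AEMeasurable.map_map_of_aemeasurable hst.aemeasurable hX).symm
    have h9 : (P.map fun ω => F fun t => B (s.toNNReal + t) ω - B s.toNNReal ω) =
        (P.map fun ω => F (B · ω)).map id := by
      rw [Measure.map_id]
      exact hlaw
    rw [h8, h9, Measure.map_prod_map _ _ hst measurable_id] at h6
    rw [h7, ← Measure.map_map (measurable_cat s) (hst.prodMap measurable_id), ← h6,
      AEMeasurable.map_map_of_aemeasurable (measurable_cat s).aemeasurable (hA.prodMk hX')]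
    refine Measure.map_congr ?_
    filter_upwards [hB.cont, hB'.cont] with ω h4 h5
    ext t
    simp only [Function.comp_apply]
    rcases le_total t s with h | h
    · rw [cat_of_le _ _ h, cat_of_le _ _ h]
    · obtain ⟨v, hv, rfl⟩ : ∃ v, 0 ≤ v ∧ t = s + v := ⟨t - s, by linarith, by ring⟩
      rw [cat_add _ _ hv, cat_of_le _ _ le_rfl, hFc _ h4, hFc _ h4, hFc _ h5, hFc _ h5,
        Real.toNNReal_add hs hv, Real.toNNReal_zero, add_zero]
      ring

end Good

theorem s_good (h1 : S_rad) (h2 : S_nrp) (h3 : S_simp) : S_good := by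
  intro μ h
  have h4 := (h1 μ h.1).and (h2 μ h)
  have h5 : ∀ᵐ W ∂μ, ∀ q : ℚ, 0 ≤ q → (∃ γ, Rad (Good.th q W) γ) ∧ NR (Good.th q W) :=
    ae_all_iff.2 fun q => by
      by_cases hq : 0 ≤ q
      · have h6 := h4
        rw [← Good.th_map h (s := q) (by exact_mod_cast hq)] at h6
        exact (ae_of_ae_map (Good.th_meas q).aemeasurable h6).mono fun W k _ => k
      · exact ae_of_all _ fun W k => absurd k hq
  filter_upwards [h.2, h4, h5] with W a ⟨⟨γ, b⟩, c⟩ d
  refine ⟨γ, h3 W γ (a 0 le_rfl) b c fun q hq => ?_⟩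
  obtain ⟨⟨η, e⟩, f⟩ := d q hq
  exact ⟨_, η, e, f, fun r hr => congrArg (fun x => W (q + x) - W q) (max_eq_left hr).symm⟩

theorem s_wien : S_wien.{u} := by
  intro Ω _ P B hB
  obtain ⟨X, h1, h2, h3⟩ := Good.wien (κ := 4) (by norm_num) hB
  rw [show √(4 : ℝ) = 2 by rw [show (4 : ℝ) = 2 ^ 2 by norm_num, Real.sqrt_sq zero_le_two]] at h3
  refine ⟨X, h1, ⟨h2, (ae_map_iff h1 (IsClosed.measurableSet ?_)).2 ?_⟩, h3⟩
  · simp only [setOf_forall]
    exact isClosed_iInter fun t => isClosed_iInter fun _ =>
      isClosed_eq (ContinuousEvalConst.continuous_eval_const t) continuous_const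
  · filter_upwards [h3, hB.eval_zero_ae_eq_zero] with ω a b t ht
    rw [a, Real.toNNReal_of_nonpos ht, b, mul_zero]

end Vale.Agent.P153.SLE
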