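import Vale.Agent.P153.SLE.Basic

/-! Limits of points of the hulls lie on the trace. -/

open Set Filter Topology Metric Complex MeasureTheory ProbabilityTheory
open scoped ENNReal NNReal BoundedContinuousFunction

namespace Vale.Agent.P153.SLE

open Vale.Agent.P164 (Pth HP Zf Xf Yf Rf Up fi dom unbd Wie Sup Generates)
open Vale.Agent.P153.CA (cay icay)

namespace H1

theorem stay (h1 : S_zc) {V : Pth} {w : ℂ} {T : ℝ} (hT : 0 ≤ T) (hw : w ∈ dom V T) :
    ∀ᶠ W : Pth in 𝓝 V, w ∈ dom W T := by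
  have h := (h1 w V T hT hw).1
  have hc : Tendsto (fun W : Pth => ((w, W, T) : ℂ × Pth × ℝ)) (𝓝 V) (𝓝 (w, V, T)) :=
    (continuous_const.prodMk (continuous_id.prodMk continuous_const)).tendsto V
  filter_upwards [hc.eventually h] with W hW
  simpa only [max_eq_left hT] using hW

theorem away (h1 : S_zc) {V : Pth} {w : ℂ} {T r σ : ℝ} (hr : 0 < r) (hw : w ∈ dom V T)
    (hX : ∀ t ∈ Icc 0 T, r ≤ σ * Xf V t w) :
    ∀ᶠ W : Pth in 𝓝 V, ∀ t ∈ Icc 0 T, r / 2 ≤ σ * Xf W t w := by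
  refine isCompact_Icc.eventually_forall_of_forall_eventually
    (P := fun (W : Pth) t => r / 2 ≤ σ * Xf W t w) fun t ht => ?_
  have h := (h1 w V t ht.1 (fA.dom_anti V t T ht.1 ht.2 hw)).2.1
  have hc : ContinuousAt (fun p : Pth × ℝ => ((w, p.1, p.2) : ℂ × Pth × ℝ)) (V, t) :=
    (continuous_const.prodMk (continuous_fst.prodMk continuous_snd)).continuousAt
  have h2 : ContinuousAt (fun p : Pth × ℝ => Zf p.1 p.2 w) (V, t) :=
    ContinuousAt.comp (g := fun p : ℂ × Pth × ℝ => Zf p.2.1 p.2.2 p.1)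
      (f := fun p : Pth × ℝ => ((w, p.1, p.2) : ℂ × Pth × ℝ)) h hc
  have h3 : ContinuousAt (fun p : Pth × ℝ => σ * Xf p.1 p.2 w) (V, t) :=
    continuousAt_const.mul (continuous_re.continuousAt.comp h2)
  have h4 : r / 2 < σ * Xf V t w := lt_of_lt_of_le (half_lt_self hr) (hX t ht)
  exact (h3.eventually (lt_mem_nhds h4)).mono fun _ hp => hp.le

theorem sgn {x : ℝ} (hx : x ≠ 0) : ∃ σ : ℝ, (σ = 1 ∨ σ = -1) ∧ σ * x = |x| := by
  rcases hx.lt_or_gt with h | h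
  · exact ⟨-1, Or.inr rfl, by rw [abs_of_neg h]; ring⟩
  · exact ⟨1, Or.inl rfl, by rw [abs_of_pos h]; ring⟩

end H1

theorem s_h1 (h1 : S_zc) (h2 : S_nrd) : S_h1 := by
  intro l V γ W t z t0 z0 hl hG hW ht hz hev
  have ht0 : 0 ≤ t0 := ge_of_tendsto ht (hev.mono fun n hn => hn.1)
  have him : Tendsto (fun n => (z n).im) l (𝓝 z0.im) := (continuous_im.tendsto z0).comp hz
  have hre : Tendsto (fun n => (z n).re) l (𝓝 z0.re) := (continuous_re.tendsto z0).comp hz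
  have hz0 : 0 ≤ z0.im := ge_of_tendsto him (hev.mono fun n hn => hn.2.1.le)
  by_contra hcon
  rcases hz0.lt_or_eq with hpos | hzero
  · have hd : z0 ∈ dom V t0 := by
      rw [hG.dom t0 ht0]
      exact ⟨hpos, hcon⟩
    have hc : Tendsto (fun n => ((z n, W n, t n) : ℂ × Pth × ℝ)) l (𝓝 (z0, V, t0)) :=
      hz.prodMk_nhds (hW.prodMk_nhds ht)
    obtain ⟨n, a, b⟩ := ((hc.eventually (h1 z0 V t0 ht0 hd).1).and hev).exists
    simp only [max_eq_left b.1] at a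
    exact b.2.2 a
  · have hre0 : z0.re ≠ 0 := fun e => hcon
      ⟨0, ⟨le_rfl, ht0⟩, by rw [hG.g0]; exact Complex.ext (by simp [e]) (by simp [← hzero])⟩
    obtain ⟨σ, hσ, hs⟩ := H1.sgn hre0
    have hT : 0 ≤ t0 + 1 := by linarith
    have ha : 0 < |z0.re| := abs_pos.2 hre0
    obtain ⟨w, r, hr, hw, hwx, hX⟩ := hG.nr (t0 + 1) (|z0.re| / 2) σ hT (half_pos ha) hσ
    obtain ⟨η, hη, H⟩ := h2 (r / 2) (t0 + 1) (half_pos hr) hT
    have e1 := hW.eventually (H1.stay h1 hT hw)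
    have e2 := hW.eventually (H1.away h1 hr hw hX)
    have e3 : ∀ᶠ n in l, (z n).im < η := him.eventually (gt_mem_nhds (hzero ▸ hη))
    have e4 : ∀ᶠ n in l, |z0.re| / 2 < σ * (z n).re :=
      (hre.const_mul σ).eventually (lt_mem_nhds (by rw [hs]; exact half_lt_self ha))
    have e5 : ∀ᶠ n in l, t n < t0 + 1 := ht.eventually (gt_mem_nhds (lt_add_one t0))
    obtain ⟨n, a1, a2, a3, a4, a5, b⟩ := (e1.and (e2.and (e3.and (e4.and (e5.and hev))))).exists
    exact b.2.2 (fA.dom_anti (W n) (t n) (t0 + 1) b.1 a5.le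
      (H (W n) σ w (z n) hσ a1 a2 b.2.1 a3.le (hwx.trans a4.le)).1)

end Vale.Agent.P153.SLE
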