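import Vale.Agent.P153.SLE.Basic

/-! Hulls of nearby driving functions, and arcs have no interior. -/

open Set Filter Topology Metric Complex MeasureTheory ProbabilityTheory
open scoped ENNReal NNReal BoundedContinuousFunction

noncomputable section
namespace Vale.Agent.P153.SLE

open Vale.Agent.P164 (Pth HP Zf Xf Yf Rf Up fi dom unbd Wie Sup Generates)

namespace H2

theorem cont_inv {γ : ℝ → ℂ} {a b : ℝ} (hc : ContinuousOn γ (Icc a b)) (hi : InjOn γ (Icc a b)) :
    ContinuousOn (Function.invFunOn γ (Icc a b)) (γ '' Icc a b) := by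
  refine continuousOn_iff_isClosed.2 fun t ht => ⟨γ '' (Icc a b ∩ t),
    ((isCompact_Icc.inter_right ht).image_of_continuousOn (hc.mono inter_subset_left)).isClosed, ?_⟩
  ext z
  constructor
  · rintro ⟨h, s, hs, rfl⟩
    rw [mem_preimage, hi.leftInvOn_invFunOn hs] at h
    exact ⟨⟨s, ⟨hs, h⟩, rfl⟩, s, hs, rfl⟩
  · rintro ⟨⟨s, hs, rfl⟩, h⟩
    refine ⟨?_, h⟩
    rw [mem_preimage, hi.leftInvOn_invFunOn hs.1]
    exact hs.2

theorem near (h1 : S_zc) (V : Pth) (γ : ℝ → ℂ) (m e : ℝ) (hV : Gd V γ) (hm : 0 < m) (he : 0 < e) :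
    ∀ᶠ W : Pth in 𝓝 V, ∃ z : ℂ, 0 < z.im ∧ z ∉ dom W m ∧ ‖z - γ m‖ < e := by
  have hp : 0 < (γ m).im := hV.pos m hm
  have hd : γ m ∉ dom V m := by
    rw [hV.dom m hm.le]
    exact fun k => k.2 ⟨m, ⟨hm.le, le_rfl⟩, rfl⟩
  obtain ⟨e', h0, e1, e2⟩ : ∃ e' : ℝ, 0 < e' ∧ e' ≤ e ∧ e' ≤ (γ m).im :=
    ⟨min e (γ m).im, lt_min he hp, min_le_left _ _, min_le_right _ _⟩
  have ht := (hV.rad m).tendsto_at ⟨hm.le, le_rfl⟩
  obtain ⟨y, hy, hy0⟩ := ((ht.eventually (ball_mem_nhds (γ m) (by positivity : 0 < e' / 200))).and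
    self_mem_nhdsWithin).exists
  have hw : fi V m (y * I) ∈ dom V m := (cB.right V m _ hm.le (by simpa using hy0)).1
  generalize fi V m (y * I) = w at hy hw
  rw [dist_eq_norm] at hy
  have hU : Up V m w < e' / 4 := by
    by_contra hc
    refine hd (koe.ball V m w _ hm.le hw ?_).1
    rw [norm_sub_rev]
    linarith [not_lt.1 hc]
  obtain ⟨k1, -, k3⟩ := h1 w V m hm.le hw
  have k4 : Tendsto (fun W : Pth => (w, W, m)) (𝓝 V) (𝓝 (w, V, m)) :=
    (by fun_prop : Continuous fun W : Pth => (w, W, m)).tendsto V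
  filter_upwards [k4.eventually k1, k3.eventually_lt continuousAt_const hU] with W g1 g2
  rw [max_eq_left hm.le] at g1
  by_contra hc
  push Not at hc
  have h3 : ball w (e' / 2) ⊆ dom W m := fun z hz => by
    rw [mem_ball, dist_eq_norm] at hz
    have h4 : ‖z - γ m‖ < e' := by linarith [norm_sub_le_norm_sub_add_norm_sub z w (γ m)]
    have h5 := (abs_le.1 (abs_im_le_norm (z - γ m))).1
    rw [sub_im] at h5
    by_contra hz'
    linarith [hc z (by linarith) hz']
  linarith [sch.schwarz W m w _ hm.le g1 h3]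

end H2

theorem s_h2 (h1 : S_zc) (h2 : S_bnd) : S_h2 := by
  refine ⟨H2.near h1, fun V T => ?_⟩
  obtain ⟨M, -, -, hM⟩ := exists_bound V T
  refine ⟨2 * T + 3 * M + 3, hM.mono fun W hW t ht z hz hd => ?_⟩
  by_contra hc
  exact hd (fA.dom_anti W t T ht.1 ht.2
    ((h2 W T M z hW).2 (ht.1.trans ht.2) hz (not_le.1 hc).le))

theorem s_nwd : S_nwd := by
  intro γ a b hc hi
  refine eq_empty_of_forall_notMem fun p hp => ?_
  obtain ⟨r, hr, hb⟩ := Metric.nhds_basis_closedBall.mem_iff.1 (mem_interior_iff_mem_nhds.1 hp)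
  have hm : ∀ θ, circleMap p r θ ∈ γ '' Icc a b := fun θ => hb (circleMap_mem_closedBall p hr.le θ)
  have hφ : Continuous fun θ => Function.invFunOn γ (Icc a b) (circleMap p r θ) :=
    (H2.cont_inv hc hi).comp_continuous (continuous_circleMap p r) hm
  have hg : Continuous fun θ => Function.invFunOn γ (Icc a b) (circleMap p r (θ + Real.pi)) :=
    hφ.comp (continuous_id.add continuous_const)
  have e : circleMap p r (Real.pi + Real.pi) = circleMap p r 0 := by
    rw [← two_mul, ← zero_add (2 * Real.pi), periodic_circleMap p r 0]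
  obtain ⟨θ, hθ⟩ : ∃ θ, Function.invFunOn γ (Icc a b) (circleMap p r θ) =
      Function.invFunOn γ (Icc a b) (circleMap p r (θ + Real.pi)) := by
    rcases le_total (Function.invFunOn γ (Icc a b) (circleMap p r 0))
      (Function.invFunOn γ (Icc a b) (circleMap p r Real.pi)) with h | h
    · exact intermediate_value_univ₂ hφ hg (a := 0) (b := Real.pi) (by simpa using h)
        (by simpa [e] using h)
    · exact intermediate_value_univ₂ hφ hg (a := Real.pi) (b := 0) (by simpa [e] using h)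
        (by simpa using h)
  have h1 := congrArg γ hθ
  rw [Function.invFunOn_eq (hm _), Function.invFunOn_eq (hm _)] at h1
  simp only [circleMap, ofReal_add, add_mul, exp_add, exp_pi_mul_I, add_right_inj] at h1
  have h2 : (r : ℂ) * cexp (θ * I) = 0 := by linear_combination h1 / 2
  exact mul_ne_zero (ofReal_ne_zero.2 hr.ne') (exp_ne_zero _) h2

end Vale.Agent.P153.SLE
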