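import Vale.Agent.P153.SLE.Basic

/-! Uniform convergence of the curves in capacity time. -/

open Set Filter Topology Metric Complex MeasureTheory ProbabilityTheory
open scoped ENNReal NNReal BoundedContinuousFunction

noncomputable section
namespace Vale.Agent.P153.SLE

open Vale.Agent.P164 (Pth HP Zf Xf Yf Rf Up fi dom unbd Wie Sup Generates)
open Vale.Agent.P153.CA (cay icay)

namespace Key

theorem im_nonneg {V : Pth} {γ : ℝ → ℂ} (h : Gd V γ) {t : ℝ} (ht : 0 ≤ t) : 0 ≤ (γ t).im := by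
  rcases ht.eq_or_lt with rfl | k
  · simp [h.g0]
  · exact (h.pos t k).le

theorem lim {X : Type} [TopologicalSpace X] (U : Ultrafilter ℕ) {K : Set X} (hK : IsCompact K)
    {f : ℕ → X} (h : ∀ᶠ n in U, f n ∈ K) : ∃ x ∈ K, Tendsto f U (𝓝 x) :=
  hK.ultrafilter_le_nhds (U.map f) (le_principal_iff.2 h)

end Key

theorem s_key (h1 : S_h1) (h2 : S_h2) (h3 : S_rng) (h4 : S_ord) (h5 : S_top) : S_key := by
  intro c S τ W V γ S' τ' W' V' γ' hq hq' T e he
  by_contra hb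
  have hfr : ∃ᶠ n in atTop, ∃ s ∈ Icc 0 (S n), τ n s ≤ T ∧ e < ‖c n s - cay (γ (τ n s))‖ := by
    refine (not_eventually.1 hb).mono fun n hn => ?_
    by_contra k
    exact hn fun s hs hT => le_of_not_gt fun k' => k ⟨s, hs, hT, k'⟩
  obtain ⟨U, hU⟩ := @Ultrafilter.exists_le _ _ (frequently_iff_neBot.1 hfr)
  have hU1 : (U : Filter ℕ) ≤ atTop := hU.trans inf_le_left
  have hU2 := le_principal_iff.1 (hU.trans inf_le_right)
  obtain ⟨v, hv⟩ : ∃ v : ℕ → ℝ, ∀ᶠ n in U, v n ∈ Icc 0 (S n) ∧ τ n (v n) ≤ T ∧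
      e < ‖c n (v n) - cay (γ (τ n (v n)))‖ := Eventually.choice hU2
  have q := hq.mono hU1
  have q' := hq'.mono hU1
  have hv0 : ∀ᶠ n in U, v n ∈ Ioc 0 (S n) := by
    filter_upwards [hv, q.drv] with n hn hd
    refine ⟨hn.1.1.lt_of_ne fun k => ?_, hn.1.2⟩
    have := hn.2.2
    rw [← k, hd.2.t0, q.gd.g0, cay_zero, hd.1.c0, sub_self, norm_zero] at this
    exact he.not_gt this
  have hv1 : ∀ᶠ n in U, v n ∈ Ioo (0 : ℝ) 1 := by
    filter_upwards [hv0, q.drv] with n hn hd using ⟨hn.1, hn.2.trans_lt hd.2.S1⟩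
  have hτ : ∀ᶠ n in U, τ n (v n) ∈ Icc 0 T := by
    filter_upwards [hv, q.drv] with n hn hd using ⟨hd.2.nonneg hn.1, hn.2.1⟩
  have hdead : ∀ᶠ n in U, 0 ≤ τ n (v n) ∧ 0 < (icay (c n (v n))).im ∧
      icay (c n (v n)) ∉ dom (W n) (τ n (v n)) := by
    filter_upwards [hv, hv0, hv1, hτ, q.drv] with n hn k0 k1 k2 hd
    exact ⟨k2.1, hd.1.pos k1, hd.2.dead hn.1 ⟨k0.1, le_rfl⟩⟩
  obtain ⟨t, ht, hlt⟩ := Key.lim U isCompact_Icc hτ
  obtain ⟨R, hR⟩ := h2.2 V T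
  have hz : ∀ᶠ n in U, icay (c n (v n)) ∈ closedBall (0 : ℂ) R := by
    filter_upwards [q.lim.eventually hR, hτ, hdead] with n hn k0 k1
    exact mem_closedBall_zero_iff.2 (hn _ k0 _ k1.2.1 k1.2.2)
  obtain ⟨z, -, hlz⟩ := Key.lim U (isCompact_closedBall 0 R) hz
  obtain ⟨s, hs, rfl⟩ := h1 U V γ W _ _ t z U.neBot q.gd q.lim hlt hlz hdead
  rcases hs.2.eq_or_lt with rfl | hst
  · have hc := (continuousAt_cay (Key.im_nonneg q.gd hs.1)).tendsto
    have a1 : Tendsto (fun n => c n (v n)) U (𝓝 (cay (γ s))) :=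
      (hc.comp hlz).congr' (by
        filter_upwards [hv1, q.drv] with n k hd using hd.1.cay_icay k)
    have a2 : Tendsto (fun n => cay (γ (τ n (v n)))) U (𝓝 (cay (γ s))) :=
      hc.comp ((q.gd.cont s hs.1).tendsto.comp
        (tendsto_nhdsWithin_iff.2 ⟨hlt, hτ.mono fun n k => k.1⟩))
    have a3 := (a1.sub a2).norm
    rw [sub_self, norm_zero] at a3
    obtain ⟨n, k1, k2⟩ := ((a3.eventually_lt tendsto_const_nhds he).and hv).exists
    exact k1.not_gt k2.2.2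
  · exact h5 V V' γ γ' s t q.gd q'.gd q.tr (h3 U c S τ W V γ S' τ' W' V' γ' q q') hs.1 hst
      (h4 U c S τ W V γ S' τ' W' V' γ' q q' v s t hs.1 hv0 hlt hlz)

end Vale.Agent.P153.SLE
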