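import Vale.Agent.P153.SLE.Basic

/-! The last assembly step for the convergence of the interface. -/

open Set Filter Topology Metric Complex MeasureTheory ProbabilityTheory

namespace Vale.Agent.P153.SLE

open Vale.Agent.P164 (Pth)

universe u

theorem ev_dir {μ : Measure Pth} {H : ℕ → Set Cfg} {c S τ W} (hc : Conv μ H c S τ W) {η : ℝ}
    (hη : 0 < η) : ∃ E : ℕ → ℕ → Set Cfg, (∀ j, ∀ᶠ n in atTop, Pr (H n) (E j n)ᶜ ≤ η / 2 ^ j) ∧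
      ∀ (φ : ℕ → ℕ) (h : ℕ → Cfg) (V : Pth) (γ : ℝ → ℂ), Tendsto φ atTop atTop →
        (∀ k, h k ∈ H (φ k)) → Gd V γ → Tendsto γ atTop (cocompact ℂ) →
        Tendsto (fun k => W (φ k) (h k)) atTop (𝓝 V) → (∀ j, ∀ᶠ k in atTop, h k ∈ E j (φ k)) →
        Sq atTop (fun k => c (φ k) (h k)) (fun k => S (φ k) (h k)) (fun k => τ (φ k) (h k))
          (fun k => W (φ k) (h k)) V γ := by
  have hp : ∀ j : ℕ, 0 < η / 2 ^ j / 2 := fun j => by positivity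
  choose k hk0 hk using fun j : ℕ => hc.back (1 / ((j : ℝ) + 1)) _ Nat.one_div_pos_of_nat (hp j)
  refine ⟨fun j n => ({h | τ n h (S n h) < j} ∪ {h | Bk (c n h) (k j) (1 / ((j : ℝ) + 1))})ᶜ,
    fun j => ?_, fun φ h V γ hφ hh hg ht hW hE => ⟨hg, ht, ?_, hW, ?_, fun e he => ?_⟩⟩
  · filter_upwards [hk j, (hc.cap j).eventually (ge_mem_nhds (hp j))] with n h1 h2
    rw [compl_compl]
    linarith [Pr_union_le (H n) {h | τ n h (S n h) < j} {h | Bk (c n h) (k j) (1 / ((j : ℝ) + 1))}]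
  · exact (hφ.eventually hc.drv).mono fun n h1 => h1 _ (hh n)
  · refine tendsto_atTop.2 fun b => ?_
    obtain ⟨j, hj⟩ := exists_nat_ge b
    exact (hE j).mono fun n h1 => hj.trans (not_lt.1 fun h2 => h1 (Or.inl h2))
  · obtain ⟨j, hj⟩ := exists_nat_one_div_lt he
    refine ⟨k j, hk0 j, (hE j).mono fun n h1 ⟨s, v, a1, a2, a3, a4, a5⟩ => ?_⟩
    exact h1 (Or.inr ⟨s, v, a1, a2, a3, a4, hj.trans a5⟩)

theorem cdist_le {c d : unitInterval → ℂ} {e : ℝ} (ρ : unitInterval ≃o unitInterval)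
    (h : ∀ t, dist (c (ρ t)) (d t) ≤ e) : cdist c d ≤ e :=
  (ciInf_le ⟨0, fun _ ⟨_, k⟩ => k ▸ Real.iSup_nonneg fun _ => dist_nonneg⟩ ρ).trans (ciSup_le h)

theorem z_lim {ψ : ℂ → ℂ} {Ψ : ℕ → ℂ → ℂ} {c : ℕ → ℝ → ℂ} {J : ℕ → unitInterval → ℂ}
    {d : unitInterval → ℂ} {F} (hψ : IsJordanMap ψ) (hF : CC F)
    (hΨ : TendstoUniformlyOn Ψ ψ atTop (closedBall 0 1)) (hd : Continuous d) (hd1 : ∀ t, ‖d t‖ ≤ 1)
    (hJ : ∀ᶠ n in atTop, DC (c n) ∧ Continuous (J n) ∧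
      ∃ ρ : unitInterval ≃o unitInterval, ∀ t, J n (ρ t) = Ψ n (c n t))
    (hc : ∀ e : ℝ, 0 < e → ∀ᶠ n in atTop, ∃ ρ : unitInterval ≃o unitInterval,
      ∀ t, ‖c n (ρ t) - d t‖ ≤ e) :
    Tendsto (fun n => F (J n)) atTop (𝓝 (F fun t => ψ (d t))) := by
  have hb : ∀ t, d t ∈ closedBall (0 : ℂ) 1 := fun t => mem_closedBall_zero_iff.2 (hd1 t)
  refine Metric.tendsto_nhds.2 fun e he => ?_
  obtain ⟨r, hr, h1⟩ := hF.2 _ (hψ.1.comp_continuous hd hb) e he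
  obtain ⟨q, hq, h2⟩ := Metric.uniformContinuousOn_iff.1
    ((isCompact_closedBall 0 1).uniformContinuousOn_of_continuous hψ.1) (r / 4) (by positivity)
  filter_upwards [hJ, hc (q / 2) (half_pos hq), Metric.tendstoUniformlyOn_iff.1 hΨ (r / 4)
    (by positivity)] with n ⟨k1, k2, ρ1, k3⟩ ⟨ρ2, k4⟩ k5
  refine h1 _ k2 ((cdist_le (e := r / 2) (ρ2.trans ρ1) fun t => ?_).trans_lt (half_lt_self hr))
  have hm : c n (ρ2 t) ∈ closedBall (0 : ℂ) 1 := mem_closedBall_zero_iff.2 (k1.norm_le (ρ2 t).2)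
  have a1 := h2 _ hm _ (hb t) (by rw [dist_eq_norm]; linarith [k4 t])
  have a2 := k5 _ hm
  rw [OrderIso.trans_apply, k3]
  have := dist_triangle_left (Ψ n (c n (ρ2 t))) (ψ (d t)) (ψ (c n (ρ2 t)))
  change dist _ (ψ (d t)) ≤ _
  linarith

theorem Sqc.neg {H W W' Z G A} (h : Sqc H W W' Z G A) :
    Sqc H W W' (fun n h => -Z n h) (fun V => -G V) A := fun η hη =>
  (h η hη).imp fun _ k => ⟨k.1, fun φ h V V' a1 a2 a3 a4 a5 a6 a7 =>
    (k.2 φ h V V' a1 a2 a3 a4 a5 a6 a7).neg⟩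

theorem fin (h1 : S_fin1) (h2 : S_fin2) {μ : Measure Pth} {H W W' Z G A} {M : ℝ}
    (hμ : IsProbabilityMeasure μ) (hH : ∀ᶠ n in atTop, Good (H n)) (hW : Law μ H W)
    (hW' : Law μ H W') (hG : Measurable G) (hA : ∀ᵐ V ∂μ, V ∈ A) (hGM : ∀ V, |G V| ≤ M)
    (hZM : ∀ n h, |Z n h| ≤ M) (hs : Sqc H W W' Z G A) :
    Tendsto (fun n => Ex (H n) (Z n)) atTop (𝓝 (∫ V, G V ∂μ)) := by
  refine tendsto_order.2 ⟨h2 μ H Z G M hμ hH hG hGM hZM (h1 μ H W W' Z G A hμ hH hW hW' hG hA hs),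
    fun b hb => ?_⟩
  have := h2 μ H (fun n h => -Z n h) (fun V => -G V) M hμ hH hG.neg
    (fun V => (abs_neg _).trans_le (hGM V)) (fun n h => (abs_neg _).trans_le (hZM n h))
    (h1 μ H W W' _ _ A hμ hH hW hW' hG.neg hA hs.neg) (-b)
    (by rw [integral_neg]; exact neg_lt_neg hb)
  exact this.mono fun n k => by rwa [Ex_neg, neg_lt_neg_iff] at k

theorem sle_main (hg : GEOA) (h1 : S_wien.{u}) (h2 : S_good) (h3 : S_tr) (h4 : S_key)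
    (h5 : S_det) (h6 : S_dsc) (h7 : S_meas) (h8 : S_fin1) (h9 : S_fin2) : SLEconv.{u} := by
  classical
  intro ψ L δ ε hψ hL hε Ω _ P B hB
  obtain ⟨X, hX, hμ, hXB⟩ := h1 Ω P B hB
  obtain ⟨Ψ, c, hΨ, hI, ⟨S, τ, W, hc⟩, S', τ', W', hc'⟩ := hg ψ L δ ε _ hψ hL hε hμ
  have hH := hI.mono fun _ k => k.1
  set A : Set Pth := {V | ∃ γ, Gd V γ ∧ Tendsto γ atTop (cocompact ℂ)}
  have hA : ∀ᵐ V ∂P.map X, V ∈ A := by
    filter_upwards [h2 _ hμ, h3 _ _ c S τ W hμ hH hc] with V ⟨γ, k1⟩ k2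
    exact ⟨γ, k1, k2 γ k1⟩
  have hA' := ae_of_ae_map hX hA
  refine ⟨fun ω => if h : X ω ∈ A then fun t => ψ (dsc h.choose t) else 0, ?_, fun F hF => ?_⟩
  · filter_upwards [hA', hXB] with ω k1 k2
    rw [dif_pos k1, ← funext k2]
    exact (h6 _ _ k1.choose_spec.1 k1.choose_spec.2).2.2 ψ hψ
  obtain ⟨M, hM⟩ := hF.1
  obtain ⟨G, g1, g2, g3⟩ := h7 ψ F M hψ hF hM
  have := hμ.1.prob
  have he : (fun ω => G (X ω)) =ᵐ[P]
      fun ω => F (if h : X ω ∈ A then fun t => ψ (dsc h.choose t) else 0) :=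
    hA'.mono fun ω k => by
      simp only [dif_pos k]
      exact g3 _ _ k.choose_spec.1 k.choose_spec.2
  have hi : Integrable G (P.map X) :=
    .of_bound g1.aestronglyMeasurable M (.of_forall g2)
  refine ⟨(hi.comp_aemeasurable hX).congr he, ?_⟩
  rw [← integral_congr_ae he, ← integral_map hX g1.aestronglyMeasurable]
  refine fin h8 h9 this hH hc.law hc'.law g1 hA g2 (fun _ _ => hM _) fun η hη => ?_
  obtain ⟨E, e1, e2⟩ := ev_dir hc (half_pos hη)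
  obtain ⟨E', e3, e4⟩ := ev_dir hc' (half_pos hη)
  refine ⟨fun j n => E j n ∩ E' j n, fun j => ?_,
    fun φ h V V' hφ hh ⟨γ, k1, k2⟩ ⟨γ', k3, k4⟩ hV hV' hE => ?_⟩
  · filter_upwards [e1 j, e3 j] with n a1 a2
    rw [compl_inter]
    refine (Pr_union_le _ _ _).trans ((add_le_add a1 a2).trans_eq ?_)
    ring
  have s1 := e2 φ h V γ hφ hh k1 k2 hV fun j => (hE j).mono fun _ k => k.1
  have s2 := e4 φ h V' γ' hφ hh k3 k4 hV' fun j => (hE j).mono fun _ k => k.2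
  obtain ⟨d1, d2, -⟩ := h6 V γ k1 k2
  rw [g3 V γ k1 k2]
  refine z_lim hψ hF (Ψ := fun k => Ψ (φ k)) (fun U hU => hφ.eventually (hΨ U hU)) d1 d2 ?_
    (h5 _ _ _ _ V γ s1 (h4 _ _ _ _ V γ _ _ _ V' γ' s1 s2))
  filter_upwards [hφ.eventually hI, s1.drv] with n a1 a2
  exact ⟨a2.1, a1.2 _ (hh n)⟩

end Vale.Agent.P153.SLE
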