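import Vale.Agent.P153.SLE.Basic

/-! Functionals of the trace are measurable functions of the driving function. -/

open Set Filter Topology Metric Complex MeasureTheory ProbabilityTheory
open scoped ENNReal NNReal BoundedContinuousFunction

noncomputable section
namespace Vale.Agent.P153.SLE

open Vale.Agent.P164 (Pth HP Zf Xf Yf Rf Up fi dom unbd Wie Sup Generates)
open Vale.Agent.P153.CA (cay icay)

namespace Meas

/-- A dense sequence of parameters. -/
def sq : ℕ → unitInterval := TopologicalSpace.denseSeq unitInterval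

theorem exists_rec [MeasurableSpace C(unitInterval, ℂ)] [BorelSpace C(unitInterval, ℂ)] :
    ∃ r : (ℕ → ℂ) → C(unitInterval, ℂ), Measurable r ∧
      ∀ c : C(unitInterval, ℂ), r (fun q => c (sq q)) = c := by
  let e : C(unitInterval, ℂ) → ℕ → ℂ := fun c q => c (sq q)
  have hc : Continuous e := continuous_pi fun q => ContinuousEvalConst.continuous_eval_const _
  have hi : Function.Injective e := by
    intro V W hVW
    ext t
    have : (V : unitInterval → ℂ) = W :=
      (TopologicalSpace.denseRange_denseSeq unitInterval).equalizer V.continuous W.continuous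
        (funext fun q => congrFun hVW q)
    exact congrFun this t
  have hm : MeasurableEmbedding e := hc.measurableEmbedding hi
  exact ⟨hm.invFun, hm.measurable_invFun, hm.leftInverse_invFun⟩

/-- The radial limit along a sequence. -/
def lm (t : ℝ) (V : Pth) : ℂ :=
  limUnder atTop fun j : ℕ => fi V t (((1 / ((j : ℝ) + 1) : ℝ) : ℂ) * I)

theorem measurable_lm (h1 : S_fic) {t : ℝ} (ht : 0 ≤ t) : Measurable (lm t) := by
  refine (StronglyMeasurable.limUnder
    (f := fun (j : ℕ) (V : Pth) => fi V t (((1 / ((j : ℝ) + 1) : ℝ) : ℂ) * I))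
    fun j => Continuous.stronglyMeasurable ?_).measurable
  refine h1.comp_continuous (f := fun V : Pth => (V, t, (((1 / ((j : ℝ) + 1) : ℝ) : ℂ) * I)))
    (by fun_prop) fun V => ⟨ht, ?_⟩
  show 0 < (((1 / ((j : ℝ) + 1) : ℝ) : ℂ) * I).im
  rw [mul_I_im, ofReal_re]
  positivity

theorem lm_eq {V : Pth} {γ : ℝ → ℂ} (h : Rad V γ) {t : ℝ} (ht : 0 ≤ t) : lm t V = γ t := by
  have h1 : Tendsto (fun j : ℕ => 1 / ((j : ℝ) + 1)) atTop (𝓝[>] 0) :=
    tendsto_nhdsWithin_iff.2 ⟨tendsto_one_div_add_atTop_nhds_zero_nat,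
      Eventually.of_forall fun j => by
        show (0 : ℝ) < 1 / ((j : ℝ) + 1)
        positivity⟩
  exact (((h t).tendsto_at ⟨ht, le_rfl⟩).comp h1).limUnder_eq

theorem measurable_cay : Measurable cay :=
  (measurable_id.sub measurable_const).div (measurable_id.add measurable_const)

theorem par_nonneg (t : unitInterval) : 0 ≤ (t : ℝ) / (1 - t) :=
  div_nonneg t.2.1 (sub_nonneg.2 t.2.2)

theorem measurable_dsc (h1 : S_fic) (t : unitInterval) :
    Measurable fun V : Pth => dsc (fun s => lm s V) t := by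
  unfold dsc
  split_ifs
  · exact measurable_cay.comp (measurable_lm h1 (par_nonneg t))
  · exact measurable_const

theorem dsc_eq {V : Pth} {γ : ℝ → ℂ} (h : Rad V γ) (t : unitInterval) :
    dsc (fun s => lm s V) t = dsc γ t := by
  unfold dsc
  beta_reduce
  rw [lm_eq h (par_nonneg t)]

/-- The retraction to the disc. -/
def prj (z : ℂ) : ℂ := z / (max 1 ‖z‖ : ℝ)

theorem max_pos (z : ℂ) : 0 < max 1 ‖z‖ := lt_max_of_lt_left one_pos

theorem continuous_prj : Continuous prj :=
  continuous_id.div (by fun_prop) fun z => ofReal_ne_zero.2 (max_pos z).ne'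

theorem prj_mem (z : ℂ) : prj z ∈ closedBall (0 : ℂ) 1 := by
  rw [mem_closedBall_zero_iff, prj, norm_div, norm_real, Real.norm_of_nonneg (max_pos z).le,
    div_le_one (max_pos z)]
  exact le_max_right _ _

theorem prj_eq {z : ℂ} (h : ‖z‖ ≤ 1) : prj z = z := by
  rw [prj, max_eq_left h, ofReal_one, div_one]

theorem cdist_le (c d : C(unitInterval, ℂ)) : cdist c d ≤ dist c d := by
  unfold cdist
  refine (ciInf_le ⟨0, ?_⟩ (OrderIso.refl _)).trans (ciSup_le fun t => ?_)
  · rintro _ ⟨ρ, rfl⟩
    exact Real.iSup_nonneg fun _ => dist_nonneg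
  · exact ContinuousMap.dist_apply_le_dist t

theorem continuous_fun {F : (unitInterval → ℂ) → ℝ} (hF : CC F) :
    Continuous fun c : C(unitInterval, ℂ) => F c := by
  refine continuous_iff.2 fun c e he => ?_
  obtain ⟨d, hd, h⟩ := hF.2 c c.continuous e he
  exact ⟨d, hd, fun c' hc => h c' c'.continuous ((cdist_le c' c).trans_lt hc)⟩

end Meas

theorem s_meas (h1 : S_fic) (h2 : S_dsc) : S_meas := by
  intro ψ F M hψ hF hM
  borelize C(unitInterval, ℂ)
  obtain ⟨r, hr, hrc⟩ := Meas.exists_rec
  let p : C(ℂ, ℂ) := ⟨fun z => ψ (Meas.prj z),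
    hψ.1.comp_continuous Meas.continuous_prj Meas.prj_mem⟩
  have hΦ : Continuous fun c : C(unitInterval, ℂ) => F (p.comp c) :=
    (Meas.continuous_fun hF).comp (ContinuousMap.continuous_postcomp p)
  refine ⟨fun V => F (p.comp (r fun q => dsc (fun s => Meas.lm s V) (Meas.sq q))),
    hΦ.measurable.comp (hr.comp (measurable_pi_lambda _ fun q => Meas.measurable_dsc h1 _)),
    fun V => hM _, fun V γ hG hT => ?_⟩
  obtain ⟨a1, a2, -⟩ := h2 V γ hG hT
  have e : (r fun q => dsc (fun s => Meas.lm s V) (Meas.sq q)) = ⟨dsc γ, a1⟩ := by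
    rw [← hrc ⟨dsc γ, a1⟩]
    congr 1
    funext q
    exact Meas.dsc_eq hG.rad _
  show F (p.comp _) = _
  rw [e]
  congr 1
  funext t
  show ψ (Meas.prj (dsc γ t)) = _
  rw [Meas.prj_eq (a2 t)]

end Vale.Agent.P153.SLE
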