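import Vale.Agent.P153.SLE.Basic

/-! The logarithmic supermartingale. -/

open Set Filter Topology Metric Complex MeasureTheory ProbabilityTheory
open scoped ENNReal NNReal BoundedContinuousFunction

namespace Vale.Agent.P153.SLE

open Vale.Agent.P164 (Pth HP Zf Xf Yf Rf Up fi dom unbd Wie Sup Generates)
open Vale.Agent.P164 (LS cy Rf_sq Yf_le_Rf cut_one cut_le_one)

namespace Nr1

theorem R_pos {W : Pth} {t : ℝ} {w : ℂ} (h : 0 < Yf W t w) : 0 < Rf W t w :=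
  h.trans_le ((le_abs_self _).trans (Yf_le_Rf W t w))

theorem lsQ : LS 4 (fun w W t => Rf W t w ^ 2)
    (fun w W t => 8 * Xf W t w ^ 2 / Rf W t w ^ 2) fun w W t => -(2 * Xf W t w) := by
  refine fnd.ls.congr _ _ _ _ _ _ _ (fnd.ls.add _ _ _ _ _ _ _
    (fnd.ls.mul _ _ _ _ _ _ _ (fnd.base.X 4) (fnd.base.X 4))
    (fnd.ls.mul _ _ _ _ _ _ _ (fnd.base.Y 4) (fnd.base.Y 4))) fun w W t _ h => ⟨?_, ?_, ?_⟩
  · rw [Rf_sq]; ring
  · have h1 := (R_pos h).ne'
    have h2 := Rf_sq W t w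
    field_simp
    rw [h2]
    ring
  · ring

theorem lsL : LS 4 (fun w W t => Real.log (Rf W t w ^ 2)) (fun _ _ _ => 0)
    fun w W t => -(2 * Xf W t w) / Rf W t w ^ 2 := by
  refine fnd.ls.congr _ _ _ _ _ _ _ (fnd.ls.log _ _ _ _ lsQ fun δ hδ =>
    ⟨δ ^ 2, by positivity, fun w W t _ h => ?_⟩) fun w W t _ h => ⟨rfl, ?_, rfl⟩
  · exact pow_le_pow_left₀ hδ.le (h.trans ((le_abs_self _).trans (Yf_le_Rf W t w))) 2
  · have h1 := (R_pos h).ne'
    field_simp
    ring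

theorem der0 (x : ℝ) : HasDerivAt (fun x => 1 + Real.log (1 + Real.exp (-x)) / 2)
    (-(1 + Real.exp x)⁻¹ / 2) x := by
  have h := ((((hasDerivAt_neg x).exp.const_add 1).log (by positivity)).div_const 2).const_add 1
  refine h.congr_deriv ?_
  have := Real.exp_pos x
  rw [Real.exp_neg]
  field_simp
  ring

theorem der1 (x : ℝ) : HasDerivAt (fun x => -(1 + Real.exp x)⁻¹ / 2)
    (Real.exp x / (1 + Real.exp x) ^ 2 / 2) x := by
  have h := (((Real.hasDerivAt_exp x).const_add 1).inv (by positivity)).neg.div_const 2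
  refine h.congr_deriv ?_
  ring

theorem lsP : LS 4 (fun w W t => 1 + Real.log (1 + 1 / Rf W t w ^ 2) / 2)
    (fun w W t => 4 * (Xf W t w ^ 2 / Rf W t w ^ 2) / (1 + Rf W t w ^ 2) ^ 2)
    fun w W t => Xf W t w / Rf W t w ^ 2 / (1 + Rf W t w ^ 2) := by
  refine fnd.ls.congr _ _ _ _ _ _ _ (fnd.ls.comp _ _ _ _ _ _ _ der0 der1
    (Continuous.div_const (Real.continuous_exp.div (by fun_prop) fun x => by positivity) 2) lsL)
    fun w W t _ h => ?_
  have h1 := R_pos h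
  rw [Real.exp_neg, Real.exp_log (by positivity)]
  refine ⟨by rw [one_div], ?_, ?_⟩ <;> field_simp <;> ring

theorem lsE : LS 4 (fun _ _ t => Real.exp (-(4 * t))) (fun _ _ t => -(4 * Real.exp (-(4 * t))))
    fun _ _ _ => 0 := by
  have h0 : ∀ x : ℝ, HasDerivAt (fun x => Real.exp (-(4 * x))) (-(4 * Real.exp (-(4 * x)))) x :=
    fun x => ((hasDerivAt_id x).const_mul 4).neg.exp.congr_deriv (by simp; ring)
  refine fnd.ls.congr _ _ _ _ _ _ _ (fnd.ls.comp _ _ _ _ _ _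
    (fun x => 16 * Real.exp (-(4 * x))) h0
    (fun x => ((h0 x).const_mul 4).neg.congr_deriv (by ring)) (by fun_prop) (fnd.ls.time 4))
    fun w W t _ _ => ⟨rfl, by ring, by ring⟩

theorem one_le (r : ℝ) : 1 ≤ 1 + Real.log (1 + 1 / r ^ 2) / 2 :=
  le_add_of_nonneg_right (div_nonneg (Real.log_nonneg (le_add_of_nonneg_right (by positivity)))
    zero_le_two)

theorem drift_le (W : Pth) (t : ℝ) (w : ℂ) :
    4 * (Xf W t w ^ 2 / Rf W t w ^ 2) / (1 + Rf W t w ^ 2) ^ 2 ≤ 4 := by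
  have h1 : Xf W t w ^ 2 / Rf W t w ^ 2 ≤ 1 :=
    div_le_one_of_le₀ (by rw [Rf_sq]; linarith [sq_nonneg (Yf W t w)]) (sq_nonneg _)
  have h2 : 1 ≤ (1 + Rf W t w ^ 2) ^ 2 := one_le_pow₀ (le_add_of_nonneg_right (sq_nonneg _))
  rw [div_le_iff₀ (by positivity)]
  linarith

end Nr1

open Nr1 in
theorem s_nr1 : S_nr1 := by
  intro μ w δ hμ hδ
  have h := fnd.ls.mul _ _ _ _ _ _ _ lsE lsP
  have hs := h δ hδ
  refine ⟨_, fnd.lsup 4 μ (by norm_num) hμ _ _ _ h w δ hδ fun W t _ _ => ⟨?_, ?_⟩,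
    fun t V W ht e => ?_, fun W => ?_, fun W t _ hY => ?_, fun W => ?_⟩
  · exact mul_nonneg (Real.exp_pos _).le (zero_le_one.trans (one_le _))
  · have h1 := mul_le_mul_of_nonneg_left (drift_le W t w) (Real.exp_pos (-(4 * t))).le
    have h2 := mul_le_mul_of_nonneg_right (one_le (Rf W t w)) (Real.exp_pos (-(4 * t))).le
    linarith
  · exact congrArg ENNReal.ofReal (fnd.int.loc _ _ _ _ _ hs w V W t ht e)
  · exact ENNReal.continuous_ofReal.comp_continuousOn ((fnd.int.tame _ _ _ _ _ hs).1.cont w W)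
  · rw [cy, cut_one (by rwa [le_div_iff₀ hδ]), one_mul]
  · refine ENNReal.ofReal_le_ofReal ?_
    rw [mul_zero, neg_zero, Real.exp_zero, one_mul]
    exact mul_le_of_le_one_left (zero_le_one.trans (one_le _)) (cut_le_one _)

end Vale.Agent.P153.SLE
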