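import Vale.Agent.P153.SLE.Basic

/-! Comparison of points near the real line. -/

open Set Filter Topology Metric Complex MeasureTheory ProbabilityTheory
open scoped ENNReal NNReal BoundedContinuousFunction

namespace Vale.Agent.P153.SLE

open Vale.Agent.P164 (Pth HP Zf Xf Yf Rf Up fi dom unbd Wie Sup Generates)
open Vale.Agent.P153.CA (cay icay)

namespace Nrd

theorem fence {f f' : ℝ → ℝ} {b c : ℝ} (hf : ContinuousOn f (Icc 0 b))
    (hd : ∀ t ∈ Ioo 0 b, HasDerivAt f (f' t) t) (h0 : f 0 < c)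
    (hb : ∀ t ∈ Ioo 0 b, f t = c → f' t < 0) (b0 : 0 ≤ b) : f b ≤ c := by
  rcases b0.eq_or_lt with rfl | b0
  · exact h0.le
  have := left_nhdsWithin_Ioc_neBot b0
  obtain ⟨a, h1, h2⟩ := ((((hf 0 ⟨le_rfl, b0.le⟩).mono Ioc_subset_Icc_self).eventually
    (gt_mem_nhds h0)).and self_mem_nhdsWithin).exists
  exact image_le_of_deriv_right_lt_deriv_boundary (f' := f') (B := fun _ => c) (B' := fun _ => 0)
    (hf.mono (Icc_subset_Icc_left h2.1.le))
    (fun t ht => (hd t ⟨h2.1.trans_le ht.1, ht.2⟩).hasDerivWithinAt) h1.le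
    (fun t => hasDerivAt_const t c) (fun t ht => hb t ⟨h2.1.trans_le ht.1, ht.2⟩) ⟨h2.2, le_rfl⟩

theorem ineq {r K x x' y y' : ℝ} (hr : 0 < r) (hK : 0 < K) (h1 : r / 2 ≤ x') (h2 : x' < x)
    (h3 : y' ^ 2 ≤ K * r ^ 3 / 16) :
    2 * x / (x ^ 2 + y ^ 2) - 2 * x' / (x' ^ 2 + y' ^ 2) - K < 0 := by
  have p' : 0 < x' := by linarith
  have p : 0 < x := p'.trans h2
  have a : 2 * x / (x ^ 2 + y ^ 2) ≤ 2 / x := by
    rw [div_le_div_iff₀ (by positivity) p]
    nlinarith [sq_nonneg y]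
  have b : 2 / x < 2 / x' := div_lt_div_of_pos_left two_pos p' h2
  have c : 2 / x' - K ≤ 2 * x' / (x' ^ 2 + y' ^ 2) := by
    rw [le_div_iff₀ (by positivity), div_sub' p'.ne', div_mul_eq_mul_div, div_le_iff₀ p']
    have h4 : (r / 2) ^ 3 ≤ x' ^ 3 := pow_le_pow_left₀ (by positivity) h1 3
    have h5 := mul_le_mul_of_nonneg_left h4 hK.le
    have h6 : 0 ≤ x' * K * y' ^ 2 := by positivity
    nlinarith
  linarith

end Nrd

open Nrd in
theorem s_nrd (h1 : S_alv) : S_nrd := by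
  intro r T hr hT
  obtain ⟨K, hK, hKT⟩ : ∃ K : ℝ, 0 < K ∧ K * (T + 1) = r / 2 :=
    ⟨r / 2 / (T + 1), by positivity, by field_simp⟩
  refine ⟨√(K * r ^ 3 / 16), Real.sqrt_pos.2 (by positivity), fun W σ w0 w hσ h0 hx hw hη hre => ?_⟩
  have s2 : σ ^ 2 = 1 := by rcases hσ with rfl | rfl <;> norm_num
  have a0 : ∀ t ∈ Icc 0 T, w0 ∈ dom W t := fun t ht => fA.dom_anti W t T ht.1 ht.2 h0
  have i0 := (fA.init W w0 (a0 0 ⟨le_rfl, hT⟩).1).2.1
  have i1 := (fA.init W w hw).2.1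
  have key : ∀ b ∈ Icc 0 T, w ∈ dom W b → r / 2 ≤ σ * Xf W b w := by
    intro b hb hwb
    have a1 : ∀ t ∈ Icc 0 b, w ∈ dom W t := fun t ht => fA.dom_anti W t b ht.1 ht.2 hwb
    have sb : ∀ t ∈ Icc 0 b, t ∈ Icc 0 T := fun t ht => ⟨ht.1, ht.2.trans hb.2⟩
    have cX : ∀ z, ∀ t, 0 ≤ t → z ∈ dom W t → ContinuousAt (fun u => Xf W u z + W u) t :=
      fun z t ht hz => (continuous_re.continuousAt.comp (fA.cont W t z ht hz).1).add
        W.continuous.continuousAt
    have k := fence (f := fun t => σ * ((Xf W t w0 + W t) - (Xf W t w + W t)) - K * t)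
      (f' := fun t => σ * (2 * Xf W t w0 / Rf W t w0 ^ 2 - 2 * Xf W t w / Rf W t w ^ 2) - K * 1)
      (b := b) (c := K) (fun t ht => ((continuousAt_const.mul ((cX w0 t ht.1 (a0 t (sb t ht))).sub
        (cX w t ht.1 (a1 t ht)))).sub (by fun_prop)).continuousWithinAt)
      (fun t ht => (((fA.der W t w0 ht.1 (a0 t (sb t (Ioo_subset_Icc_self ht)))).2.1.sub
        (fA.der W t w ht.1 (a1 t (Ioo_subset_Icc_self ht))).2.1).const_mul σ).sub
          ((hasDerivAt_id t).const_mul K))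
      (by
        simp only [Xf, i0, i1, sub_re, ofReal_re]
        linarith)
      (fun t ht e => by
        have ht' := sb t (Ioo_subset_Icc_self ht)
        have h2 := hx t ht'
        have h3 := mul_le_mul_of_nonneg_left ht'.2 hK.le
        have h4 := mul_pos hK ht.1
        have h5 : Yf W t w ≤ √(K * r ^ 3 / 16) := (fA.Y_anti W w ht.1.le).trans (by
          simpa only [Yf, i1, sub_im, ofReal_im, sub_zero] using hη)
        have h6 := ineq (x := σ * Xf W t w0) (x' := σ * Xf W t w) (y := Yf W t w0) hr hK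
          (by linarith) (by linarith)
          ((Real.le_sqrt (fA.Y_nonneg W t w) (by positivity)).1 h5)
        rw [mul_pow, mul_pow, s2, one_mul, one_mul, ← P164.Rf_sq, ← P164.Rf_sq] at h6
        refine lt_of_eq_of_lt ?_ h6
        ring) hb.1
    have h2 := hx b hb
    have h3 := mul_le_mul_of_nonneg_left hb.2 hK.le
    linarith
  have hal : w ∈ dom W T := h1 W T (r / 2) w hT (by positivity) hw fun t ht h => by
    refine (key t ht h).trans ((le_abs_self _).trans (le_trans ?_ (P164.Xf_le_Rf W t w)))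
    rcases hσ with rfl | rfl <;> simp
  exact ⟨hal, fun t ht => key t ht (fA.dom_anti W t T ht.1 ht.2 hal)⟩

end Vale.Agent.P153.SLE
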