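import Vale.Agent.P153.SLE.Basic

/-! Almost surely no real point is swallowed. -/

open Set Filter Topology Metric Complex MeasureTheory ProbabilityTheory
open scoped ENNReal NNReal BoundedContinuousFunction

noncomputable section
namespace Vale.Agent.P153.SLE

open Vale.Agent.P164 (Pth HP Zf Xf Yf Rf Up fi dom unbd Wie Sup Generates)
open Vale.Agent.P153.CA (cay icay)

namespace Nrp

variable {W : Pth} {w : ℂ} {t r T : ℝ}

theorem alive (ht : 0 ≤ t) (h : 0 < Rf W t w) : w ∈ dom W t := by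
  by_contra hn
  unfold Rf at h
  rw [P164.Zf_dead ht hn, norm_zero] at h
  exact lt_irrefl _ h

theorem Y0 (hw : 0 < w.im) : Yf W 0 w = w.im := by
  unfold Yf
  rw [(fA.init W w hw).2.1]
  simp

theorem Ylow (hw : 0 < w.im) (hr : 0 < r) (ht : 0 ≤ t) (h : ∀ s ∈ Ioo 0 t, r ≤ Rf W s w) :
    w.im * Real.exp (-(2 * t / r ^ 2)) ≤ Yf W t w := by
  have hd : ∀ s ∈ Ioo 0 t, HasDerivAt (fun u => Yf W u w * Real.exp (2 * u / r ^ 2))
      (-(2 * Yf W s w / Rf W s w ^ 2) * Real.exp (2 * s / r ^ 2) +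
        Yf W s w * (Real.exp (2 * s / r ^ 2) * (2 * 1 / r ^ 2))) s := fun s hs =>
    (fA.der W s w hs.1 (alive hs.1.le (hr.trans_le (h s hs)))).2.2.1.mul
      (((hasDerivAt_id s).const_mul 2).div_const _).exp
  have hm : MonotoneOn (fun u => Yf W u w * Real.exp (2 * u / r ^ 2)) (Icc 0 t) := by
    refine monotoneOn_of_deriv_nonneg (convex_Icc 0 t)
      ((fA.Y_cont W w).mul (by fun_prop)).continuousOn (fun s hs => ?_) fun s hs => ?_
    · rw [interior_Icc] at hs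
      exact (hd s hs).differentiableAt.differentiableWithinAt
    · rw [interior_Icc] at hs
      rw [(hd s hs).deriv]
      have h1 : 2 * Yf W s w / Rf W s w ^ 2 ≤ 2 * Yf W s w / r ^ 2 :=
        div_le_div_of_nonneg_left (by linarith [fA.Y_nonneg W s w]) (by positivity)
          (pow_le_pow_left₀ hr.le (h s hs) 2)
      have h2 := mul_le_mul_of_nonneg_right h1 (Real.exp_pos (2 * s / r ^ 2)).le
      have e : Yf W s w * (Real.exp (2 * s / r ^ 2) * (2 * 1 / r ^ 2)) =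
          2 * Yf W s w / r ^ 2 * Real.exp (2 * s / r ^ 2) := by ring
      rw [e]
      linarith
  have h3 := hm ⟨le_rfl, ht⟩ ⟨ht, le_rfl⟩ ht
  simp only [mul_zero, zero_div, Real.exp_zero, mul_one, Y0 hw] at h3
  rw [Real.exp_neg, ← div_eq_mul_inv, div_le_iff₀ (Real.exp_pos _)]
  exact h3

theorem first (hw : 0 < w.im) (hr : 0 < r) (h : ∃ t ∈ Icc 0 T, Rf W t w < r) :
    ∃ t ∈ Icc 0 T, Rf W t w ≤ r ∧ w.im * Real.exp (-(2 * T / r ^ 2)) ≤ Yf W t w := by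
  have hc : IsClosed (Icc 0 T ∩ {t | Rf W t w ≤ r}) := by
    refine isClosed_iff_frequently.2 fun t ht => ?_
    have h0 : t ∈ Icc 0 T := isClosed_iff_frequently.1 isClosed_Icc t (ht.mono fun _ k => k.1)
    refine ⟨h0, show Rf W t w ≤ r from le_of_not_gt fun k => ?_⟩
    have h1 : ContinuousAt (fun u => Rf W u w) t :=
      (fA.cont W t w h0.1 (alive h0.1 (hr.trans k))).1.norm
    obtain ⟨u, hu, hu'⟩ := (ht.and_eventually (continuousAt_const.eventually_lt h1 k)).exists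
    exact absurd hu.2 (not_le.2 hu')
  obtain ⟨s, hs, hs'⟩ := h
  obtain ⟨t, ht, hmin⟩ := (isCompact_Icc.of_isClosed_subset hc inter_subset_left).exists_isLeast
    ⟨s, hs, hs'.le⟩
  refine ⟨t, ht.1, ht.2, le_trans ?_ (Ylow hw hr ht.1.1 fun u hu => le_of_not_gt fun k => ?_)⟩
  · have := ht.1.2
    gcongr
  · exact absurd (hmin ⟨⟨hu.1.le, hu.2.le.trans ht.1.2⟩, k.le⟩) (not_le.2 hu.2)

theorem side (h3 : S_alv) {σ : ℝ} (hσ : σ = 1 ∨ σ = -1) (h0 : W 0 = 0) (hT : 0 ≤ T) (hr : 0 < r)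
    (hw : w.im = r / 2) (hx : 0 < σ * w.re) (h : ∀ t ∈ Icc 0 T, r ≤ Rf W t w) :
    w ∈ dom W T ∧ ∀ t ∈ Icc 0 T, r / 2 ≤ σ * Xf W t w := by
  have hw0 : 0 < w.im := by linarith
  have hd := h3 W T r w hT hr hw0 fun t ht _ => h t ht
  have hσ2 : σ ^ 2 = 1 := by rcases hσ with rfl | rfl <;> norm_num
  have hX : ∀ t ∈ Icc 0 T, (r / 2) ^ 2 ≤ (σ * Xf W t w) ^ 2 := fun t ht => by
    have h1 : Yf W t w ≤ r / 2 := hw ▸ Y0 (W := W) hw0 ▸ fA.Y_anti W w ht.1
    have h2 := pow_le_pow_left₀ (fA.Y_nonneg W t w) h1 2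
    have h4 := pow_le_pow_left₀ hr.le (h t ht) 2
    rw [P164.Rf_sq] at h4
    rw [mul_pow σ, hσ2]
    nlinarith
  refine ⟨hd, fun t ht => le_of_not_gt fun k => ?_⟩
  have hc : ContinuousOn (fun u => σ * Xf W u w) (Icc 0 t) := fun u hu =>
    (continuousAt_const.mul (continuous_re.continuousAt.comp (fA.cont W u w hu.1
      (fA.dom_anti W u T hu.1 (hu.2.trans ht.2) hd)).1)).continuousWithinAt
  have hs : 0 < σ * Xf W 0 w := by
    unfold Xf
    rw [(fA.init W w hw0).2.1, h0]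
    simpa using hx
  have hn : σ * Xf W t w ≤ 0 := by
    by_contra k'
    have := hX t ht
    nlinarith
  obtain ⟨u, hu, e⟩ := intermediate_value_Icc' ht.1 hc ⟨hn, hs.le⟩
  have := hX u ⟨hu.1, hu.2.trans ht.2⟩
  rw [show σ * Xf W u w = 0 from e] at this
  nlinarith

theorem lg_anti {a b : ℝ} (ha : 0 < a) (hab : a ≤ b) :
    Real.log (1 + 1 / b ^ 2) ≤ Real.log (1 + 1 / a ^ 2) := by
  have hb := ha.trans_le hab
  gcongr

theorem bound (h1 : S_nr1) (h2 : S_doob) {μ : Measure Pth} (hμ : BM μ) {x : ℝ} (hx : 0 < x)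
    (hr : 0 < r) (hw : 0 < w.im) (hx' : x ≤ ‖w‖) :
    ENNReal.ofReal (Real.exp (-(4 * T)) * (Real.log (1 + 1 / r ^ 2) / 2)) *
      μ {W | ∃ t ∈ Icc 0 T, Rf W t w < r} ≤ ENNReal.ofReal (1 + Real.log (1 + 1 / x ^ 2) / 2) := by
  obtain ⟨N, hN, hl, hc, hlow, hup⟩ :=
    h1 μ w (w.im * Real.exp (-(2 * T / r ^ 2)) / 2) hμ.1 (by positivity)
  have := hμ.1.prob
  refine le_trans (mul_le_mul_right (measure_mono fun W hW => ?_) _)
    ((h2 μ N T _ hμ.1 hN hl hc).trans ?_)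
  · obtain ⟨t, ht, hR, hY⟩ := first hw hr hW
    refine ⟨t, ht, lt_of_lt_of_le ?_ (hlow W t ht.1 (by linarith))⟩
    have hR0 : 0 < Rf W t w :=
      lt_of_lt_of_le (lt_of_lt_of_le (by positivity) hY) ((le_abs_self _).trans (P164.Yf_le_Rf ..))
    have k1 := lg_anti hR0 hR
    have k2 : 0 ≤ Real.log (1 + 1 / r ^ 2) := Real.log_nonneg (le_add_of_nonneg_right (by positivity))
    have k3 : Real.exp (-(4 * T)) ≤ Real.exp (-(4 * t)) := Real.exp_le_exp.2 (by linarith [ht.2])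
    have k4 := Real.exp_pos (-(4 * T))
    have k5 : Real.exp (-(4 * T)) * (Real.log (1 + 1 / r ^ 2) / 2) <
        Real.exp (-(4 * t)) * (1 + Real.log (1 + 1 / Rf W t w ^ 2) / 2) := by nlinarith
    exact (ENNReal.ofReal_lt_ofReal_iff (lt_of_le_of_lt (by positivity) k5)).2 k5
  · calc ∫⁻ W, N 0 W ∂μ ≤ ∫⁻ _, ENNReal.ofReal (1 + Real.log (1 + 1 / x ^ 2) / 2) ∂μ := by
          refine lintegral_mono_ae (hμ.2.mono fun W hW => (hup W).trans ?_)
          have e : Rf W 0 w = ‖w‖ := by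
            unfold Rf
            rw [(fA.init W w hw).2.1, hW 0 le_rfl]
            simp
          rw [e]
          exact ENNReal.ofReal_le_ofReal (by linarith [lg_anti hx hx'])
      _ = _ := by rw [lintegral_const, measure_univ, mul_one]

theorem one (h1 : S_nr1) (h2 : S_doob) (h3 : S_alv) {μ : Measure Pth} (hμ : BM μ) {x σ : ℝ}
    (hT : 0 ≤ T) (hx : 0 < x) (hσ : σ = 1 ∨ σ = -1) : ∀ᵐ W : Pth ∂μ, ∃ (w : ℂ) (r : ℝ), 0 < r ∧
      w ∈ dom W T ∧ σ * w.re ≤ x ∧ ∀ t ∈ Icc 0 T, r ≤ σ * Xf W t w := by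
  have := hμ.1.prob
  have hs : σ * (σ * x) = x := by rcases hσ with rfl | rfl <;> ring
  have key : ∀ᵐ W : Pth ∂μ, ∃ r : ℝ, 0 < r ∧ ∀ t ∈ Icc 0 T, r ≤ Rf W t ⟨σ * x, r / 2⟩ := by
    rw [ae_iff]
    set A := {W : Pth | ¬ ∃ r : ℝ, 0 < r ∧ ∀ t ∈ Icc 0 T, r ≤ Rf W t ⟨σ * x, r / 2⟩} with hA
    by_contra hne
    have hm : 0 < (μ A).toReal := ENNReal.toReal_pos hne (measure_ne_top _ _)
    set C := 1 + Real.log (1 + 1 / x ^ 2) / 2 with hC
    have hC0 : 0 < C := by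
      have : 0 ≤ Real.log (1 + 1 / x ^ 2) :=
        Real.log_nonneg (le_add_of_nonneg_right (by positivity))
      linarith
    have hE := Real.exp_pos (-(4 * T))
    set L := 2 * C / (Real.exp (-(4 * T)) * (μ A).toReal) with hL
    have hr := Real.exp_pos (-L)
    have hb := bound (T := T) (w := ⟨σ * x, Real.exp (-L) / 2⟩) h1 h2 hμ hx hr (half_pos hr) (by
      refine le_trans ?_ (abs_re_le_norm _)
      rcases hσ with rfl | rfl <;> simp [abs_of_pos hx])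
    have hsub : A ⊆ {W | ∃ t ∈ Icc 0 T, Rf W t ⟨σ * x, Real.exp (-L) / 2⟩ < Real.exp (-L)} :=
      fun W hW => by
        by_contra k
        exact hW ⟨_, hr, fun t ht => le_of_not_gt fun k' => k ⟨t, ht, k'⟩⟩
    have hlog : 2 * L ≤ Real.log (1 + 1 / Real.exp (-L) ^ 2) := by
      rw [Real.le_log_iff_exp_le (by positivity), ← Real.exp_nat_mul, one_div, ← Real.exp_neg]
      have e : -(((2 : ℕ) : ℝ) * -L) = 2 * L := by push_cast; ring
      rw [e]; linarith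
    have hL0 : 0 < L := by positivity
    have h5 := (mul_le_mul' (ENNReal.ofReal_le_ofReal (show Real.exp (-(4 * T)) * L ≤ _ from
      mul_le_mul_of_nonneg_left (by linarith) hE.le)) (measure_mono hsub)).trans hb
    rw [← ENNReal.ofReal_toReal (measure_ne_top μ A), ← ENNReal.ofReal_mul (by positivity),
      ENNReal.ofReal_le_ofReal_iff hC0.le] at h5
    have h6 : Real.exp (-(4 * T)) * L * (μ A).toReal = 2 * C := by rw [hL]; field_simp
    linarith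
  filter_upwards [key, hμ.2] with W ⟨r, hr, h⟩ h0
  obtain ⟨k1, k2⟩ := side h3 hσ (h0 0 le_rfl) hT hr rfl (hs.symm ▸ hx) h
  exact ⟨_, r / 2, half_pos hr, k1, hs.le, k2⟩

end Nrp

theorem s_nrp (h1 : S_nr1) (h2 : S_doob) (h3 : S_alv) : S_nrp := by
  intro μ hμ
  have a := fun (σ : ℝ) (hσ : σ = 1 ∨ σ = -1) => ae_all_iff.2 fun n : ℕ => ae_all_iff.2 fun m : ℕ =>
    Nrp.one h1 h2 h3 hμ (T := n) (x := 1 / ((m : ℝ) + 1)) n.cast_nonneg Nat.one_div_pos_of_nat hσ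
  filter_upwards [a 1 (.inl rfl), a (-1) (.inr rfl)] with W k1 k2 T x σ hT hx hσ
  obtain ⟨n, hn⟩ := exists_nat_ge T
  obtain ⟨m, hm⟩ := exists_nat_one_div_lt hx
  obtain ⟨w, r, hr, hd, hw, h⟩ : ∃ (w : ℂ) (r : ℝ), 0 < r ∧ w ∈ dom W n ∧
      σ * w.re ≤ 1 / ((m : ℝ) + 1) ∧ ∀ t ∈ Icc (0 : ℝ) n, r ≤ σ * Xf W t w := by
    rcases hσ with rfl | rfl
    exacts [k1 n m, k2 n m]
  exact ⟨w, r, hr, fA.dom_anti W T n hT hn hd, hw.trans hm.le,
    fun t ht => h t ⟨ht.1, ht.2.trans hn⟩⟩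

end Vale.Agent.P153.SLE
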