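import Vale.Agent.P153.SLE.Basic

/-! The occupation time: expectation, and a lower bound by the conformal radius. -/

open Set Filter Topology Metric Complex MeasureTheory ProbabilityTheory
open scoped ENNReal NNReal BoundedContinuousFunction

noncomputable section
namespace Vale.Agent.P153.SLE

open Vale.Agent.P164 (Pth HP Zf Xf Yf Rf Up fi dom unbd Wie Sup Generates)

namespace Occ

theorem meas (y T : ℝ) : Measurable fun p : Pth × ℂ =>
    volume {s | s ∈ Icc 0 T ∧ y / 2 ≤ Yf p.1 s p.2 ∧ Rf p.1 s p.2 ≤ 3 * y} := by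
  have h : Measurable fun q : (Pth × ℂ) × ℝ => (q.1.2, q.1.1, q.2) := by fun_prop
  exact measurable_measure_prodMk_left (s := {q : (Pth × ℂ) × ℝ | q.2 ∈ Icc 0 T ∧
    y / 2 ≤ Yf q.1.1 q.2 q.1.2 ∧ Rf q.1.1 q.2 q.1.2 ≤ 3 * y})
    ((measurable_snd measurableSet_Icc).inter
      ((measurableSet_le measurable_const (fM.Y_meas.comp h)).inter
        (measurableSet_le (fM.R_meas.comp h) measurable_const)))

theorem box {W : Pth} {w : ℂ} {y t s : ℝ} (ht : 0 ≤ t) (hy : 0 < y) (hs : t ≤ s)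
    (hs' : s - t ≤ y ^ 2 / 64) (hW : |W s - W t| ≤ y) (hz : ‖Zf W t w - y * I‖ ≤ y / 8) :
    y / 2 ≤ Yf W s w ∧ Rf W s w ≤ 3 * y := by
  have h1 : 7 / 8 * y ≤ Yf W t w := by
    have := (abs_le.1 ((abs_im_le_norm _).trans hz)).1
    simp only [sub_im, mul_im, ofReal_re, I_im, ofReal_im, I_re] at this
    unfold Yf
    linarith
  have h2 : y / 2 ≤ Yf W s w := (abs_le_of_sq_le_sq' (by
    nlinarith [fA.Y_sq W w t s ht hs]) (fA.Y_nonneg W s w)).2
  have h3 : 0 < Yf W s w := by linarith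
  have h4 := (fA.move W w t s ht hs ((fA.alive W s w (ht.trans hs)).2 h3)).trans
    (show _ ≤ y / 16 by rw [div_le_iff₀ h3]; nlinarith)
  have e : Zf W s w = (Zf W s w + W s - (Zf W t w + W t)) + (Zf W t w - y * I) + y * I -
      ((W s - W t : ℝ) : ℂ) := by push_cast; ring
  refine ⟨h2, ?_⟩
  rw [Rf, e]
  refine (norm_sub_le _ _).trans ((add_le_add_left (norm_add₃_le) _).trans ?_)
  rw [norm_mul, norm_I, norm_real, norm_real, Real.norm_of_nonneg hy.le, Real.norm_eq_abs]
  linarith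

end Occ

theorem s_occ (h1 : S_occ1) : S_occ := by
  intro μ R hμ hR
  obtain ⟨C, hC, h⟩ := h1
  have := hμ.prob
  refine ⟨C * (2 * R * R ^ (1 - 1 / 4 : ℝ) / (1 - 1 / 4)), fun y T hy hT =>
    ⟨(Occ.meas y T).lintegral_prod_right', ?_⟩⟩
  have h0 : 0 ≤ C * y ^ (9 / 4 : ℝ) := by positivity
  have hS : MeasurableSet {w : ℂ | ‖w‖ < R ∧ 0 < w.im ∧ w.im < R} := by measurability
  unfold occ
  rw [lintegral_lintegral_swap (Occ.meas y T).aemeasurable, mul_right_comm, ENNReal.ofReal_mul h0]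
  refine le_trans ?_ (mul_le_mul_right (fnd.elem.strip (1 / 4) R R (by norm_num) (by norm_num) hR hR) _)
  rw [← lintegral_const_mul' _ _ ENNReal.ofReal_ne_top, ← lintegral_indicator measurableSet_ball,
    ← lintegral_indicator hS]
  refine lintegral_mono (indicator_le' (fun w hw => ?_) fun _ _ => zero_le)
  rcases lt_or_ge 0 w.im with h2 | h2
  · rw [mem_ball_zero_iff] at hw
    rw [indicator_of_mem (show w ∈ {w : ℂ | ‖w‖ < R ∧ 0 < w.im ∧ w.im < R} from
      ⟨hw, h2, (im_le_norm w).trans_lt hw⟩), ← ENNReal.ofReal_mul h0]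
    exact h μ y T w hμ hy hT h2
  · refine le_of_eq_of_le (lintegral_congr fun W => ?_) (lintegral_zero.trans_le zero_le)
    refine measure_mono_null (fun s hs => ?_) measure_empty
    have h3 := ((fA.alive W s w hs.1.1).2 ((half_pos hy).trans_le hs.2.1)).1
    exact h2.not_gt h3

theorem s_dbd (h2 : S_bnd) : S_dbd := by
  refine ⟨Real.pi / 1600, by positivity, fun W T M y h t hM ht hy hy1 hh hhy hW => ?_⟩
  obtain ⟨h3, h4⟩ := cB.right W t (y * I) ht.1 (by simpa using hy)
  generalize fi W t (y * I) = w0 at h3 h4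
  have hu := P164.Up_pos ht.1 h3
  have h5 : ∀ w ∈ ball w0 (Up W t w0 / 40), w ∈ dom W t ∧ ‖Zf W t w - y * I‖ ≤ y / 8 := fun w hw => by
    obtain ⟨k1, k2, -⟩ := koe.ball W t w0 w ht.1 h3 (mem_ball_iff_norm.1 hw)
    exact ⟨k1, by simpa [Yf, h4] using k2⟩
  have h6 : h ≤ 1 := by nlinarith
  refine le_trans (le_of_eq ?_) ((setLIntegral_mono' (f := fun _ => ENNReal.ofReal h)
    measurableSet_ball fun w hw => ?_).trans
      (lintegral_mono_set (s := ball w0 (Up W t w0 / 40)) fun w hw => ?_))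
  · rw [setLIntegral_const, Complex.volume_ball, ← ENNReal.ofReal_pow (by positivity),
      ← ENNReal.ofReal_coe_nnreal, ← ENNReal.ofReal_mul (by positivity), ← ENNReal.ofReal_mul hh.le,
      NNReal.coe_real_pi]
    congr 1
    ring
  · refine le_of_eq_of_le (by simp) (measure_mono (s := Icc t (t + h)) fun s hs =>
      ⟨⟨ht.1.trans hs.1, by linarith [hs.2, ht.2]⟩,
        Occ.box ht.1 hy hs.1 (by linarith [hs.2]) (hW s hs) (h5 w hw).2⟩)
  · have ht' : t ∈ Icc 0 (T + 1) := ⟨ht.1, by linarith [ht.2]⟩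
    have k1 := (h2 W (T + 1) M w hM).1 t ht' (h5 w hw).1
    have e : w = (Zf W t w - y * I) + y * I + W t - (Zf W t w + W t - w) := by ring
    rw [mem_ball_zero_iff, e]
    refine ((norm_sub_le _ _).trans (add_le_add_left (norm_add₃_le) _)).trans_lt ?_
    rw [norm_mul, norm_I, norm_real, norm_real, Real.norm_of_nonneg hy.le, Real.norm_eq_abs]
    linarith [hM t ht', (h5 w hw).2]

end Vale.Agent.P153.SLE
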