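import Vale.Agent.P153.SLE.Basic

/-! The expected time spent by a point in a box. -/

open Set Filter Topology Metric Complex MeasureTheory ProbabilityTheory
open scoped ENNReal NNReal BoundedContinuousFunction

noncomputable section
namespace Vale.Agent.P153.SLE

open Vale.Agent.P164 (Pth HP Zf Xf Yf Rf Up fi dom unbd Wie Sup Generates)
open Vale.Agent.P153.CA (cay icay)

namespace Occ1

open Vale.Agent.P164 (Mon Sf cy cyd cut cut1 cX cY rr Sm CE)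

theorem S_nonneg (w : ℂ) (W : Pth) (t : ℝ) : 0 ≤ Sf W t w :=
  div_nonneg (fA.Y_nonneg W t w) (P164.Rf_nonneg W t w)

theorem mon_nonneg (a b q : ℝ) (w : ℂ) (W : Pth) (t : ℝ) : 0 ≤ Mon a b q w W t :=
  mul_nonneg (mul_nonneg (Real.rpow_nonneg (fA.Y_nonneg W t w) _)
    (Real.rpow_nonneg (P164.Up_nonneg W t w) _)) (Real.rpow_nonneg (S_nonneg w W t) _)

theorem mon_eq (w : ℂ) (W : Pth) (t : ℝ) (h : 0 < Yf W t w) :
    Mon (-(1 / 4)) 0 (1 / 2) w W t * (Sf W t w ^ 2 / Rf W t w ^ 2) =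
      Mon (-(9 / 4)) 0 (9 / 2) w W t := by
  have hR : 0 < Rf W t w := h.trans_le ((le_abs_self _).trans (P164.Yf_le_Rf W t w))
  have hS : 0 < Sf W t w := div_pos h hR
  have e : Yf W t w = Sf W t w * Rf W t w := (div_mul_cancel₀ _ hR.ne').symm
  have e1 : Yf W t w ^ (-(9 / 4) : ℝ) = Yf W t w ^ (-(1 / 4) : ℝ) / Yf W t w ^ 2 := by
    rw [show (-(9 / 4) : ℝ) = -(1 / 4) - (2 : ℕ) by norm_num, Real.rpow_sub h, Real.rpow_natCast]
  have e2 : Sf W t w ^ (9 / 2 : ℝ) = Sf W t w ^ (1 / 2 : ℝ) * Sf W t w ^ 4 := by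
    rw [show (9 / 2 : ℝ) = 1 / 2 + (4 : ℕ) by norm_num, Real.rpow_add hS, Real.rpow_natCast]
  unfold Mon
  rw [e1, e2]
  generalize Yf W t w ^ (-(1 / 4) : ℝ) = a
  generalize Sf W t w ^ (1 / 2 : ℝ) = b
  generalize Up W t w ^ (0 : ℝ) = c
  rw [e]
  generalize Sf W t w = s at hS
  generalize Rf W t w = r at hR
  field_simp

theorem drift (δ : ℝ) (hδ : 0 < δ) (w : ℂ) (W : Pth) (t : ℝ) :
    cy δ w W t * (Mon (-(1 / 4)) 0 (1 / 2) w W t *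
        ((cX 4 (-(1 / 4)) (1 / 2) * (1 - Sf W t w ^ 2) +
          cY 4 (-(1 / 4)) 0 (1 / 2) * Sf W t w ^ 2) / Rf W t w ^ 2)) -
      cyd δ w W t * Mon (-(1 / 4)) 0 (1 / 2) w W t +
      1 / 2 * (cy δ w W t * Mon (-(9 / 4)) 0 (9 / 2) w W t) ≤ 0 := by
  have c1 : cX 4 (-(1 / 4)) (1 / 2) = 0 := by unfold cX rr; norm_num
  have c2 : cY 4 (-(1 / 4)) 0 (1 / 2) = -(1 / 2) := by unfold cY; norm_num
  have hY := fA.Y_nonneg W t w
  have a2 : 0 ≤ cyd δ w W t := by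
    have := P164.cut1_nonneg (Yf W t w / δ)
    unfold cyd
    positivity
  have a3 := mul_nonneg a2 (mon_nonneg (-(1 / 4)) 0 (1 / 2) w W t)
  rw [c1, c2]
  rcases hY.eq_or_lt with h | h
  · have e : cy δ w W t = 0 := by
      unfold cy
      rw [← h, zero_div]
      exact P164.cut_zero zero_le_one
    rw [e]
    linarith
  · rw [← mon_eq w W t h]
    have e : (0 * (1 - Sf W t w ^ 2) + -(1 / 2) * Sf W t w ^ 2) / Rf W t w ^ 2 =
        -(1 / 2) * (Sf W t w ^ 2 / Rf W t w ^ 2) := by ring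
    rw [e]
    linarith

theorem box {y : ℝ} (hy : 0 < y) (w : ℂ) (W : Pth) (t : ℝ) (h1 : y / 2 ≤ Yf W t w)
    (h2 : Rf W t w ≤ 3 * y) :
    1 ≤ 3 ^ (9 / 4 : ℝ) * 6 ^ (9 / 2 : ℝ) * y ^ (9 / 4 : ℝ) *
      (cy (y / 4) w W t * Mon (-(9 / 4)) 0 (9 / 2) w W t) := by
  have hY : 0 < Yf W t w := lt_of_lt_of_le (by positivity) h1
  have hYR : Yf W t w ≤ Rf W t w := (le_abs_self _).trans (P164.Yf_le_Rf W t w)
  have hR : 0 < Rf W t w := hY.trans_le hYR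
  have e : cy (y / 4) w W t = 1 := by
    unfold cy
    refine P164.cut_one ?_
    rw [le_div_iff₀ (by positivity)]
    linarith
  have s6 : (6 : ℝ)⁻¹ ≤ Sf W t w := by
    unfold Sf
    rw [le_div_iff₀ hR]
    linarith
  have a1 : (3 * y) ^ (-(9 / 4) : ℝ) ≤ Yf W t w ^ (-(9 / 4) : ℝ) :=
    Real.rpow_le_rpow_of_nonpos hY (hYR.trans h2) (by norm_num)
  have a2 : (6 : ℝ)⁻¹ ^ (9 / 2 : ℝ) ≤ Sf W t w ^ (9 / 2 : ℝ) :=
    Real.rpow_le_rpow (by norm_num) s6 (by norm_num)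
  have a3 : (3 * y) ^ (-(9 / 4) : ℝ) * (6 : ℝ)⁻¹ ^ (9 / 2 : ℝ) ≤
      Yf W t w ^ (-(9 / 4) : ℝ) * Sf W t w ^ (9 / 2 : ℝ) :=
    mul_le_mul a1 a2 (by positivity) (by positivity)
  have b1 : (3 * y) ^ (-(9 / 4) : ℝ) = (3 ^ (9 / 4 : ℝ) * y ^ (9 / 4 : ℝ))⁻¹ := by
    rw [Real.rpow_neg (by positivity), Real.mul_rpow (by norm_num) hy.le]
  have b2 : (6 : ℝ)⁻¹ ^ (9 / 2 : ℝ) = ((6 : ℝ) ^ (9 / 2 : ℝ))⁻¹ := Real.inv_rpow (by norm_num) _
  rw [b1, b2] at a3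
  unfold Mon
  rw [e, Real.rpow_zero, one_mul, mul_one]
  have p1 : (0 : ℝ) < 3 ^ (9 / 4 : ℝ) := by positivity
  have p2 : (0 : ℝ) < 6 ^ (9 / 2 : ℝ) := by positivity
  have p3 : (0 : ℝ) < y ^ (9 / 4 : ℝ) := by positivity
  generalize (3 : ℝ) ^ (9 / 4 : ℝ) = a at p1 a3 ⊢
  generalize (6 : ℝ) ^ (9 / 2 : ℝ) = b at p2 a3 ⊢
  generalize y ^ (9 / 4 : ℝ) = c at p3 a3 ⊢
  have k : a * b * c * ((a * c)⁻¹ * b⁻¹) = 1 := by field_simp
  rw [← k]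
  exact mul_le_mul_of_nonneg_left a3 (by positivity)

theorem vol_le {f : ℝ → ℝ} {T K : ℝ} (hT : 0 ≤ T) (hK : 0 ≤ K) (hc : ContinuousOn f (Ici 0))
    (h0 : ∀ u, 0 ≤ f u) {S : Set ℝ} (hS : S ⊆ Icc 0 T) (h1 : ∀ u ∈ S, 1 ≤ K * f u) :
    volume S ≤ ENNReal.ofReal (K * ∫ u in (0 : ℝ)..T, f u) := by
  have hc' : ContinuousOn (fun u => K * f u) (Icc 0 T) :=
    continuousOn_const.mul (hc.mono fun u hu => hu.1)
  rw [← intervalIntegral.integral_const_mul, intervalIntegral.integral_of_le hT,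
    ← integral_Icc_eq_integral_Ioc,
    ofReal_integral_eq_lintegral_ofReal hc'.integrableOn_Icc
      (ae_of_all _ fun u => mul_nonneg hK (h0 u)), ← Measure.restrict_eq_self volume hS]
  exact meas_le_lintegral₀ (hc'.aemeasurable measurableSet_Icc).ennreal_ofReal fun u hu =>
    ENNReal.one_le_ofReal.2 (h1 u hu)

end Occ1

theorem s_occ1 : S_occ1 := by
  refine ⟨2 * (3 ^ (9 / 4 : ℝ) * 6 ^ (9 / 2 : ℝ)), by positivity, fun μ y T w hμ hy hT hw => ?_⟩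
  have := hμ.prob
  have hδ : 0 < y / 4 := by positivity
  have h4 : (0 : ℝ) < 4 := by norm_num
  have s1 := fnd.mon.mon 4 (-(1 / 4)) 0 (1 / 2) h4 (y / 4) hδ
  have s2 := fnd.mon.mon 4 (-(9 / 4)) 0 (9 / 2) h4 (y / 4) hδ
  have s3 := fnd.alg.add _ _ _ _ _ _ _ _ s1
    (fnd.alg.smul _ _ _ _ _ (1 / 2) (fnd.int.tint _ _ _ _ _ s2))
  have p1 : ∀ W t, 0 ≤ P164.cy (y / 4) w W t * P164.Mon (-(1 / 4)) 0 (1 / 2) w W t :=
    fun W t => mul_nonneg (P164.cut_nonneg _) (Occ1.mon_nonneg _ _ _ w W t)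
  have p2 : ∀ W t, 0 ≤ P164.cy (y / 4) w W t * P164.Mon (-(9 / 4)) 0 (9 / 2) w W t :=
    fun W t => mul_nonneg (P164.cut_nonneg _) (Occ1.mon_nonneg _ _ _ w W t)
  have hm := (((fnd.int.tame _ _ _ _ _ s3).1.meas' T hT).comp
    (measurable_prodMk_left (x := w))).ennreal_ofReal
  have key : ∫⁻ W, ENNReal.ofReal (P164.cy (y / 4) w W T * P164.Mon (-(1 / 4)) 0 (1 / 2) w W T +
      1 / 2 * ∫ u in (0 : ℝ)..T, P164.cy (y / 4) w W u * P164.Mon (-(9 / 4)) 0 (9 / 2) w W u) ∂μ ≤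
      ENNReal.ofReal (w.im ^ (-(1 / 4) : ℝ)) := by
    refine (fnd.cat.total 4 μ hμ 0 _ le_rfl hm).trans_le
      (lintegral_le_const (Eventually.of_forall fun V => ?_))
    refine (fnd.ito 4 μ h4 hμ _ _ _ _ s3 w 0 T V le_rfl hT fun W u hu => ⟨?_, ?_⟩).trans
      (ENNReal.ofReal_le_ofReal ?_)
    · exact add_nonneg (p1 _ u) (mul_nonneg (by norm_num)
        (intervalIntegral.integral_nonneg hu.1 fun r _ => p2 _ r))
    · exact Occ1.drift (y / 4) hδ w _ u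
    · rw [intervalIntegral.integral_same, mul_zero, add_zero]
      have e : Yf V 0 w = w.im := by
        unfold Yf
        rw [(fA.init V w hw).2.1]
        simp
      refine (mul_le_of_le_one_left (Occ1.mon_nonneg _ _ _ w V 0) (P164.cut_le_one _)).trans ?_
      unfold P164.Mon
      rw [e, Real.rpow_zero, mul_one]
      exact mul_le_of_le_one_right (Real.rpow_nonneg hw.le _)
        (Real.rpow_le_one (Occ1.S_nonneg w V 0) (P164.Sf_le_one V 0 w) (by norm_num))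
  have hK : (0 : ℝ) ≤ 3 ^ (9 / 4 : ℝ) * 6 ^ (9 / 2 : ℝ) * y ^ (9 / 4 : ℝ) := by positivity
  have hK2 : (0 : ℝ) ≤ 2 * (3 ^ (9 / 4 : ℝ) * 6 ^ (9 / 2 : ℝ)) * y ^ (9 / 4 : ℝ) := by positivity
  rw [ENNReal.ofReal_mul hK2]
  refine le_trans ?_ (mul_le_mul_right key _)
  rw [← lintegral_const_mul' _ _ ENNReal.ofReal_ne_top]
  refine lintegral_mono fun W => ?_
  refine (Occ1.vol_le hT hK ((fnd.int.tame _ _ _ _ _ s2).1.cont w W) (p2 W) (fun u hu => hu.1)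
    fun u hu => Occ1.box hy w W u hu.2.1 hu.2.2).trans ?_
  rw [← ENNReal.ofReal_mul hK2]
  refine ENNReal.ofReal_le_ofReal ?_
  have := mul_nonneg hK2 (p1 W T)
  linarith

end Vale.Agent.P153.SLE
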