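import Vale.Agent.P153.SLE.Basic

/-! The range of the reversed trace and the order of its points. -/

open Set Filter Topology Metric Complex

namespace Vale.Agent.P153.SLE

open Vale.Agent.P164 (Pth HP Zf Xf Yf Rf Up fi dom)
open Vale.Agent.P153.CA (cay icay)

namespace Ord

theorem ulim {X : Type} [TopologicalSpace X] (U : Ultrafilter ℕ) {K : Set X} (hK : IsCompact K)
    {z : ℕ → X} (h : ∀ᶠ n in U, z n ∈ K) : ∃ a ∈ K, Tendsto z U (𝓝 a) :=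
  hK.ultrafilter_le_nhds (U.map z) (le_principal_iff.2 h)

theorem ninv (z : ℂ) : -(-z⁻¹)⁻¹ = z := by rw [inv_neg, neg_neg, inv_inv]

theorem cont_ninv {z : ℂ} (h : z ≠ 0) : ContinuousAt (fun w : ℂ => -w⁻¹) z :=
  (continuousAt_inv₀ h).neg

theorem ne_zero {z : ℂ} (h : 0 < z.im) : z ≠ 0 := fun e => by simp [e] at h

theorem closed_Ici {γ : ℝ → ℂ} (hc : ContinuousOn γ (Ici 0)) (tr : Tendsto γ atTop (cocompact ℂ))
    {t : ℝ} (ht : 0 ≤ t) : IsClosed (γ '' Ici t) := by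
  refine isClosed_of_closure_subset fun z hz => ?_
  obtain ⟨T, hT⟩ := eventually_atTop.1 (tr (isCompact_closedBall z 1).compl_mem_cocompact)
  have h1 : IsClosed (γ '' Icc t T ∪ (ball z 1)ᶜ) :=
    (isCompact_Icc.image_of_continuousOn (hc.mono fun x hx => ht.trans hx.1)).isClosed.union
      isOpen_ball.isClosed_compl
  have h2 : γ '' Ici t ⊆ γ '' Icc t T ∪ (ball z 1)ᶜ := by
    rintro _ ⟨x, hx, rfl⟩
    rcases le_total x T with h | h
    · exact Or.inl ⟨x, ⟨hx, h⟩, rfl⟩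
    · exact Or.inr fun k => hT x h (ball_subset_closedBall k)
  rcases closure_minimal h2 h1 hz with h | h
  · exact image_mono Icc_subset_Ici_self h
  · exact absurd (mem_ball_self one_pos) h

end Ord

open _root_.Vale.Agent.P153.SLE.Ord

theorem s_rng (h1 : S_h1) (h2 : S_h2) (h3 : S_ap) : S_rng := by
  intro U c S τ W V γ S' τ' W' V' γ' q q' σ hσ
  obtain ⟨T, hT⟩ := h3 _ c S τ W V γ q (‖-(γ' σ)⁻¹‖ + 1)
  have hK : IsClosed (γ '' Icc 0 T) :=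
    (isCompact_Icc.image_of_continuousOn (q.gd.cont.mono Icc_subset_Ici_self)).isClosed
  suffices h : -(γ' σ)⁻¹ ∈ closure (γ '' Icc 0 T) by
    obtain ⟨m, hm, e⟩ := hK.closure_subset h
    exact ⟨m, hm.1, e⟩
  refine Metric.mem_closure_iff.2 fun e he => ?_
  have he' : 0 < min (e / 2) 1 := lt_min (half_pos he) one_pos
  obtain ⟨d, hd, hd'⟩ := Metric.continuousAt_iff.1 (cont_ninv (ne_zero (q'.gd.pos σ hσ))) _ he'
  have k : ∀ᶠ n in U, ∃ s : ℝ, icay (c n s) ∈ closedBall (-(γ' σ)⁻¹) (min (e / 2) 1) ∧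
      τ n s ∈ Icc 0 T ∧ 0 < (icay (c n s)).im ∧ icay (c n s) ∉ dom (W n) (τ n s) := by
    filter_upwards [q'.lim (h2.1 V' γ' σ d q'.gd hσ hd), q'.cap.eventually_ge_atTop σ, q.drv,
      q'.drv, hT] with n ⟨z, z1, z2, z3⟩ n2 n3 n4 n5
    obtain ⟨v, hv, -, e1⟩ := n4.2.mem ⟨hσ.le, n2⟩ z1 z2
    have hs : 1 - v ∈ Ioo (0 : ℝ) 1 := ⟨by linarith [hv.2, n4.2.S1], by linarith [hv.1]⟩
    have e2 : icay (c n (1 - v)) = -z⁻¹ := by rw [← e1, icay_rev, ninv]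
    have b1 : dist (icay (c n (1 - v))) (-(γ' σ)⁻¹) < min (e / 2) 1 := by
      rw [e2]
      exact hd' (by rwa [dist_eq_norm])
    have b2 := n5 _ hs ((norm_le_norm_add_norm_sub' _ (-(γ' σ)⁻¹)).trans (by
      rw [← dist_eq_norm]
      linarith [min_le_right (e / 2) 1]))
    exact ⟨1 - v, b1.le, ⟨n3.2.nonneg ⟨hs.1.le, b2.1⟩, b2.2⟩, n3.1.pos hs,
      n3.2.dead ⟨hs.1.le, b2.1⟩ ⟨hs.1, le_rfl⟩⟩
  obtain ⟨s, hs⟩ := k.choice
  obtain ⟨z0, hz, tz⟩ := ulim U (isCompact_closedBall _ _) (hs.mono fun n h => h.1)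
  obtain ⟨t0, ht, tt⟩ := ulim U isCompact_Icc (hs.mono fun n h => h.2.1)
  refine ⟨z0, image_mono (Icc_subset_Icc_right ht.2) (h1 U V γ W _ _ t0 z0 inferInstance q.gd
    q.lim tt tz (hs.mono fun n h => ⟨h.2.1.1, h.2.2⟩)), ?_⟩
  rw [dist_comm]
  linarith [mem_closedBall.1 hz, min_le_left (e / 2) 1]

theorem s_ord (h1 : S_h1) (h2 : S_h2) (h4 : S_vp) : S_ord := by
  intro U c S τ W V γ S' τ' W' V' γ' q q' v s t hs hv tv tx m hm
  have m0 : 0 < m := hs.trans_lt hm.1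
  have t0' : 0 ≤ t := (m0.trans hm.2).le
  have hO : IsOpen ((γ '' Ici t)ᶜ ∩ HP) :=
    (closed_Ici q.gd.cont q.tr t0').isOpen_compl.inter isOpen_HP
  obtain ⟨β0, hβ0, hb⟩ := Metric.isOpen_iff.1 hO (γ m) ⟨by
    rintro ⟨x, hx, e⟩
    have := q.gd.inj (t0'.trans hx) m0.le e
    exact absurd (this ▸ hx : t ≤ m) (not_le.2 hm.2), q.gd.pos m m0⟩
  have key : ∀ β, 0 < β → β < β0 → ∃ t1, -(γ' t1)⁻¹ ∈ closedBall (γ m) β ∧ γ s ≠ 0 ∧
      -(γ s)⁻¹ ∈ γ' '' Icc 0 t1 := by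
    intro β b0 b1
    have hs' := (closedBall_subset_ball b1).trans hb
    obtain ⟨v', t0, t1, a0, a1, a2, a3, a4, a5, a6⟩ := h4 U c S τ W V γ S' τ' W' V' γ' q q' m β
      m0 b0 (hs'.trans inter_subset_right)
    have lt : t0 < t := not_le.1 fun h => (hs' a2).1 ⟨t0, h, rfl⟩
    have k : ∀ᶠ n in U, 0 < (icay (c n (v n))).im ∧ 0 ≤ τ' n (1 - v' n) ∧
        0 < (-(icay (c n (v n)))⁻¹).im ∧
        -(icay (c n (v n)))⁻¹ ∉ dom (W' n) (τ' n (1 - v' n)) := by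
      filter_upwards [a4.eventually_lt tv lt, a6, hv, q.drv, q'.drv] with n n1 n2 n3 n4 n5
      have l1 : v' n < v n :=
        (n4.2.mono.lt_iff_lt ⟨n2.1.1.le, n2.2.1⟩ ⟨n3.1.le, n3.2⟩).1 n1
      have l2 : v n < 1 := n3.2.trans_lt n4.2.S1
      have l3 : 1 - v' n ∈ Icc 0 (S' n) := ⟨by linarith, n2.2.2⟩
      have p := n4.1.pos ⟨n3.1, l2⟩
      have d := n5.2.dead (v := 1 - v n) l3 ⟨by linarith, by linarith⟩
      rw [icay_rev, sub_sub_cancel] at d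
      exact ⟨p, n5.2.nonneg l3, neg_inv_im_pos p, d⟩
    obtain ⟨R, hR⟩ := h2.2 V' (t1 + 1)
    have k2 : ∀ᶠ n in U, 1 ≤ ‖icay (c n (v n))‖ * R := by
      filter_upwards [k, q'.lim hR, a5.eventually_lt_const (lt_add_one t1)] with n n1 n2 n3
      have := n2 _ ⟨n1.2.1, n3.le⟩ _ n1.2.2.1 n1.2.2.2
      rwa [norm_neg, norm_inv, inv_le_iff_one_le_mul₀' (norm_pos_iff.2 (ne_zero n1.1))] at this
    have g0 : γ s ≠ 0 := fun e => by
      have := ge_of_tendsto (tx.norm.mul_const R) k2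
      rw [e, norm_zero, zero_mul] at this
      exact absurd this (by norm_num)
    exact ⟨t1, a3, g0, h1 U V' γ' W' _ _ t1 _ inferInstance q'.gd q'.lim a5
      ((cont_ninv g0).tendsto.comp tx) (k.mono fun n h => h.2)⟩
  obtain ⟨_, -, g0, a, ⟨a0, -⟩, ea⟩ := key (β0 / 2) (half_pos hβ0) (half_lt_self hβ0)
  have c1 : γ m ∈ closure ((fun w : ℂ => -w⁻¹) '' (γ' '' Ici a)) := by
    refine Metric.mem_closure_iff.2 fun e he => ?_
    have he' : 0 < min e β0 := lt_min he hβ0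
    obtain ⟨t1, k1, -, a', ha', ea'⟩ := key (min e β0 / 2) (half_pos he')
      ((half_lt_self he').trans_le (min_le_right _ _))
    have e1 : a' = a := q'.gd.inj ha'.1 a0 (ea'.trans ea.symm)
    refine ⟨_, ⟨_, ⟨t1, e1 ▸ ha'.2, rfl⟩, rfl⟩, ?_⟩
    rw [dist_comm]
    exact (mem_closedBall.1 k1).trans_lt ((half_lt_self he').trans_le (min_le_left _ _))
  have c2 := (cont_ninv (ne_zero (q.gd.pos m m0))).continuousWithinAt.mem_closure_image c1
  rw [image_image] at c2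
  simp only [ninv, image_id'] at c2
  obtain ⟨b, hb', eb⟩ := (closed_Ici q'.gd.cont q'.tr a0).closure_subset c2
  refine ⟨a, b, a0.lt_of_ne fun e => ?_, hb', by rw [ea, ninv], by rw [eb, ninv]⟩
  rw [← e, q'.gd.g0] at ea
  exact g0 (by simpa using ea)

end Vale.Agent.P153.SLE
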