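import Vale.Agent.P153.SLE.Basic

/-! Modulus of continuity of the driving function. -/

open Set Filter Topology Metric Complex MeasureTheory ProbabilityTheory
open scoped ENNReal NNReal BoundedContinuousFunction

noncomputable section
namespace Vale.Agent.P153.SLE

open Vale.Agent.P164 (Pth HP Zf Xf Yf Rf Up fi dom unbd Wie Sup Generates)
open Vale.Agent.P153.CA (cay icay)

namespace Osc

theorem ex_le : ∃ C : ℝ, 0 < C ∧ ∀ v : ℝ, 0 < v →
    2 * Real.exp (-((v ^ 8 / 2) ^ 2 / (8 * (2 * v ^ 17)))) ≤ C * v ^ 18 := by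
  refine ⟨2 * (Nat.factorial 18 * 64 ^ 18), by positivity, fun v hv => ?_⟩
  have h := Real.pow_div_factorial_le_exp (x := (64 * v)⁻¹) (by positivity) 18
  rw [show (v ^ 8 / 2) ^ 2 / (8 * (2 * v ^ 17)) = (64 * v)⁻¹ by field_simp; norm_num, mul_assoc,
    Real.exp_neg]
  refine mul_le_mul_of_nonneg_left ((inv_anti₀ (by positivity) h).trans_eq ?_) zero_le_two
  rw [inv_div, inv_pow, div_inv_eq_mul, mul_pow, mul_assoc]

theorem bad (h1 : S_tail) : ∃ C : ℝ, 0 < C ∧ ∀ (μ : Measure Pth) (T : ℕ) (v : ℝ), Wie 4 μ → 0 < v →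
    v ≤ 1 → μ {W | ∃ s ∈ Icc (0 : ℝ) T, ∃ t ∈ Icc s (s + v ^ 17), v ^ 8 < |W t - W s|} ≤
      ENNReal.ofReal (C * (T + 1) * v) := by
  obtain ⟨C, hC, h⟩ := ex_le
  refine ⟨C, hC, fun μ T v hμ v0 v1 => ?_⟩
  have h0 : 0 < v ^ 17 := by positivity
  have sub : {W : Pth | ∃ s ∈ Icc (0 : ℝ) T, ∃ t ∈ Icc s (s + v ^ 17), v ^ 8 < |W t - W s|} ⊆
      ⋃ k ∈ Finset.range (⌊T / v ^ 17⌋₊ + 1), {W : Pth | ∃ t ∈ Icc ((k : ℝ) * v ^ 17)
        (k * v ^ 17 + 2 * v ^ 17), v ^ 8 / 2 < |W t - W (k * v ^ 17)|} := by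
    rintro W ⟨s, ⟨s0, s1⟩, t, ⟨t0, t1⟩, hW⟩
    have a1 := (le_div_iff₀ h0).1 (Nat.floor_le (div_nonneg s0 h0.le))
    have a2 := (div_lt_iff₀ h0).1 (Nat.lt_floor_add_one (s / v ^ 17))
    refine mem_biUnion (x := ⌊s / v ^ 17⌋₊) (Finset.mem_coe.2 (Finset.mem_range.2
      (Nat.lt_succ_of_le (Nat.floor_le_floor (by gcongr))))) ?_
    by_contra hn
    simp only [mem_ofPred_eq, not_exists, not_and, not_lt] at hn
    have b1 := abs_le.1 (hn s ⟨a1, by linarith⟩)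
    have b2 := abs_le.1 (hn t ⟨by linarith, by linarith⟩)
    exact hW.not_ge (abs_le.2 ⟨by linarith, by linarith⟩)
  refine (measure_mono sub).trans ((measure_biUnion_finset_le _ _).trans ((Finset.sum_le_card_nsmul
    _ _ (ENNReal.ofReal (C * v ^ 18)) fun k _ => (h1 μ _ _ _ hμ (by positivity) (by positivity)
      (by positivity)).trans (ENNReal.ofReal_le_ofReal (h v v0))).trans ?_))
  rw [Finset.card_range, ← ENNReal.ofReal_nsmul, nsmul_eq_mul]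
  refine ENNReal.ofReal_le_ofReal ?_
  have a1 := (le_div_iff₀ h0).1 (Nat.floor_le (show 0 ≤ (T : ℝ) / v ^ 17 by positivity))
  have a2 : v ^ 17 ≤ 1 := pow_le_one₀ v0.le v1
  calc _ = C * (⌊T / v ^ 17⌋₊ * v ^ 17 + v ^ 17) * v := by push_cast; ring
    _ ≤ _ := by gcongr

end Osc

theorem s_osc (h1 : S_tail) : S_osc := by
  intro μ hμ
  obtain ⟨C, hC, h⟩ := Osc.bad h1
  refine ae_all_iff.2 fun T => ?_
  obtain ⟨u, u0, hu⟩ : ∃ u : ℝ, 0 < u ∧ u ^ 8 = 1 / 2 :=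
    ⟨(1 / 2) ^ ((8 : ℕ) : ℝ)⁻¹, by positivity, Real.rpow_inv_natCast_pow (by norm_num) (by norm_num)⟩
  have u1 : u < 1 := (pow_lt_one_iff_of_nonneg u0.le (n := 8) (by norm_num)).1 (by rw [hu]; norm_num)
  have e8 : ∀ j : ℕ, (1 / 2 : ℝ) ^ j = (u ^ j) ^ 8 := fun j => by rw [← hu, pow_right_comm]
  have e17 : ∀ j : ℕ, ((u ^ j) ^ 8) ^ (17 / 8 : ℝ) = (u ^ j) ^ 17 := fun j => by
    rw [← Real.rpow_natCast _ 8, ← Real.rpow_mul (by positivity), ← Real.rpow_natCast _ 17]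
    norm_num
  have k := ae_eventually_notMem (ne_top_of_le_ne_top ?_ (ENNReal.tsum_le_tsum fun j : ℕ =>
    h μ T (u ^ j) hμ (by positivity) (pow_le_one₀ u0.le u1.le)))
  · filter_upwards [k] with W hW
    filter_upwards [hW] with j hj s hs t ht
    rw [e8, e17] at ht
    rw [e8]
    exact not_lt.1 fun h2 => hj ⟨s, hs, t, ht, h2⟩
  · rw [← ENNReal.ofReal_tsum_of_nonneg (fun j => by positivity)
      ((summable_geometric_of_lt_one u0.le u1).mul_left _)]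
    exact ENNReal.ofReal_ne_top

end Vale.Agent.P153.SLE
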