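import Vale.Agent.P153.SLE.Basic

/-! Convergence of the interface: two lemmas on convergence in law. -/

open Set Filter Topology Metric Complex MeasureTheory ProbabilityTheory
open scoped ENNReal NNReal BoundedContinuousFunction

noncomputable section
namespace Vale.Agent.P153.SLE

open Vale.Agent.P164 (Pth HP Zf Xf Yf Rf Up fi dom unbd Wie Sup Generates)
open Vale.Agent.P153.CA (cay icay)

namespace Port

theorem step {d x M : ℝ} (hd : 0 < d) (hx : -M ≤ x) (m : ℕ) :
    min (x + M) (m * d) ≤ d * ∑ i ∈ Finset.range m, (if -M + i * d < x then (1 : ℝ) else 0) ∧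
      d * ∑ i ∈ Finset.range m, (if -M + i * d < x then (1 : ℝ) else 0) ≤ m * d ∧
      d * ∑ i ∈ Finset.range m, (if -M + i * d < x then (1 : ℝ) else 0) ≤ x + M + d := by
  induction m with
  | zero => simp only [Finset.range_zero, Finset.sum_empty, Nat.cast_zero, mul_zero, zero_mul,
      min_le_iff, le_refl, or_true, true_and]; linarith
  | succ m ih =>
    obtain ⟨h1, h2, h3⟩ := ih
    rw [Finset.sum_range_succ, mul_add]
    push_cast
    split_ifs with h
    · rw [min_eq_right (by linarith)] at h1
      exact ⟨(min_le_right _ _).trans (by linarith), by linarith, by linarith⟩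
    · rw [min_eq_left (by linarith)] at h1
      exact ⟨(min_le_left _ _).trans (by linarith), by linarith, by linarith⟩

end Port

theorem s_port : S_port := by
  intro μ H W O a hμ hG hL hO ha
  have hC : IsClosed Oᶜ := hO.isClosed_compl
  have h1 := (ENNReal.tendsto_toReal (measure_ne_top μ Oᶜ)).comp
    (HasOuterApproxClosed.tendsto_lintegral_apprSeq hC μ)
  have h2 : (μ Oᶜ).toReal < 1 - a := by
    have := probReal_compl_eq_one_sub (μ := μ) hO.measurableSet
    rw [measureReal_def] at this
    linarith
  obtain ⟨k, hk⟩ := (h1.eventually (gt_mem_nhds h2)).exists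
  rw [Function.comp_apply, BoundedContinuousFunction.toReal_lintegral_coe_eq_integral] at hk
  have h3 := hL ((hC.apprSeq k).comp _ NNReal.isometry_coe.lipschitz)
  filter_upwards [hG, h3.eventually (gt_mem_nhds hk)] with n hn h4
  have h5 := Pr_compl hn {h | W n h ∈ O}
  have h6 : Pr (H n) {h | W n h ∈ O}ᶜ ≤ Ex (H n) fun h => (hC.apprSeq k (W n h) : ℝ) := by
    refine Ex_mono fun h _ => ?_
    by_cases hh : W n h ∈ O
    · rw [indicator_of_notMem (by simpa using hh)]
      exact NNReal.coe_nonneg _
    · rw [indicator_of_mem (by simpa using hh), HasOuterApproxClosed.apprSeq_apply_eq_one hC k hh]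
      simp
  have h7 : (Ex (H n) fun h => (hC.apprSeq k (W n h) : ℝ)) < 1 - a := h4
  linarith

theorem s_fin2 : S_fin2 := by
  intro μ H Z G M hμ hG hm hGM hZM h b hb
  obtain ⟨d, hd, hdb⟩ : ∃ d : ℝ, 0 < d ∧ b + 2 * d = ∫ V, G V ∂μ :=
    ⟨(∫ V, G V ∂μ - b) / 2, by linarith, by ring⟩
  obtain ⟨m, hm2⟩ := exists_nat_ge (2 * M / d)
  rw [div_le_iff₀ hd] at hm2
  have hm1 : (0 : ℝ) < (m : ℝ) + 1 := by positivity
  have hms : ∀ i : ℕ, MeasurableSet {V | -M + i * d < G V} := fun i =>
    measurableSet_lt measurable_const hm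
  have hI : ∫ V, G V ∂μ + M ≤ d * ∑ i ∈ Finset.range m, μ.real {V | -M + i * d < G V} := by
    have hGi : Integrable G μ :=
      Integrable.of_bound hm.aestronglyMeasurable M (ae_of_all _ fun V => hGM V)
    have hi : ∀ i : ℕ, Integrable ({V | -M + i * d < G V}.indicator (1 : Pth → ℝ)) μ := fun i =>
      (integrable_const (1 : ℝ)).indicator (hms i)
    simp only [← integral_indicator_one (hms _)]
    rw [← integral_finsetSum _ fun i _ => hi i, ← integral_const_mul]
    have e : ∫ V, G V ∂μ + M = ∫ V, (G V + M) ∂μ := by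
      rw [integral_add hGi (integrable_const M)]
      simp
    rw [e]
    refine integral_mono (hGi.add (integrable_const M))
      ((integrable_finsetSum _ fun i _ => hi i).const_mul d) fun V => ?_
    have h1 := (Port.step hd (abs_le.1 (hGM V)).1 m).1
    rw [min_eq_left (by linarith [(abs_le.1 (hGM V)).2])] at h1
    simpa only [indicator, mem_ofPred_eq, Pi.one_apply] using h1
  have hev := (eventually_all_finset (Finset.range m)).2 fun i _ =>
    h (-M + i * d) (μ.real {V | -M + i * d < G V} - 1 / ((m : ℝ) + 1))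
      (sub_lt_self _ (by positivity))
  filter_upwards [hG, hev] with n hn h1
  have h2 := Finset.sum_le_sum fun i hi => (h1 i hi).le
  rw [Finset.sum_sub_distrib, Finset.sum_const, Finset.card_range, nsmul_eq_mul] at h2
  have h3 : d * ∑ i ∈ Finset.range m, Pr (H n) {h | -M + i * d < Z n h} ≤
      Ex (H n) (Z n) + (M + d) := by
    simp only [Pr]
    rw [← Ex_sum, ← Ex_mul_left, ← Ex_const hn (M + d), ← Ex_add]
    refine Ex_mono fun h _ => ?_
    have h4 := (Port.step hd (abs_le.1 (hZM n h)).1 m).2.2
    rw [add_assoc] at h4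
    simpa only [indicator, mem_ofPred_eq, Pi.one_apply] using h4
  have h5 : (m : ℝ) * (1 / ((m : ℝ) + 1)) < 1 := by
    rw [mul_one_div, div_lt_one hm1]
    linarith
  nlinarith

end Vale.Agent.P153.SLE
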