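import Vale.Agent.P153.SLE.Basic

/-! The trace enters the earlier domains. -/

open Set Filter Topology Metric Complex MeasureTheory ProbabilityTheory
open scoped ENNReal NNReal BoundedContinuousFunction

noncomputable section
namespace Vale.Agent.P153.SLE

open Vale.Agent.P164 (Pth HP Zf Xf Yf Rf Up fi dom unbd Wie Sup Generates slit)
open Vale.Agent.P153.CA (cay icay)

namespace Ret

variable {W : Pth} {γ : ℝ → ℂ} {t : ℝ}

theorem pt (h : Rad W γ) (ht : 0 ≤ t) :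
    Tendsto (fun y : ℝ => fi W t (y * I)) (𝓝[>] 0) (𝓝 (γ t)) :=
  (h t).tendsto_at ⟨ht, le_rfl⟩

theorem rayp {y : ℝ} (hy : y ∈ Ioi (0 : ℝ)) : 0 < (y * I : ℂ).im := by simpa using hy

theorem one (h1 : S_gen) {a b : ℝ} (h : Rad W γ) (ha : 0 ≤ a) (hab : a < b) :
    ∃ s ∈ Ioo a b, γ s ∈ dom W a := by
  by_contra! n
  obtain ⟨-, -, k⟩ := h1 W γ h
  obtain ⟨t, t1, t2⟩ := exists_between hab
  have sub : dom W a ⊆ slit γ t := fun z hz => ⟨hz.1, fun ⟨u, hu, e⟩ => by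
    rcases le_or_gt u a with d | d
    · exact (k u hu.1).2.1 (e ▸ fA.dom_anti W u a hu.1 d hz)
    · exact n u ⟨d, hu.2.trans_lt t2⟩ (e ▸ hz)⟩
  refine sch.grow W a t ha t1 ((fA.dom_anti W a t ha t1.le).antisymm fun z hz => ?_)
  rw [(k t (ha.trans t1.le)).2.2]
  refine ⟨sub hz, fun d => ((k a ha).2.2 ▸ hz).2 (d.subset (Subset.trans (fun w hw => ?_)
    ((dom_pre W ha).subset_connectedComponentIn hz sub)))⟩
  rw [(k a ha).2.2] at hz ⊢
  exact ⟨connectedComponentIn_subset _ _ hw, connectedComponentIn_eq hw ▸ hz.2⟩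

/-- The trace avoids the nonzero real points. -/
theorem real (h4 : S_nrd) (h : Rad W γ) (hn : NR W) (ht : 0 ≤ t) (h0 : (γ t).im = 0) :
    γ t = 0 := by
  by_contra n
  obtain ⟨σ, s1, s2⟩ : ∃ σ : ℝ, (σ = 1 ∨ σ = -1) ∧ 0 < σ * (γ t).re := by
    rcases lt_trichotomy (γ t).re 0 with d | d | d
    exacts [⟨-1, .inr rfl, by linarith⟩, (n (Complex.ext d h0)).elim, ⟨1, .inl rfl, by linarith⟩]
  obtain ⟨w, r, a1, a2, a3, a4⟩ := hn t (σ * (γ t).re / 2) σ ht (half_pos s2) s1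
  obtain ⟨η, b1, b2⟩ := h4 r t a1 ht
  have c1 := ((continuous_im.tendsto _).comp (pt h ht)).eventually_lt_const (h0.trans_lt b1)
  have c2 := (((continuous_re.tendsto _).comp (pt h ht)).const_mul σ).eventually_const_lt
    (half_lt_self s2)
  obtain ⟨y, d1, d2, d3⟩ := (c1.and (c2.and self_mem_nhdsWithin)).exists
  obtain ⟨e1, e2⟩ := cB.right W t _ ht (rayp d3)
  have := (b2 W σ w _ s1 a2 a4 e1.1 d1.le (a3.trans d2.le)).2 t ⟨ht, le_rfl⟩
  simp [Xf, e2] at this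
  linarith

end Ret

open Ret in
theorem s_ret (h1 : S_gen) (h2 : S_comp) (h3 : S_vis0) (h4 : S_nrd) : S_ret := by
  refine ⟨fun W γ a b => one h1, fun W W' γ η s v h h' hn hs hv e => ?_⟩
  have c := (h2 W W' s v hs hv e).2
  have l : Tendsto (fun y : ℝ => fi W s (fi W' v (y * I))) (𝓝[>] 0) (𝓝 (γ (s + v))) :=
    (pt h (add_nonneg hs hv)).congr' (eventually_nhdsWithin_of_forall fun y hy => c _ (rayp hy))
  rcases ((h1 W' η h').2.2 v hv).1.eq_or_lt with d | d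
  · have n : Tendsto (fun x : ℝ => -x) (𝓝[<] 0) (𝓝[>] 0) := by
      simpa using tendsto_neg_nhdsLT_neg (a := (0 : ℝ))
    have m : ∀ x ∈ Ico (-1 : ℝ) 0, 0 < (((-x : ℝ) : ℂ) * I).im := fun x hx =>
      rayp (neg_pos.2 hx.2)
    exact .inr (h3 W γ (fun x => fi W' v ((-x : ℝ) * I)) s (-1) 0 _ h hs (by norm_num)
      ((cf_fi W' hv).hf.continuousOn.comp (by fun_prop) m)
      (fun x hx => (cB.right W' v _ hv (m x hx)).1.1)
      (real h4 h' hn hv d.symm ▸ (pt h' hv).comp n) (l.comp n))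
  · rw [tendsto_nhds_unique l ((cB.der W s _ hs d).continuousAt.tendsto.comp (pt h' hv))]
    exact .inl (cB.right W s _ hs d).1

end Vale.Agent.P153.SLE
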