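import Vale.Agent.P153.SLE.Basic

/-! The trace is a simple curve. -/

open Set Filter Topology Metric Complex MeasureTheory ProbabilityTheory
open scoped ENNReal NNReal BoundedContinuousFunction

namespace Vale.Agent.P153.SLE

open Vale.Agent.P164 (Pth HP Zf Xf Yf Rf Up fi dom unbd Wie Sup Generates)

theorem s_simp (h1 : S_gen) (h2 : S_ret) (h3 : S_cap) : S_simp := by
  intro W γ w0 rad nr hq
  obtain ⟨hc, g0, hg⟩ := h1 W γ rad
  have key : ∀ a b : ℝ, 0 ≤ a → a < b → γ b ∈ dom W a := fun a b ha hab => by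
    obtain ⟨s, hs, hd⟩ := h2.1 W γ a b rad ha hab
    have e1 := (hc.continuousAt (Ici_mem_nhds (ha.trans_lt hs.1))).preimage_mem_nhds
      ((fM.dom_open W a ha).mem_nhds hd)
    obtain ⟨q, q1, q2⟩ := Rat.denseRange_cast.mem_nhds (inter_mem e1 (isOpen_Ioo.mem_nhds hs))
    have q0 : (0 : ℝ) ≤ q := ha.trans q2.1.le
    obtain ⟨W', η, r', n', sh⟩ := hq q (by exact_mod_cast q0)
    have := h2.2 W W' γ η q (b - q) rad r' n' q0 (sub_nonneg.2 q2.2.le) sh
    rw [add_sub_cancel] at this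
    rcases this with h | h
    · exact fA.dom_anti W a q ha q2.1.le h
    · exact h ▸ q1
  have inj : InjOn γ (Ici 0) := fun a ha b hb e => by
    rcases lt_trichotomy a b with h | h | h
    · exact absurd (e ▸ key a b ha h) (hg a ha).2.1
    · exact h
    · exact absurd (e ▸ key b a hb h) (hg b hb).2.1
  have pos : ∀ t, 0 < t → 0 < (γ t).im := fun t ht => (key 0 t le_rfl ht).1
  have hd : ∀ t, 0 ≤ t → dom W t = HP \ γ '' Icc 0 t := fun t ht => by
    have pre : IsPreconnected (P164.slit γ t) := ca_arc HP γ 0 t isOpen_HP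
      (convex_halfSpace_im_gt 0).isPreconnected ht (hc.mono Icc_subset_Ici_self)
      (inj.mono Icc_subset_Ici_self) fun s hs => pos s hs.1
    have z0 := (cf_fi W ht).mf (show I ∈ HP by simp [HP])
    rw [(hg t ht).2.2] at z0 ⊢
    refine Subset.antisymm (fun z hz => hz.1) fun z hz => ⟨hz, ?_⟩
    rw [pre.connectedComponentIn hz, ← pre.connectedComponentIn z0.1]
    exact z0.2
  have g0' : γ 0 = 0 := by rw [g0, w0, ofReal_zero]
  refine ⟨w0, rad, nr, hc, g0', inj, pos, hd, fun R => ?_, hc, g0', fun t ht => (hg t ht).1,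
    fun t ht => (hg t ht).2.2⟩
  by_contra hn
  push Not at hn
  have R0 : 0 < R := (norm_nonneg _).trans_lt (hn 0 le_rfl)
  have := h3 W (R ^ 2) R (sq_nonneg R) R0 fun z hz => by
    rw [hd _ (sq_nonneg R)]
    refine ⟨hz.1, ?_⟩
    rintro ⟨s, hs, rfl⟩
    exact (hn s hs.1).not_gt hz.2
  nlinarith

end Vale.Agent.P153.SLE
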