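import Vale.Agent.P153.SLE.Basic

/-! Visible points of the curve are near the tip of the trace. -/

open Set Filter Topology Metric Complex

namespace Vale.Agent.P153.SLE

open Vale.Agent.P164 (Pth HP Zf dom)
open Vale.Agent.P153.CA (cay icay)

theorem s_ap (h1 : S_h2) : S_ap := by
  intro l c S τ W V γ hs R
  have he : 0 < 1 / (|R| + 1) := by positivity
  obtain ⟨k, hk, hb⟩ := hs.back _ he
  obtain ⟨T, hT, hR⟩ := hs.gd.unb (4 / k + 2)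
  have h4 : 0 < 4 / k := by positivity
  have hT0 : 0 < T := hT.lt_of_ne fun e => by
    rw [← e, hs.gd.g0, norm_zero] at hR
    linarith
  refine ⟨T, ?_⟩
  filter_upwards [hb, hs.drv, hs.lim.eventually (h1.1 V γ T 1 hs.gd hT0 one_pos),
    hs.cap.eventually_ge_atTop T] with n a1 ⟨a2, a3⟩ ⟨z, z1, z2, z3⟩ a4 v hv hc
  obtain ⟨s, s1, s2, rfl⟩ := a3.mem ⟨hT, a4⟩ z1 z2
  have hs1 : s ∈ Ioo (0 : ℝ) 1 := ⟨s1.1, s1.2.trans_lt a3.S1⟩
  have hvs : v < s := not_le.1 fun hsv => a1 ⟨s, v, s1.1.le, hsv, hv.2.le, ?_, ?_⟩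
  · exact ⟨hvs.le.trans s1.2, (a3.mono ⟨hv.1.le, hvs.le.trans s1.2⟩ ⟨s1.1.le, s1.2⟩ hvs).le.trans s2⟩
  · have b1 := norm_sub_norm_le (γ T) (icay (c n s))
    have b2 := norm_sub_le (icay (c n s) + I) I
    rw [norm_sub_rev] at b1
    rw [add_sub_cancel_right, norm_I] at b2
    have b3 : 4 / k < ‖icay (c n s) + I‖ := by linarith
    rw [← a2.cay_icay hs1, norm_cay_sub_one z1.le, div_lt_iff₀ (h4.trans b3)]
    rw [div_lt_iff₀ hk] at b3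
    linarith
  · have b0 := a2.pos hv
    have b1 := norm_add_le (icay (c n v)) I
    rw [norm_I] at b1
    rw [← a2.cay_icay hv, norm_cay_sub_one b0.le]
    refine (div_lt_div_of_pos_right one_lt_two (by positivity)).trans_le ?_
    exact div_le_div_of_nonneg_left zero_le_two (norm_pos_iff.2 (add_I_ne b0.le))
      (by linarith [le_abs_self R])

namespace Tip

theorem early {c : ℝ → ℂ} {S v t : ℝ} {τ : ℝ → ℝ} {W : Pth} (h1 : DC c) (h2 : Drv c S τ W)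
    (hv : v ∈ Ioc 0 S) (ht : t ∈ Ico 0 (τ v)) : icay (c v) ∈ dom W t := by
  have hv1 : v ∈ Ioo (0 : ℝ) 1 := ⟨hv.1, hv.2.trans_lt h2.S1⟩
  obtain ⟨s, hs, rfl⟩ := h2.surj ⟨hv.1.le, hv.2⟩ (Ico_subset_Icc_self ht)
  rw [h2.dom s ⟨hs.1, hs.2.trans hv.2⟩]
  refine ⟨h1.pos hv1, fun ⟨r, hr, e⟩ => ?_⟩
  have := h1.injOn ⟨hr.1, (hr.2.trans hs.2).trans_lt hv1.2⟩ hv1 e
  exact ht.2.ne (congrArg τ (hs.2.antisymm (this ▸ hr.2)))

theorem mem_iff {c : ℝ → ℂ} {z : ℂ} (h : DC c) (hz : 0 < z.im) :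
    cay z ∈ c '' Icc 0 1 ↔ z ∈ (fun s => icay (c s)) '' Ioo 0 1 := by
  refine ⟨fun ⟨s, hs, e⟩ => ⟨s, ⟨hs.1.lt_of_ne fun k => ?_, hs.2.lt_of_ne fun k => ?_⟩, ?_⟩,
    fun ⟨s, hs, e⟩ => ⟨s, Ioo_subset_Icc_self hs, e ▸ (h.cay_icay hs).symm⟩⟩
  · have := norm_cay_lt hz
    rw [← e, ← k, h.c0] at this
    simp at this
  · exact cay_ne_one hz.le (by rw [← e, k, h.c1])
  · simp only [e, icay_cay hz.le]

end Tip

theorem s_tip (h2 : S_ap) (h3 : S_acc) (h4 : S_visn) : S_tip := by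
  intro U c S τ W V γ hs Q hQ hH
  obtain ⟨R, hR⟩ := hQ.isBounded.exists_norm_le
  obtain ⟨T, hT⟩ := h2 U c S τ W V γ hs R
  refine ⟨T, fun x v P hx hv => ?_⟩
  have e1 : ∀ᶠ n in U, v n ≤ S n ∧ τ n (v n) ∈ Icc 0 T := by
    filter_upwards [hv, hT, hs.drv] with n ⟨a1, _, _, a4, _, a6⟩ a7 a8
    have := a7 _ a1 (hR _ (closure_minimal a4 hQ.isClosed a6))
    exact ⟨this.1, a8.2.nonneg ⟨a1.1.le, this.1⟩, this.2⟩
  obtain ⟨t0, ht0, ht⟩ := isCompact_Icc.ultrafilter_le_nhds (U.map fun n => τ n (v n))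
    (le_principal_iff.2 (e1.mono fun _ k => k.2))
  refine ⟨t0, ht0.1, ?_, ht, e1.mono fun _ k => k.1⟩
  have hxd : x ∈ dom V t0 := by
    obtain ⟨n, -, -, a3, a4, -⟩ := hv.exists
    rw [hs.gd.dom t0 ht0.1]
    exact ⟨hH (a4 a3), fun k => hx (image_mono (Icc_subset_Icc_right ht0.2) k)⟩
  refine hQ.isClosed.closure_subset (Metric.mem_closure_iff.2 fun β hβ => ?_)
  obtain ⟨n, b1, ⟨a1, a2, a3, a4, a5, a6⟩, ⟨b2, b3⟩, b4, b5⟩ :=
    (((hs.lim.prodMk_nhds ht).eventually (h4 V γ t0 β x hs.gd ht0.1 hxd hβ)).and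
      (hv.and (e1.and hs.drv))).exists
  have hvS : v n ∈ Ioc 0 (S n) := ⟨a1.1, b2⟩
  have hP : P n ⊆ dom (W n) (τ n (v n)) := fun w hw => by
    rw [b5.dom _ ⟨a1.1.le, b2⟩]
    exact ⟨hH (a4 hw), fun ⟨r, hr, e⟩ =>
      disjoint_left.1 a5 hw ⟨r, ⟨hr.1, hr.2.trans_lt a1.2⟩, e⟩⟩
  obtain ⟨w, hw, k⟩ := b1 b3.1 (P n) a2 hP a3 fun e he => by
    have := mem_closure_iff_nhdsWithin_neBot.1 a6
    have k := (h3 (W n) _ _ (b5.pos hvS) (b5.dead ⟨a1.1.le, b2⟩ ⟨a1.1, le_rfl⟩)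
      fun t k => Tip.early b4 b5 hvS k).mono_left (nhdsWithin_mono _ hP)
    obtain ⟨w, w1, w2⟩ := ((k.norm.eventually (gt_mem_nhds (by simpa using he))).and
      self_mem_nhdsWithin).exists
    exact ⟨w, w2, w1⟩
  exact ⟨w, a4 hw, by rwa [dist_comm, dist_eq_norm]⟩

theorem s_seg : S_seg := by
  intro c Q x p hc hQ hH hx hp h1 h2
  let g : ℝ → ℂ := fun l => AffineMap.lineMap x p l
  have hg : Continuous g := AffineMap.lineMap_continuous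
  have hm : ∀ l ∈ Icc (0 : ℝ) 1, g l ∈ Q := fun l hl => hQ.lineMap_mem hx hp hl
  have hK : IsClosed (Icc (0 : ℝ) 1 ∩ (fun l => cay (g l)) ⁻¹' (c '' Icc 0 1)) :=
    ContinuousOn.preimage_isClosed_of_isClosed (fun l hl =>
      ((continuousAt_cay (le_of_lt (hH (hm l hl)))).comp hg.continuousAt).continuousWithinAt)
      isClosed_Icc (isCompact_Icc.image_of_continuousOn hc.cont).isClosed
  obtain ⟨l, ⟨l1, l2⟩, l3⟩ := (isCompact_Icc.of_isClosed_subset hK inter_subset_left).exists_isLeast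
    ⟨1, ⟨zero_le_one, le_rfl⟩, (Tip.mem_iff hc (hH (hm 1 ⟨zero_le_one, le_rfl⟩))).2
      (by simpa [g] using h2)⟩
  have l4 := (Tip.mem_iff hc (hH (hm l l1))).1 l2
  have l0 : 0 < l := l1.1.lt_of_ne fun e => h1 (by simpa [g, ← e] using l4)
  obtain ⟨v, hv, e⟩ := l4
  have hs : ∀ r ∈ Ico 0 l, r ∈ Icc (0 : ℝ) 1 := fun r hr => ⟨hr.1, hr.2.le.trans l1.2⟩
  refine ⟨v, hv, g '' Ico 0 l, isPreconnected_Ico.image _ hg.continuousOn,
    ⟨0, ⟨le_rfl, l0⟩, by simp [g]⟩, fun _ ⟨r, hr, k⟩ => k ▸ hm r (hs r hr),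
    disjoint_left.2 fun _ ⟨r, hr, k⟩ k' => ?_, ?_⟩
  · exact hr.2.not_ge (l3 ⟨hs r hr, (Tip.mem_iff hc (hH (hm r (hs r hr)))).2 (k ▸ k')⟩)
  · rw [show icay (c v) = g l from e]
    refine mem_closure_image hg.continuousAt ?_
    rw [closure_Ico l0.ne]
    exact ⟨l0.le, le_rfl⟩

end Vale.Agent.P153.SLE
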