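import Vale.Agent.P153.SLE.Basic

/-! The reversed trace cannot jump over a piece of the trace. -/

open Set Filter Topology Metric Complex MeasureTheory ProbabilityTheory
open scoped ENNReal NNReal BoundedContinuousFunction

noncomputable section
namespace Vale.Agent.P153.SLE

open Vale.Agent.P164 (Pth HP Zf Xf Yf Rf Up fi dom unbd Wie Sup Generates)
open Vale.Agent.P153.CA (cay icay)

namespace Top

theorem closed_tail {γ : ℝ → ℂ} {t : ℝ} (hc : ContinuousOn γ (Ici 0)) (ht : 0 ≤ t)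
    (h : Tendsto γ atTop (cocompact ℂ)) : IsClosed (γ '' Ici t) := by
  refine isClosed_of_closure_subset fun z hz => ?_
  obtain ⟨T, hT⟩ := eventually_atTop.1 (h (isCompact_closedBall z 1).compl_mem_cocompact)
  have hK : IsCompact (γ '' Icc t T) :=
    isCompact_Icc.image_of_continuousOn (hc.mono fun u hu => ht.trans hu.1)
  have hs : γ '' Ici t ⊆ γ '' Icc t T ∪ (ball z 1)ᶜ := by
    rintro _ ⟨u, hu, rfl⟩
    rcases le_total u T with k | k
    · exact Or.inl ⟨u, ⟨hu, k⟩, rfl⟩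
    · exact Or.inr fun e => hT u k (ball_subset_closedBall e)
  rcases closure_minimal hs (hK.isClosed.union isOpen_ball.isClosed_compl) hz with k | k
  · exact image_mono Icc_subset_Ici_self k
  · exact absurd (mem_ball_self one_pos) k

theorem ne_zero {V : Pth} {γ : ℝ → ℂ} (h : Gd V γ) {σ : ℝ} (hσ : 0 < σ) : γ σ ≠ 0 := fun e => by
  simpa [e] using h.pos σ hσ

theorem inj {V : Pth} {γ : ℝ → ℂ} (h : Gd V γ) {a b : ℝ} (ha : 0 < a) (hb : 0 < b)
    (e : -(γ a)⁻¹ = -(γ b)⁻¹) : a = b :=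
  h.inj ha.le hb.le (inv_injective (neg_injective e))

theorem far {V : Pth} {γ : ℝ → ℂ} (h : Gd V γ) {a : ℝ} (ha : 0 < a) (R : ℝ) :
    ∃ σ ∈ Ioc 0 a, R < ‖-(γ σ)⁻¹‖ := by
  have h1 : Tendsto γ (𝓝[>] 0) (𝓝 0) := by
    have := (h.cont 0 self_mem_Ici).mono Ioi_subset_Ici_self
    rwa [ContinuousWithinAt, h.g0] at this
  have hR : 0 < (|R| + 1)⁻¹ := by positivity
  have h2 : ∀ᶠ σ in 𝓝[>] (0 : ℝ), ‖γ σ‖ < (|R| + 1)⁻¹ :=
    h1.norm.eventually_lt tendsto_const_nhds (by simpa using hR)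
  obtain ⟨σ, h3, h4⟩ := (h2.and (Ioc_mem_nhdsGT ha)).exists
  refine ⟨σ, h4, ?_⟩
  rw [norm_neg, norm_inv]
  have h5 := (lt_inv_comm₀ (norm_pos_iff.2 (ne_zero h h4.1)) (by positivity)).1 h3
  linarith [le_abs_self R]

end Top

theorem s_top : S_top := by
  intro V V' γ γ' s t hg hg' htr hr hs hst h
  obtain ⟨a, -, ha, -, hsa, -⟩ := h ((s + t) / 2) ⟨by linarith, by linarith⟩
  have hA : IsCompact (γ '' Icc 0 s) :=
    isCompact_Icc.image_of_continuousOn (hg.cont.mono Icc_subset_Ici_self)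
  have hB := Top.closed_tail hg.cont (hs.trans hst.le) htr
  have hP : IsPreconnected ((fun σ => -(γ' σ)⁻¹) '' Ioc 0 a) :=
    isPreconnected_Ioc.image _ (((hg'.cont.mono fun σ hσ => hσ.1.le).inv₀
      fun σ hσ => Top.ne_zero hg' hσ.1).neg)
  have hsub : (fun σ => -(γ' σ)⁻¹) '' Ioc 0 a ⊆ γ '' Icc 0 s ∪ γ '' Ici t := by
    rintro _ ⟨σ, hσ, rfl⟩
    obtain ⟨m, hm, e⟩ := hr σ hσ.1
    rcases le_or_gt m s with k | k
    · exact Or.inl ⟨m, ⟨hm, k⟩, e⟩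
    rcases le_or_gt t m with k' | k'
    · exact Or.inr ⟨m, k', e⟩
    obtain ⟨a', b, ha', hab, e1, e2⟩ := h m ⟨k, k'⟩
    obtain rfl : a = a' := Top.inj hg' ha ha' (hsa.symm.trans e1)
    obtain rfl : σ = b := Top.inj hg' hσ.1 (ha.trans_le hab) (e.symm.trans e2)
    obtain rfl : σ = a := le_antisymm hσ.2 hab
    exact absurd (hg.inj hm hs (e.trans hsa.symm)) k.ne'
  obtain ⟨R, hR⟩ := hA.isBounded.exists_norm_le
  obtain ⟨σ, hσ, hf⟩ := Top.far hg' ha R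
  obtain ⟨z, -, ⟨u, hu, e1⟩, v, hv, e2⟩ := isPreconnected_closed_iff.1 hP _ _ hA.isClosed hB hsub
    ⟨_, ⟨a, ⟨ha, le_rfl⟩, rfl⟩, s, ⟨hs, le_rfl⟩, hsa⟩
    ⟨_, ⟨σ, hσ, rfl⟩, (hsub ⟨σ, hσ, rfl⟩).resolve_left fun k => (hR _ k).not_gt hf⟩
  have hv' : t ≤ v := hv
  have := hg.inj hu.1 ((hs.trans hst.le).trans hv') (e1.trans e2.symm)
  linarith [hu.2]

end Vale.Agent.P153.SLE
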