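import Vale.Agent.P153.SLE.Basic

/-! Order of two points and transience. -/

open Set Filter Topology Metric Complex MeasureTheory ProbabilityTheory
open scoped ENNReal NNReal BoundedContinuousFunction

noncomputable section
namespace Vale.Agent.P153.SLE

open Vale.Agent.P164 (Pth HP Zf Xf Yf Rf Up fi dom unbd Wie Sup Generates)
open Vale.Agent.P153.CA (cay icay)

namespace Tr

theorem sep (h1 : S_h1) {V : Pth} {γ : ℝ → ℂ} {t1 t2 : ℝ} (hg : Gd V γ) (h0 : 0 < t1)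
    (h12 : t1 < t2) : ∃ d : ℝ, 0 < d ∧ ∀ᶠ W : Pth in 𝓝 V, ∀ z : ℂ, 0 < z.im → z ∉ dom W t1 →
      d < ‖z - γ t2‖ := by
  have hc : IsClosed (γ '' Icc 0 t1) :=
    (isCompact_Icc.image_of_continuousOn (hg.cont.mono Icc_subset_Ici_self)).isClosed
  have hn : γ t2 ∈ (γ '' Icc 0 t1)ᶜ := fun ⟨s, hs, e⟩ => by
    have := hg.inj hs.1 (h0.trans h12).le e
    linarith [hs.2]
  obtain ⟨d, hd, hb⟩ := nhds_basis_closedBall.mem_iff.1 (hc.isOpen_compl.mem_nhds hn)
  refine ⟨d, hd, by_contra fun h => ?_⟩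
  obtain ⟨W, hW, hz⟩ := exists_seq_forall_of_frequently (not_eventually.1 h)
  push Not at hz
  choose z hz1 hz2 hz3 using hz
  obtain ⟨z0, hz0, φ, hφ, hl⟩ := (isCompact_closedBall (γ t2) d).tendsto_subseq (x := z)
    fun n => mem_closedBall_iff_norm.2 (hz3 n)
  exact hb hz0 (h1 atTop V γ (W ∘ φ) (fun _ => t1) (z ∘ φ) t1 z0 inferInstance hg
    (hW.comp hφ.tendsto_atTop) tendsto_const_nhds hl
    (Eventually.of_forall fun n => ⟨h0.le, hz1 _, hz2 _⟩))

/-- Driving functions that force a backtrack. -/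
def OO (k e : ℝ) (T : ℕ) : Set Pth :=
  interior {W | ∀ c S τ, DC c → Drv c S τ W → (T : ℝ) ≤ τ S → Bk c k e}

theorem OO_mono (k e : ℝ) : Monotone (OO k e) := fun _ _ h =>
  interior_mono fun _ hW c S τ hc hd hT => hW c S τ hc hd ((Nat.cast_le.2 h).trans hT)

theorem cover (h3 : S_two) {V : Pth} {γ : ℝ → ℂ} {k e : ℝ} (hk : 0 < k) (hg : Gd V γ)
    (hf : ∃ᶠ t in atTop, e < ‖cay (γ t) - 1‖) : V ∈ ⋃ T, OO k e T := by
  obtain ⟨t1, h0, hR⟩ := hg.unb (2 / k + 2)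
  have hk' : 0 < 2 / k := by positivity
  have h1 : 0 < t1 := h0.lt_of_ne fun h => by
    rw [← h, hg.g0, norm_zero] at hR
    linarith
  obtain ⟨t2, he, h12⟩ := (hf.and_eventually (eventually_gt_atTop t1)).exists
  have p1 := (hg.pos t1 h1).le
  have p2 := (hg.pos t2 (h1.trans h12)).le
  have hk1 : ‖cay (γ t1) - 1‖ < k := by
    have a := norm_sub_le (γ t1 + I) I
    rw [add_sub_cancel_right, norm_I] at a
    have b : 2 / k < ‖γ t1 + I‖ := by linarith
    rw [norm_cay_sub_one p1, div_lt_iff₀ (hk'.trans b), mul_comm, ← div_lt_iff₀ hk]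
    exact b
  obtain ⟨a, ha, ha'⟩ := Metric.eventually_nhds_iff.1
    (((continuousAt_cay p1).sub continuousAt_const).norm.eventually_lt continuousAt_const hk1)
  obtain ⟨b, hb, hb'⟩ := Metric.eventually_nhds_iff.1
    (continuousAt_const.eventually_lt ((continuousAt_cay p2).sub continuousAt_const).norm he)
  refine mem_iUnion.2 ⟨⌈t2⌉₊, mem_interior_iff_mem_nhds.2 ?_⟩
  filter_upwards [h3 V γ t1 t2 (min a b) hg h1 h12 (lt_min ha hb)] with W hW c S τ hc hd hT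
  obtain ⟨s, v, s0, sv, v1, k1, k2⟩ := hW c S τ hc hd ((Nat.le_ceil t2).trans hT)
  have k3 := ha' (y := icay (c s)) (by rw [dist_eq_norm]; exact k1.trans_le (min_le_left _ _))
  have k4 := hb' (y := icay (c v)) (by rw [dist_eq_norm]; exact k2.trans_le (min_le_right _ _))
  exact ⟨s, v, s0.le, sv, v1.le, hc.cay_icay ⟨s0, sv.trans_lt v1⟩ ▸ k3,
    hc.cay_icay ⟨s0.trans_le sv, v1⟩ ▸ k4⟩

theorem null (h3 : S_two) (h4 : S_port) {μ H c S τ W} (hμ : BM μ)
    (hH : ∀ᶠ n in atTop, Good (H n)) (hc : Conv μ H c S τ W) {e : ℝ} (he : 0 < e) :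
    μ {V | ∃ γ, Gd V γ ∧ ∃ᶠ t in atTop, e < ‖cay (γ t) - 1‖} = 0 := by
  have hp := hμ.1.prob
  refine le_antisymm (ENNReal.le_of_forall_pos_le_add fun η hη _ => ?_) zero_le
  have hη' : (0 : ℝ) < η / 2 := by positivity
  obtain ⟨k, hk, hb⟩ := hc.back e (η / 2) he hη'
  have h5 : ∀ T, μ (OO k e T) ≤ η := fun T => by
    have h6 : μ.real (OO k e T) ≤ η := by
      by_contra h
      obtain ⟨n, a1, a2, a3, a4⟩ := ((h4 μ H W _ η hp hH hc.law isOpen_interior (not_le.1 h)).and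
        (hb.and (hc.drv.and ((hc.cap T).eventually (gt_mem_nhds hη'))))).exists
      have a5 := (Pr_mono (S := H n) (E := {h | W n h ∈ OO k e T})
        (E' := {h | Bk (c n h) k e} ∪ {h | τ n h (S n h) < T}) fun h hh hO =>
          (le_or_gt (T : ℝ) (τ n h (S n h))).imp_left
            (interior_subset hO _ _ _ (a3 h hh).1 (a3 h hh).2)).trans (Pr_union_le _ _ _)
      have a6 : (η : ℝ) < Pr (H n) {h | W n h ∈ OO k e T} := a1
      linarith
    rw [← ofReal_measureReal, ← ENNReal.ofReal_coe_nnreal]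
    exact ENNReal.ofReal_le_ofReal h6
  rw [zero_add]
  refine le_trans (measure_mono (t := ⋃ T, OO k e T) fun V ⟨γ, hg, hf⟩ => cover h3 hk hg hf) ?_
  rw [(OO_mono k e).measure_iUnion]
  exact iSup_le h5

end Tr

theorem s_two (h1 : S_h1) (h2 : S_h2) : S_two := by
  intro V γ t1 t2 e hg h0 h12 he
  obtain ⟨d, hd, hs⟩ := Tr.sep h1 hg h0 h12
  filter_upwards [hs, h2.1 V γ t1 e hg h0 he,
    h2.1 V γ t2 (min e d) hg (h0.trans h12) (lt_min he hd)] with W hs hz1 hz2 c S τ _ hD hS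
  obtain ⟨z1, a1, b1, c1⟩ := hz1
  obtain ⟨z2, a2, b2, c2⟩ := hz2
  obtain ⟨s, hs1, hs2, rfl⟩ := hD.mem ⟨h0.le, h12.le.trans hS⟩ a1 b1
  obtain ⟨v, hv1, -, rfl⟩ := hD.mem ⟨(h0.trans h12).le, hS⟩ a2 b2
  refine ⟨s, v, hs1.1, not_lt.1 fun h => ?_, hv1.2.trans_lt hD.S1, c1,
    c2.trans_le (min_le_left _ _)⟩
  have hs' : s ∈ Icc 0 S := ⟨hs1.1.le, hs1.2⟩
  have := hs _ a2 fun k => hD.dead hs' ⟨hv1.1, h.le⟩ (fA.dom_anti W _ _ (hD.nonneg hs') hs2 k)
  linarith [min_le_right e d]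

theorem s_tr (h3 : S_two) (h4 : S_port) : S_tr := by
  intro μ H c S τ W hμ hH hc
  have h := ae_all_iff.2 fun i : ℕ => measure_eq_zero_iff_ae_notMem.1
    (Tr.null h3 h4 hμ hH hc (e := 1 / ((i : ℝ) + 1)) (by positivity))
  filter_upwards [h] with V hV γ hg
  rw [← cobounded_eq_cocompact, ← tendsto_norm_atTop_iff_cobounded]
  refine tendsto_atTop.2 fun R => ?_
  obtain ⟨i, hi⟩ := exists_nat_ge R
  filter_upwards [not_frequently.1 fun k => hV i ⟨γ, hg, k⟩, eventually_gt_atTop 0] with t ht h0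
  have p := (hg.pos t h0).le
  rw [norm_cay_sub_one p, not_lt,
    div_le_div_iff₀ (norm_pos_iff.2 (add_I_ne p)) (by positivity)] at ht
  have a := norm_add_le (γ t) I
  rw [norm_I] at a
  have b : (0 : ℝ) ≤ i := Nat.cast_nonneg i
  linarith

end Vale.Agent.P153.SLE
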