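import Vale.Agent.P153.SLE.Basic

/-! Semicircles with short images, and limits along paths. -/

open Set Filter Topology Metric Complex MeasureTheory ProbabilityTheory
open scoped ENNReal NNReal BoundedContinuousFunction

noncomputable section
namespace Vale.Agent.P153.SLE

open Vale.Agent.P164 (Pth HP Zf Xf Yf Rf Up fi dom unbd Wie Sup Generates)
open Vale.Agent.P153.CA (cay icay)

namespace Vis

theorem half {ρ : ℝ} (hρ : 0 < ρ) : IsPreconnected (HP ∩ sphere (0 : ℂ) ρ) := by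
  have e : HP ∩ sphere (0 : ℂ) ρ = (fun θ : ℝ => (ρ : ℂ) * exp (θ * I)) '' Ioo 0 Real.pi := by
    refine Subset.antisymm (fun ζ h => ⟨arg ζ, ⟨?_, ?_⟩, ?_⟩) ?_
    · have h1 : 0 < ζ.im := h.1
      exact lt_of_le_of_ne (arg_nonneg_iff.2 h1.le) fun k => h1.ne' (arg_eq_zero_iff.1 k.symm).2
    · have h1 : 0 < ζ.im := h.1
      exact arg_lt_pi_iff.2 (Or.inr h1.ne')
    · rw [← mem_sphere_zero_iff_norm.1 h.2]
      exact norm_mul_exp_arg_mul_I ζ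
    · rintro _ ⟨θ, hθ, rfl⟩
      refine ⟨?_, mem_sphere_zero_iff_norm.2 ?_⟩
      · change 0 < ((ρ : ℂ) * exp (θ * I)).im
        rw [im_ofReal_mul, exp_ofReal_mul_I_im]
        exact mul_pos hρ (Real.sin_pos_of_pos_of_lt_pi hθ.1 hθ.2)
      · rw [norm_mul, norm_exp_ofReal_mul_I, mul_one, norm_real, Real.norm_of_nonneg hρ.le]
  rw [e]
  exact isPreconnected_Ioo.image _ (by fun_prop)

end Vis

theorem s_vis (h1 : S_bnd) : S_vis := by
  intro M T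
  have hR : 0 < |2 * T + 3 * M + 3| + 1 := by positivity
  refine ⟨5 * (|2 * T + 3 * M + 3| + 1), by positivity, fun W t r1 r2 hW ht h0 h12 h2 => ?_⟩
  have hc := cf_fi W ht.1
  obtain ⟨ρ, hρ, hl⟩ := CA.s_la HP (fi W t) 0 0 r1 r2 _ hc.oU hc.hf
    (fun a ha b hb e => by rw [← hc.gf a ha, e, hc.gf b hb]) h0 h12 hR (by
      rintro _ ⟨ζ, hζ, rfl⟩
      have k := (h1 W T M (fi W t ζ) hW).1 t ht (hc.mf hζ.1)
      rw [hc.gf ζ hζ.1] at k
      have k1 := mem_ball_zero_iff.1 hζ.2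
      have k2 : ‖(W t : ℂ)‖ ≤ M := by
        rw [norm_real, Real.norm_eq_abs]
        exact hW t ht
      have k3 := norm_sub_le (ζ + W t) (ζ + W t - fi W t ζ)
      have k4 := norm_add_le ζ (W t)
      have k5 := le_abs_self (2 * T + 3 * M + 3)
      rw [sub_sub_cancel] at k3
      rw [mem_closedBall_zero_iff]
      linarith)
  have hρ0 : 0 < ρ := h0.trans hρ.1
  refine ⟨ρ, hρ, fun ζ hζ hn => ?_⟩
  refine (ca_short HP _ _ _ 0 ρ _ hc hρ0 (by positivity) hl).1 _ Subset.rfl (Vis.half hρ0) ζ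
    ⟨hζ, mem_sphere_zero_iff_norm.2 hn⟩ _ ⟨?_, mem_sphere_zero_iff_norm.2 ?_⟩
  · change 0 < ((ρ : ℂ) * I).im
    simpa using hρ0
  · simp [abs_of_pos hρ0]

theorem s_vis0 (h2 : S_vis) : S_vis0 := by
  intro W γ p t a b z hr ht hab hp hi h0 hz
  obtain ⟨M, -, hM, -⟩ := exists_bound W t
  obtain ⟨C, hC, h2⟩ := h2 M t
  refine eq_of_forall_dist_le fun e3 he3 => ?_
  obtain ⟨e, rfl⟩ : ∃ e, e3 = 3 * e := ⟨e3 / 3, by ring⟩
  have he : 0 < e := by linarith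
  obtain ⟨l, hl, hl'⟩ := mem_nhdsLT_iff_exists_Ioo_subset.1
    ((Metric.tendsto_nhds.1 hz e he).and (Ioo_mem_nhdsLT hab))
  obtain ⟨a', ha1, ha2⟩ := exists_between (mem_Iio.1 hl)
  have hs : ∀ v ∈ Ico a' b, v ∈ Ico a b := fun v hv =>
    Ioo_subset_Ico_self (hl' ⟨ha1.trans_le hv.1, hv.2⟩).2
  obtain ⟨u, hu, hu'⟩ := mem_nhdsGT_iff_exists_Ioo_subset.1
    (Metric.tendstoUniformlyOn_iff.1 (hr t) e he)
  have hpa : 0 < ‖p a'‖ := (hi a' (hs a' ⟨le_rfl, ha2⟩)).trans_le (im_le_norm _)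
  have hr2 : 0 < min (min 1 u) ‖p a'‖ := lt_min (lt_min one_pos hu) hpa
  set r2 := min (min 1 u) ‖p a'‖ with hr2def
  have hq : 0 < C / e := div_pos hC he
  have hr1 : 0 < r2 * Real.exp (-(C / e) ^ 2) := by positivity
  obtain ⟨ρ, hρ, hρ'⟩ := h2 W t (r2 * Real.exp (-(C / e) ^ 2)) r2 hM ⟨ht, le_rfl⟩ hr1
    (mul_lt_of_lt_one_right hr2 (Real.exp_lt_one_iff.2 (neg_lt_zero.2 (by positivity))))
    ((min_le_left _ _).trans (min_le_left _ _))
  have hρ0 : 0 < ρ := hr1.trans hρ.1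
  have e1 : C / √(Real.log (r2 / (r2 * Real.exp (-(C / e) ^ 2)))) = e := by
    rw [div_mul_cancel_left₀ hr2.ne', ← Real.exp_neg, neg_neg, Real.log_exp, Real.sqrt_sq hq.le]
    field_simp
  rw [e1] at hρ'
  obtain ⟨b', hb1, hb2⟩ := ((Metric.tendsto_nhds.1 h0 ρ hρ0).and (Ioo_mem_nhdsLT ha2)).exists
  rw [dist_zero_right] at hb1
  have hs' : Icc a' b' ⊆ Ico a' b := Icc_subset_Ico_right hb2.2
  obtain ⟨v, hv, hvρ⟩ := intermediate_value_Icc' hb2.1.le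
    (hp.mono fun v hv => hs v (hs' hv)).norm ⟨hb1.le, hρ.2.le.trans (min_le_right _ _)⟩
  have k1 := hρ' (p v) (hi v (hs v (hs' hv))) hvρ
  have k2 : dist (fi W t (p v)) z < e := (hl' ⟨ha1.trans_le hv.1, (hs' hv).2⟩).1
  have k3 : dist (γ t) (fi W t (ρ * I)) < e :=
    hu' ⟨hρ0, hρ.2.trans_le ((min_le_left _ _).trans (min_le_right _ _))⟩ t ⟨ht, le_rfl⟩
  rw [← dist_eq_norm] at k1
  have k4 := dist_triangle4 z (fi W t (p v)) (fi W t (ρ * I)) (γ t)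
  rw [dist_comm] at k2 k3
  linarith

end Vale.Agent.P153.SLE
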