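import Vale.Agent.P153.SLE.Basic

/-! Connected sets reaching the tip pass near the tip of the limit trace. -/

open Set Filter Topology Metric Complex MeasureTheory ProbabilityTheory
open scoped ENNReal NNReal BoundedContinuousFunction

noncomputable section
namespace Vale.Agent.P153.SLE

open Vale.Agent.P164 (Pth HP Zf Xf Yf Rf Up fi dom unbd Wie Sup Generates)
open Vale.Agent.P153.CA (cay icay)

namespace Visn

theorem near (h2 : S_fic) (V : Pth) {t0 r1 r2 e : ℝ} (ht : 0 ≤ t0) (h1 : 0 < r1) (he : 0 < e) :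
    ∀ᶠ p : Pth × ℝ in 𝓝 (V, t0), ∀ y ∈ Icc r1 r2,
      ‖fi p.1 (max p.2 0) (y * I) - fi V t0 (y * I)‖ < e := by
  refine isCompact_Icc.eventually_forall_of_forall_eventually
    (P := fun (p : Pth × ℝ) (y : ℝ) => ‖fi p.1 (max p.2 0) (y * I) - fi V t0 (y * I)‖ < e)
    fun y hy => ?_
  have ho : {q : (Pth × ℝ) × ℝ | 0 < q.2} ∈ 𝓝 ((V, t0), y) :=
    (isOpen_lt continuous_const continuous_snd).mem_nhds (h1.trans_le hy.1)
  have c1 : ContinuousAt (fun q : (Pth × ℝ) × ℝ => fi q.1.1 (max q.1.2 0) (q.2 * I)) ((V, t0), y) :=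
    (ContinuousOn.comp h2 (f := fun q : (Pth × ℝ) × ℝ => (q.1.1, max q.1.2 0, (q.2 : ℂ) * I))
      (by fun_prop) fun q hq => ⟨le_max_right _ _, by simpa using hq⟩).continuousAt ho
  have c2 : ContinuousAt (fun q : (Pth × ℝ) × ℝ => fi V t0 (q.2 * I)) ((V, t0), y) :=
    (ContinuousOn.comp h2 (f := fun q : (Pth × ℝ) × ℝ => (V, t0, (q.2 : ℂ) * I))
      (by fun_prop) fun q hq => ⟨ht, by simpa using hq⟩).continuousAt ho
  refine (c1.sub c2).norm.eventually_lt continuousAt_const ?_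
  simpa [max_eq_left ht] using he

end Visn

theorem s_visn (h1 : S_zc) (h2 : S_fic) (h3 : S_vis) : S_visn := by
  intro V γ t0 β x hG ht hx hβ
  obtain ⟨M, -, -, hM⟩ := exists_bound V (t0 + 1)
  obtain ⟨C, C0, hC⟩ := h3 M (t0 + 1)
  have z0 : 0 < ‖Zf V t0 x‖ := lt_of_lt_of_le ((fA.alive V t0 x ht).1 hx) (im_le_norm _)
  have r := Metric.tendsto_nhds.1 ((hG.rad t0).tendsto_at (x := t0) ⟨ht, le_rfl⟩) (β / 4)
    (by positivity)
  obtain ⟨u, u0, hu⟩ := (nhdsGT_basis (0 : ℝ)).eventually_iff.1 r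
  obtain ⟨r2, a0, a1, a2, a3⟩ : ∃ r2 : ℝ, 0 < r2 ∧ r2 ≤ 1 ∧ r2 < ‖Zf V t0 x‖ ∧ r2 ≤ u :=
    ⟨min (min 1 (‖Zf V t0 x‖ / 2)) u, by positivity, (min_le_left _ _).trans (min_le_left _ _),
      ((min_le_left _ _).trans (min_le_right _ _)).trans_lt (half_lt_self z0), min_le_right _ _⟩
  obtain ⟨k, hk⟩ : ∃ k, k = 4 * C / β := ⟨_, rfl⟩
  have k0 : 0 < k := by rw [hk]; positivity
  have b0 : 0 < r2 / Real.exp (k ^ 2) := by positivity
  have b1 : r2 / Real.exp (k ^ 2) < r2 := div_lt_self a0 (Real.one_lt_exp_iff.2 (by positivity))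
  have b2 : C / √(Real.log (r2 / (r2 / Real.exp (k ^ 2)))) = β / 4 := by
    rw [div_div_cancel₀ a0.ne', Real.log_exp, Real.sqrt_sq k0.le, hk]
    field_simp
  have c1 : ContinuousAt (fun p : Pth × ℝ => ‖Zf p.1 p.2 x‖) (V, t0) :=
    (ContinuousAt.comp (f := fun p : Pth × ℝ => (x, p.1, p.2)) (x := (V, t0))
      (h1 x V t0 ht hx).2.1 (by fun_prop)).norm
  filter_upwards [continuousAt_fst.eventually hM,
    continuousAt_snd.eventually (gt_mem_nhds (lt_add_one t0)),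
    continuousAt_const.eventually_lt c1 a2,
    Visn.near h2 V (r2 := r2) ht b0 (show 0 < β / 4 by positivity)]
    with p p1 p2 p3 p4 hp P hP hd hxP hz
  obtain ⟨ρ, hρ, hv⟩ := hC p.1 p.2 _ r2 p1 ⟨hp, p2.le⟩ b0 b1 a1
  obtain ⟨w0, w1, w2⟩ := hz _ b0
  obtain ⟨w, hw, e⟩ := hP.intermediate_value w1 hxP ((fM.Z_cont p.1 p.2 hp).mono hd).norm
    (show ρ ∈ Icc _ _ from ⟨(w2.trans hρ.1).le, (hρ.2.trans p3).le⟩)
  have d1 := hv _ ((fA.alive p.1 p.2 w hp).1 (hd hw)) e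
  rw [cB.left p.1 p.2 w hp (hd hw), b2] at d1
  have d2 := p4 ρ ⟨hρ.1.le, hρ.2.le⟩
  rw [max_eq_left hp] at d2
  have d3 := hu (show ρ ∈ Ioo 0 u from ⟨b0.trans hρ.1, hρ.2.trans_le a3⟩)
  rw [dist_eq_norm] at d3
  refine ⟨w, hw, ?_⟩
  have d4 := norm_sub_le_norm_sub_add_norm_sub w (fi p.1 p.2 (ρ * I)) (γ t0)
  have d5 := norm_sub_le_norm_sub_add_norm_sub (fi p.1 p.2 (ρ * I)) (fi V t0 (ρ * I)) (γ t0)
  linarith

end Vale.Agent.P153.SLE
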