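import Vale.Agent.P153.SLE.Basic

/-! A point that is visible for both directions. -/

open Set Filter Topology Metric Complex MeasureTheory ProbabilityTheory
open scoped ENNReal NNReal BoundedContinuousFunction

noncomputable section
namespace Vale.Agent.P153.SLE

open Vale.Agent.P164 (Pth HP Zf Xf Yf Rf Up fi dom unbd Wie Sup Generates)
open Vale.Agent.P153.CA (cay icay)

namespace Vp

/-- The inversion. -/
def ni (z : ℂ) : ℂ := -z⁻¹

theorem ni_ni (z : ℂ) : ni (ni z) = z := by simp [ni]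

theorem ni_at {z : ℂ} (h : z ∈ HP) : ContinuousAt ni z :=
  (continuousAt_inv₀ fun e => by simp [e, HP] at h).neg

theorem ni_on {A : Set ℂ} (h : A ⊆ HP) : ContinuousOn ni A := fun _ hz =>
  (ni_at (h hz)).continuousWithinAt

theorem miss {O A : Set ℂ} (hO : IsOpen O) (hn : O.Nonempty) (hA : interior A = ∅) :
    ∃ x ∈ O, x ∉ A := by
  by_contra h
  push Not at h
  exact (hn.mono (interior_maximal h hO)).ne_empty hA

theorem pick {O A B : Set ℂ} (hO : IsOpen O) (hn : O.Nonempty) (hH : O ⊆ HP) (hA : IsClosed A)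
    (hA' : interior A = ∅) (hB : interior B = ∅) : ∃ x ∈ O, x ∉ A ∧ ni x ∉ B := by
  obtain ⟨x, h1, h2⟩ := miss hO hn hA'
  obtain ⟨y, h3, h4⟩ := miss ((ni_on Subset.rfl).isOpen_inter_preimage isOpen_HP (hO.sdiff hA))
    ⟨ni x, neg_inv_im_pos (hH h1), by rw [mem_preimage, ni_ni]; exact ⟨h1, h2⟩⟩ hB
  exact ⟨ni y, h3.2.1, h3.2.2, by rwa [ni_ni]⟩

theorem thin (h6 : S_nwd) {V : Pth} {γ : ℝ → ℂ} (h : Gd V γ) (T : ℝ) :
    IsClosed (γ '' Icc 0 T) ∧ interior (γ '' Icc 0 T) = ∅ :=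
  ⟨(isCompact_Icc.image_of_continuousOn (h.cont.mono Icc_subset_Ici_self)).isClosed,
    h6 γ 0 T (h.cont.mono Icc_subset_Ici_self) (h.inj.mono Icc_subset_Ici_self)⟩

theorem off (h1 : S_h1) {U : Ultrafilter ℕ} {c S τ W V γ} (h : Sq U c S τ W V γ) {R T : ℝ}
    (hT : ∀ᶠ n in U, ∀ v ∈ Ioo (0 : ℝ) 1, ‖icay (c n v)‖ ≤ R → v ≤ S n ∧ τ n v ≤ T) {x : ℂ}
    (hx : ‖x‖ ≤ R) (hx' : x ∉ γ '' Icc 0 T) :
    ∀ᶠ n in U, x ∉ (fun s => icay (c n s)) '' Ioo 0 1 := by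
  rw [Ultrafilter.eventually_not]
  intro k
  obtain ⟨u, hu⟩ := Eventually.choice (r := fun n s => s ∈ Ioo (0 : ℝ) 1 ∧ icay (c n s) = x) k
  have k2 : ∀ᶠ n in U, τ n (u n) ∈ Icc 0 T ∧ 0 < x.im ∧ x ∉ dom (W n) (τ n (u n)) := by
    filter_upwards [hu, hT, h.drv] with n a b d
    have e := b _ a.1 (a.2.symm ▸ hx)
    exact ⟨⟨d.2.nonneg ⟨a.1.1.le, e.1⟩, e.2⟩, a.2 ▸ d.1.pos a.1,
      a.2 ▸ d.2.dead ⟨a.1.1.le, e.1⟩ ⟨a.1.1, le_rfl⟩⟩
  obtain ⟨t0, ht0, l⟩ := (isCompact_Icc (a := (0 : ℝ)) (b := T)).ultrafilter_le_nhds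
    (U.map fun n => τ n (u n)) (le_principal_iff.2 (mem_map.2 (k2.mono fun n a => a.1)))
  exact hx' (image_mono (Icc_subset_Icc_right ht0.2) (h1 U V γ W (fun n => τ n (u n))
    (fun _ => x) t0 x inferInstance h.gd h.lim l tendsto_const_nhds
    (k2.mono fun n a => ⟨a.1.1, a.2⟩)))

end Vp

open Vp in
theorem s_vp (h1 : S_h1) (h2 : S_h2) (h3 : S_ap) (h4 : S_tip) (h5 : S_seg) (h6 : S_nwd) :
    S_vp := by
  intro U c S τ W V γ S' τ' W' V' γ' h h' m β hm hβ hQ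
  have hQ' : ni '' closedBall (γ m) β ⊆ HP := by
    rintro _ ⟨z, hz, rfl⟩
    exact neg_inv_im_pos (hQ hz)
  obtain ⟨T1, k1⟩ := h4 U c S τ W V γ h _ (isCompact_closedBall _ _) hQ
  obtain ⟨T2, k2⟩ := h4 U _ S' τ' W' V' γ' h' _
    ((isCompact_closedBall _ _).image_of_continuousOn (ni_on hQ)) hQ'
  obtain ⟨T3, k3⟩ := h3 U c S τ W V γ h (‖γ m‖ + β)
  obtain ⟨x, x1, x2, x3⟩ := pick isOpen_ball (nonempty_ball.2 hβ) (ball_subset_closedBall.trans hQ)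
    (thin h6 h.gd (max T1 T3)).1 (thin h6 h.gd (max T1 T3)).2 (thin h6 h'.gd T2).2
  have x4 := off h1 h k3 (norm_le_of_mem_closedBall (ball_subset_closedBall x1))
    fun k => x2 (image_mono (Icc_subset_Icc_right (le_max_right _ _)) k)
  have k4 : ∀ᶠ n in U, ∃ p : ℝ × Set ℂ, p.1 ∈ Ioo (0 : ℝ) 1 ∧ IsPreconnected p.2 ∧ x ∈ p.2 ∧
      p.2 ⊆ closedBall (γ m) β ∧ Disjoint p.2 ((fun s => icay (c n s)) '' Ioo 0 1) ∧
      icay (c n p.1) ∈ closure p.2 := by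
    filter_upwards [x4, h.drv, h.lim.eventually (h2.1 V γ m β h.gd hm hβ),
      h.cap.eventually_ge_atTop m] with n a d ⟨z, z1, z2, z3⟩ b
    obtain ⟨u, u1, -, u2⟩ := d.2.mem ⟨hm.le, b⟩ z1 z2
    obtain ⟨v, v1, P, v2⟩ := h5 (c n) _ x z d.1 (convex_closedBall _ _) hQ
      (ball_subset_closedBall x1) (mem_closedBall_iff_norm.2 z3.le) a
      ⟨u, ⟨u1.1, u1.2.trans_lt d.2.S1⟩, u2⟩
    exact ⟨(v, P), v1, v2⟩
  obtain ⟨p, hp⟩ := k4.choice
  obtain ⟨t0, a1, a2, a3, a4⟩ := k1 x (fun n => (p n).1) (fun n => (p n).2)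
    (fun k => x2 (image_mono (Icc_subset_Icc_right (le_max_left _ _)) k)) hp
  obtain ⟨t1, b1, ⟨y, y1, y2⟩, b3, b4⟩ := k2 (ni x) (fun n => 1 - (p n).1)
    (fun n => ni '' (p n).2) x3 (by
      filter_upwards [hp, h.drv] with n ⟨p1, p2, p3, p4, p5, p6⟩ d
      refine ⟨⟨by linarith [p1.2], by linarith [p1.1]⟩, p2.image _ (ni_on (p4.trans hQ)),
        mem_image_of_mem _ p3, image_mono p4, disjoint_left.2 ?_, ?_⟩
      · rintro _ ⟨w, w1, rfl⟩ ⟨s, s1, s2⟩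
        refine disjoint_left.1 p5 w1 ⟨1 - s, ⟨by linarith [s1.2], by linarith [s1.1]⟩, ?_⟩
        have e := congrArg ni ((icay_rev (c n) s).symm.trans s2)
        rw [ni_ni] at e
        exact (ni_ni _).symm.trans e
      · rw [icay_rev, sub_sub_cancel]
        exact (ni_at (d.1.pos p1)).continuousWithinAt.mem_closure_image p6)
  refine ⟨fun n => (p n).1, t0, t1, a1, b1.lt_of_ne fun e => ?_, a2, ?_, a3, b3, ?_⟩
  · have k := hQ' ⟨y, y1, y2⟩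
    rw [← e, h'.gd.g0] at k
    simp [HP] at k
  · rw [← y2]
    exact (ni_ni y).symm.subst (motive := (· ∈ closedBall (γ m) β)) y1
  · filter_upwards [hp, a4, b4] with n a b d using ⟨a.1, b, d⟩

end Vale.Agent.P153.SLE
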