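import Vale.Agent.P153.SLE.Basic

/-! Joint continuity of the Loewner flow at alive points. -/

open Set Filter Topology Metric Complex MeasureTheory ProbabilityTheory
open scoped ENNReal NNReal BoundedContinuousFunction

noncomputable section
namespace Vale.Agent.P153.SLE

open Vale.Agent.P164 (Pth HP Zf Xf Yf Rf Up fi dom unbd Wie Sup Generates)
open Vale.Agent.P153.CA (cay icay)

theorem s_zc : S_zc := by
  intro w W t ht hw
  have h0 := (fA.alive W t w ht).1 hw
  have hδ := half_pos h0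
  obtain ⟨φ, hφ⟩ := P164.flow0 _ 1 hδ abs_one.le
  have h1 := fC.to_flow _ φ hδ hφ w W t ht (half_lt_self h0)
  set δ := Yf W t w / 2
  have c1 : Continuous fun p : ℂ × Pth × ℝ => φ p.1 p.2.1 (max p.2.2 0) :=
    hφ.cont.comp (f := fun p : ℂ × Pth × ℝ => (p.1, p.2.1, max p.2.2 0)) (by fun_prop)
  have h2 : ∀ᶠ p : ℂ × Pth × ℝ in 𝓝 (w, W, t), δ < (φ p.1 p.2.1 (max p.2.2 0)).im :=
    continuousAt_const.eventually_lt (continuous_im.comp c1).continuousAt
      (h1.trans_eq (by simp only [max_eq_left ht]))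
  have h3 := h2.mono fun p hp => fC.of_flow δ φ hδ hφ p.1 p.2.1 _ (le_max_right _ _) hp
  refine ⟨h3.mono fun p hp => hp.1, ContinuousAt.congr (f := fun p : ℂ × Pth × ℝ =>
    φ p.1 p.2.1 (max p.2.2 0) - (p.2.1 (max p.2.2 0) : ℝ)) (c1.sub (by fun_prop)).continuousAt
    (h3.mono fun p hp => hp.2.symm.trans (by simp only [Zf, max_assoc, max_self])), ?_⟩
  have c2 : Continuous fun p : Pth × ℝ => φ w p.1 p.2 - (p.1 p.2 : ℝ) :=
    (hφ.cont.comp (f := fun p : Pth × ℝ => (w, p)) (by fun_prop)).sub (by fun_prop)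
  have c3 : Continuous fun V : Pth => ∫ u in (0 : ℝ)..t,
      4 * (φ w V u - (V u : ℝ)).im ^ 2 / max ‖φ w V u - (V u : ℝ)‖ δ ^ 4 :=
    intervalIntegral.continuous_parametric_intervalIntegral_of_continuous'
      ((continuous_const.mul ((continuous_im.comp c2).pow 2)).div
        ((c2.norm.max continuous_const).pow 4)
        fun p => pow_ne_zero _ (hδ.trans_le (le_max_right _ _)).ne') 0 t
  have h4 : ∀ᶠ V in 𝓝 W, δ < (φ w V t).im := continuousAt_const.eventually_lt
    (continuous_im.comp (hφ.cont.comp (f := fun V : Pth => (w, V, t)) (by fun_prop))).continuousAt h1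
  refine ((Real.continuous_exp.comp c3.neg).const_mul w.im).continuousAt.congr
    (h4.mono fun V hV => ?_)
  dsimp only
  rw [Up, max_eq_left ht, if_pos (fC.of_flow δ φ hδ hφ w V t ht hV).1]
  refine congrArg (fun x => w.im * Real.exp (-x)) (intervalIntegral.integral_congr fun u hu => ?_)
  rw [uIcc_of_le ht] at hu
  have h5 := hV.trans_le (fC.anti δ φ hδ hφ w V hu.2)
  have h6 : δ ≤ ‖φ w V u - (V u : ℝ)‖ :=
    h5.le.trans ((by simp : _ = (φ w V u - (V u : ℝ)).im).trans_le (im_le_norm _))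
  simp only [Yf, Rf, (fC.of_flow δ φ hδ hφ w V u hu.1 h5).2, max_eq_left h6]

end Vale.Agent.P153.SLE
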