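import Vale.Agent.P153.SLE.Bnd
import Vale.Agent.P153.SLE.Zc
import Vale.Agent.P153.SLE.Fic
import Vale.Agent.P153.SLE.Comp
import Vale.Agent.P153.SLE.Acc
import Vale.Agent.P153.SLE.Vis
import Vale.Agent.P153.SLE.Nrd
import Vale.Agent.P153.SLE.Cap
import Vale.Agent.P153.SLE.Gen
import Vale.Agent.P153.SLE.Ret
import Vale.Agent.P153.SLE.Simp
import Vale.Agent.P153.SLE.Doob
import Vale.Agent.P153.SLE.Osc
import Vale.Agent.P153.SLE.Occ1
import Vale.Agent.P153.SLE.Occ
import Vale.Agent.P153.SLE.Rad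
import Vale.Agent.P153.SLE.Nr1
import Vale.Agent.P153.SLE.Nrp
import Vale.Agent.P153.SLE.Good
import Vale.Agent.P153.SLE.H1
import Vale.Agent.P153.SLE.H2
import Vale.Agent.P153.SLE.Visn
import Vale.Agent.P153.SLE.Tip
import Vale.Agent.P153.SLE.Vp
import Vale.Agent.P153.SLE.Ord
import Vale.Agent.P153.SLE.Top
import Vale.Agent.P153.SLE.Key
import Vale.Agent.P153.SLE.Det
import Vale.Agent.P153.SLE.Tr
import Vale.Agent.P153.SLE.Port
import Vale.Agent.P153.SLE.Meas
import Vale.Agent.P153.SLE.Fin1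
import Vale.Agent.P153.SLE.Main

/-! The interface converges once the lattice part is known. -/

namespace Vale.Agent.P153.SLE

universe u

theorem vis0_all : S_vis0 := s_vis0 (s_vis s_bnd)
theorem nrd_all : S_nrd := s_nrd s_alv
theorem gen_all : S_gen := s_gen s_fic (s_acc s_alv) vis0_all s_bnd
theorem simp_all : S_simp := s_simp gen_all (s_ret gen_all s_comp vis0_all nrd_all) (s_cap s_bnd)
theorem rad_all : S_rad := s_rad s_rad0 (s_osc (s_tail s_doob)) (s_occ s_occ1) (s_dbd s_bnd)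
theorem good_all : S_good := s_good rad_all (s_nrp s_nr1 s_doob s_alv) simp_all
theorem h1_all : S_h1 := s_h1 s_zc nrd_all
theorem h2_all : S_h2 := s_h2 s_zc s_bnd
theorem ap_all : S_ap := s_ap h2_all
theorem tip_all : S_tip := s_tip ap_all (s_acc s_alv) (s_visn s_zc s_fic (s_vis s_bnd))
theorem vp_all : S_vp := s_vp h1_all h2_all ap_all tip_all s_seg s_nwd
theorem key_all : S_key :=
  s_key h1_all h2_all (s_rng h1_all h2_all ap_all) (s_ord h1_all h2_all vp_all) s_top

theorem sle_of (h : GEOA) : SLEconv.{u} :=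
  sle_main h s_wien good_all (s_tr (s_two h1_all h2_all) s_port) key_all s_det s_dsc
    (s_meas s_fic s_dsc) (s_fin1 s_port) s_fin2

end Vale.Agent.P153.SLE
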