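import Vale.Agent.P164.Wien
import Vale.Agent.P164.Cat
import Vale.Agent.P164.Max
import Vale.Agent.P164.Inc
import Vale.Agent.P164.ItoDet
import Vale.Agent.P164.Ito
import Vale.Agent.P164.SmAlg
import Vale.Agent.P164.SmInt
import Vale.Agent.P164.Flow0
import Vale.Agent.P164.FlowC
import Vale.Agent.P164.FlowA
import Vale.Agent.P164.FlowM
import Vale.Agent.P164.ConfA
import Vale.Agent.P164.Surj
import Vale.Agent.P164.ConfB
import Vale.Agent.P164.Dist
import Vale.Agent.P164.Koebe
import Vale.Agent.P164.Schwarz
import Vale.Agent.P164.Base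
import Vale.Agent.P164.LSAlg
import Vale.Agent.P164.Mon
import Vale.Agent.P164.Int
import Vale.Agent.P164.Gauge
import Vale.Agent.P164.Cover
import Vale.Agent.P164.Mass
import Vale.Agent.P164.HitDP
import Vale.Agent.P164.Stm2
import Vale.Agent.P153.CA.La
import Vale.Agent.P153.CA.Short
import Vale.Agent.P153.CA.Shadow
import Vale.Agent.P153.CA.Arc
import Vale.Agent.P153.CA.Bc2
import Vale.Agent.P153.CA.Bconv
import Vale.Agent.P153.CA.Bdir
import Vale.Agent.P153.CA.Jan
import Vale.Agent.P153.CA.Rot

/-! The proved facts on the Loewner flow and plane topology used for the interface. -/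

namespace Vale.Agent.P153.SLE

open Vale.Agent.P164 Vale.Agent.P153.CA

theorem fC : FlowCStmt := flowC flow0
theorem fA : FlowAStmt := flowA flow0 fC
theorem fM : FlowMStmt := flowM flow0 fC fA
theorem cA : ConfAStmt := confA fA fM
theorem cB : ConfBStmt := confB fA fM cA (surj flow0 fC)
theorem sch : SchwarzStmt := schwarzS fA fM cA cB
theorem bas : BaseStmt := base fA fM
theorem koe : KoebeStmt := koebe fA cB (dist3 fA fM cA cB)

theorem fnd : Fnd where
  cat := catS
  max := maxS catS
  ito := ito inc itoDet
  alg := smAlg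
  int := smInt
  flow := fA
  meas := fM
  confA := cA
  confB := cB
  koebe := koe
  schwarz := sch
  base := bas
  ls := lsAlg smAlg bas
  lsup := lsup (ito inc itoDet) smInt
  mon := monS fA bas (lsAlg smAlg bas)
  elem := intS
  gauge := gaugeS
  cover := cover gaugeS
  mass := mass gaugeS
  hit := hitDP catS fA

theorem ca_arc : S_arc := s_arc (s_bc2 s_bconv) (s_jan s_bdir (s_bc2 s_bconv))
theorem ca_short : S_short := s_short s_shadow

end Vale.Agent.P153.SLE
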