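import Vale.Agent.P153.SLE.Stm
import Vale.Agent.P153.SLE.Fnd
import Vale.Agent.P153.FKG.Basic

/-! Elementary facts on the Cayley map, disc curves and driving functions. -/

open Set Filter Topology Metric Complex

namespace Vale.Agent.P153.SLE

open Vale.Agent.P164 (Pth HP Zf Xf Yf Rf Up fi dom)
open Vale.Agent.P153.CA (cay icay Cf)

variable {z w : ℂ} {c : ℝ → ℂ} {S s t : ℝ} {τ : ℝ → ℝ} {W : Pth}

theorem add_I_ne (h : 0 ≤ z.im) : z + I ≠ 0 := fun e => by
  have := congrArg im e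
  simp at this
  linarith

theorem cay_zero : cay 0 = -1 := by simp [cay]

theorem cay_icay (h : w ≠ 1) : cay (icay w) = w := by
  have h1 : 1 - w ≠ 0 := sub_ne_zero.2 h.symm
  have e1 : icay w - I = 2 * I * w / (1 - w) := by unfold icay; field_simp; ring
  have e2 : icay w + I = 2 * I / (1 - w) := by unfold icay; field_simp; ring
  rw [cay, e1, e2]
  field_simp

theorem cay_sub_one (h : 0 ≤ z.im) : cay z - 1 = -(2 * I) / (z + I) := by
  have := add_I_ne h
  unfold cay; field_simp; ring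

theorem norm_cay_sub_one (h : 0 ≤ z.im) : ‖cay z - 1‖ = 2 / ‖z + I‖ := by
  rw [cay_sub_one h]; simp

theorem cay_ne_one (h : 0 ≤ z.im) : cay z ≠ 1 := fun e => by
  have h1 := cay_sub_one h
  rw [e, sub_self, eq_comm, div_eq_zero_iff] at h1
  exact h1.elim (by simp) (add_I_ne h)

theorem icay_cay (h : 0 ≤ z.im) : icay (cay z) = z := by
  have h1 := add_I_ne h
  have e1 : 1 + cay z = 2 * z / (z + I) := by unfold cay; field_simp; ring
  have e2 : 1 - cay z = 2 * I / (z + I) := by unfold cay; field_simp; ring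
  rw [icay, e1, e2]
  field_simp

theorem normSq_add_I (z : ℂ) : ‖z + I‖ ^ 2 = ‖z - I‖ ^ 2 + 4 * z.im := by
  simp only [Complex.sq_norm, normSq_apply, add_re, add_im, sub_re, sub_im, I_re, I_im]; ring

theorem norm_cay_le (h : 0 ≤ z.im) : ‖cay z‖ ≤ 1 := by
  rw [cay, norm_div]
  refine div_le_one_of_le₀ (abs_le_of_sq_le_sq' ?_ (norm_nonneg _)).2 (norm_nonneg _)
  rw [normSq_add_I]; linarith

theorem norm_cay_lt (h : 0 < z.im) : ‖cay z‖ < 1 := by
  rw [cay, norm_div, div_lt_one (norm_pos_iff.2 (add_I_ne h.le))]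
  refine lt_of_pow_lt_pow_left₀ 2 (norm_nonneg _) ?_
  rw [normSq_add_I]; linarith

theorem ne_one_of_lt (h : ‖w‖ < 1) : w ≠ 1 := fun e => by simp [e] at h

theorem icay_im_pos (h : ‖w‖ < 1) : 0 < (icay w).im := by
  have h1 : 0 < normSq (1 - w) := normSq_pos.2 (sub_ne_zero.2 (ne_one_of_lt h).symm)
  have h2 : w.re * w.re + w.im * w.im < 1 := by
    rw [← normSq_apply, ← Complex.sq_norm]
    exact pow_lt_one₀ (norm_nonneg _) h two_ne_zero
  have e : (icay w).im = (1 - (w.re * w.re + w.im * w.im)) / normSq (1 - w) := by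
    rw [icay, div_im]
    simp only [mul_im, mul_re, add_re, add_im, sub_re, sub_im, I_re, I_im, one_re, one_im]
    ring
  rw [e]
  exact div_pos (by linarith) h1

theorem icay_neg (w : ℂ) : icay (-w) = -(icay w)⁻¹ := by
  rw [icay, icay, inv_div, ← sub_eq_add_neg, sub_neg_eq_add, div_mul_eq_div_div_swap,
    div_I]
  ring

theorem continuousAt_cay (h : 0 ≤ z.im) : ContinuousAt cay z :=
  (continuousAt_id.sub continuousAt_const).div (continuousAt_id.add continuousAt_const) (add_I_ne h)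

theorem continuousAt_icay (h : w ≠ 1) : ContinuousAt icay w :=
  (continuousAt_const.mul (continuousAt_const.add continuousAt_id)).div
    (continuousAt_const.sub continuousAt_id) (sub_ne_zero.2 h.symm)

theorem neg_inv_im_pos (h : 0 < z.im) : 0 < (-z⁻¹).im := by
  rw [neg_im, inv_im, neg_div, neg_neg]
  exact div_pos h (normSq_pos.2 fun e => by simp [e] at h)

theorem isOpen_HP : IsOpen HP := isOpen_lt continuous_const continuous_im

theorem icay_rev (c : ℝ → ℂ) (s : ℝ) : icay (rev c s) = -(icay (c (1 - s)))⁻¹ := icay_neg _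

theorem DC.rev (h : DC c) : DC (rev c) where
  cont := (h.cont.comp (f := fun s : ℝ => 1 - s) (by fun_prop) fun s hs =>
    ⟨sub_nonneg.2 hs.2, sub_le_self _ hs.1⟩).neg
  inj := fun a ha b hb e => by
    have := h.inj ⟨by linarith [ha.2], by linarith [ha.1]⟩ ⟨by linarith [hb.2], by linarith [hb.1]⟩
      (neg_injective e)
    linarith
  c0 := by simp [SLE.rev, h.c1]
  c1 := by simp [SLE.rev, h.c0]
  ins := fun s hs => by
    rw [SLE.rev, norm_neg]
    exact h.ins _ ⟨by linarith [hs.2], by linarith [hs.1]⟩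

theorem DC.norm_le (h : DC c) (hs : s ∈ Icc (0 : ℝ) 1) : ‖c s‖ ≤ 1 := by
  rcases hs.1.eq_or_lt with rfl | h0
  · simp [h.c0]
  rcases hs.2.eq_or_lt with rfl | h1
  · simp [h.c1]
  exact (h.ins s ⟨h0, h1⟩).le

theorem DC.pos (h : DC c) (hs : s ∈ Ioo (0 : ℝ) 1) : 0 < (icay (c s)).im := icay_im_pos (h.ins s hs)

theorem DC.cay_icay (h : DC c) (hs : s ∈ Ioo (0 : ℝ) 1) : cay (icay (c s)) = c s :=
  SLE.cay_icay (ne_one_of_lt (h.ins s hs))

theorem DC.injOn (h : DC c) : InjOn (fun s => icay (c s)) (Ioo 0 1) := fun a ha b hb e =>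
  h.inj (Ioo_subset_Icc_self ha) (Ioo_subset_Icc_self hb) (by
    rw [← h.cay_icay ha, ← h.cay_icay hb]; exact congrArg cay e)

theorem Drv.nonneg (h : Drv c S τ W) (hs : s ∈ Icc 0 S) : 0 ≤ τ s :=
  h.t0 ▸ h.mono.monotoneOn ⟨le_rfl, h.S0⟩ hs hs.1

theorem Drv.pos (h : Drv c S τ W) (hs : s ∈ Ioc 0 S) : 0 < τ s :=
  h.t0 ▸ h.mono ⟨le_rfl, h.S0⟩ ⟨hs.1.le, hs.2⟩ hs.1

theorem Drv.surj (h : Drv c S τ W) (hs : s ∈ Icc 0 S) (ht : t ∈ Icc 0 (τ s)) :
    ∃ v ∈ Icc 0 s, τ v = t :=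
  intermediate_value_Icc hs.1 (h.cont.mono (Icc_subset_Icc_right hs.2)) (h.t0.symm ▸ ht)

theorem Drv.dead (h : Drv c S τ W) {v : ℝ} (hs : s ∈ Icc 0 S) (hv : v ∈ Ioc 0 s) :
    icay (c v) ∉ P164.dom W (τ s) := fun k => ((h.dom s hs) ▸ k).2 ⟨v, hv, rfl⟩

/-- Dead points lie on the curve. -/
theorem Drv.mem (h : Drv c S τ W) (ht : t ∈ Icc 0 (τ S)) (hz : 0 < z.im) (hd : z ∉ P164.dom W t) :
    ∃ v ∈ Ioc 0 S, τ v ≤ t ∧ icay (c v) = z := by
  obtain ⟨s, hs, rfl⟩ := h.surj ⟨h.S0, le_rfl⟩ ht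
  rw [h.dom s hs] at hd
  obtain ⟨v, hv, e⟩ : z ∈ (fun v => icay (c v)) '' Ioc 0 s := by_contra fun k => hd ⟨hz, k⟩
  exact ⟨v, ⟨hv.1, hv.2.trans hs.2⟩, h.mono.monotoneOn ⟨hv.1.le, hv.2.trans hs.2⟩ hs hv.2, e⟩

theorem cf_fi (W : Pth) (ht : 0 ≤ t) : Cf HP (dom W t) (fi W t) (Zf W t) where
  oU := isOpen_HP
  oV := fM.dom_open W t ht
  hf := fun ζ h => (cB.der W t ζ ht h).differentiableAt.differentiableWithinAt
  hg := fun w h => (cA.der W t w ht h).differentiableAt.differentiableWithinAt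
  mf := fun ζ h => (cB.right W t ζ ht h).1
  mg := fun w h => (fA.alive W t w ht).1 h
  gf := fun ζ h => (cB.right W t ζ ht h).2
  fg := fun w h => cB.left W t w ht h

theorem dom_pre (W : Pth) (ht : 0 ≤ t) : IsPreconnected (dom W t) := by
  have h := cf_fi W ht
  have e : dom W t = fi W t '' HP :=
    Subset.antisymm (fun w hw => ⟨_, h.mg hw, h.fg w hw⟩) h.mf.image_subset
  rw [e]
  exact (convex_halfSpace_im_gt 0).isPreconnected.image _ h.hf.continuousOn

theorem exists_bound (W : Pth) (T : ℝ) : ∃ M : ℝ, 0 ≤ M ∧ (∀ v ∈ Icc 0 T, |W v| ≤ M) ∧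
    ∀ᶠ V in 𝓝 W, ∀ v ∈ Icc 0 T, |V v| ≤ M := by
  obtain ⟨M, hM⟩ := (isCompact_Icc (a := (0 : ℝ)) (b := T)).exists_bound_of_continuousOn
    W.continuous.continuousOn
  have k : ∀ v ∈ Icc 0 T, |W v| < |M| + 1 := fun v hv =>
    ((hM v hv).trans (le_abs_self M)).trans_lt (lt_add_one _)
  refine ⟨|M| + 1, by positivity, fun v hv => (k v hv).le, ?_⟩
  refine (isCompact_Icc.eventually_forall_of_forall_eventually
    (P := fun (V : Pth) v => |V v| < |M| + 1) fun v hv => ?_).mono fun V h v hv => (h v hv).le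
  exact (continuous_abs.comp ContinuousEval.continuous_eval).continuousAt.eventually_lt
    continuousAt_const (k v hv)

end Vale.Agent.P153.SLE
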