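import Vale.Agent.P153.SLE.Basic

/-! Points that stay away from the driving point survive; displacement bounds for the flow. -/

open Set Filter Topology Metric Complex MeasureTheory ProbabilityTheory
open scoped ENNReal NNReal BoundedContinuousFunction

noncomputable section
namespace Vale.Agent.P153.SLE

open Vale.Agent.P164 (Pth HP Zf Xf Yf Rf Up fi dom unbd Wie Sup Generates)
open Vale.Agent.P153.CA (cay icay)

namespace Bnd

theorem move (W : Pth) (w : ℂ) {a b : ℝ} (ha : 0 ≤ a) (hab : a ≤ b) (hw : w ∈ dom W b)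
    (h1 : ∀ u ∈ Ioo a b, 1 ≤ ‖Zf W u w‖) :
    ‖Zf W b w + W b - (Zf W a w + W a)‖ ≤ 2 * (b - a) := by
  have hal : ∀ u ∈ Icc a b, w ∈ dom W u := fun u hu =>
    fA.dom_anti W u b (ha.trans hu.1) hu.2 hw
  have hZ : ContinuousOn (fun u => Zf W u w) (Icc a b) := fun u hu =>
    (fA.cont W u w (ha.trans hu.1) (hal u hu)).1.continuousWithinAt
  have hne : ∀ u ∈ Icc a b, Zf W u w ≠ 0 := fun u hu e => by
    have := (fA.alive W u w (ha.trans hu.1)).1 (hal u hu)
    rw [Yf, e] at this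
    simp at this
  have hg : ContinuousOn (fun u => Zf W u w + (W u : ℂ)) (Icc a b) :=
    hZ.add (continuous_ofReal.comp W.continuous).continuousOn
  have hi : IntervalIntegrable (fun u => 2 / Zf W u w) volume a b :=
    (continuousOn_const.div hZ hne).intervalIntegrable_of_Icc hab
  have hint := intervalIntegral.integral_eq_sub_of_hasDerivAt_of_le hab hg
    (fun u hu => (fA.der W u w (ha.trans_lt hu.1) (hal u (Ioo_subset_Icc_self hu))).1) hi
  rw [← hint]
  have hb : ∀ᵐ x : ℝ, x ≠ b := by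
    rw [ae_iff]
    simp
  have := intervalIntegral.norm_integral_le_of_norm_le_const_ae (a := a) (b := b) (C := 2)
    (f := fun u => 2 / Zf W u w) (by
      filter_upwards [hb] with x hx hxm
      rw [uIoc_of_le hab] at hxm
      have h2 := h1 x ⟨hxm.1, lt_of_le_of_ne hxm.2 hx⟩
      rw [norm_div]
      simp only [Complex.norm_ofNat]
      exact div_le_self (by norm_num) h2)
  rwa [abs_of_nonneg (sub_nonneg.2 hab)] at this

theorem disp (W : Pth) (T M : ℝ) (w : ℂ) (hM : ∀ v ∈ Icc 0 T, |W v| ≤ M) {t : ℝ}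
    (ht : t ∈ Icc 0 T) (hw : w ∈ dom W t) : ‖Zf W t w + W t - w‖ ≤ 2 * T + 2 * M + 2 := by
  have hM0 : 0 ≤ M := (abs_nonneg _).trans (hM t ht)
  have hal : ∀ u ∈ Icc 0 t, w ∈ dom W u := fun u hu => fA.dom_anti W u t hu.1 hu.2 hw
  have hZ : ContinuousOn (fun u => ‖Zf W u w‖) (Icc 0 t) := fun u hu =>
    (fA.cont W u w hu.1 (hal u hu)).1.norm.continuousWithinAt
  have hg0 : Zf W 0 w + W 0 = w := by
    rw [(fA.init W w hw.1).2.1]
    ring
  have hK : IsCompact (Icc 0 t ∩ (fun u => ‖Zf W u w‖) ⁻¹' Iic 1) :=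
    isCompact_Icc.of_isClosed_subset (hZ.preimage_isClosed_of_isClosed isClosed_Icc isClosed_Iic)
      inter_subset_left
  rcases (Icc 0 t ∩ (fun u => ‖Zf W u w‖) ⁻¹' Iic 1).eq_empty_or_nonempty with he | hne
  · have := move W w le_rfl ht.1 hw (fun u hu => by
      by_contra hc
      have : u ∈ Icc 0 t ∩ (fun u => ‖Zf W u w‖) ⁻¹' Iic 1 :=
        ⟨Ioo_subset_Icc_self hu, (not_le.1 hc).le⟩
      rw [he] at this
      exact this)
    rw [hg0] at this
    linarith [ht.2]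
  · obtain ⟨s1, hs1, hmin⟩ := hK.exists_isLeast hne
    obtain ⟨s0, hs0, hmax⟩ := hK.exists_isGreatest hne
    have h10 : s1 ≤ s0 := hmin hs0
    have hA := move W w le_rfl hs1.1.1 (hal s1 hs1.1) (fun u hu => by
      by_contra hc
      exact absurd (hmin ⟨⟨hu.1.le, hu.2.le.trans hs1.1.2⟩, (not_le.1 hc).le⟩) (not_le.2 hu.2))
    have hB := move W w hs0.1.1 hs0.1.2 hw (fun u hu => by
      by_contra hc
      exact absurd (hmax ⟨⟨hs0.1.1.trans hu.1.le, hu.2.le⟩, (not_le.1 hc).le⟩) (not_le.2 hu.1))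
    rw [hg0] at hA
    have hn : ∀ s ∈ Icc 0 t ∩ (fun u => ‖Zf W u w‖) ⁻¹' Iic 1, ‖Zf W s w + W s‖ ≤ 1 + M := by
      intro s hs
      refine (norm_add_le _ _).trans (add_le_add hs.2 ?_)
      rw [Complex.norm_real, Real.norm_eq_abs]
      exact hM s ⟨hs.1.1, hs.1.2.trans ht.2⟩
    have e : Zf W t w + W t - w = (Zf W t w + W t - (Zf W s0 w + W s0)) +
        ((Zf W s0 w + W s0) - (Zf W s1 w + W s1)) + (Zf W s1 w + W s1 - w) := by ring
    rw [e]
    have h1 := norm_add₃_le (a := Zf W t w + W t - (Zf W s0 w + W s0))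
      (b := (Zf W s0 w + W s0) - (Zf W s1 w + W s1)) (c := Zf W s1 w + W s1 - w)
    have h2 := norm_sub_le (Zf W s0 w + W s0) (Zf W s1 w + W s1)
    have h3 := hn s0 hs0
    have h4 := hn s1 hs1
    linarith [ht.2]

end Bnd

theorem s_alv : S_alv := by
  intro W T c w hT hc hw hR
  by_contra hdead
  have hYT : Yf W T w = 0 :=
    le_antisymm (not_lt.1 fun h => hdead ((fA.alive W T w hT).2 h)) (fA.Y_nonneg W T w)
  have hY0 : 0 < Yf W 0 w := (fA.alive W 0 w le_rfl).1 (fA.init W w hw).1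
  have hK : IsCompact (Icc 0 T ∩ (fun u => Yf W u w) ⁻¹' {0}) :=
    isCompact_Icc.inter_right (isClosed_singleton.preimage (fA.Y_cont W w))
  obtain ⟨t0, ht0, hmin⟩ := hK.exists_isLeast ⟨T, ⟨hT, le_rfl⟩, hYT⟩
  have hpos : ∀ u ∈ Ioo 0 t0, 0 < Yf W u w := fun u hu =>
    lt_of_le_of_ne (fA.Y_nonneg W u w) fun e =>
      absurd (hmin ⟨⟨hu.1.le, hu.2.le.trans ht0.1.2⟩, e.symm⟩) (not_le.2 hu.2)
  have hder : ∀ u ∈ Ioo 0 t0, HasDerivAt (fun u => Yf W u w * Real.exp (2 / c ^ 2 * u))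
      (-(2 * Yf W u w / Rf W u w ^ 2) * Real.exp (2 / c ^ 2 * u) +
        Yf W u w * (Real.exp (2 / c ^ 2 * u) * (2 / c ^ 2))) u := by
    intro u hu
    have hal := (fA.alive W u w hu.1.le).2 (hpos u hu)
    have h1 := (fA.der W u w hu.1 hal).2.2.1
    have h2 : HasDerivAt (fun u : ℝ => Real.exp (2 / c ^ 2 * u))
        (Real.exp (2 / c ^ 2 * u) * (2 / c ^ 2)) u := by
      have := ((hasDerivAt_id u).const_mul (2 / c ^ 2)).exp
      simpa using this
    exact h1.mul h2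
  have hmono : MonotoneOn (fun u => Yf W u w * Real.exp (2 / c ^ 2 * u)) (Icc 0 t0) := by
    apply monotoneOn_of_deriv_nonneg (convex_Icc 0 t0)
    · exact ((fA.Y_cont W w).mul (by fun_prop)).continuousOn
    · rw [interior_Icc]
      exact fun u hu => (hder u hu).differentiableAt.differentiableWithinAt
    · rw [interior_Icc]
      intro u hu
      rw [(hder u hu).deriv]
      have hal := (fA.alive W u w hu.1.le).2 (hpos u hu)
      have hRu := hR u ⟨hu.1.le, hu.2.le.trans ht0.1.2⟩ hal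
      have hY := hpos u hu
      have h1 : 2 * Yf W u w / Rf W u w ^ 2 ≤ 2 * Yf W u w / c ^ 2 :=
        div_le_div_of_nonneg_left (by positivity) (by positivity) (by gcongr)
      have e : -(2 * Yf W u w / Rf W u w ^ 2) * Real.exp (2 / c ^ 2 * u) +
          Yf W u w * (Real.exp (2 / c ^ 2 * u) * (2 / c ^ 2)) =
          (2 * Yf W u w / c ^ 2 - 2 * Yf W u w / Rf W u w ^ 2) * Real.exp (2 / c ^ 2 * u) := by
        ring
      rw [e]
      exact mul_nonneg (sub_nonneg.2 h1) (Real.exp_pos _).le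
  have h := hmono ⟨le_rfl, ht0.1.1⟩ ⟨ht0.1.1, le_rfl⟩ ht0.1.1
  have h0 : Yf W t0 w = 0 := ht0.2
  simp only [h0, mul_zero, Real.exp_zero, mul_one, zero_mul] at h
  linarith

theorem s_bnd : S_bnd := by
  intro W T M w hM
  refine ⟨fun t ht hw => Bnd.disp W T M w hM ht hw, fun hT hw hn => ?_⟩
  refine s_alv W T 1 w hT one_pos hw fun t ht hal => ?_
  have h1 := Bnd.disp W T M w hM ht hal
  have h2 : ‖(W t : ℂ)‖ ≤ M := by
    rw [Complex.norm_real, Real.norm_eq_abs]
    exact hM t ht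
  have e : w = Zf W t w + W t - (Zf W t w + W t - w) := by ring
  have h3 : ‖w‖ ≤ ‖Zf W t w‖ + ‖(W t : ℂ)‖ + ‖Zf W t w + W t - w‖ := by
    conv_lhs => rw [e]
    exact (norm_sub_le _ _).trans (add_le_add (norm_add_le _ _) le_rfl)
  unfold Rf
  linarith

end Vale.Agent.P153.SLE
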