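import Vale.Agent.P153.SLE.Drv

/-! Convergence of the characteristic functions of the increments. -/

open Set Filter Topology

noncomputable section
namespace Vale.Agent.P153.Drive

open Vale.Agent.P164 (Pth)

/-- The weight used at time `u`. -/
def DChrW (h : ℝ) (k : ℕ) (θ : ℕ → ℝ) (u : ℝ) : ℝ :=
  ∑ i ∈ Finset.range k, θ i * ((if u < (i + 1) * h then 1 else 0) - if u < i * h then 1 else 0)

/-- Partial sums up to the time `v`. -/
def DChrP (s a : ℕ → ℝ) (J : ℕ) (v : ℝ) : ℝ :=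
  ∑ j ∈ Finset.range J, (if s j < v then 1 else 0) * (a (j + 1) - a j)

theorem DChr_sum (h : ℝ) (k : ℕ) (θ : ℕ → ℝ) (s a : ℕ → ℝ) (J : ℕ) :
    ∑ j ∈ Finset.range J, DChrW h k θ (s j) * (a (j + 1) - a j) =
      ∑ i ∈ Finset.range k, θ i * (DChrP s a J ((i + 1) * h) - DChrP s a J (i * h)) := by
  simp only [DChrW, DChrP, Finset.sum_mul, ← Finset.sum_sub_distrib, Finset.mul_sum]
  rw [Finset.sum_comm]
  exact Finset.sum_congr rfl fun i _ => Finset.sum_congr rfl fun j _ => by ring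

theorem DChr_abs {h : ℝ} (k : ℕ) (θ : ℕ → ℝ) (u : ℝ) :
    |DChrW h k θ u| ≤ ∑ i ∈ Finset.range k, |θ i| := by
  refine (Finset.abs_sum_le_sum_abs _ _).trans (Finset.sum_le_sum fun i _ => ?_)
  rw [abs_mul]
  refine mul_le_of_le_one_right (abs_nonneg _) ?_
  split_ifs <;> norm_num

theorem DChr_zero {h : ℝ} (hh : 0 < h) (k : ℕ) (θ : ℕ → ℝ) {u : ℝ} (hu : k * h ≤ u) :
    DChrW h k θ u = 0 := by
  refine Finset.sum_eq_zero fun i hi => ?_
  have h1 : ((i : ℝ) + 1) * h ≤ k * h := by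
    have : i + 1 ≤ k := Finset.mem_range.1 hi
    exact mul_le_mul_of_nonneg_right (by exact_mod_cast this) hh.le
  have h2 : (i : ℝ) * h ≤ (i + 1) * h := mul_le_mul_of_nonneg_right (by linarith) hh.le
  rw [if_neg (by linarith), if_neg (by linarith)]
  ring

theorem DChr_sq {h : ℝ} (hh : 0 < h) (k : ℕ) (θ : ℕ → ℝ) (u : ℝ) :
    DChrW h k θ u ^ 2 = DChrW h k (fun i => θ i ^ 2) u := by
  induction k with
  | zero => simp [DChrW]
  | succ k ih =>
    have e : ∀ φ : ℕ → ℝ, DChrW h (k + 1) φ u = DChrW h k φ u +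
        φ k * ((if u < (k + 1) * h then 1 else 0) - if u < k * h then 1 else 0) :=
      fun φ => Finset.sum_range_succ _ _
    have h2 : (k : ℝ) * h ≤ (k + 1) * h := mul_le_mul_of_nonneg_right (by linarith) hh.le
    rw [e, e]
    by_cases hu : u < k * h
    · rw [if_pos hu, if_pos (by linarith), ← ih]
      ring
    · rw [if_neg hu, DChr_zero hh k _ (not_lt.1 hu), DChr_zero hh k _ (not_lt.1 hu)]
      split_ifs <;> ring

theorem DChr_tel (s : ℕ → ℝ) (hs : Monotone s) (J : ℕ) {v : ℝ} (hv : v ≤ s J) :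
    ∃ m, v ≤ s m ∧ (∀ j, j < m → s j < v) ∧ ∀ a : ℕ → ℝ, DChrP s a J v = a m - a 0 := by
  classical
  have hex : ∃ m, v ≤ s m := ⟨J, hv⟩
  refine ⟨Nat.find hex, Nat.find_spec hex, fun j hj => not_le.1 (Nat.find_min hex hj), fun a => ?_⟩
  have hm : Nat.find hex ≤ J := Nat.find_min' hex hv
  rw [DChrP, ← Finset.sum_range_add_sum_Ico _ hm, ← Finset.sum_range_sub a]
  rw [Finset.sum_eq_zero (s := Finset.Ico _ _) fun j hj => ?_, add_zero]
  · refine Finset.sum_congr rfl fun j hj => ?_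
    rw [if_pos (not_le.1 (Nat.find_min hex (Finset.mem_range.1 hj))), one_mul]
  · rw [if_neg (not_lt.2 ((Nat.find_spec hex).trans (hs (Finset.mem_Ico.1 hj).1))), zero_mul]

variable {ι : Type} {S : Set Cfg} {l : ℕ → Cfg → ι} {W : Cfg → Pth} {s : ℕ → Cfg → ℝ} {T R d : ℝ}

theorem DChr_near (P : Path S l W s T R d) (hd : 0 < d) {H : Cfg} (hH : H ∈ S) (J : ℕ) {v : ℝ}
    (h0 : 0 ≤ v) (hv : v ≤ s J H) :
    |DChrP (fun j => s j H) (fun j => pos W s j H) J v - (W H v - W H 0)| ≤ 4 * d ∧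
      0 ≤ DChrP (fun j => s j H) (fun j => s j H) J v - v ∧
      DChrP (fun j => s j H) (fun j => s j H) J v - v ≤ 2 * d ^ 2 := by
  have hs : Monotone fun j => s j H := monotone_nat_of_le_succ fun j => by
    have := (P.ds j H hH).1
    simp only [dl] at this
    linarith
  obtain ⟨m, h1, h2, h3⟩ := DChr_tel _ hs J hv
  rw [h3, h3]
  simp only [pos, P.s0 H hH] at h1 ⊢
  cases m with
  | zero =>
    rw [P.s0 H hH] at h1 ⊢
    have : v = 0 := le_antisymm h1 h0
    subst this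
    refine ⟨by simpa using hd.le, by simp, by simpa using sq_nonneg d⟩
  | succ m =>
    have a1 := (h2 m (Nat.lt_succ_self m)).le
    have a2 := abs_le.1 (P.osc m H hH v ⟨a1, h1⟩)
    have a3 := abs_le.1 (P.osc m H hH _ ⟨a1.trans h1, le_rfl⟩)
    have a4 := (P.ds m H hH).2
    simp only [dl] at a4
    exact ⟨abs_le.2 ⟨by linarith [a2.1, a2.2, a3.1, a3.2], by linarith [a2.1, a2.2, a3.1, a3.2]⟩,
      by linarith, by linarith⟩

theorem DChr_expo {h : ℝ} (_hh : 0 < h) (k : ℕ) (θ : ℕ → ℝ) (W : Cfg → Pth) (s : ℕ → Cfg → ℝ)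
    (J : ℕ) (H : Cfg) :
    expo W s (fun j H => Complex.I * (DChrW h k θ (s j H) : ℝ)) J H =
      Complex.exp (Complex.I * (∑ j ∈ Finset.range J, DChrW h k θ (s j H) * dl (pos W s) j H : ℝ) +
        (2 * ∑ j ∈ Finset.range J, DChrW h k θ (s j H) ^ 2 * dl s j H : ℝ)) := by
  rw [expo]
  refine congrArg Complex.exp ?_
  push_cast
  rw [Finset.mul_sum, Finset.mul_sum, ← Finset.sum_add_distrib]
  refine Finset.sum_congr rfl fun j _ => ?_
  rw [mul_pow, Complex.I_sq]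
  ring

theorem DChr_bd (P : Path S l W s T R d) {h : ℝ} (hh : 0 < h) (k : ℕ) (θ : ℕ → ℝ) (J : ℕ) {H : Cfg}
    (hH : H ∈ S) : ‖expo W s (fun j H => Complex.I * (DChrW h k θ (s j H) : ℝ)) J H‖ ≤
      Real.exp (2 * ((∑ i ∈ Finset.range k, |θ i|) ^ 2 * (T + 2))) := by
  rw [DChr_expo hh, Complex.norm_exp]
  refine Real.exp_le_exp.2 ?_
  simp only [Complex.add_re, Complex.mul_re, Complex.I_re, Complex.I_im, Complex.ofReal_re,
    Complex.ofReal_im, zero_mul, mul_zero, sub_zero, zero_add]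
  refine mul_le_mul_of_nonneg_left ?_ zero_le_two
  have h1 : ∑ j ∈ Finset.range J, dl s j H ≤ T + 2 := by
    have := Finset.sum_range_sub (fun j => s j H) J
    simp only [dl]
    rw [this, P.s0 H hH, sub_zero]
    exact (P.bd J H hH).1
  refine le_trans ?_ (mul_le_mul_of_nonneg_left h1 (sq_nonneg _))
  rw [Finset.mul_sum]
  refine Finset.sum_le_sum fun j _ => mul_le_mul_of_nonneg_right ?_ (P.ds j H hH).1
  exact sq_le_sq' (by linarith [(abs_le.1 (DChr_abs (h := h) k θ (s j H))).1])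
    (abs_le.1 (DChr_abs k θ _)).2

theorem DChr_good (P : Path S l W s T R d) (hd : 0 < d) (hd1 : d ≤ 1) {h : ℝ} (hh : 0 < h) (k : ℕ)
    (θ : ℕ → ℝ) (J : ℕ) {H : Cfg} (hH : H ∈ S) (hJ : k * h ≤ s J H)
    (hs : d * (8 * ∑ i ∈ Finset.range k, |θ i| + 4 * ∑ i ∈ Finset.range k, θ i ^ 2) ≤ 1) :
    ‖(Real.exp (-(2 * h * ∑ i ∈ Finset.range k, θ i ^ 2)) : ℂ) *
        expo W s (fun j H => Complex.I * (DChrW h k θ (s j H) : ℝ)) J H -
      Complex.exp (Complex.I * (∑ i ∈ Finset.range k, θ i * inc h i (W H) : ℝ))‖ ≤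
      2 * (d * (8 * ∑ i ∈ Finset.range k, |θ i| + 4 * ∑ i ∈ Finset.range k, θ i ^ 2)) := by
  have key : ∀ i ∈ Finset.range k, (0 ≤ (i : ℝ) * h ∧ (i : ℝ) * h ≤ s J H) ∧
      0 ≤ ((i : ℝ) + 1) * h ∧ ((i : ℝ) + 1) * h ≤ s J H := fun i hi => by
    have h1 : ((i : ℝ) + 1) * h ≤ k * h := by
      have : i + 1 ≤ k := Finset.mem_range.1 hi
      exact mul_le_mul_of_nonneg_right (by exact_mod_cast this) hh.le
    have h2 : (i : ℝ) * h ≤ (i + 1) * h := mul_le_mul_of_nonneg_right (by linarith) hh.le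
    exact ⟨⟨by positivity, by linarith⟩, by positivity, by linarith⟩
  set A := ∑ i ∈ Finset.range k, θ i * inc h i (W H) with hA
  set A' := ∑ j ∈ Finset.range J, DChrW h k θ (s j H) * dl (pos W s) j H with hA'
  set Q := ∑ j ∈ Finset.range J, DChrW h k θ (s j H) ^ 2 * dl s j H with hQ
  have e1 : |A' - A| ≤ d * (8 * ∑ i ∈ Finset.range k, |θ i|) := by
    have := DChr_sum h k θ (fun j => s j H) (fun j => pos W s j H) J
    simp only [hA', hA, dl]
    rw [this, ← Finset.sum_sub_distrib, Finset.mul_sum, Finset.mul_sum]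
    refine (Finset.abs_sum_le_sum_abs _ _).trans (Finset.sum_le_sum fun i hi => ?_)
    have a1 := abs_le.1 (DChr_near P hd hH J (key i hi).1.1 (key i hi).1.2).1
    have a2 := abs_le.1 (DChr_near P hd hH J (key i hi).2.1 (key i hi).2.2).1
    rw [← mul_sub, abs_mul, show d * (8 * |θ i|) = |θ i| * (8 * d) by ring]
    refine mul_le_mul_of_nonneg_left (abs_le.2 ⟨?_, ?_⟩) (abs_nonneg _)
    · simp only [inc]
      linarith [a1.1, a1.2, a2.1, a2.2]
    · simp only [inc]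
      linarith [a1.1, a1.2, a2.1, a2.2]
  have e2 : |2 * Q - 2 * h * ∑ i ∈ Finset.range k, θ i ^ 2| ≤
      d * (4 * ∑ i ∈ Finset.range k, θ i ^ 2) := by
    have := DChr_sum h k (fun i => θ i ^ 2) (fun j => s j H) (fun j => s j H) J
    simp only [hQ, dl, DChr_sq hh]
    rw [this, Finset.mul_sum, Finset.mul_sum, ← Finset.sum_sub_distrib, Finset.mul_sum,
      Finset.mul_sum]
    refine (Finset.abs_sum_le_sum_abs _ _).trans (Finset.sum_le_sum fun i hi => ?_)
    have a1 := (DChr_near P hd hH J (key i hi).1.1 (key i hi).1.2).2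
    have a2 := (DChr_near P hd hH J (key i hi).2.1 (key i hi).2.2).2
    have hd2 : d ^ 2 ≤ d := by nlinarith only [hd, hd1]
    generalize DChrP (fun j => s j H) (fun j => s j H) J ((i + 1) * h) = x at *
    generalize DChrP (fun j => s j H) (fun j => s j H) J (i * h) = y at *
    rw [show 2 * (θ i ^ 2 * (x - y)) - 2 * h * θ i ^ 2 = θ i ^ 2 * (2 * (x - y - h)) by ring,
      abs_mul, abs_of_nonneg (sq_nonneg _), show d * (4 * θ i ^ 2) = θ i ^ 2 * (4 * d) by ring]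
    refine mul_le_mul_of_nonneg_left (abs_le.2 ⟨?_, ?_⟩) (sq_nonneg _)
    · linarith only [a1.1, a1.2, a2.1, a2.2, hd2]
    · linarith only [a1.1, a1.2, a2.1, a2.2, hd2]
  rw [DChr_expo hh, ← hA', ← hQ]
  set r := 2 * Q - 2 * h * ∑ i ∈ Finset.range k, θ i ^ 2 with hr
  have e3 : ‖Complex.I * ((A' - A : ℝ) : ℂ) + (r : ℂ)‖ ≤
      d * (8 * ∑ i ∈ Finset.range k, |θ i| + 4 * ∑ i ∈ Finset.range k, θ i ^ 2) := by
    refine (norm_add_le _ _).trans ?_
    rw [norm_mul, Complex.norm_I, one_mul, Complex.norm_real, Complex.norm_real, Real.norm_eq_abs,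
      Real.norm_eq_abs, mul_add]
    exact add_le_add e1 e2
  have e4 : (Real.exp (-(2 * h * ∑ i ∈ Finset.range k, θ i ^ 2)) : ℂ) *
      Complex.exp (Complex.I * (A' : ℂ) + ((2 * Q : ℝ) : ℂ)) - Complex.exp (Complex.I * (A : ℂ)) =
      Complex.exp (Complex.I * (A : ℂ)) *
        (Complex.exp (Complex.I * ((A' - A : ℝ) : ℂ) + (r : ℂ)) - 1) := by
    rw [mul_sub, mul_one, Complex.ofReal_exp, ← Complex.exp_add, ← Complex.exp_add, hr]
    refine congrArg (fun z => Complex.exp z - _) ?_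
    generalize (∑ i ∈ Finset.range k, θ i ^ 2) = X
    push_cast
    ring
  rw [e4, norm_mul, mul_comm Complex.I (A : ℂ), Complex.norm_exp_ofReal_mul_I, one_mul]
  exact (Complex.norm_exp_sub_one_le (e3.trans hs)).trans
    (mul_le_mul_of_nonneg_left e3 zero_le_two)

theorem s_chr (h1 : S_exp) (h2 : S_fin) : S_chr := by
  rintro S W ⟨ι, hM⟩ h k θ c hh hc
  set Λ := ∑ i ∈ Finset.range k, |θ i| with hΛ
  set Θ := ∑ i ∈ Finset.range k, θ i ^ 2 with hΘ
  have hΛ0 : 0 ≤ Λ := Finset.sum_nonneg fun i _ => abs_nonneg _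
  have hΘ0 : 0 ≤ Θ := Finset.sum_nonneg fun i _ => sq_nonneg _
  obtain ⟨C', hC', h1⟩ := h1 Λ
  set T := k * h + 1 with hT
  have hT1 : 1 ≤ T := by
    have : 0 ≤ (k : ℝ) * h := by positivity
    linarith
  set B := Real.exp (2 * (Λ ^ 2 * (T + 2))) with hB
  have hB0 : 0 < B := Real.exp_pos _
  set E := Real.exp (-(2 * h * Θ)) with hE
  have hE0 : 0 < E := Real.exp_pos _
  have hE1 : E ≤ 1 := Real.exp_le_one_iff.2 (neg_nonpos.2 (by positivity))
  refine Metric.tendsto_nhds.2 fun ε hε => ?_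
  obtain ⟨R, hR8, hR⟩ : ∃ R : ℝ, 8 ≤ R ∧ (1 + B) * (4 * (1 + 4 * (T + 2)) / R ^ 2) ≤ ε / 4 := by
    refine ⟨max 8 ((1 + B) * (4 * (1 + 4 * (T + 2))) / (ε / 4)), le_max_left _ _, ?_⟩
    have a1 := le_max_left 8 ((1 + B) * (4 * (1 + 4 * (T + 2))) / (ε / 4))
    have a2 := le_max_right 8 ((1 + B) * (4 * (1 + 4 * (T + 2))) / (ε / 4))
    generalize max 8 ((1 + B) * (4 * (1 + 4 * (T + 2))) / (ε / 4)) = R at *
    rw [div_le_iff₀ (by positivity)] at a2
    rw [← mul_div_assoc, div_le_iff₀ (by positivity)]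
    have a3 : R ≤ R ^ 2 := by nlinarith only [a1]
    nlinarith only [a2, a3, hε]
  obtain ⟨L, hL1, hL⟩ : ∃ L : ℝ, 1 ≤ L ∧ (1 + B) * (5 * (T + 2) / L) ≤ ε / 4 := by
    refine ⟨max 1 ((1 + B) * (5 * (T + 2)) / (ε / 4)), le_max_left _ _, ?_⟩
    have a1 := le_max_left 1 ((1 + B) * (5 * (T + 2)) / (ε / 4))
    have a2 := le_max_right 1 ((1 + B) * (5 * (T + 2)) / (ε / 4))
    generalize max 1 ((1 + B) * (5 * (T + 2)) / (ε / 4)) = R at *
    rw [div_le_iff₀ (by positivity)] at a2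
    rw [← mul_div_assoc, div_le_iff₀ (by positivity)]
    linarith only [a2]
  obtain ⟨C, hC, hM⟩ := hM T R hT1 (by linarith)
  set K := 2 * (8 * Λ + 4 * Θ) + (1 + B) * ((L + 1) * C / L + 4 * ((L + 1) * (2 * R + 5) * C) / R ^ 2)
    + (L + 1) * B * (C' * (1 + C)) with hK
  have hR0 : 0 < R := by linarith
  have hL0 : 0 < L := by linarith
  have hK0 : 0 ≤ K := by positivity
  obtain ⟨d, hd, hd1, hd2, hd3⟩ : ∃ d : ℝ, 0 < d ∧ d ≤ 1 ∧ d * (8 * Λ + 4 * Θ) ≤ 1 ∧
      d * K ≤ ε / 4 := by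
    have a0 : 0 ≤ 8 * Λ + 4 * Θ := by positivity
    refine ⟨min (1 / (8 * Λ + 4 * Θ + 1)) (ε / 4 / (K + 1)), by positivity, ?_, ?_, ?_⟩
    · exact (min_le_left _ _).trans ((div_le_one (by positivity)).2 (by linarith))
    · refine (mul_le_mul_of_nonneg_right (min_le_left _ _) a0).trans ?_
      rw [div_mul_eq_mul_div, div_le_one (by positivity)]
      linarith
    · refine (mul_le_mul_of_nonneg_right (min_le_right _ _) hK0).trans ?_
      rw [div_mul_eq_mul_div, div_le_iff₀ (by positivity)]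
      nlinarith only [hε]
  filter_upwards [hM d hd hd1] with n hn
  obtain ⟨l, s, P, Mo⟩ := hn
  obtain ⟨J, hJ1, hJ2⟩ : ∃ J : ℕ, L ≤ J * d ^ 2 ∧ J * d ^ 2 ≤ L + 1 := by
    have a0 : 0 < d ^ 2 := by positivity
    have a1 := Nat.le_ceil (L / d ^ 2)
    have a2 := (Nat.ceil_lt_add_one (show 0 ≤ L / d ^ 2 by positivity)).le
    have a3 : d ^ 2 ≤ 1 := by nlinarith only [hd, hd1]
    refine ⟨⌈L / d ^ 2⌉₊, (div_le_iff₀ a0).1 a1, ?_⟩
    refine (mul_le_mul_of_nonneg_right a2 a0.le).trans ?_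
    rw [add_mul, div_mul_cancel₀ _ a0.ne']
    linarith
  have hJ : 1 ≤ J := by
    rcases Nat.eq_zero_or_pos J with h0 | h0
    · rw [h0] at hJ1
      simp at hJ1
      linarith
    · exact h0
  have hJ3 : J * d ^ 3 ≤ (L + 1) * d := by
    rw [show J * d ^ 3 = J * d ^ 2 * d by ring]
    exact mul_le_mul_of_nonneg_right hJ2 hd.le
  have b1 := h1 ι (S n) l (W n) s T R d C B (fun j H => Complex.I * (DChrW h k θ (s j H) : ℝ)) J c
    P Mo hd hd1 hC hc (fun j H _ => by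
      rw [norm_mul, Complex.norm_I, one_mul, Complex.norm_real]
      exact DChr_abs k θ _)
    (fun j H hH H' hH' e => by rw [(P.ad j H hH H' hH' e).1])
    (fun j _ H hH => DChr_bd P hh k θ j hH)
  have b2 := h2 ι (S n) l (W n) s T R d C J P Mo hd hd1 hC hT1 hR8 hJ
  set X := fun H => expo (W n) s (fun j H => Complex.I * (DChrW h k θ (s j H) : ℝ)) J H with hX
  set Z := fun H => Complex.exp (Complex.I *
    (∑ i ∈ Finset.range k, θ i * inc h i (W n H) : ℝ)) with hZ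
  have b3 : |Ex (S n) (fun H => (c * Z H).re) - E * Ex (S n) (fun H => (c * X H).re)| ≤
      2 * (d * (8 * Λ + 4 * Θ)) + (1 + B) * Pr (S n) {H | s J H ≤ T} := by
    rw [← Ex_mul_left, ← Ex_sub, Pr, ← Ex_mul_left, ← Ex_const P.good (2 * _), ← Ex_add]
    refine (abs_Ex_le _ _).trans (Ex_mono fun H hH => ?_)
    have c1 : |(c * Z H).re - E * (c * X H).re| ≤ ‖(E : ℂ) * X H - Z H‖ := by
      have : (c * Z H).re - E * (c * X H).re = (c * (Z H - E * X H)).re := by
        rw [mul_sub, Complex.sub_re, mul_left_comm, Complex.re_ofReal_mul]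
      rw [this, norm_sub_rev]
      refine (Complex.abs_re_le_norm _).trans ?_
      rw [norm_mul]
      exact mul_le_of_le_one_left (norm_nonneg _) hc
    refine c1.trans ?_
    have c0 : 0 ≤ 2 * (d * (8 * Λ + 4 * Θ)) := by positivity
    by_cases hb : s J H ≤ T
    · rw [indicator_of_mem (show H ∈ {H | s J H ≤ T} from hb), Pi.one_apply, mul_one]
      refine (norm_sub_le _ _).trans ?_
      have c2 : ‖Z H‖ = 1 := by
        simp only [hZ]
        rw [mul_comm, Complex.norm_exp_ofReal_mul_I]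
      have c3 : ‖(E : ℂ) * X H‖ ≤ B := by
        rw [norm_mul, Complex.norm_real, Real.norm_of_nonneg hE0.le]
        exact (mul_le_of_le_one_left (norm_nonneg _) hE1).trans (DChr_bd P hh k θ J hH)
      linarith only [c0, c2, c3]
    · rw [indicator_of_notMem (show H ∉ {H | s J H ≤ T} from hb), mul_zero, add_zero]
      exact DChr_good P hd hd1 hh k θ J hH (by linarith [not_le.1 hb]) hd2
  have b4 : Pr (S n) {H | s J H ≤ T} ≤ 5 * (T + 2) / L + 4 * (1 + 4 * (T + 2)) / R ^ 2 +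
      d * ((L + 1) * C / L + 4 * ((L + 1) * (2 * R + 5) * C) / R ^ 2) := by
    have c1 : J * C * d ^ 3 ≤ (L + 1) * C * d := by
      rw [mul_right_comm, mul_right_comm (L + 1)]
      exact mul_le_mul_of_nonneg_right hJ3 hC
    have c2 : J * (2 * R + 5) * C * d ^ 3 ≤ (L + 1) * (2 * R + 5) * C * d := by
      have := mul_le_mul_of_nonneg_right hJ3 (show 0 ≤ (2 * R + 5) * C by positivity)
      linarith only [this]
    have c3 : (5 * (T + 2) + J * C * d ^ 3) / (J * d ^ 2) ≤ (5 * (T + 2) + (L + 1) * C * d) / L :=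
      div_le_div₀ (by positivity) (by linarith only [c1]) hL0 hJ1
    have c4 : 4 * (1 + 4 * (T + 2) + J * (2 * R + 5) * C * d ^ 3) / R ^ 2 ≤
        4 * (1 + 4 * (T + 2) + (L + 1) * (2 * R + 5) * C * d) / R ^ 2 :=
      div_le_div_of_nonneg_right (by linarith only [c2]) (by positivity)
    refine b2.trans ((add_le_add c3 c4).trans (le_of_eq ?_))
    ring
  have b5 : |E * Ex (S n) (fun H => (c * X H).re) - c.re * E| ≤ d * ((L + 1) * B * (C' * (1 + C))) := by
    rw [mul_comm c.re, ← mul_sub, abs_mul, abs_of_pos hE0]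
    refine (mul_le_of_le_one_left (abs_nonneg _) hE1).trans (b1.trans ?_)
    have := mul_le_mul_of_nonneg_right hJ3 (show 0 ≤ B * (C' * (1 + C)) by positivity)
    linarith only [this]
  have b6 := mul_le_mul_of_nonneg_left b4 (show 0 ≤ 1 + B by positivity)
  rw [Real.dist_eq]
  have b7 := abs_sub_le (Ex (S n) (fun H => (c * Z H).re)) (E * Ex (S n) (fun H => (c * X H).re))
    (c.re * E)
  refine lt_of_le_of_lt b7 ?_
  rw [hK] at hd3
  nlinarith only [b3, b5, b6, hd3, hR, hL, hε]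

end Vale.Agent.P153.Drive
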