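import Vale.Agent.P153.SLE.Drv

/-! Convergence in law from finite dimensional laws and tightness. -/

open Set Filter Topology MeasureTheory

noncomputable section
namespace Vale.Agent.P153.Drive

open Vale.Agent.P164 (Pth Wie)

/-- A ramp on the grid interval number `i`. -/
def DConvRamp (h : ℝ) (i : ℕ) : Pth := ⟨fun u => max 0 (min 1 ((u - i * h) / h)), by fun_prop⟩

/-- Interpolation of increments. -/
def DConvIp (h : ℝ) (k : ℕ) (y : Fin k → ℝ) : Pth := ∑ i : Fin k, y i • DConvRamp h i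

theorem DConv_ipc (h : ℝ) (k : ℕ) : Continuous (DConvIp h k) :=
  continuous_finsetSum _ fun i _ => (continuous_apply i).smul continuous_const

theorem DConv_near {h T x : ℝ} (hh : 0 < h) {V : Pth} (h0 : |V 0| ≤ x)
    (ho : ∀ i : ℕ, i * h ≤ T → ∀ u ∈ Icc (i * h) ((i + 1) * h), |V u - V (i * h)| ≤ x) :
    ∀ u ∈ Icc 0 T, |V u - DConvIp h (⌊T / h⌋₊ + 1) (fun i => inc h i V) u| ≤ 3 * x := by
  intro u hu
  set j := ⌊u / h⌋₊ with hj
  have j1 : j * h ≤ u := (le_div_iff₀ hh).1 (Nat.floor_le (div_nonneg hu.1 hh.le))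
  have j2 : u ≤ (j + 1) * h := ((div_lt_iff₀ hh).1 (Nat.lt_floor_add_one _)).le
  have j3 : j ≤ ⌊T / h⌋₊ := Nat.floor_mono (div_le_div_of_nonneg_right hu.2 hh.le)
  have e : DConvIp h (⌊T / h⌋₊ + 1) (fun i => inc h i V) u =
      V (j * h) - V 0 + inc h j V * DConvRamp h j u := by
    simp only [DConvIp, ContinuousMap.coe_sum, Finset.sum_apply, ContinuousMap.smul_apply,
      smul_eq_mul]
    rw [Fin.sum_univ_eq_sum_range (fun i => inc h i V * DConvRamp h i u),
      ← Finset.sum_subset (Finset.range_mono (Nat.succ_le_succ j3)), Finset.sum_range_succ]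
    · congr 1
      have := Finset.sum_range_sub (fun i : ℕ => V (i * h)) j
      simp only [Nat.cast_zero, zero_mul, Nat.cast_add, Nat.cast_one] at this
      rw [← this]
      refine Finset.sum_congr rfl fun i hi => ?_
      have i1 : (i + 1 : ℝ) ≤ j := by exact_mod_cast Finset.mem_range.1 hi
      have : (1 : ℝ) ≤ (u - i * h) / h := (one_le_div hh).2 (by nlinarith)
      simp [DConvRamp, this, inc]
    · intro i _ hi
      have i1 : (j + 1 : ℝ) ≤ i := by exact_mod_cast not_lt.1 (mt Finset.mem_range.2 hi)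
      have : (u - i * h) / h ≤ 0 := div_nonpos_of_nonpos_of_nonneg (by nlinarith) hh.le
      simp [DConvRamp, this]
  have k1 := abs_le.1 (ho j (j1.trans hu.2) u ⟨j1, j2⟩)
  have k2 : |inc h j V * DConvRamp h j u| ≤ x := by
    rw [abs_mul]
    refine (mul_le_of_le_one_right (abs_nonneg _) ?_).trans
      (ho j (j1.trans hu.2) _ ⟨j1.trans j2, le_rfl⟩)
    exact abs_le.2 ⟨le_trans (by norm_num) (le_max_left _ _), max_le zero_le_one (min_le_left _ _)⟩
  rw [abs_le] at h0 k2
  rw [e, abs_le]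
  constructor <;> linarith [h0.1, h0.2, k1.1, k1.2, k2.1, k2.2]

theorem DConv_uc {T : ℝ} {Φ : Pth → ℝ} (h : UC T Φ) : Continuous Φ := by
  refine Metric.continuous_iff'.2 fun V e he => ?_
  obtain ⟨d, hd, k⟩ := h (e / 2) (by positivity)
  filter_upwards [((ContinuousMap.continuous_restrict (Icc 0 T)).tendsto V).eventually
    (Metric.ball_mem_nhds _ hd)] with V' hV
  refine (k V' V fun u hu => ?_).trans_lt (by linarith)
  exact (ContinuousMap.dist_apply_le_dist (f := V'.restrict (Icc 0 T)) (g := V.restrict (Icc 0 T))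
    ⟨u, hu⟩).trans (le_of_lt hV)

theorem DConv_lim {T : ℝ} {Φ : Pth → ℝ} (h : UC T Φ) {V : Pth} (h0 : V 0 = 0) :
    Tendsto (fun m : ℕ => Φ (DConvIp (1 / (m + 1)) (⌊T / (1 / (m + 1))⌋₊ + 1)
      fun i => inc (1 / (m + 1)) i V)) atTop (𝓝 (Φ V)) := by
  refine Metric.tendsto_nhds.2 fun e he => ?_
  obtain ⟨d, hd, k⟩ := h (e / 2) (by positivity)
  obtain ⟨δ, hδ, q⟩ := Metric.uniformContinuousOn_iff_le.1
    (isCompact_Icc.uniformContinuousOn_of_continuous (s := Icc 0 (T + 1))
      V.continuous.continuousOn) (d / 3) (by positivity)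
  filter_upwards [tendsto_one_div_add_atTop_nhds_zero_nat.eventually (ge_mem_nhds hδ)] with m hm
  have p : (0 : ℝ) < 1 / (m + 1) := Nat.one_div_pos_of_nat
  have p1 : (1 : ℝ) / (m + 1) ≤ 1 := div_le_one_of_le₀ (by simp) (by positivity)
  generalize (1 : ℝ) / (m + 1) = h at hm p p1
  rw [dist_comm]
  refine (k _ _ fun u hu => (DConv_near p (x := d / 3) (by rw [h0, abs_zero]; positivity)
    (fun i hi v hv => ?_) u hu).trans (by linarith)).trans_lt (by linarith)
  have i0 : 0 ≤ i * h := by positivity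
  refine q v ⟨i0.trans hv.1, by linarith [hv.2]⟩ _ ⟨i0, by linarith⟩ ?_
  rw [Real.dist_eq, abs_of_nonneg (sub_nonneg.2 hv.1)]
  linarith [hv.2]

theorem s_conv : S_conv := by
  intro S W hS h0 hF hT μ hμ hμ0 T B Φ hB hΦ
  have := hμ.prob
  have B0 : 0 ≤ B := (abs_nonneg _).trans (hB 0)
  have c := DConv_uc hΦ
  have l := tendsto_integral_of_dominated_convergence (μ := μ) (fun _ => B)
    (F := fun (m : ℕ) V => Φ (DConvIp (1 / (m + 1)) (⌊T / (1 / (m + 1))⌋₊ + 1)
      fun i => inc (1 / (m + 1)) i V))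
    (fun m => (c.comp ((DConv_ipc _ _).comp (continuous_pi fun i =>
      (continuous_eval_const _).sub (continuous_eval_const _)))).aestronglyMeasurable)
    (integrable_const B) (fun m => ae_of_all _ fun V => hB _)
    (hμ0.mono fun V hV => DConv_lim hΦ hV)
  refine Metric.tendsto_nhds.2 fun e he => ?_
  obtain ⟨d, hd, k⟩ := hΦ (e / 4) (by positivity)
  obtain ⟨h₀, p0, q⟩ := hT T (d / 3) (e / (8 * (B + 1))) (by positivity) (by positivity)
  obtain ⟨m, m1, m2⟩ := ((Metric.tendsto_nhds.1 l (e / 4) (by positivity)).and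
    (tendsto_one_div_add_atTop_nhds_zero_nat.eventually (ge_mem_nhds p0))).exists
  have p : (0 : ℝ) < 1 / (m + 1) := Nat.one_div_pos_of_nat
  generalize (1 : ℝ) / (m + 1) = h at m1 m2 p
  filter_upwards [q h p m2, h0 (d / 3) (by positivity), Metric.tendsto_nhds.1
    (hF μ hμ h B (⌊T / h⌋₊ + 1) (fun y => Φ (DConvIp h _ y)) p (c.comp (DConv_ipc _ _))
      fun _ => hB _) (e / 4) (by positivity)] with n n1 n2 n3
  set E : Set Cfg := {H | ∃ i : ℕ, i * h ≤ T ∧ ∃ u ∈ Icc (i * h) ((i + 1) * h),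
    d / 3 < |W n H u - W n H (i * h)|} with hE
  have k1 : |Ex (S n) (fun H => Φ (W n H)) -
      Ex (S n) fun H => Φ (DConvIp h (⌊T / h⌋₊ + 1) fun i => inc h i (W n H))| ≤
      e / 4 + 2 * B * Pr (S n) E := by
    rw [← Ex_sub, Pr, ← Ex_mul_left, ← Ex_const (hS n) (e / 4), ← Ex_add]
    refine (abs_Ex_le _ _).trans (Ex_mono fun H hH => ?_)
    by_cases hH' : H ∈ E
    · simp only [indicator_of_mem hH', Pi.one_apply, mul_one]
      refine (abs_sub _ _).trans ?_
      linarith [hB (W n H), hB (DConvIp h (⌊T / h⌋₊ + 1) fun i => inc h i (W n H))]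
    · simp only [indicator_of_notMem hH', mul_zero, add_zero]
      exact k _ _ fun u hu => (DConv_near p (n2 H hH) (fun i hi v hv =>
        not_lt.1 fun h' => hH' ⟨i, hi, v, hv, h'⟩) u hu).trans (by linarith)
  have k2 : 2 * B * Pr (S n) E ≤ e / 4 := by
    calc _ ≤ 2 * (B + 1) * (e / (8 * (B + 1))) := by
          gcongr
          · exact Pr_nonneg _ _
          · linarith
      _ = _ := by field_simp; ring
  rw [Real.dist_eq, abs_lt] at m1 n3 ⊢
  rw [abs_le] at k1
  constructor <;> linarith [k1.1, k1.2, m1.1, m1.2, n3.1, n3.2]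

end Vale.Agent.P153.Drive
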