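import Vale.Agent.P153.SLE.Drv

/-! The exponential functional is nearly a martingale. -/

open Set Filter Topology MeasureTheory

noncomputable section
namespace Vale.Agent.P153.Drive

open Vale.Agent.P164 (Pth)
open Vale.Agent.P153.Seal (cex ex_lab)

theorem DExp_tay {L d x s : ℝ} {z : ℂ} (hz : ‖z‖ ≤ L) (hd : 0 < d) (hd1 : d ≤ 1) (hx : |x| ≤ 2 * d)
    (hs : 0 ≤ s) (hs' : s ≤ 2 * d ^ 2) :
    ‖Complex.exp (z * x - 2 * z ^ 2 * s) - (1 + z * x + z ^ 2 / 2 * (x ^ 2 - 4 * s : ℝ))‖ ≤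
      ((2 * L + 4 * L ^ 2) ^ 3 * Real.exp (2 * L + 4 * L ^ 2) + 8 * L ^ 3 + 8 * L ^ 4) * d ^ 3 := by
  have hL : 0 ≤ L := (norm_nonneg _).trans hz
  have nx : ‖(x : ℂ)‖ ≤ 2 * d := by simpa using hx
  have ns : ‖(s : ℂ)‖ ≤ 2 * d ^ 2 := by simpa [abs_of_nonneg hs] using hs'
  have d2 : d ^ 2 ≤ d := by nlinarith
  have ha : ‖z * x - 2 * z ^ 2 * s‖ ≤ (2 * L + 4 * L ^ 2) * d := by
    refine (norm_sub_le _ _).trans ?_
    rw [norm_mul, norm_mul, norm_mul, norm_pow, Complex.norm_two]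
    calc ‖z‖ * ‖(x : ℂ)‖ + 2 * ‖z‖ ^ 2 * ‖(s : ℂ)‖ ≤ L * (2 * d) + 2 * L ^ 2 * (2 * d) := by
          gcongr
          linarith
      _ = _ := by ring
  have ha' : ‖z * x - 2 * z ^ 2 * s‖ ≤ 2 * L + 4 * L ^ 2 :=
    ha.trans (mul_le_of_le_one_right (by positivity) hd1)
  have h1 := Complex.norm_exp_sub_sum_le_norm_mul_exp (z * x - 2 * z ^ 2 * s) 3
  have e : Complex.exp (z * x - 2 * z ^ 2 * s) - (1 + z * x + z ^ 2 / 2 * (x ^ 2 - 4 * s : ℝ)) =
      (Complex.exp (z * x - 2 * z ^ 2 * s) -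
        ∑ m ∈ Finset.range 3, (z * x - 2 * z ^ 2 * s) ^ m / m.factorial) +
        (2 * z ^ 4 * s ^ 2 - 2 * z ^ 3 * x * s) := by
    simp only [Finset.sum_range_succ, Finset.range_zero, Finset.sum_empty, Nat.factorial]
    push_cast
    ring
  have h2 : ‖2 * z ^ 4 * s ^ 2 - 2 * z ^ 3 * x * s‖ ≤ (8 * L ^ 4 + 8 * L ^ 3) * d ^ 3 := by
    refine (norm_sub_le _ _).trans ?_
    simp only [norm_mul, norm_pow, Complex.norm_two]
    have k : ‖(s : ℂ)‖ ^ 2 ≤ 2 * d ^ 2 * (2 * d) := by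
      rw [sq]
      gcongr
      linarith
    calc 2 * ‖z‖ ^ 4 * ‖(s : ℂ)‖ ^ 2 + 2 * ‖z‖ ^ 3 * ‖(x : ℂ)‖ * ‖(s : ℂ)‖
        ≤ 2 * L ^ 4 * (2 * d ^ 2 * (2 * d)) + 2 * L ^ 3 * (2 * d) * (2 * d ^ 2) := by gcongr
      _ = _ := by ring
  have h3 : ‖z * x - 2 * z ^ 2 * s‖ ^ 3 * Real.exp ‖z * x - 2 * z ^ 2 * s‖ ≤
      ((2 * L + 4 * L ^ 2) * d) ^ 3 * Real.exp (2 * L + 4 * L ^ 2) := by gcongr
  rw [e]
  refine (norm_add_le _ _).trans ((add_le_add (h1.trans h3) h2).trans (le_of_eq ?_))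
  ring

variable {ι : Type} {S : Set Cfg} {l : ℕ → Cfg → ι} {W : Cfg → Pth} {s : ℕ → Cfg → ℝ}
  {T R d : ℝ}

theorem DExp_ref (h : Path S l W s T R d) {H H' : Cfg} (hH : H ∈ S) (hH' : H' ∈ S) {i j : ℕ}
    (hij : i ≤ j) (e : l j H' = l j H) : l i H' = l i H := by
  induction j, hij using Nat.le_induction with
  | base => exact e
  | succ j _ ih => exact ih (h.ref j H hH H' hH' e)

theorem DExp_nn (h : Path S l W s T R d) {H : Cfg} (hH : H ∈ S) (j : ℕ) : 0 ≤ s j H := by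
  induction j with
  | zero => exact (h.s0 H hH).ge
  | succ j ih =>
    have := (h.ds j H hH).1
    unfold dl at this
    linarith

theorem DExp_pos (h : Path S l W s T R d) {H H' : Cfg} (hH : H ∈ S) (hH' : H' ∈ S) {j : ℕ}
    (e : l j H' = l j H) : pos W s j H' = pos W s j H := by
  have k := h.ad j H hH H' hH' e
  unfold pos
  rw [k.1]
  exact k.2 ⟨DExp_nn h hH j, le_rfl⟩

theorem DExp_ad (h : Path S l W s T R d) {lam : ℕ → Cfg → ℂ}
    (hl : ∀ j, ∀ H ∈ S, ∀ H' ∈ S, l j H' = l j H → lam j H' = lam j H) {H H' : Cfg} (hH : H ∈ S)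
    (hH' : H' ∈ S) {j : ℕ} (e : l j H' = l j H) : expo W s lam j H' = expo W s lam j H := by
  unfold expo
  congr 1
  refine Finset.sum_congr rfl fun i hi => ?_
  have hi' := Finset.mem_range.1 hi
  have e1 := DExp_ref h hH hH' hi'.le e
  have e2 := DExp_ref h hH hH' (Nat.succ_le_of_lt hi') e
  unfold dl
  rw [hl i H hH H' hH' e1, DExp_pos h hH hH' e1, DExp_pos h hH hH' e2, (h.ad i H hH H' hH' e1).1,
    (h.ad _ H hH H' hH' e2).1]

theorem DExp_lab (S : Set Cfg) (l : Cfg → ι) (X g : Cfg → ℝ) {a b : ℝ} (ha : 0 ≤ a) (hb : 0 ≤ b)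
    (hg : ∀ H ∈ S, ∀ K ∈ S, l K = l H → g K = g H) (h1 : ∀ H ∈ S, |g H| ≤ a)
    (h2 : ∀ H ∈ S, |cex S l X H| ≤ b) : |Ex S fun H => g H * X H| ≤ a * b := by
  rw [ex_lab S l X g hg]
  refine abs_Ex_le_of (mul_nonneg ha hb) fun H hH => ?_
  rw [abs_mul]
  exact mul_le_mul (h1 H hH) (h2 H hH) (abs_nonneg _) ha

theorem s_exp : S_exp := by
  intro Λ
  obtain ⟨L, hL, hΛ⟩ : ∃ L : ℝ, 0 ≤ L ∧ Λ ≤ L := ⟨|Λ|, abs_nonneg _, le_abs_self _⟩
  obtain ⟨K, hK, eK⟩ : ∃ K : ℝ, 0 ≤ K ∧ K =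
      (2 * L + 4 * L ^ 2) ^ 3 * Real.exp (2 * L + 4 * L ^ 2) + 8 * L ^ 3 + 8 * L ^ 4 :=
    ⟨_, by positivity, rfl⟩
  refine ⟨L + L ^ 2 + K, by positivity, ?_⟩
  intro ι S l W s T R d C B lam J c hP hM hd hd1 hC hc hb hl hB
  induction J with
  | zero => simp [expo, Ex_const hP.good]
  | succ j ih =>
    have ih := ih fun i hi => hB i (Nat.lt_succ_of_lt hi)
    have hB := hB j (Nat.lt_succ_self j)
    obtain ⟨H₀, h0⟩ := hP.good.2
    have B0 : 0 ≤ B := (norm_nonneg _).trans (hB H₀ h0)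
    have hb : ∀ H ∈ S, ‖lam j H‖ ≤ L := fun H hH => (hb j H hH).trans hΛ
    have cB : ∀ H ∈ S, ‖c * expo W s lam j H‖ ≤ B := fun H hH => by
      rw [norm_mul]
      exact (mul_le_of_le_one_left (norm_nonneg _) hc).trans (hB H hH)
    have d3 : 0 ≤ C * d ^ 3 := by positivity
    have k1 := DExp_lab S (l j) (dl (pos W s) j) (fun H => (c * expo W s lam j H * lam j H).re)
      (a := B * L) (by positivity) d3
      (fun H hH H' hH' e => by simp only [DExp_ad hP hl hH hH' e, hl j H hH H' hH' e])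
      (fun H hH => (Complex.abs_re_le_norm _).trans (by
        rw [norm_mul]
        exact mul_le_mul (cB H hH) (hb H hH) (norm_nonneg _) B0)) (hM.m1 j)
    have k2 := DExp_lab S (l j) (fun K => dl (pos W s) j K ^ 2 - 4 * dl s j K)
      (fun H => (c * expo W s lam j H * (lam j H ^ 2 / 2)).re) (a := B * L ^ 2) (by positivity) d3
      (fun H hH H' hH' e => by simp only [DExp_ad hP hl hH hH' e, hl j H hH H' hH' e])
      (fun H hH => (Complex.abs_re_le_norm _).trans (by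
        rw [norm_mul, norm_div, norm_pow, Complex.norm_two]
        refine mul_le_mul (cB H hH) ((half_le_self (by positivity)).trans ?_) (by positivity) B0
        gcongr
        exact hb H hH)) (hM.m2 j)
    have k3 : |Ex S fun H => (c * expo W s lam j H *
        (Complex.exp (lam j H * (dl (pos W s) j H : ℝ) - 2 * lam j H ^ 2 * (dl s j H : ℝ)) -
          (1 + lam j H * (dl (pos W s) j H : ℝ) +
            lam j H ^ 2 / 2 * (dl (pos W s) j H ^ 2 - 4 * dl s j H : ℝ)))).re| ≤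
        B * (K * d ^ 3) := by
      refine abs_Ex_le_of (by positivity) fun H hH => (Complex.abs_re_le_norm _).trans ?_
      have k := hP.ds j H hH
      rw [norm_mul, eK]
      refine mul_le_mul (cB H hH) (DExp_tay (hb H hH) hd hd1
        (hP.osc j H hH _ ⟨sub_nonneg.1 k.1, le_rfl⟩) k.1 k.2) (norm_nonneg _) B0
    have e : ∀ H, (c * expo W s lam (j + 1) H).re = (c * expo W s lam j H).re +
        (c * expo W s lam j H * lam j H).re * dl (pos W s) j H +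
        (c * expo W s lam j H * (lam j H ^ 2 / 2)).re * (dl (pos W s) j H ^ 2 - 4 * dl s j H) +
        (c * expo W s lam j H *
        (Complex.exp (lam j H * (dl (pos W s) j H : ℝ) - 2 * lam j H ^ 2 * (dl s j H : ℝ)) -
          (1 + lam j H * (dl (pos W s) j H : ℝ) +
            lam j H ^ 2 / 2 * (dl (pos W s) j H ^ 2 - 4 * dl s j H : ℝ)))).re := fun H => by
      rw [← Complex.re_mul_ofReal, ← Complex.re_mul_ofReal, ← Complex.add_re, ← Complex.add_re,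
        ← Complex.add_re, expo, Finset.sum_range_succ, Complex.exp_add, ← expo]
      congr 1
      ring
    simp only [e, Ex_add]
    have a1 := abs_le.1 ih
    have a2 := abs_le.1 k1
    have a3 := abs_le.1 k2
    have a4 := abs_le.1 k3
    have a5 : B * L * (C * d ^ 3) + B * L ^ 2 * (C * d ^ 3) + B * (K * d ^ 3) ≤
        B * ((L + L ^ 2 + K) * (1 + C)) * d ^ 3 := by
      have : 0 ≤ B * ((L + L ^ 2) + K * C) * d ^ 3 := by positivity
      linarith
    rw [Nat.cast_succ, abs_le]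
    constructor <;> linarith [a1.1, a1.2, a2.1, a2.2, a3.1, a3.2, a4.1, a4.2]

end Vale.Agent.P153.Drive
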