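import Vale.Agent.P153.SLE.Drv

/-! Far points stay alive; the observables only depend on the past. -/

open Set Filter Topology MeasureTheory
open scoped Real

noncomputable section
namespace Vale.Agent.P153.Drive

open Vale.Agent.P164 (Pth Zf Yf)

theorem s_far (hA : P164.FlowAStmt) : S_far := by
  intro T R
  have hT := abs_nonneg T
  have hR := abs_nonneg R
  have hT' := le_abs_self T
  have hR' := le_abs_self R
  refine ⟨|T| + |R| + 1, by linarith, fun w₀ w W s h1 h2 h3 hrun u hu => ?_⟩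
  have h4 : |(w - w₀).im| ≤ 1 := (Complex.abs_im_le_norm _).trans h3
  rw [Complex.sub_im, abs_le] at h4
  have h5 : 3 * (|T| + |R| + 1) ≤ w.im := by linarith
  obtain ⟨-, h6, -⟩ := hA.init W w (by linarith)
  have h7 : Yf W 0 w = w.im := by simp [Yf, h6]
  have h8 := hA.Y_sq W w 0 u le_rfl hu.1
  have huT : u ≤ T := hu.2.trans hrun.1
  have h9 : 2 ≤ Yf W u w := by
    refine (pow_le_pow_iff_left₀ zero_le_two (hA.Y_nonneg W u w) two_ne_zero).1 ?_
    rw [h7] at h8
    nlinarith
  have hd : w ∈ P164.dom W u := (hA.alive W u w hu.1).2 (by linarith)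
  refine ⟨hd, ?_⟩
  have h10 := hA.move W w 0 u le_rfl hu.1 hd
  rw [h6, sub_add_cancel, sub_zero] at h10
  have h11 : 2 * u / Yf W u w ≤ u := by
    rw [div_le_iff₀ (by linarith)]
    nlinarith [hu.1]
  have h12 : ‖(W u : ℂ)‖ ≤ R := by
    rw [Complex.norm_real, Real.norm_eq_abs]
    exact hrun.2 u hu
  have e : Zf W u w - w₀ = (Zf W u w + W u - w) - W u + (w - w₀) := by ring
  rw [e]
  have := norm_add_le (Zf W u w + W u - w - W u) (w - w₀)
  have := norm_sub_le (Zf W u w + W u - w) (W u : ℂ)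
  linarith

theorem s_past (hA : P164.FlowAStmt) : S_past := by
  intro ν V W s hs h
  have hZ : ∀ u ∈ Icc 0 s, ∀ w, Zf V u w = Zf W u w := fun u hu w =>
    ((hA.loc V W s h u hu).2 w).1
  have h1 : ∀ u ∈ Icc 0 s, co1 ν V u = co1 ν W u := fun u hu => by simp only [co1, hZ u hu]
  have hs' : s ∈ Icc 0 s := ⟨hs, le_rfl⟩
  refine ⟨by simp only [obsM, hZ s hs'], h1 s hs', by simp only [co2, hZ s hs'], ?_⟩
  unfold obsQ
  congr 1
  refine intervalIntegral.integral_congr fun u hu => ?_
  rw [uIcc_of_le hs] at hu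
  simp only [h1 u hu]

end Vale.Agent.P153.Drive
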