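import Vale.Agent.P153.SLE.Drv

/-! Finite dimensional laws of the driving functions. -/

open Set Filter Topology MeasureTheory ProbabilityTheory
open scoped Real ENNReal

noncomputable section
namespace Vale.Agent.P153.Drive

open Vale.Agent.P164 (Pth Zf Wie)

theorem DFdd_inc (h : ℝ) (i : ℕ) : Measurable (inc h i) :=
  (P164.measurable_ev _).sub (P164.measurable_ev _)

theorem DFdd_meas (h : ℝ) (k : ℕ) (θ : ℕ → ℝ) : Measurable fun V : Pth =>
    Complex.exp (Complex.I * (∑ i ∈ Finset.range k, θ i * inc h i V : ℝ)) :=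
  ((Complex.measurable_ofReal.comp (Finset.measurable_sum _ fun i _ =>
    (DFdd_inc h i).const_mul _)).const_mul _).cexp

theorem DFdd_one {μ : Measure Pth} (hμ : Wie 4 μ) {h : ℝ} (h0 : 0 < h) (a : ℝ) :
    ∫ V : Pth, Complex.exp (Complex.I * (a * (V h - V 0) : ℝ)) ∂μ =
      Real.exp (-(2 * h * a ^ 2)) := by
  have hm : Measurable fun V : Pth => V h - V 0 := (P164.measurable_ev _).sub (P164.measurable_ev _)
  have h1 := charFun_gaussianReal (μ := 0) (v := (4 * h).toNNReal) a
  rw [← hμ.law h h0.le, charFun_apply_real, integral_map hm.aemeasurable (by fun_prop),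
    Real.coe_toNNReal _ (by positivity)] at h1
  rw [Complex.ofReal_exp]
  refine Eq.trans (integral_congr_ae (.of_forall fun V => ?_)) (h1.trans ?_)
  · simp only
    congr 1
    push_cast
    ring
  · congr 1
    push_cast
    ring

theorem s_wchr : S_wchr := by
  intro μ hμ h k θ h0
  have := hμ.prob
  induction k with
  | zero => simp
  | succ k ih =>
    have hs : (0 : ℝ) ≤ k * h := by positivity
    have e : ∀ p : Pth × Pth, Complex.exp (Complex.I *
        (∑ i ∈ Finset.range (k + 1), θ i * inc h i (P164.cat (k * h) p.1 p.2) : ℝ)) =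
        Complex.exp (Complex.I * (∑ i ∈ Finset.range k, θ i * inc h i p.1 : ℝ)) *
          Complex.exp (Complex.I * (θ k * (p.2 h - p.2 0) : ℝ)) := fun p => by
      rw [← Complex.exp_add, ← mul_add, ← Complex.ofReal_add, Finset.sum_range_succ]
      congr 4
      · refine Finset.sum_congr rfl fun i hi => ?_
        have h1 : (i : ℝ) + 1 ≤ k := by exact_mod_cast Finset.mem_range.1 hi
        rw [inc, inc, P164.cat_of_le _ _ (by nlinarith), P164.cat_of_le _ _ (by nlinarith)]
      · rw [inc, add_mul, one_mul, P164.cat_add _ _ h0.le, P164.cat_of_le _ _ le_rfl]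
        ring
    conv_lhs => rw [← hμ.cat _ hs]
    rw [integral_map (P164.measurable_cat _).aemeasurable
      (DFdd_meas h (k + 1) θ).aestronglyMeasurable]
    simp only [e]
    rw [integral_prod_mul (fun V : Pth =>
        Complex.exp (Complex.I * (∑ i ∈ Finset.range k, θ i * inc h i V : ℝ)))
      (fun V : Pth => Complex.exp (Complex.I * (θ k * (V h - V 0) : ℝ))), ih, DFdd_one hμ h0,
      ← Complex.ofReal_mul, ← Real.exp_add, Finset.sum_range_succ]
    congr 2
    ring

theorem DFdd_law {E : Type} [MeasurableSpace E] [MeasurableSingletonClass E] {S : Set Cfg}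
    (hS : Good S) (x : Cfg → E) : ∃ P : ProbabilityMeasure E, ∀ (g : E → ℂ) (c : ℂ),
      (c * ∫ y, g y ∂(P : Measure E)).re = Ex S fun H => (c * g (x H)).re := by
  have h0 : (S.ncard : ℝ≥0∞) ≠ 0 := by exact_mod_cast ((ncard_pos hS.1).2 hS.2).ne'
  refine ⟨⟨(S.ncard : ℝ≥0∞)⁻¹ • ∑ H ∈ hS.1.toFinset, Measure.dirac (x H), ⟨?_⟩⟩, fun g c => ?_⟩
  · rw [Measure.smul_apply, Measure.finsetSum_apply]
    simp only [measure_univ, Finset.sum_const, nsmul_eq_mul, mul_one, smul_eq_mul]
    rw [← ncard_eq_toFinset_card S hS.1]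
    exact ENNReal.inv_mul_cancel h0 (ENNReal.natCast_ne_top _)
  · rw [ProbabilityMeasure.coe_mk, integral_smul_measure,
      integral_finsetSum_measure fun H _ => integrable_dirac enorm_lt_top, Ex_eq hS.1]
    simp only [integral_dirac, ENNReal.toReal_inv, ENNReal.toReal_natCast]
    rw [← Complex.re_sum, ← Finset.mul_sum, mul_smul_comm, Complex.smul_re, smul_eq_mul,
      div_eq_inv_mul]

theorem s_fdd (h : S_wchr) : S_fdd := by
  intro S W hS hC μ hμ d B k f hd hf hB
  have := hμ.prob
  let X : Pth → EuclideanSpace ℝ (Fin k) := fun V => WithLp.toLp 2 fun i => inc d i V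
  have hX : Measurable X := (WithLp.measurable_toLp _ _).comp
    (measurable_pi_lambda _ fun i => DFdd_inc d i)
  choose P hP using fun n => DFdd_law (hS n) fun H => X (W n H)
  let Q : ProbabilityMeasure (EuclideanSpace ℝ (Fin k)) :=
    ⟨μ.map X, Measure.isProbabilityMeasure_map hX.aemeasurable⟩
  have h1 : Tendsto P atTop (𝓝 Q) := by
    refine ProbabilityMeasure.tendsto_iff_tendsto_charFun.2 fun t => ?_
    let θ : ℕ → ℝ := fun i => if hi : i < k then t ⟨i, hi⟩ else 0
    have e : ∀ V : Pth, Complex.exp ((inner ℝ (X V) t : ℝ) * Complex.I) =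
        Complex.exp (Complex.I * (∑ i ∈ Finset.range k, θ i * inc d i V : ℝ)) := fun V => by
      rw [mul_comm, ← Fin.sum_univ_eq_sum_range (fun i => θ i * inc d i V) k, PiLp.inner_apply]
      congr 3
      refine Finset.sum_congr rfl fun i _ => ?_
      simp [θ, X]
    have h2 : charFun (Q : Measure _) t = Real.exp (-(2 * d * ∑ i ∈ Finset.range k, θ i ^ 2)) := by
      rw [charFun_apply, ProbabilityMeasure.coe_mk, integral_map hX.aemeasurable (by fun_prop)]
      simp only [e]
      exact h μ hμ d k θ hd
    have h3 : ∀ c : ℂ, ‖c‖ ≤ 1 → Tendsto (fun n => (c * charFun (P n : Measure _) t).re) atTop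
        (𝓝 (c.re * Real.exp (-(2 * d * ∑ i ∈ Finset.range k, θ i ^ 2)))) := fun c hc => by
      refine (hC d k θ c hd hc).congr fun n => ?_
      rw [charFun_apply, hP]
      simp only [e]
    have h4 := h3 1 (by simp)
    have h5 := h3 (-Complex.I) (by simp)
    simp only [one_mul, Complex.one_re] at h4
    simp only [neg_mul, Complex.neg_re, Complex.I_mul_re, neg_neg, Complex.I_re, neg_zero,
      zero_mul] at h5
    have h6 := ((Complex.continuous_ofReal.tendsto _).comp h4).add
      (((Complex.continuous_ofReal.tendsto _).comp h5).mul_const Complex.I)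
    rw [h2]
    simpa only [Function.comp_def, Complex.re_add_im, Complex.ofReal_zero, zero_mul, add_zero]
      using h6
  have hc : Continuous fun y : EuclideanSpace ℝ (Fin k) => f y.ofLp :=
    hf.comp (PiLp.continuous_ofLp _ _)
  have h2 := ProbabilityMeasure.tendsto_iff_forall_integral_tendsto.1 h1
    (BoundedContinuousFunction.ofNormedAddCommGroup _ hc B fun y => hB _)
  simp only [BoundedContinuousFunction.coe_ofNormedAddCommGroup] at h2
  rw [ProbabilityMeasure.coe_mk, integral_map hX.aemeasurable hc.aestronglyMeasurable] at h2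
  refine h2.congr fun n => ?_
  have h3 := hP n (fun y => (f y.ofLp : ℝ)) 1
  simpa only [one_mul, integral_complex_ofReal, Complex.ofReal_re] using h3

end Vale.Agent.P153.Drive
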