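import Vale.Agent.P153.SLE.Drv

/-! The skeleton reaches the final time. -/

open Set

noncomputable section
namespace Vale.Agent.P153.Drive

open Vale.Agent.P164 (Pth)
open Vale.Agent.P153.Seal (cex ex_lab)

variable {ι : Type} {S : Set Cfg} {l : ℕ → Cfg → ι} {W : Cfg → Pth} {s : ℕ → Cfg → ℝ}
  {T R d C : ℝ}

theorem DFin_nonneg (hP : Path S l W s T R d) (j : ℕ) {H : Cfg} (hH : H ∈ S) : 0 ≤ s j H := by
  induction j with
  | zero => exact (hP.s0 H hH).ge
  | succ j ih =>
    have := (hP.ds j H hH).1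
    unfold dl at this
    linarith

theorem DFin_alt (hP : Path S l W s T R d) (hd : d ≤ 1) (hR : 8 ≤ R) (hT : 1 ≤ T) (j : ℕ)
    {H : Cfg} (hH : H ∈ S) : (∀ i ≤ j, Run T R (s i H) (W H)) ∨
      (¬ Run T R (s j H) (W H) ∧ (s j H ≤ T → R / 2 ≤ |pos W s j H|)) := by
  induction j with
  | zero =>
    refine .inl fun i hi => ?_
    obtain rfl : i = 0 := by omega
    rw [hP.s0 H hH]
    refine ⟨by linarith, fun u hu => ?_⟩
    obtain rfl : u = 0 := le_antisymm hu.2 hu.1
    linarith [hP.w0 H hH]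
  | succ j ih =>
    rcases ih with ih | ⟨h1, h2⟩
    · by_cases h : Run T R (s (j + 1) H) (W H)
      · refine .inl fun i hi => ?_
        rcases Nat.lt_or_eq_of_le hi with hi | rfl
        · exact ih i (by omega)
        · exact h
      · refine .inr ⟨h, fun hs => ?_⟩
        by_contra hlt
        refine h ⟨hs, fun u hu => ?_⟩
        rcases le_total u (s j H) with hu' | hu'
        · exact (ih j le_rfl).2 u ⟨hu.1, hu'⟩
        · have e1 := hP.osc j H hH u ⟨hu', hu.2⟩
          have e2 := hP.osc j H hH _ ⟨hu'.trans hu.2, le_rfl⟩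
          unfold pos at hlt
          rw [not_le, abs_lt] at hlt
          rw [abs_le] at e1 e2 ⊢
          constructor <;> linarith [e1.1, e1.2, e2.1, e2.2, hlt.1, hlt.2]
    · have e := hP.stop j H hH h1
      refine .inr ?_
      unfold pos at h2 ⊢
      rw [e]
      exact ⟨h1, h2⟩

theorem DFin_m2 (hP : Path S l W s T R d) (hM : Mom S l W s d C) (j : ℕ) :
    Ex S (fun K => dl (pos W s) j K ^ 2) ≤ 4 * Ex S (dl s j) + C * d ^ 3 := by
  have h : Ex S (fun K => dl (pos W s) j K ^ 2 - 4 * dl s j K) ≤ C * d ^ 3 := by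
    rw [tower S (l j)]
    exact Ex_le hP.good fun H hH => (le_abs_self _).trans (hM.m2 j H hH)
  rw [Ex_sub, Ex_mul_left] at h
  linarith

theorem DFin_m1 (hP : Path S l W s T R d) (hM : Mom S l W s d C) (j : ℕ) :
    Ex S (fun K => pos W s j K * dl (pos W s) j K) ≤ (R + 2) * (C * d ^ 3) := by
  rw [ex_lab S (l j) (dl (pos W s) j) (pos W s j) fun H hH K hK e => ?_]
  · refine Ex_le hP.good fun H hH => (le_abs_self _).trans ?_
    have h1 : |pos W s j H| ≤ R + 2 := (hP.bd j H hH).2 _ ⟨DFin_nonneg hP j hH, le_rfl⟩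
    rw [abs_mul]
    exact mul_le_mul h1 (hM.m1 j H hH) (abs_nonneg _) ((abs_nonneg _).trans h1)
  · obtain ⟨e1, e2⟩ := hP.ad j H hH K hK e
    unfold pos
    rw [e1]
    exact e2 ⟨DFin_nonneg hP j hH, le_rfl⟩

theorem DFin_ds (S : Set Cfg) (s : ℕ → Cfg → ℝ) (j : ℕ) :
    Ex S (dl s j) = Ex S (s (j + 1)) - Ex S (s j) := Ex_sub S _ _

theorem DFin_s0 (hP : Path S l W s T R d) : Ex S (s 0) = 0 :=
  (Ex_congr hP.s0).trans (Ex_zero S)

theorem DFin_sum (hP : Path S l W s T R d) (hM : Mom S l W s d C) (J : ℕ) :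
    Ex S (fun H => ∑ j ∈ Finset.range J, (dl s j H + dl (pos W s) j H ^ 2)) ≤
      5 * Ex S (s J) + J * C * d ^ 3 := by
  induction J with
  | zero => simp [Ex_zero, DFin_s0 hP]
  | succ J ih =>
    simp only [Finset.sum_range_succ, Ex_add]
    have h1 := DFin_m2 hP hM J
    have h2 := DFin_ds S s J
    have h3 : Ex S (fun H => dl s J H) = Ex S (dl s J) := rfl
    push_cast
    linarith

theorem DFin_sq (hP : Path S l W s T R d) (hM : Mom S l W s d C) (hd : d ≤ 1) (J : ℕ) :
    Ex S (fun H => pos W s J H ^ 2) ≤ 1 + 4 * Ex S (s J) + J * (2 * R + 5) * C * d ^ 3 := by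
  induction J with
  | zero =>
    rw [DFin_s0 hP]
    refine (Ex_le hP.good (c := 1) fun H hH => ?_).trans (by simp)
    unfold pos
    rw [hP.s0 H hH, sq_le_one_iff_abs_le_one]
    exact (hP.w0 H hH).trans hd
  | succ J ih =>
    have e : Ex S (fun H => pos W s (J + 1) H ^ 2) = Ex S fun H => pos W s J H ^ 2 +
        (2 * (pos W s J H * dl (pos W s) J H) + dl (pos W s) J H ^ 2) :=
      Ex_congr fun H _ => by unfold dl; ring
    rw [e, Ex_add, Ex_add, Ex_mul_left]
    have h1 := DFin_m2 hP hM J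
    have h2 := DFin_ds S s J
    have h3 := DFin_m1 hP hM J
    push_cast
    linarith

theorem s_fin : S_fin := by
  intro ι S l W s T R d C J hP hM hd0 hd hC hT hR hJ
  have hs : Ex S (s J) ≤ T + 2 := Ex_le hP.good fun H hH => (hP.bd J H hH).1
  have hJ' : (0 : ℝ) < J := by exact_mod_cast hJ
  have h1 : J * d ^ 2 * Pr S {H | ∀ i ≤ J, Run T R (s i H) (W H)} ≤
      5 * (T + 2) + J * C * d ^ 3 := by
    refine (markov (f := fun H => ∑ j ∈ Finset.range J, (dl s j H + dl (pos W s) j H ^ 2))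
      (fun H hH => Finset.sum_nonneg fun j _ => add_nonneg (hP.ds j H hH).1 (sq_nonneg _))
      fun H hH h => ?_).trans ((DFin_sum hP hM J).trans (by linarith))
    have : ∑ _j ∈ Finset.range J, d ^ 2 = J * d ^ 2 := by simp
    rw [← this]
    refine Finset.sum_le_sum fun j hj => ?_
    have hj' := Finset.mem_range.1 hj
    rcases hP.go j H hH (h j hj'.le) with k | k | k
    · linarith [sq_nonneg (dl (pos W s) j H)]
    · have := pow_le_pow_left₀ hd0.le k 2
      rw [sq_abs] at this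
      linarith [(hP.ds j H hH).1]
    · exact absurd (h (j + 1) hj') k
  have h2 : R ^ 2 / 4 * Pr S {H | R / 2 ≤ |pos W s J H|} ≤
      1 + 4 * (T + 2) + J * (2 * R + 5) * C * d ^ 3 := by
    refine (markov (f := fun H => pos W s J H ^ 2) (fun H _ => sq_nonneg _)
      fun H _ h => ?_).trans ((DFin_sq hP hM hd J).trans (by linarith))
    have := pow_le_pow_left₀ (by linarith) (show R / 2 ≤ |pos W s J H| from h) 2
    rw [sq_abs] at this
    linarith
  refine le_trans (Pr_mono (E' := {H | ∀ i ≤ J, Run T R (s i H) (W H)} ∪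
    {H | R / 2 ≤ |pos W s J H|}) fun H hH h => ?_) ((Pr_union_le _ _ _).trans (add_le_add ?_ ?_))
  · exact (DFin_alt hP hd hR hT J hH).imp id fun k => k.2 h
  · rw [le_div_iff₀ (by positivity)]
    linarith
  · rw [le_div_iff₀ (by positivity)]
    linarith

end Vale.Agent.P153.Drive
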