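import Vale.Agent.P153.SLE.Drv

/-! The constant in the variance observable converges. -/

open Set Filter Topology MeasureTheory
open scoped Real

noncomputable section
namespace Vale.Agent.P153.Drive

open Vale.Agent.P164 (Pth Zf Wie)
open Vale.Agent.P153.Seal (cex)

/-- The two moment relations on a cell. -/
def DKP (c : Set Cfg) (x t : Cfg → ℝ) (a b k E : ℝ) : Prop :=
  |a * Ex c x - b * (2 * Ex c t - Ex c (fun K => x K ^ 2) / 2)| ≤ E ∧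
    |a ^ 2 * (Ex c (fun K => x K ^ 2) - 2 * π * k * Ex c t)| ≤ E

theorem DK_p1 {M0 M1 O0 O1 z C d : ℝ} (h0 : |M0 - O0| ≤ d ^ 3) (h1 : |M1 - O1| ≤ d ^ 3)
    (h2 : |π * (O1 - O0) + z| ≤ C * d ^ 3) : |π * (M1 - M0) + z| ≤ (C + 8) * d ^ 3 := by
  have e : π * (M1 - M0) + z = π * (O1 - O0) + z + π * ((M1 - O1) - (M0 - O0)) := by ring
  have h3 : |π * ((M1 - O1) - (M0 - O0))| ≤ 4 * (d ^ 3 + d ^ 3) := by
    rw [abs_mul, abs_of_pos Real.pi_pos]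
    exact mul_le_mul Real.pi_le_four ((abs_sub _ _).trans (add_le_add h1 h0)) (abs_nonneg _)
      (by norm_num)
  rw [e]
  linarith [abs_add_le (π * (O1 - O0) + z) (π * ((M1 - O1) - (M0 - O0)))]

theorem DK_p2 {y a b x t C d : ℝ} (hd : 0 < d) (hd1 : d ≤ 1) (hC : 0 ≤ C) (ha : |a| ≤ 1)
    (hb : |b| ≤ 1) (hx : |x| ≤ 2 * d) (t0 : 0 ≤ t) (t1 : t ≤ 2 * d ^ 2)
    (h : |y + (a * x - b * (2 * t - x ^ 2 / 2))| ≤ C * d ^ 3) :
    |a ^ 2 * x ^ 2 - y ^ 2| ≤ (C + 4) * (C + 8) * d ^ 3 := by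
  have h1 : x ^ 2 ≤ (2 * d) ^ 2 := sq_le_sq' (abs_le.1 hx).1 (abs_le.1 hx).2
  have h2 : |b * (2 * t - x ^ 2 / 2)| ≤ 4 * d ^ 2 := by
    rw [abs_mul]
    refine (mul_le_of_le_one_left (abs_nonneg _) hb).trans (abs_le.2 ⟨?_, ?_⟩) <;>
      nlinarith [sq_nonneg x]
  have d2 : d ^ 2 ≤ d := by nlinarith
  have d3 : C * d ^ 3 ≤ C * d ^ 2 := mul_le_mul_of_nonneg_left (by nlinarith) hC
  have h3 : |a * x + y| ≤ (C + 4) * d ^ 2 := by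
    have e : a * x + y = y + (a * x - b * (2 * t - x ^ 2 / 2)) + b * (2 * t - x ^ 2 / 2) := by ring
    rw [e]
    linarith [abs_add_le (y + (a * x - b * (2 * t - x ^ 2 / 2))) (b * (2 * t - x ^ 2 / 2))]
  have h4 : |a * x| ≤ 2 * d := by
    rw [abs_mul]
    exact (mul_le_of_le_one_left (abs_nonneg _) ha).trans hx
  have h5 : |a * x - y| ≤ (C + 8) * d := by
    have h6 : (C + 4) * d ^ 2 ≤ (C + 4) * d := mul_le_mul_of_nonneg_left d2 (by linarith)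
    obtain ⟨k1, k2⟩ := abs_le.1 h3
    obtain ⟨k3, k4⟩ := abs_le.1 h4
    exact abs_le.2 ⟨by linarith, by linarith⟩
  have e : a ^ 2 * x ^ 2 - y ^ 2 = (a * x + y) * (a * x - y) := by ring
  rw [e, abs_mul]
  exact (mul_le_mul h3 h5 (abs_nonneg _) (by positivity)).trans (le_of_eq (by ring))

theorem DK_p3 {V0 V1 Q0 Q1 z k q B C d : ℝ} (hk : |k| ≤ B) (h0 : |V0 - k * (q - Q0)| ≤ d ^ 3)
    (h1 : |V1 - k * (q - Q1)| ≤ d ^ 3) (h2 : |Q1 - Q0 - 2 / π * z| ≤ C * d ^ 3) :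
    |π ^ 2 * (V0 - V1) - 2 * π * k * z| ≤ 16 * (2 + B * C) * d ^ 3 := by
  have e : π ^ 2 * (V0 - V1) - 2 * π * k * z =
      π ^ 2 * ((V0 - k * (q - Q0)) - (V1 - k * (q - Q1)) + k * (Q1 - Q0 - 2 / π * z)) := by
    have := Real.pi_ne_zero
    field_simp
    ring
  have h3 : |k * (Q1 - Q0 - 2 / π * z)| ≤ B * (C * d ^ 3) := by
    rw [abs_mul]
    exact mul_le_mul hk h2 (abs_nonneg _) ((abs_nonneg _).trans hk)
  have h4 : π ^ 2 ≤ 16 := by nlinarith [Real.pi_le_four, Real.pi_pos]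
  rw [e, abs_mul, abs_of_nonneg (sq_nonneg π)]
  refine (mul_le_mul h4 ((abs_add_le _ _).trans (add_le_add ((abs_sub _ _).trans
    (add_le_add h0 h1)) h3)) (abs_nonneg _) (by norm_num)).trans (le_of_eq (by ring))

/-- The constant of the moment relations. -/
def DKc (B C : ℝ) : ℝ := (C + 12) * (C + 16) + 16 * (2 + B * C)

theorem DK_cell {c : Set Cfg} (hc : Good c) {M1 V1 O0 O1 Q0 Q1 x t : Cfg → ℝ}
    {M0 V0 a b k q B C d : ℝ} (hd : 0 < d) (hd1 : d ≤ 1) (hC : 0 ≤ C) (ha : |a| ≤ 1)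
    (hb : |b| ≤ 1) (hk : |k| ≤ B) (hM : Ex c M1 = M0)
    (hV : V0 = Ex c V1 + Ex c fun K => (M1 K - M0) ^ 2)
    (h : ∀ K ∈ c, (|M0 - O0 K| ≤ d ^ 3 ∧ |V0 - k * (q - Q0 K)| ≤ d ^ 3) ∧
      (|M1 K - O1 K| ≤ d ^ 3 ∧ |V1 K - k * (q - Q1 K)| ≤ d ^ 3) ∧
      |π * (O1 K - O0 K) + a * x K - b * (2 * t K - x K ^ 2 / 2)| ≤ C * d ^ 3 ∧
      |Q1 K - Q0 K - 2 / π * a ^ 2 * t K| ≤ C * d ^ 3 ∧ |x K| ≤ 2 * d ∧ 0 ≤ t K ∧
      t K ≤ 2 * d ^ 2) : DKP c x t a b k (DKc B C * d ^ 3) := by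
  have hB : 0 ≤ B := (abs_nonneg _).trans hk
  have p1 : ∀ K ∈ c, |π * (M1 K - M0) + (a * x K - b * (2 * t K - x K ^ 2 / 2))| ≤
      (C + 8) * d ^ 3 := fun K hK =>
    DK_p1 (h K hK).1.1 (h K hK).2.1.1 (by rw [← add_sub_assoc]; exact (h K hK).2.2.1)
  constructor
  · have h1 := abs_Ex_le_of (by positivity) p1
    simp only [Ex_add, Ex_sub, Ex_mul_left, Ex_div, Ex_const hc, hM, sub_self, mul_zero,
      zero_add] at h1
    refine h1.trans (mul_le_mul_of_nonneg_right ?_ (by positivity))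
    unfold DKc
    nlinarith [mul_nonneg hB hC, mul_nonneg hC hC]
  · have p2 : ∀ K ∈ c, |a ^ 2 * (x K ^ 2 - 2 * π * k * t K) -
        π ^ 2 * (V1 K + (M1 K - M0) ^ 2 - V0)| ≤ DKc B C * d ^ 3 := fun K hK => by
      obtain ⟨⟨-, k1⟩, ⟨-, k2⟩, -, k3, k4, k5, k6⟩ := h K hK
      have h1 := DK_p2 hd hd1 (by positivity) ha hb k4 k5 k6 (p1 K hK)
      have h2 := DK_p3 (z := a ^ 2 * t K) hk k1 k2 (by rw [← mul_assoc]; exact k3)
      have e : a ^ 2 * (x K ^ 2 - 2 * π * k * t K) - π ^ 2 * (V1 K + (M1 K - M0) ^ 2 - V0) =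
          (a ^ 2 * x K ^ 2 - (π * (M1 K - M0)) ^ 2) +
            (π ^ 2 * (V0 - V1 K) - 2 * π * k * (a ^ 2 * t K)) := by ring
      rw [e]
      refine ((abs_add_le _ _).trans (add_le_add h1 h2)).trans (le_of_eq ?_)
      unfold DKc
      ring
    have hc0 : 0 ≤ DKc B C := by unfold DKc; positivity
    have h1 := abs_Ex_le_of (by positivity) p2
    rwa [Ex_sub, Ex_mul_left, Ex_mul_left, Ex_sub, Ex_sub, Ex_add, Ex_mul_left, Ex_const hc, ← hV,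
      sub_self, mul_zero, sub_zero] at h1

section Cell
variable {ι : Type} {S : Set Cfg} {l0 l1 : Cfg → ι} {H : Cfg}

theorem DK_tower (hr : ∀ K ∈ S, ∀ K' ∈ S, l1 K' = l1 K → l0 K' = l0 K) (f : Cfg → ℝ) :
    Ex (S ∩ {K | l0 K = l0 H}) (cex S l1 f) = cex S l0 f H := by
  rw [cex, tower _ l1 f]
  refine Ex_congr fun K hK => ?_
  rw [cex]
  congr 1
  ext K'
  exact ⟨fun h => ⟨⟨h.1, (hr K hK.1 K' h.1 h.2).trans hK.2⟩, h.2⟩, fun h => ⟨h.1.1, h.2⟩⟩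

theorem DK_var (hc : Good (S ∩ {K | l0 K = l0 H}))
    (hr : ∀ K ∈ S, ∀ K' ∈ S, l1 K' = l1 K → l0 K' = l0 K) (Y : Cfg → ℝ) :
    cvar S l0 Y H = Ex (S ∩ {K | l0 K = l0 H}) (cvar S l1 Y) +
      Ex (S ∩ {K | l0 K = l0 H}) fun K => (cex S l1 Y K - cex S l0 Y H) ^ 2 := by
  have e : ∀ K, cvar S l1 Y K + (cex S l1 Y K - cex S l0 Y H) ^ 2 =
      cex S l1 (fun K => Y K ^ 2) K - 2 * cex S l0 Y H * cex S l1 Y K + cex S l0 Y H ^ 2 :=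
    fun K => by unfold cvar; ring
  rw [← Ex_add]
  simp only [e]
  rw [Ex_add, Ex_sub, Ex_mul_left, DK_tower hr, DK_tower hr, Ex_const hc, cvar]
  ring

end Cell

theorem DK_run {ι : Type} {S : Set Cfg} {l : ℕ → Cfg → ι} {W : Cfg → Pth} {s : ℕ → Cfg → ℝ}
    {d : ℝ} (hP : Path S l W s 3 3 d) (hd : 0 < d) (hd1 : d ≤ 1) {K : Cfg} (hK : K ∈ S) :
    Run 3 3 (s 0 K) (W K) ∧ Run 3 3 (s 1 K) (W K) := by
  have h0 := hP.s0 K hK
  have h1 := hP.ds 0 K hK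
  have h2 := hP.osc 0 K hK
  simp only [dl, h0, zero_add, sub_zero] at h1 h2
  have h3 : ∀ u ∈ Icc 0 (s 1 K), |W K u| ≤ 3 := fun u hu => by
    obtain ⟨k1, k2⟩ := abs_le.1 (h2 u hu)
    obtain ⟨k3, k4⟩ := abs_le.1 (hP.w0 K hK)
    exact abs_le.2 ⟨by linarith, by linarith⟩
  rw [h0]
  exact ⟨⟨by norm_num, fun u hu => h3 u ⟨hu.1, hu.2.trans h1.1⟩⟩, by nlinarith [h1.2], h3⟩

/-- One test point. -/
theorem DK_test (h2 : S_tay) (h3 : S_past) {ι : Type} {S : ℕ → Set Cfg} {lab : ℕ → ℕ → Cfg → ι}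
    {t : ℕ → ℕ → Cfg → ℝ} {W : ℕ → Cfg → Pth} {k : ℕ → ℝ} (hD : Drv S lab t W k) :
    ∃ A C E : ℝ, 1 ≤ C ∧ 0 ≤ E ∧ ∀ w : ℂ, A ≤ ‖w‖ → ‖w‖ ≤ 2 * w.im → ∀ d : ℝ, 0 < d → d ≤ 1 →
      ∀ᶠ n in atTop, ∀ σ : ℕ → Cfg → ℕ,
        Path (S n) (fun j H => (σ j H, lab n (σ j H) H)) (W n) (fun j H => t n (σ j H) H) 3 3 d →
        (∀ j, ∀ H ∈ S n, ∀ f : Cfg → ℝ,
          cex (S n) (fun H => (σ j H, lab n (σ j H) H)) f H = cex (S n) (lab n (σ j H)) f H) →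
        ∀ H ∈ S n, ∃ a b : ℝ, |a - (w⁻¹).im| ≤ C / ‖w‖ ^ 2 ∧ |b - (w⁻¹ ^ 2).im| ≤ C / ‖w‖ ^ 3 ∧
          (|a| ≤ 1 → |b| ≤ 1 → DKP
            (S n ∩ {K | (σ 0 K, lab n (σ 0 K) K) = (σ 0 H, lab n (σ 0 H) H)})
            (dl (pos (W n) fun j H => t n (σ j H) H) 0) (dl (fun j H => t n (σ j H) H) 0) a b
            (k n) (E * d ^ 3)) := by
  obtain ⟨B, hB⟩ := hD.bdd
  obtain ⟨A, hA⟩ := hD.obs 3 3
  obtain ⟨C, hC, hT⟩ := h2 3 3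
  have hB0 : 0 ≤ B := (abs_nonneg _).trans (hB 0)
  refine ⟨max A C, C, DKc B C, hC, by unfold DKc; positivity, fun w w1 w2 d hd hd1 => ?_⟩
  obtain ⟨ν, Y, q, hν, hY⟩ := hA w ((le_max_left _ _).trans w1) w2
  filter_upwards [hY (d ^ 3) (by positivity)] with n hn σ hP hσ H hH
  set s : ℕ → Cfg → ℝ := fun j H => t n (σ j H) H with hs
  set l : ℕ → Cfg → ℕ × ι := fun j H => (σ j H, lab n (σ j H) H) with hl
  have tay := fun K (hK : K ∈ S n) => hT w ν (W n K) (s 0 K) (s 1 K) d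
    ((le_max_right _ _).trans w1) w2 hν hd hd1 (hP.s0 K hK).ge (sub_nonneg.1 (hP.ds 0 K hK).1)
    (sub_le_iff_le_add'.1 (hP.ds 0 K hK).2) (DK_run hP hd hd1 hK).2 (hP.osc 0 K hK)
  have ob : ∀ j, ∀ K ∈ S n, Run 3 3 (s j K) (W n K) →
      |cex (S n) (l j) (Y n) K - obsM ν (W n K) (s j K)| ≤ d ^ 3 ∧
      |cvar (S n) (l j) (Y n) K - k n * (q - obsQ ν (W n K) (s j K))| ≤ d ^ 3 :=
    fun j K hK hr => by
      have h := hn K hK (σ j K) hr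
      rw [cvar, ← hσ j K hK, ← hσ j K hK] at h
      exact h
  refine ⟨co1 ν (W n H) (s 0 H), co2 ν (W n H) (s 0 H), (tay H hH).2.2.1, (tay H hH).2.2.2,
    fun ha hb => ?_⟩
  have hc : Good (S n ∩ {K | l 0 K = l 0 H}) :=
    Good.sub (hD.good n).1 inter_subset_left ⟨H, hH, rfl⟩
  refine DK_cell hc (O0 := fun K => obsM ν (W n K) (s 0 K)) (O1 := fun K => obsM ν (W n K) (s 1 K))
    (Q0 := fun K => obsQ ν (W n K) (s 0 K)) (Q1 := fun K => obsQ ν (W n K) (s 1 K)) (q := q)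
    hd hd1 (by linarith) ha hb (hB n) (DK_tower (hP.ref 0) (Y n)) (DK_var hc (hP.ref 0) (Y n))
    fun K hK => ?_
  obtain ⟨r0, r1⟩ := DK_run hP hd hd1 hK.1
  have o0 := ob 0 K hK.1 r0
  have e1 : cvar (S n) (l 0) (Y n) K = cvar (S n) (l 0) (Y n) H := by
    rw [cvar, cvar, Seal.cex_congr _ hK.2, Seal.cex_congr _ hK.2]
  rw [e1, Seal.cex_congr _ hK.2] at o0
  obtain ⟨e2, e3⟩ := hP.ad 0 H hH K hK.1 hK.2
  obtain ⟨-, e4, e5, -⟩ := h3 ν (W n K) (W n H) (s 0 H) (hP.s0 H hH).ge e3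
  obtain ⟨t1, t2, -⟩ := tay K hK.1
  have e6 : co1 ν (W n K) (s 0 K) = co1 ν (W n H) (s 0 H) := by rw [← e4, e2]
  have e7 : co2 ν (W n K) (s 0 K) = co2 ν (W n H) (s 0 H) := by rw [← e5, e2]
  rw [e6, e7] at t1
  rw [e6] at t2
  exact ⟨o0, ob 1 K hK.1 r1, t1, t2,
    hP.osc 0 K hK.1 _ ⟨sub_nonneg.1 (hP.ds 0 K hK.1).1, le_rfl⟩, hP.ds 0 K hK.1⟩

theorem DK_alg {a1 b1 a2 b2 u X x2 t k E d : ℝ} (hu : 0 < u) (hu1 : u ≤ 1) (hd : 0 < d)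
    (hE : 0 ≤ E) (ha1 : |a1 + u| ≤ u / 8) (hb1 : |b1| ≤ u ^ 2 / 8) (ha2 : |a2 + u / 2| ≤ u / 8)
    (hb2 : |b2 + u ^ 2 / 2| ≤ u ^ 2 / 8) (h1 : |a1 * X - b1 * (2 * t - x2 / 2)| ≤ E * d ^ 3)
    (h2 : |a2 * X - b2 * (2 * t - x2 / 2)| ≤ E * d ^ 3)
    (h3 : |a1 ^ 2 * (x2 - k * t)| ≤ E * d ^ 3) (h4 : d ^ 2 ≤ t + x2)
    (h5 : 100 * E * d ≤ u ^ 3) : |4 - k| ≤ 200 * E / u ^ 3 * d := by
  obtain ⟨Z, hZ⟩ : ∃ Z, Z = 2 * t - x2 / 2 := ⟨_, rfl⟩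
  rw [← hZ] at h1 h2
  obtain ⟨p1, p2⟩ := abs_le.1 ha1
  obtain ⟨p3, p4⟩ := abs_le.1 hb1
  obtain ⟨p5, p6⟩ := abs_le.1 ha2
  obtain ⟨p7, p8⟩ := abs_le.1 hb2
  have u3 : 0 < u ^ 3 := by positivity
  have hdet : u ^ 3 / 4 ≤ a1 * b2 - a2 * b1 := by
    have q1 : (7 / 8 * u) * (3 / 8 * u ^ 2) ≤ (-a1) * (-b2) :=
      mul_le_mul (by linarith) (by linarith) (by positivity) (by linarith)
    have q2 : |a2 * b1| ≤ (5 / 8 * u) * (u ^ 2 / 8) := by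
      rw [abs_mul]
      exact mul_le_mul (abs_le.2 ⟨by linarith, by linarith⟩) hb1 (abs_nonneg _) (by positivity)
    nlinarith [le_abs_self (a2 * b1)]
  have hz : u ^ 3 * |Z| ≤ 12 * (E * d ^ 3) := by
    have e : (a1 * b2 - a2 * b1) * Z = a2 * (a1 * X - b1 * Z) - a1 * (a2 * X - b2 * Z) := by ring
    have q1 : |a2 * (a1 * X - b1 * Z)| ≤ 1 * (E * d ^ 3) := by
      rw [abs_mul]
      exact mul_le_mul (abs_le.2 ⟨by linarith, by linarith⟩) h1 (abs_nonneg _) zero_le_one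
    have q2 : |a1 * (a2 * X - b2 * Z)| ≤ 2 * (E * d ^ 3) := by
      rw [abs_mul]
      exact mul_le_mul (abs_le.2 ⟨by linarith, by linarith⟩) h2 (abs_nonneg _) zero_le_two
    have q3 := abs_sub (a2 * (a1 * X - b1 * Z)) (a1 * (a2 * X - b2 * Z))
    rw [← e, abs_mul, abs_of_pos (by linarith)] at q3
    nlinarith [mul_le_mul_of_nonneg_right hdet (abs_nonneg Z)]
  have hz' : |Z| ≤ 12 / 100 * d ^ 2 := by
    refine le_of_mul_le_mul_left (hz.trans ?_) u3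
    nlinarith [mul_le_mul_of_nonneg_right h5 (sq_nonneg d)]
  have ht : d ^ 2 / 7 ≤ t := by linarith [(abs_le.1 hz').1, sq_nonneg d]
  have hw : u ^ 3 * |x2 - k * t| ≤ 2 * (E * d ^ 3) := by
    rw [abs_mul, abs_of_nonneg (sq_nonneg a1)] at h3
    have q1 : u ^ 3 ≤ 2 * a1 ^ 2 := by nlinarith
    nlinarith [mul_le_mul_of_nonneg_right q1 (abs_nonneg (x2 - k * t))]
  have e : (4 - k) * t = (x2 - k * t) + 2 * Z := by rw [hZ]; ring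
  have q1 := abs_add_le (x2 - k * t) (2 * Z)
  rw [← e, abs_mul, abs_mul, abs_of_pos (lt_of_lt_of_le (by positivity) ht), abs_two] at q1
  have q2 : u ^ 3 * (|4 - k| * (d ^ 2 / 7)) ≤ 26 * (E * d ^ 3) := by
    nlinarith [mul_le_mul_of_nonneg_left ((mul_le_mul_of_nonneg_left ht (abs_nonneg (4 - k))).trans
      q1) u3.le]
  rw [div_mul_eq_mul_div, le_div_iff₀ u3]
  refine le_of_mul_le_mul_right ?_ (pow_pos hd 2)
  nlinarith [mul_nonneg hE (pow_pos hd 3).le]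

theorem DK_err {A C r : ℝ} (hC : 1 ≤ C) (hA : 8 * C ≤ A) (hr : A ≤ r) :
    C / r ^ 2 ≤ A⁻¹ / 8 ∧ C / r ^ 3 ≤ A⁻¹ ^ 2 / 8 := by
  have hA0 : 0 < A := by linarith
  constructor
  · calc C / r ^ 2 ≤ (A / 8) / A ^ 2 := by gcongr; linarith
      _ = A⁻¹ / 8 := by field_simp
  · calc C / r ^ 3 ≤ (A / 8) / A ^ 3 := by gcongr; linarith
      _ = A⁻¹ ^ 2 / 8 := by field_simp

theorem s_K (h1 : S_stop) (h2 : S_tay) (h3 : S_past) : S_K := by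
  intro ι S lab t W k hD
  obtain ⟨A0, C, E, hC, hE, hT⟩ := DK_test h2 h3 hD
  obtain ⟨A, hA0, hA⟩ : ∃ A, A0 ≤ A ∧ 8 * C ≤ A := ⟨_, le_max_left _ _, le_max_right _ _⟩
  have hp : 0 < A := by linarith
  have hu : 0 < A⁻¹ := inv_pos.2 hp
  have hu1 : A⁻¹ ≤ 1 / 2 := by
    rw [one_div]
    exact inv_anti₀ two_pos (by linarith)
  have n1 : ‖(⟨0, A⟩ : ℂ)‖ = A := by
    rw [Complex.norm_eq_sqrt_sq_add_sq]
    simp [Real.sqrt_sq hp.le]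
  have n2 : A ≤ ‖(⟨A, A⟩ : ℂ)‖ := (le_abs_self A).trans (Complex.abs_im_le_norm ⟨A, A⟩)
  have n3 : ‖(⟨A, A⟩ : ℂ)‖ ≤ 2 * A := by
    have := Complex.norm_le_abs_re_add_abs_im ⟨A, A⟩
    simp only [abs_of_pos hp] at this
    linarith
  have i1 : ((⟨0, A⟩ : ℂ)⁻¹).im = -A⁻¹ := by
    simp [Complex.inv_im, Complex.normSq_apply, neg_div]
  have i2 : ((⟨0, A⟩ : ℂ)⁻¹ ^ 2).im = 0 := by
    simp [sq, Complex.inv_re]
  have i3 : ((⟨A, A⟩ : ℂ)⁻¹).im = -(A⁻¹ / 2) := by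
    simp only [Complex.inv_im, Complex.normSq_apply]
    field_simp
    ring
  have i4 : ((⟨A, A⟩ : ℂ)⁻¹ ^ 2).im = -(A⁻¹ ^ 2 / 2) := by
    simp only [sq, Complex.mul_im, Complex.inv_im, Complex.inv_re, Complex.normSq_apply]
    field_simp
    ring
  have key : ∀ d : ℝ, 0 < d → d ≤ 1 → 100 * E * d ≤ A⁻¹ ^ 3 → ∀ᶠ n in atTop,
      |4 - 2 * π * k n| ≤ 200 * E / A⁻¹ ^ 3 * d := fun d hd hd1 hd2 => by
    filter_upwards [h1 ι S lab t W k hD 3 3 d (by norm_num) (by norm_num) hd hd1,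
      hT ⟨0, A⟩ (hA0.trans n1.ge) (by rw [n1]; linarith) d hd hd1,
      hT ⟨A, A⟩ (hA0.trans n2) n3 d hd hd1] with n ⟨σ, hP, hσ⟩ k1 k2
    obtain ⟨H, hH⟩ := (hD.good n).2
    obtain ⟨a1, b1, ha1, hb1, p1⟩ := k1 σ hP hσ H hH
    obtain ⟨a2, b2, ha2, hb2, p2⟩ := k2 σ hP hσ H hH
    rw [i1, sub_neg_eq_add] at ha1
    rw [i2, sub_zero] at hb1
    rw [i3, sub_neg_eq_add] at ha2
    rw [i4, sub_neg_eq_add] at hb2
    replace ha1 := ha1.trans (DK_err hC hA n1.ge).1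
    replace hb1 := hb1.trans (DK_err hC hA n1.ge).2
    replace ha2 := ha2.trans (DK_err hC hA n2).1
    replace hb2 := hb2.trans (DK_err hC hA n2).2
    have u2 : A⁻¹ ^ 2 ≤ 1 := pow_le_one₀ hu.le (by linarith)
    obtain ⟨q1, q2⟩ := p1
      (abs_le.2 ⟨by linarith [(abs_le.1 ha1).1], by linarith [(abs_le.1 ha1).2]⟩) (by linarith)
    obtain ⟨q3, -⟩ := p2
      (abs_le.2 ⟨by linarith [(abs_le.1 ha2).1], by linarith [(abs_le.1 ha2).2]⟩)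
      (abs_le.2 ⟨by linarith [(abs_le.1 hb2).1], by linarith [(abs_le.1 hb2).2, sq_nonneg A⁻¹]⟩)
    refine DK_alg hu (by linarith) hd hE ha1 hb1 ha2 hb2 q1 q3 q2 ?_ hd2
    rw [← Ex_add]
    refine le_Ex (Good.sub (hD.good n).1 inter_subset_left ⟨H, hH, rfl⟩) fun K hK => ?_
    obtain ⟨r0, r1⟩ := DK_run hP hd hd1 hK.1
    rcases hP.go 0 K hK.1 r0 with h | h | h
    · exact h.trans (le_add_of_nonneg_right (sq_nonneg _))
    · have := pow_le_pow_left₀ hd.le h 2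
      rw [sq_abs] at this
      exact this.trans (le_add_of_nonneg_left (hP.ds 0 K hK.1).1)
    · exact absurd r1 h
  have lim : Tendsto (fun n => 4 - 2 * π * k n) atTop (𝓝 0) := by
    refine Metric.tendsto_nhds.2 fun e he => ?_
    have c1 : ∀ᶠ d in 𝓝 (0 : ℝ), 100 * E * d < A⁻¹ ^ 3 :=
      (by fun_prop : Continuous fun d : ℝ => 100 * E * d).continuousAt.eventually_lt
        continuousAt_const (by simpa using pow_pos hp 3)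
    have c2 : ∀ᶠ d in 𝓝 (0 : ℝ), 200 * E / A⁻¹ ^ 3 * d < e :=
      (by fun_prop : Continuous fun d : ℝ => 200 * E / A⁻¹ ^ 3 * d).continuousAt.eventually_lt
        continuousAt_const (by simpa using he)
    obtain ⟨d, ⟨⟨d1, d2⟩, d3⟩, d0⟩ := ((((c1.and c2).and (eventually_lt_nhds one_pos)).filter_mono
      nhdsWithin_le_nhds).and (self_mem_nhdsWithin (s := Ioi 0))).exists
    filter_upwards [key d d0 d3.le d1.le] with n hn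
    rw [Real.dist_eq, sub_zero]
    exact hn.trans_lt d2
  have := Real.pi_ne_zero
  have l2 := (lim.const_sub 4).div_const (2 * π)
  rw [show (4 - 0) / (2 * π) = 2 / π by field_simp; ring] at l2
  refine l2.congr fun n => ?_
  field_simp
  ring

end Vale.Agent.P153.Drive
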