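import Vale.Agent.P153.SLE.Stm
import Vale.Agent.P153.SLE.DConv

/-! From uniformly continuous functionals to all bounded continuous ones; the final capacity. -/

open Set Filter Topology MeasureTheory
open scoped BoundedContinuousFunction

noncomputable section
namespace Vale.Agent.P153.SLE

open Vale.Agent.P164 (Pth Wie)

/-- The path frozen at negative times. -/
def DLawCl (V : Pth) : Pth := ⟨fun u => V (max u 0), by fun_prop⟩

theorem DLaw_cl {V : Pth} (h : ∀ u ≤ 0, V u = 0) : DLawCl V = V := by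
  ext u
  change V (max u 0) = V u
  rcases le_total u 0 with k | k
  · rw [max_eq_right k, h u k, h 0 le_rfl]
  · rw [max_eq_left k]

/-- Uniform distance on `[-m, m]`. -/
def DLawD (m : ℝ) (V V' : Pth) : ℝ := dist (V.restrict (Icc (-m) m)) (V'.restrict (Icc (-m) m))

/-- Lipschitz approximation from below. -/
def DLawA (G : Pth →ᵇ ℝ) (m : ℕ) (V : Pth) : ℝ := ⨅ V', (G V' + m * DLawD m V V')

theorem DLaw_low (G : Pth →ᵇ ℝ) (m : ℕ) (V V' : Pth) : -‖G‖ ≤ G V' + m * DLawD m V V' := by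
  have h1 := (abs_le.1 (G.norm_coe_le_norm V')).1
  have h2 : 0 ≤ (m : ℝ) * DLawD m V V' := mul_nonneg m.cast_nonneg dist_nonneg
  linarith

theorem DLaw_bdd (G : Pth →ᵇ ℝ) (m : ℕ) (V : Pth) :
    BddBelow (range fun V' => G V' + m * DLawD m V V') :=
  ⟨-‖G‖, forall_mem_range.2 (DLaw_low G m V)⟩

theorem DLaw_le (G : Pth →ᵇ ℝ) (m : ℕ) (V : Pth) : DLawA G m V ≤ G V :=
  (ciInf_le (DLaw_bdd G m V) V).trans (by simp [DLawD])

theorem DLaw_abs (G : Pth →ᵇ ℝ) (m : ℕ) (V : Pth) : |DLawA G m V| ≤ ‖G‖ :=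
  abs_le.2 ⟨le_ciInf (DLaw_low G m V),
    (DLaw_le G m V).trans (abs_le.1 (G.norm_coe_le_norm V)).2⟩

theorem DLaw_lip (G : Pth →ᵇ ℝ) (m : ℕ) (V U : Pth) :
    DLawA G m V ≤ DLawA G m U + m * DLawD m V U := by
  rw [← sub_le_iff_le_add]
  refine le_ciInf fun V' => ?_
  have h1 := ciInf_le (DLaw_bdd G m V) V'
  have h2 : DLawD m V V' ≤ DLawD m V U + DLawD m U V' := dist_triangle _ _ _
  have h3 := mul_le_mul_of_nonneg_left h2 (m.cast_nonneg (α := ℝ))
  change DLawA G m V ≤ _ at h1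
  linarith

theorem DLaw_uc (G : Pth →ᵇ ℝ) (m : ℕ) : Drive.UC m fun V => DLawA G m (DLawCl V) := by
  intro e he
  refine ⟨e / (m + 1), by positivity, fun V V' h => ?_⟩
  have h1 : DLawD m (DLawCl V) (DLawCl V') ≤ e / (m + 1) := by
    refine (ContinuousMap.dist_le (by positivity)).2 fun u => ?_
    exact h (max u 0) ⟨le_max_right _ _, max_le u.2.2 m.cast_nonneg⟩
  have h2 : (m : ℝ) * DLawD m (DLawCl V) (DLawCl V') ≤ e := by
    refine (mul_le_mul_of_nonneg_left h1 m.cast_nonneg).trans ?_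
    rw [← mul_div_assoc, div_le_iff₀ (by positivity)]
    nlinarith
  have h3 := DLaw_lip G m (DLawCl V) (DLawCl V')
  have h4 := DLaw_lip G m (DLawCl V') (DLawCl V)
  have h5 : DLawD m (DLawCl V') (DLawCl V) = DLawD m (DLawCl V) (DLawCl V') := dist_comm _ _
  rw [h5] at h4
  exact abs_le.2 ⟨by linarith, by linarith⟩

theorem DLaw_lim (G : Pth →ᵇ ℝ) (V : Pth) :
    Tendsto (fun m => DLawA G m V) atTop (𝓝 (G V)) := by
  have h1 : ∀ m : ℕ, ∃ V', G V' + m * DLawD m V V' < DLawA G m V + 1 / (m + 1) := fun m =>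
    exists_lt_of_ciInf_lt (lt_add_of_pos_right _ Nat.one_div_pos_of_nat)
  choose U hU using h1
  have h2 : Tendsto U atTop (𝓝 V) := by
    refine ContinuousMap.tendsto_iff_forall_isCompact_tendstoUniformlyOn.2 fun K hK => ?_
    refine Metric.tendstoUniformlyOn_iff.2 fun e he => ?_
    obtain ⟨r, hr⟩ := hK.isBounded.subset_closedBall 0
    filter_upwards [tendsto_natCast_atTop_atTop.eventually_ge_atTop r,
      tendsto_natCast_atTop_atTop.eventually_gt_atTop ((2 * ‖G‖ + 1) / e)] with m m1 m2 x hx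
    have hx' : x ∈ Icc (-(m : ℝ)) m := by
      have := hr hx
      rw [mem_closedBall_zero_iff, Real.norm_eq_abs] at this
      exact abs_le.1 (this.trans m1)
    have k1 : dist (V x) (U m x) ≤ DLawD m V (U m) :=
      ContinuousMap.dist_apply_le_dist (f := V.restrict (Icc (-(m : ℝ)) m))
        (g := (U m).restrict (Icc (-(m : ℝ)) m)) ⟨x, hx'⟩
    have k2 := hU m
    have k3 := (abs_le.1 (DLaw_abs G m V)).2
    have k4 := (abs_le.1 (G.norm_coe_le_norm (U m))).1
    have k5 : (1 : ℝ) / (m + 1) ≤ 1 := div_le_one_of_le₀ (by simp) (by positivity)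
    rw [div_lt_iff₀ he] at m2
    have k6 : (0 : ℝ) < m := by
      have := norm_nonneg G
      by_contra k
      have : (m : ℝ) = 0 := le_antisymm (not_lt.1 k) m.cast_nonneg
      rw [this] at m2
      linarith
    refine k1.trans_lt (lt_of_mul_lt_mul_left ?_ k6.le)
    linarith
  have h3 := ((G.continuous.tendsto V).comp h2).sub tendsto_one_div_add_atTop_nhds_zero_nat
  rw [sub_zero] at h3
  refine tendsto_of_tendsto_of_tendsto_of_le_of_le h3 tendsto_const_nhds (fun m => ?_)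
    fun m => DLaw_le G m V
  have k1 := hU m
  have k2 : 0 ≤ (m : ℝ) * DLawD m V (U m) := mul_nonneg m.cast_nonneg dist_nonneg
  change G (U m) - 1 / (m + 1) ≤ DLawA G m V
  linarith

theorem DLaw_half {μ : Measure Pth} {H : ℕ → Set Cfg} {W : ℕ → Cfg → Pth} (hμ : BM μ)
    (h0 : ∀ᶠ n in atTop, ∀ h ∈ H n, ∀ u ≤ 0, W n h u = 0) (hc : Drive.Conv H W) (G : Pth →ᵇ ℝ)
    (b : ℝ) (hb : b < ∫ V, G V ∂μ) : ∀ᶠ n in atTop, b < Ex (H n) fun h => G (W n h) := by
  have := hμ.1.prob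
  have l := tendsto_integral_of_dominated_convergence (μ := μ) (fun _ => ‖G‖)
    (F := fun (m : ℕ) V => DLawA G m (DLawCl V)) (f := G)
    (fun m => (Drive.DConv_uc (DLaw_uc G m)).aestronglyMeasurable) (integrable_const _)
    (fun m => ae_of_all _ fun V => DLaw_abs G m _)
    (hμ.2.mono fun V hV => by rw [DLaw_cl hV]; exact DLaw_lim G V)
  obtain ⟨m, hm⟩ := (l.eventually (lt_mem_nhds hb)).exists
  have k := hc μ hμ.1 (hμ.2.mono fun V hV => hV 0 le_rfl) m ‖G‖ _ (fun V => DLaw_abs G m _)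
    (DLaw_uc G m)
  filter_upwards [k.eventually (lt_mem_nhds hm), h0] with n n1 n2
  refine n1.trans_le (Ex_mono fun h hh => ?_)
  rw [DLaw_cl (n2 h hh)]
  exact DLaw_le G m _

theorem law_of {μ : Measure Pth} {H : ℕ → Set Cfg} {W : ℕ → Cfg → Pth} (hμ : BM μ)
    (h0 : ∀ᶠ n in atTop, ∀ h ∈ H n, ∀ u ≤ 0, W n h u = 0) (hc : Drive.Conv H W) :
    Law μ H W := fun G => by
  refine tendsto_order.2 ⟨DLaw_half hμ h0 hc G, fun b hb => ?_⟩
  have k := DLaw_half hμ h0 hc (-G) (-b) (by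
    simp only [BoundedContinuousFunction.neg_apply, integral_neg]; exact neg_lt_neg hb)
  filter_upwards [k] with n hn
  simp only [BoundedContinuousFunction.neg_apply, Ex_neg] at hn
  exact neg_lt_neg_iff.1 hn

/-- A cutoff of the maximum. -/
def DLawM (T R : ℝ) (V : Pth) : ℝ := max 0 (min 1 (‖V.restrict (Icc 0 T)‖ - R))

theorem DLaw_mb (T R : ℝ) (V : Pth) : |DLawM T R V| ≤ 1 :=
  abs_le.2 ⟨le_trans (by norm_num) (le_max_left _ _), max_le zero_le_one (min_le_left _ _)⟩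

theorem DLaw_muc (T R : ℝ) : Drive.UC T (DLawM T R) := by
  intro e he
  refine ⟨e, he, fun V V' h => ?_⟩
  have h1 : dist (V.restrict (Icc 0 T)) (V'.restrict (Icc 0 T)) ≤ e :=
    (ContinuousMap.dist_le he.le).2 fun u => h u u.2
  have h2 := (abs_norm_sub_norm_le (V.restrict (Icc 0 T)) (V'.restrict (Icc 0 T))).trans
    ((dist_eq_norm _ _).symm.le.trans h1)
  refine (abs_max_sub_max_le_max _ _ _ _).trans (max_le (by simpa using he.le) ?_)
  refine (abs_min_sub_min_le_max _ _ _ _).trans (max_le (by simpa using he.le) ?_)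
  rwa [sub_sub_sub_cancel_right]

theorem cap_of {μ : Measure Pth} {S : ℕ → Set Cfg} {t : ℕ → ℕ → Cfg → ℝ} {W : ℕ → Cfg → Pth}
    (hμ : BM μ)
    (hf : ∀ T R : ℝ, ∀ᶠ n in atTop, ∀ h ∈ S n, ∃ m, ¬ Drive.Run T R (t n m h) (W n h))
    (hc : Drive.Conv S W) (x : ℕ → Cfg → ℝ)
    (hx : ∀ᶠ n in atTop, ∀ h ∈ S n, ∀ m, t n m h ≤ x n h) (T : ℝ) :
    Tendsto (fun n => Pr (S n) {h | x n h < T}) atTop (𝓝 0) := by
  have := hμ.1.prob
  refine tendsto_order.2 ⟨fun a ha => .of_forall fun n => ha.trans_le (Pr_nonneg _ _),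
    fun b hb => ?_⟩
  have l := tendsto_integral_of_dominated_convergence (μ := μ) (fun _ => 1)
    (F := fun (m : ℕ) V => DLawM T m V) (f := fun _ => 0)
    (fun m => (Drive.DConv_uc (DLaw_muc T m)).aestronglyMeasurable) (integrable_const _)
    (fun m => ae_of_all _ fun V => DLaw_mb T m V)
    (ae_of_all _ fun V => tendsto_const_nhds.congr' (by
      filter_upwards [tendsto_natCast_atTop_atTop.eventually_ge_atTop ‖V.restrict (Icc 0 T)‖]
        with m hm
      exact (max_eq_left ((min_le_right _ _).trans (sub_nonpos.2 hm))).symm))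
  rw [integral_zero] at l
  obtain ⟨m, hm⟩ := (l.eventually (gt_mem_nhds hb)).exists
  have k := hc μ hμ.1 (hμ.2.mono fun V hV => hV 0 le_rfl) T 1 _ (DLaw_mb T m) (DLaw_muc T m)
  filter_upwards [k.eventually (gt_mem_nhds hm), hf T (m + 1), hx] with n n1 n2 n3
  refine lt_of_le_of_lt ?_ n1
  have k1 := markov (S := S n) (E := {h | x n h < T}) (f := fun h => DLawM T m (W n h)) (c := 1)
    (fun h _ => le_max_left _ _) fun h hh hE => ?_
  · rwa [one_mul] at k1
  obtain ⟨j, hj⟩ := n2 h hh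
  have k2 : t n j h ≤ T := (n3 h hh j).trans (le_of_lt hE)
  have k3 : ∃ u ∈ Icc 0 (t n j h), (m : ℝ) + 1 < |W n h u| := by
    by_contra k4
    exact hj ⟨k2, fun u hu => not_lt.1 fun k5 => k4 ⟨u, hu, k5⟩⟩
  obtain ⟨u, hu, k4⟩ := k3
  have k5 : |W n h u| ≤ ‖(W n h).restrict (Icc 0 T)‖ :=
    ((W n h).restrict (Icc 0 T)).norm_coe_le_norm ⟨u, hu.1, hu.2.trans k2⟩
  exact le_max_of_le_right (le_min le_rfl (by linarith))

end Vale.Agent.P153.SLE
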