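import Vale.Agent.P153.SLE.Drv

/-! The conditional moments of the mesoscopic skeleton. -/

open Set Filter Topology MeasureTheory
open scoped Real

noncomputable section
namespace Vale.Agent.P153.Drive

open Vale.Agent.P164 (Pth Zf Wie)
open Vale.Agent.P153.Seal (cex)

/-- Tower property inside a cell. -/
theorem DMeso_tower {ι : Type} {S : Set Cfg} {l l' : Cfg → ι} (Y : Cfg → ℝ)
    (h : ∀ H ∈ S, ∀ H' ∈ S, l' H' = l' H → l H' = l H) (H : Cfg) :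
    cex S l (cex S l' Y) H = cex S l Y H := by
  unfold cex
  rw [tower (S ∩ {H' | l H' = l H}) l' Y]
  refine Ex_congr fun K hK => ?_
  congr 1
  ext K'
  refine ⟨fun k => ⟨⟨k.1, ?_⟩, k.2⟩, fun k => ⟨k.1.1, k.2⟩⟩
  exact (h K hK.1 K' k.1 k.2).trans hK.2

theorem DMeso_cr {a1 b1 a2 b2 x y e : ℝ} (h1 : |a1 + 1| ≤ 1 / 10) (h2 : |b1| ≤ 1 / 10)
    (h3 : |a2 + 1 / 2| ≤ 1 / 10) (h4 : |b2 + 1 / 2| ≤ 1 / 10) (e1 : |a1 * x + b1 * y| ≤ e)
    (e2 : |a2 * x + b2 * y| ≤ e) : |x| ≤ 2 * e ∧ |y| ≤ 5 * e := by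
  have k : ∀ a z : ℝ, |a| ≤ 1 / 10 → |a * z| ≤ 1 / 10 * |z| := fun a z ha => by
    rw [abs_mul]; exact mul_le_mul_of_nonneg_right ha (abs_nonneg z)
  have k1 := abs_le.1 (k _ x h1)
  have k2 := abs_le.1 (k _ y h2)
  have k3 := abs_le.1 (k _ x h3)
  have k4 := abs_le.1 (k _ y h4)
  have k5 := abs_le.1 e1
  have k6 := abs_le.1 e2
  have hx : |x| ≤ e + 1 / 10 * |x| + 1 / 10 * |y| := abs_le.2 ⟨by nlinarith, by nlinarith⟩
  have k7 := le_abs_self x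
  have k8 := neg_abs_le x
  have hy : |y| ≤ 2 * e + 6 / 5 * |x| + 1 / 5 * |y| := abs_le.2 ⟨by nlinarith, by nlinarith⟩
  have := (abs_nonneg _).trans e1
  constructor <;> linarith

theorem DMeso_s {ι : Type} {S : Set Cfg} {l : ℕ → Cfg → ι} {W : Cfg → Pth} {s : ℕ → Cfg → ℝ}
    {T R d : ℝ} (P : Path S l W s T R d) (j : ℕ) : ∀ H ∈ S, 0 ≤ s j H := by
  induction j with
  | zero => exact fun H hH => (P.s0 H hH).ge
  | succ j ih =>
    intro H hH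
    have := (P.ds j H hH).1
    unfold dl at this
    linarith [ih H hH]

/-- One test measure gives one linear relation. -/
theorem DMeso_one (h3 : S_past) {ι : Type} {S : Set Cfg} {l : ℕ → Cfg → ι} {W : Cfg → Pth}
    {s : ℕ → Cfg → ℝ} {T R d C : ℝ} (P : Path S l W s T R d) (ν : Measure ℂ) (Y : Cfg → ℝ)
    (ho : ∀ j, ∀ H ∈ S, |cex S (l j) Y H - obsM ν (W H) (s j H)| ≤ d ^ 3) (j : ℕ)
    (ht : ∀ H ∈ S, |π * (obsM ν (W H) (s (j + 1) H) - obsM ν (W H) (s j H)) +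
      co1 ν (W H) (s j H) * (W H (s (j + 1) H) - W H (s j H)) - co2 ν (W H) (s j H) *
        (2 * (s (j + 1) H - s j H) - (W H (s (j + 1) H) - W H (s j H)) ^ 2 / 2)| ≤ C * d ^ 3)
    {H : Cfg} (hH : H ∈ S) :
    |co1 ν (W H) (s j H) * cex S (l j) (dl (pos W s) j) H + co2 ν (W H) (s j H) / 2 *
      cex S (l j) (fun K => dl (pos W s) j K ^ 2 - 4 * dl s j K) H| ≤ (C + 2 * π) * d ^ 3 := by
  have g : Good (S ∩ {H' | l j H' = l j H}) := Good.sub P.good.1 inter_subset_left ⟨H, hH, rfl⟩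
  have hp := Real.pi_pos
  have b : |Ex (S ∩ {H' | l j H' = l j H}) fun K => co1 ν (W H) (s j H) * dl (pos W s) j K +
      co2 ν (W H) (s j H) / 2 * (dl (pos W s) j K ^ 2 - 4 * dl s j K) +
        π * cex S (l (j + 1)) Y K - π * obsM ν (W H) (s j H)| ≤ C * d ^ 3 + π * d ^ 3 := by
    refine (abs_Ex_le _ _).trans (Ex_le g fun K hK => ?_)
    obtain ⟨e1, e2⟩ := P.ad j H hH K hK.1 hK.2
    obtain ⟨p1, p2, p3, -⟩ := h3 ν (W K) (W H) (s j H) (DMeso_s P j H hH) e2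
    have k1 := abs_le.1 (ht K hK.1)
    have k2 := abs_le.1 (ho (j + 1) K hK.1)
    rw [← p1, ← p2, ← p3, ← e1]
    unfold dl pos
    refine abs_le.2 ⟨?_, ?_⟩ <;> nlinarith
  rw [Ex_sub, Ex_add, Ex_add, Ex_mul_left, Ex_mul_left, Ex_mul_left, Ex_const g] at b
  have e := DMeso_tower Y (P.ref j) H
  have k := abs_le.1 (ho j H hH)
  rw [← e] at k
  have b' := abs_le.1 b
  unfold cex at k ⊢
  unfold cex at b'
  refine abs_le.2 ⟨?_, ?_⟩ <;> nlinarith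

theorem DMeso_sc {a b C A N : ℝ} (k : ℕ) (hA : 0 < A) (hC : 10 * C ≤ A) (h0 : 0 ≤ C) (hN : A ≤ N)
    (h : |a - b| ≤ C / N ^ (k + 1)) : |A ^ k * a - A ^ k * b| ≤ 1 / 10 := by
  rw [← mul_sub, abs_mul, abs_of_pos (pow_pos hA k)]
  calc A ^ k * |a - b| ≤ A ^ k * (C / A ^ (k + 1)) := by
        refine mul_le_mul_of_nonneg_left (h.trans ?_) (pow_pos hA k).le
        gcongr
    _ = C / A := by rw [pow_succ]; field_simp
    _ ≤ 1 / 10 := by rw [div_le_iff₀ hA]; linarith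

theorem s_meso (h1 : S_stop) (h2 : S_tay) (h3 : S_past) : S_meso := by
  intro ι S lab t W K h
  refine ⟨ℕ × ι, fun T R hT hR => ?_⟩
  obtain ⟨A₀, hA⟩ := h.obs (T + 2) (R + 2)
  obtain ⟨C, hC, tay⟩ := h2 (T + 2) (R + 2)
  obtain ⟨A, a1, a2⟩ : ∃ A, A₀ ≤ A ∧ 10 * C ≤ A := ⟨_, le_max_left _ _, le_max_right _ _⟩
  have a0 : 0 < A := by linarith
  have n1 : A ≤ ‖(⟨0, A⟩ : ℂ)‖ := (le_abs_self A).trans (Complex.abs_im_le_norm ⟨0, A⟩)
  have n2 : A ≤ ‖(⟨A, A⟩ : ℂ)‖ := (le_abs_self A).trans (Complex.abs_im_le_norm ⟨A, A⟩)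
  have u1 : ‖(⟨0, A⟩ : ℂ)‖ ≤ 2 * (⟨0, A⟩ : ℂ).im :=
    (Complex.norm_le_abs_re_add_abs_im _).trans (by simp [abs_of_pos a0]; linarith)
  have u2 : ‖(⟨A, A⟩ : ℂ)‖ ≤ 2 * (⟨A, A⟩ : ℂ).im :=
    (Complex.norm_le_abs_re_add_abs_im _).trans (by simp [abs_of_pos a0]; linarith)
  obtain ⟨ν1, Y1, q1, N1, o1⟩ := hA _ (a1.trans n1) u1
  obtain ⟨ν2, Y2, q2, N2, o2⟩ := hA _ (a1.trans n2) u2
  have hp := Real.pi_pos
  have c0 : 0 ≤ C + 2 * π := by linarith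
  refine ⟨10 * A ^ 2 * (C + 2 * π), by positivity, fun d d0 d1 => ?_⟩
  filter_upwards [h1 ι S lab t W K h T R d hT hR d0 d1, o1 (d ^ 3) (by positivity),
    o2 (d ^ 3) (by positivity)] with n ⟨σ, P, hc⟩ o1 o2
  refine ⟨_, _, P, ?_⟩
  have ty := fun (w₀ : ℂ) ν (n : A ≤ ‖w₀‖) u N j H hH => tay w₀ ν (W _ H) _ _ d (by linarith) u N d0 d1
    (DMeso_s P j H hH) (sub_nonneg.1 (P.ds j H hH).1) (sub_le_iff_le_add'.1 (P.ds j H hH).2)
    (P.bd (j + 1) H hH) (P.osc j H hH)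
  have key : ∀ j, ∀ H ∈ S n, _ ∧ _ := fun j H hH => by
    have r1 := DMeso_one h3 P ν1 (Y1 n) (fun j H hH => by
      rw [hc j H hH]; exact (o1 H hH _ (P.bd j H hH)).1) j
      (fun H hH => (ty _ ν1 n1 u1 N1 j H hH).1) hH
    have r2 := DMeso_one h3 P ν2 (Y2 n) (fun j H hH => by
      rw [hc j H hH]; exact (o2 H hH _ (P.bd j H hH)).1) j
      (fun H hH => (ty _ ν2 n2 u2 N2 j H hH).1) hH
    obtain ⟨-, -, b1, b2⟩ := ty _ ν1 n1 u1 N1 j H hH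
    obtain ⟨-, -, b3, b4⟩ := ty _ ν2 n2 u2 N2 j H hH
    replace b1 := DMeso_sc 1 a0 a2 (by linarith) n1 b1
    replace b2 := DMeso_sc 2 a0 a2 (by linarith) n1 b2
    replace b3 := DMeso_sc 1 a0 a2 (by linarith) n2 b3
    replace b4 := DMeso_sc 2 a0 a2 (by linarith) n2 b4
    have i1 : A ^ 1 * ((⟨0, A⟩ : ℂ)⁻¹).im = -1 := by
      simp [Complex.inv_im, Complex.normSq_apply]; field_simp
    have i2 : A ^ 2 * ((⟨0, A⟩ : ℂ)⁻¹ ^ 2).im = 0 := by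
      simp [sq, Complex.inv_im, Complex.inv_re, Complex.normSq_apply]
    have i3 : A ^ 1 * ((⟨A, A⟩ : ℂ)⁻¹).im = -(1 / 2) := by
      simp [Complex.inv_im, Complex.normSq_apply]; field_simp; norm_num
    have i4 : A ^ 2 * ((⟨A, A⟩ : ℂ)⁻¹ ^ 2).im = -(1 / 2) := by
      simp [sq, Complex.inv_im, Complex.inv_re, Complex.normSq_apply]; field_simp; norm_num
    rw [i1, sub_neg_eq_add] at b1
    rw [i2, sub_zero] at b2
    rw [i3, sub_neg_eq_add] at b3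
    rw [i4, sub_neg_eq_add] at b4
    have ee : ∀ a b x y : ℝ, a * x + b / 2 * y = A ^ 1 * a * (x / A) + A ^ 2 * b * (y / (2 * A ^ 2)) :=
      fun a b x y => by field_simp
    rw [ee] at r1 r2
    exact DMeso_cr b1 b2 b3 b4 r1 r2
  have e0 : 0 ≤ (C + 2 * π) * d ^ 3 := by positivity
  have a3 : A ≤ A ^ 2 := by nlinarith
  refine ⟨fun j H hH => ?_, fun j H hH => ?_⟩
  · have := (key j H hH).1
    rw [abs_div, abs_of_pos a0, div_le_iff₀ a0] at this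
    nlinarith
  · have := (key j H hH).2
    rw [abs_div, abs_of_pos (by positivity : 0 < 2 * A ^ 2), div_le_iff₀ (by positivity)] at this
    linarith

end Vale.Agent.P153.Drive
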