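import Vale.Agent.P153.SLE.Drv

/-! Construction of the mesoscopic stopping times. -/

open Set Filter Topology MeasureTheory
open scoped Real

noncomputable section
namespace Vale.Agent.P153.Drive

open Vale.Agent.P164 (Pth Zf Wie)
open Vale.Agent.P153.Seal (cex)

theorem DStop_anti {T R s s' : ℝ} {W : Pth} (h : s ≤ s') (hr : Run T R s' W) : Run T R s W :=
  ⟨h.trans hr.1, fun u hu => hr.2 u ⟨hu.1, hu.2.trans h⟩⟩

/-- The stopping condition. -/
def DStopC (T R d : ℝ) (t : ℕ → ℝ) (W : Pth) (k m : ℕ) : Prop :=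
  k < m ∧ (d ^ 2 ≤ t m - t k ∨ d ≤ |W (t m) - W (t k)| ∨ ¬ Run T R (t m) W)

open Classical in
/-- The next stopping index. -/
def DStopN (T R d : ℝ) (t : ℕ → ℝ) (W : Pth) (k : ℕ) : ℕ :=
  if Run T R (t k) W then sInf {m | DStopC T R d t W k m} else k

/-- The stopping indices. -/
def DStopS (T R d : ℝ) (t : ℕ → ℝ) (W : Pth) : ℕ → ℕ
  | 0 => 0
  | j + 1 => DStopN T R d t W (DStopS T R d t W j)

section one
variable {T R d : ℝ} {t : ℕ → ℝ} {W : Pth}

theorem DStop_mem (hm : Monotone t) (hf : ∃ m, ¬ Run T R (t m) W) {k : ℕ}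
    (hk : Run T R (t k) W) : DStopC T R d t W k (DStopN T R d t W k) := by
  obtain ⟨m, h⟩ := hf
  have h1 : k < m := by
    by_contra hc
    exact h (DStop_anti (hm (not_lt.1 hc)) hk)
  rw [DStopN, if_pos hk]
  exact Nat.sInf_mem (s := {m | DStopC T R d t W k m}) ⟨m, h1, Or.inr (Or.inr h)⟩

theorem DStop_le (hm : Monotone t) (hf : ∃ m, ¬ Run T R (t m) W) (k : ℕ) :
    k ≤ DStopN T R d t W k := by
  by_cases hk : Run T R (t k) W
  · exact (DStop_mem hm hf hk).1.le
  · rw [DStopN, if_neg hk]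

theorem DStop_lt (hd : 0 < d) {k m : ℕ} (hk : Run T R (t k) W) (h1 : k ≤ m)
    (h2 : m < DStopN T R d t W k) :
    t m - t k ≤ d ^ 2 ∧ |W (t m) - W (t k)| ≤ d ∧ Run T R (t m) W := by
  rcases h1.eq_or_lt with rfl | h1
  · exact ⟨by simp [sq_nonneg], by simp [hd.le], hk⟩
  · rw [DStopN, if_pos hk] at h2
    have h3 := Nat.notMem_of_lt_sInf h2
    simp only [DStopC, mem_ofPred_eq, h1, true_and, not_or, not_le, not_not] at h3
    exact ⟨h3.1.le, h3.2.1.le, h3.2.2⟩

theorem DStop_step (hd : 0 < d) (hd1 : d ≤ 1) (hm : Monotone t) (hf : ∃ m, ¬ Run T R (t m) W)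
    (hs : ∀ m, Run T R (t m) W → t (m + 1) ≤ t m + d ^ 2 ∧
      ∀ u ∈ Icc (t m) (t (m + 1)), |W u - W (t m)| ≤ d ^ 2) (k : ℕ) :
    t (DStopN T R d t W k) - t k ≤ 2 * d ^ 2 ∧
      ∀ u ∈ Icc (t k) (t (DStopN T R d t W k)), |W u - W (t k)| ≤ 2 * d := by
  have h0 : ∀ u ∈ Icc (t k) (t k), |W u - W (t k)| ≤ 2 * d := fun u hu => by
    rw [le_antisymm hu.2 hu.1, sub_self, abs_zero]; positivity
  by_cases hk : Run T R (t k) W
  · have key : ∀ p, k ≤ p → p ≤ DStopN T R d t W k → t p - t k ≤ 2 * d ^ 2 ∧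
        ∀ u ∈ Icc (t k) (t p), |W u - W (t k)| ≤ 2 * d := by
      intro p hp
      induction p, hp using Nat.le_induction with
      | base => exact fun _ => ⟨by simp [sq_nonneg], h0⟩
      | succ p hp ih =>
        intro h
        obtain ⟨a1, a2, a3⟩ := DStop_lt hd hk hp (Nat.lt_of_succ_le h)
        obtain ⟨b1, b2⟩ := hs p a3
        refine ⟨by linarith, fun u hu => ?_⟩
        rcases le_total u (t p) with hu' | hu'
        · exact (ih (Nat.le_of_succ_le h)).2 u ⟨hu.1, hu'⟩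
        · have b3 := b2 u ⟨hu', hu.2⟩
          have b4 := abs_sub_le (W u) (W (t p)) (W (t k))
          nlinarith
    exact key _ (DStop_le hm hf k) le_rfl
  · rw [DStopN, if_neg hk]
    exact ⟨by simp [sq_nonneg], h0⟩

theorem DStop_bd (hT : 1 ≤ T) (hR : 1 ≤ R) (hd : 0 < d) (hd1 : d ≤ 1) (h0 : t 0 = 0)
    (hw : |W 0| ≤ d) (hm : Monotone t) (hf : ∃ m, ¬ Run T R (t m) W)
    (hs : ∀ m, Run T R (t m) W → t (m + 1) ≤ t m + d ^ 2 ∧
      ∀ u ∈ Icc (t m) (t (m + 1)), |W u - W (t m)| ≤ d ^ 2) (j : ℕ) :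
    Run (T + 2) (R + 2) (t (DStopS T R d t W j)) W := by
  induction j with
  | zero =>
    refine ⟨by rw [DStopS, h0]; linarith, fun u hu => ?_⟩
    rw [DStopS, h0] at hu
    rw [le_antisymm hu.2 hu.1]
    linarith
  | succ j ih =>
    rw [DStopS]
    set k := DStopS T R d t W j
    by_cases hk : Run T R (t k) W
    · obtain ⟨a1, a2⟩ := DStop_step hd hd1 hm hf hs k
      have a3 : 0 ≤ t k := h0 ▸ hm (Nat.zero_le k)
      refine ⟨by nlinarith [hk.1], fun u hu => ?_⟩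
      rcases le_total u (t k) with hu' | hu'
      · linarith [hk.2 u ⟨hu.1, hu'⟩]
      · have b1 := a2 u ⟨hu', hu.2⟩
        have b2 := hk.2 (t k) ⟨a3, le_rfl⟩
        have b3 := abs_sub_abs_le_abs_sub (W u) (W (t k))
        linarith
    · rw [DStopN, if_neg hk]
      exact ih

theorem DStop_eq {t' : ℕ → ℝ} {W' : Pth} {m : ℕ} (h0 : t 0 = 0) (hm : Monotone t)
    (hf : ∃ m, ¬ Run T R (t m) W) (ht : ∀ i ≤ m, t' i = t i ∧ EqOn W' W (Icc 0 (t i))) (j : ℕ) :
    DStopS T R d t W j ≤ m → DStopS T R d t' W' j = DStopS T R d t W j := by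
  have hr : ∀ i ≤ m, (Run T R (t' i) W' ↔ Run T R (t i) W) := fun i hi => by
    rw [(ht i hi).1]
    exact and_congr_right fun _ => forall₂_congr fun u hu => by rw [(ht i hi).2 hu]
  have hw : ∀ i ≤ m, W' (t' i) = W (t i) := fun i hi => by
    rw [(ht i hi).1]
    exact (ht i hi).2 ⟨h0 ▸ hm (Nat.zero_le i), le_rfl⟩
  have hc : ∀ k ≤ m, ∀ i ≤ m, (DStopC T R d t' W' k i ↔ DStopC T R d t W k i) :=
    fun k hk i hi => by
      unfold DStopC
      rw [hr i hi, hw i hi, hw k hk, (ht i hi).1, (ht k hk).1]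
  induction j with
  | zero => exact fun _ => rfl
  | succ j ih =>
    intro h
    rw [DStopS] at h
    have hk := (DStop_le hm hf _).trans h
    rw [DStopS, DStopS, ih hk]
    set k := DStopS T R d t W j
    by_cases hrk : Run T R (t k) W
    · have a1 := (hc k hk _ h).2 (DStop_mem hm hf hrk)
      have a2 : sInf {i | DStopC T R d t' W' k i} ≤ DStopN T R d t W k := Nat.sInf_le a1
      have a3 := (hc k hk _ (a2.trans h)).1
        (Nat.sInf_mem (s := {i | DStopC T R d t' W' k i}) ⟨_, a1⟩)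
      rw [DStopN, if_pos ((hr k hk).2 hrk)]
      refine le_antisymm a2 ?_
      rw [DStopN, if_pos hrk]
      exact Nat.sInf_le a3
    · rw [DStopN, DStopN, if_neg hrk, if_neg fun h' => hrk ((hr k hk).1 h')]

end one

theorem s_stop : S_stop := by
  intro ι S lab t W K h T R d hT hR hd hd1
  filter_upwards [h.ref, h.t0, h.ad, h.start d hd, h.fin T R, h.step T R (d ^ 2) (by positivity)]
    with n href ht0 had hst hfin hstep
  have hm : ∀ H ∈ S n, Monotone fun m => t n m H := fun H hH =>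
    monotone_nat_of_le_succ (ht0 H hH).2
  have hl : ∀ H ∈ S n, ∀ H' ∈ S n, ∀ m, lab n m H' = lab n m H → ∀ i ≤ m,
      lab n i H' = lab n i H := fun H hH H' hH' m e i hi => by
    induction m, hi using Nat.le_induction with
    | base => exact e
    | succ p _ ih => exact ih (href p H hH H' hH' e)
  set σ : ℕ → Cfg → ℕ := fun j H => DStopS T R d (fun m => t n m H) (W n H) j with hσ
  have hsucc : ∀ j H, σ (j + 1) H = DStopN T R d (fun m => t n m H) (W n H) (σ j H) :=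
    fun _ _ => rfl
  have key : ∀ H ∈ S n, ∀ H' ∈ S n, ∀ m, lab n m H' = lab n m H → ∀ j, σ j H ≤ m →
      σ j H' = σ j H := fun H hH H' hH' m e j hj =>
    DStop_eq (ht0 H hH).1 (hm H hH) (hfin H hH)
      (fun i hi => had i H hH H' hH' (hl H hH H' hH' m e i hi)) j hj
  have hle : ∀ j, ∀ H ∈ S n, σ j H ≤ σ (j + 1) H := fun j H hH =>
    DStop_le (hm H hH) (hfin H hH) _
  have hun : ∀ {j H H'}, (σ j H', lab n (σ j H') H') = (σ j H, lab n (σ j H) H) →
      σ j H' = σ j H ∧ lab n (σ j H) H' = lab n (σ j H) H := fun e => by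
    obtain ⟨e1, e2⟩ := Prod.ext_iff.1 e
    simp only at e1 e2
    exact ⟨e1, e1 ▸ e2⟩
  refine ⟨σ, ⟨h.good n, fun j H hH H' hH' e => ?_, fun j H hH H' hH' e => ?_,
    fun H hH => (ht0 H hH).1, hst, fun j H hH => ⟨sub_nonneg.2 (hm H hH (hle j H hH)), ?_⟩,
    fun j H hH => ?_, fun j H hH hr => ?_, fun j H hH hr => ?_, fun j H hH => ?_⟩,
    fun j H hH f => ?_⟩
  · obtain ⟨-, e2⟩ := hun e
    have e3 := key H hH H' hH' _ e2 j (hle j H hH)
    rw [e3, hl H hH H' hH' _ e2 _ (hle j H hH)]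
  · obtain ⟨e1, e2⟩ := hun e
    rw [e1]
    exact had _ H hH H' hH' e2
  · exact (DStop_step hd hd1 (hm H hH) (hfin H hH) (hstep H hH) _).1
  · exact (DStop_step hd hd1 (hm H hH) (hfin H hH) (hstep H hH) _).2
  · exact (DStop_mem (hm H hH) (hfin H hH) hr).2
  · rw [hsucc, DStopN, if_neg hr]
  · exact DStop_bd hT hR hd hd1 (ht0 H hH).1 (hst H hH) (hm H hH) (hfin H hH) (hstep H hH) j
  · unfold cex
    congr 1
    ext H'
    refine and_congr_right fun hH' => ⟨fun e => (hun e).2, fun e => ?_⟩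
    have e1 := key H hH H' hH' _ e j le_rfl
    show (σ j H', lab n (σ j H') H') = (σ j H, lab n (σ j H) H)
    rw [e1, e]

end Vale.Agent.P153.Drive
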