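import Vale.Agent.P153.SLE.Drv

/-! Expansion of the observables along the Loewner flow. -/

open Set Filter Topology MeasureTheory
open scoped Real

noncomputable section
namespace Vale.Agent.P153.Drive

open Vale.Agent.P164 (Pth Zf Wie)

theorem DTay_inv {z z' : ℂ} {a b c : ℝ} (ha : 0 < a) (hb : 0 < b) (h1 : a ≤ ‖z‖) (h2 : b ≤ ‖z'‖)
    (h : ‖z' - z‖ ≤ c) : ‖z⁻¹ - z'⁻¹‖ ≤ c / (a * b) := by
  rw [inv_sub_inv (norm_pos_iff.1 (ha.trans_le h1)) (norm_pos_iff.1 (hb.trans_le h2)), norm_div,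
    norm_mul]
  exact div_le_div₀ ((norm_nonneg _).trans h) h (mul_pos ha hb)
    (mul_le_mul h1 h2 hb.le (norm_nonneg _))

theorem DTay_arg {z z' : ℂ} {a h d : ℝ} (hz : 0 < z.im) (hz' : 0 < z'.im) (h8 : 8 ≤ ‖z‖)
    (h0 : 0 < d) (h1 : d ≤ 1) (ha : |a| ≤ 2 * d) (hp : ‖z' + a - z‖ ≤ 2 * d ^ 2)
    (hr : ‖z' + a - z - h * (2 / z)‖ ≤ 2 * d ^ 3) :
    |z'.arg - z.arg + (z⁻¹).im * a - (z⁻¹ ^ 2).im * (2 * h - a ^ 2 / 2)| ≤ 9 * d ^ 3 := by
  have n0 : z ≠ 0 := by rintro rfl; simp at hz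
  have n1 : z' ≠ 0 := by rintro rfl; simp at hz'
  have a1 := Complex.arg_lt_pi_iff.2 (Or.inr hz.ne')
  have a2 := Complex.arg_lt_pi_iff.2 (Or.inr hz'.ne')
  have a3 := Complex.arg_nonneg_iff.2 hz.le
  have a4 := Complex.arg_nonneg_iff.2 hz'.le
  have a5 : (z⁻¹).arg = -z.arg := by rw [Complex.arg_inv, if_neg a1.ne]
  have a6 : (z' * z⁻¹).arg = z'.arg + (z⁻¹).arg :=
    Complex.arg_mul n1 (inv_ne_zero n0) (by rw [a5]; constructor <;> linarith)
  have hy : ‖z⁻¹‖ ≤ 1 / 8 := by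
    rw [norm_inv, ← one_div]
    exact one_div_le_one_div_of_le (by norm_num) h8
  have ha' : ‖(a : ℂ)‖ ≤ 2 * d := by rwa [Complex.norm_real]
  set p := z' + a - z with hp'
  have d2 : d ^ 2 ≤ d := by nlinarith
  have hx : ‖(p - a) * z⁻¹‖ ≤ d / 2 := by
    rw [norm_mul]
    exact (mul_le_mul ((norm_sub_le _ _).trans (add_le_add hp ha')) hy (norm_nonneg _)
      (by positivity)).trans (by linarith)
  have hl := Complex.norm_log_sub_logTaylor_le 2 (hx.trans_lt (by linarith))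
  have hl' : ‖(p - a) * z⁻¹‖ ^ (2 + 1) * (1 - ‖(p - a) * z⁻¹‖)⁻¹ / ((2 : ℕ) + 1) ≤ d ^ 3 := by
    have k1 : (1 - ‖(p - a) * z⁻¹‖)⁻¹ ≤ 2 := inv_le_of_inv_le₀ (by norm_num) (by linarith)
    have k2 : ‖(p - a) * z⁻¹‖ ^ (2 + 1) ≤ d ^ 3 :=
      pow_le_pow_left₀ (norm_nonneg _) (by linarith) 3
    have k3 := mul_le_mul k2 k1 (inv_nonneg.2 (by linarith)) (by positivity)
    have k4 : 0 ≤ d ^ 3 := by positivity
    push_cast
    linarith
  have e1 : 1 + (p - a) * z⁻¹ = z' * z⁻¹ := by rw [hp']; field_simp; ring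
  have e2 : z'.arg - z.arg + (z⁻¹).im * a - (z⁻¹ ^ 2).im * (2 * h - a ^ 2 / 2) =
      (Complex.log (1 + (p - a) * z⁻¹) - Complex.logTaylor (2 + 1) ((p - a) * z⁻¹) +
        ((p - h * (2 / z)) * z⁻¹ - p * (p - 2 * a) * z⁻¹ ^ 2 / 2)).im := by
    have e3 : Complex.logTaylor (2 + 1) ((p - a) * z⁻¹) -
        ((p - h * (2 / z)) * z⁻¹ - p * (p - 2 * a) * z⁻¹ ^ 2 / 2) =
        ((2 * h - a ^ 2 / 2 : ℝ) : ℂ) * z⁻¹ ^ 2 - (a : ℂ) * z⁻¹ := by
      simp only [Complex.logTaylor, Finset.sum_range_succ, Finset.sum_range_zero, div_eq_mul_inv]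
      push_cast
      ring
    rw [sub_add (Complex.log _), e3, Complex.sub_im, Complex.sub_im, Complex.im_ofReal_mul, Complex.im_ofReal_mul,
      Complex.log_im, e1, a6, a5]
    ring
  rw [e2]
  refine (Complex.abs_im_le_norm _).trans ((norm_add_le _ _).trans ?_)
  have k1 : ‖(p - h * (2 / z)) * z⁻¹‖ ≤ 2 * d ^ 3 * 1 := by
    rw [norm_mul]
    exact mul_le_mul hr (by linarith) (norm_nonneg _) (by positivity)
  have k2 : ‖p * (p - 2 * a) * z⁻¹ ^ 2 / 2‖ ≤ 2 * d ^ 2 * (6 * d) * 1 / 2 := by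
    have k3 : ‖p - 2 * a‖ ≤ 6 * d := by
      refine (norm_sub_le _ _).trans ?_
      rw [norm_mul, Complex.norm_two]
      linarith
    rw [norm_div, norm_mul, norm_mul, norm_pow, Complex.norm_two]
    exact div_le_div_of_nonneg_right (mul_le_mul (mul_le_mul hp k3 (norm_nonneg _) (by positivity))
      (pow_le_one₀ (norm_nonneg _) (by linarith)) (by positivity) (by positivity)) (by norm_num)
  have k3 := norm_sub_le ((p - h * (2 / z)) * z⁻¹) (p * (p - 2 * a) * z⁻¹ ^ 2 / 2)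
  linarith

theorem DTay_pt (hA : P164.FlowAStmt) {W : Pth} {w : ℂ} {s s' d : ℝ} (h0 : 0 < d) (h1 : d ≤ 1)
    (hs : 0 ≤ s) (hs' : s ≤ s') (hd : s' ≤ s + 2 * d ^ 2)
    (hW : ∀ u ∈ Icc s s', |W u - W s| ≤ 2 * d)
    (h : ∀ u ∈ Icc s s', w ∈ P164.dom W u ∧ 8 ≤ ‖Zf W u w‖ ∧ 2 ≤ (Zf W u w).im) :
    (∀ u ∈ Icc s s', ‖(Zf W u w)⁻¹ - (Zf W s w)⁻¹‖ ≤ d / 2) ∧
    |(Zf W s' w).arg - (Zf W s w).arg + ((Zf W s w)⁻¹).im * (W s' - W s) -
      ((Zf W s w)⁻¹ ^ 2).im * (2 * (s' - s) - (W s' - W s) ^ 2 / 2)| ≤ 9 * d ^ 3 := by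
  have m0 : s ∈ Icc s s' := ⟨le_rfl, hs'⟩
  have m1 : s' ∈ Icc s s' := ⟨hs', le_rfl⟩
  have k1 : ∀ u ∈ Icc s s', ‖Zf W u w + (W u - W s : ℝ) - Zf W s w‖ ≤ 2 * d ^ 2 := fun u hu => by
    have k := hA.move W w s u hs hu.1 (h u hu).1
    have k' : 2 * (u - s) / P164.Yf W u w ≤ 2 * (2 * d ^ 2) / 2 :=
      div_le_div₀ (by positivity) (by linarith [hu.2]) two_pos (h u hu).2.2
    rw [show Zf W u w + (W u - W s : ℝ) - Zf W s w = Zf W u w + W u - (Zf W s w + W s) by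
      push_cast; ring]
    linarith
  have k2 : ∀ u ∈ Icc s s', ‖(Zf W u w)⁻¹ - (Zf W s w)⁻¹‖ ≤ d / 2 := fun u hu => by
    have k := norm_sub_le (Zf W u w + (W u - W s : ℝ) - Zf W s w) (W u - W s : ℝ)
    rw [Complex.norm_real, Real.norm_eq_abs, add_sub_right_comm, add_sub_cancel_right,
      norm_sub_rev] at k
    refine (DTay_inv (by norm_num) (by norm_num) (h u hu).2.1 (h s m0).2.1 k).trans ?_
    have := k1 u hu
    rw [add_sub_right_comm] at this
    nlinarith [hW u hu]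
  have c1 : ContinuousOn (fun u => Zf W u w) (Icc s s') := fun u hu =>
    (hA.cont W u w (hs.trans hu.1) (h u hu).1).1.continuousWithinAt
  have c2 : IntervalIntegrable (fun u => 2 / Zf W u w) volume s s' :=
    (continuousOn_const.div c1 fun u hu => norm_pos_iff.1 (by linarith [(h u hu).2.1])
      ).intervalIntegrable_of_Icc hs'
  have k3 := intervalIntegral.integral_eq_sub_of_hasDerivAt_of_le hs'
    (c1.add (Complex.continuous_ofReal.comp W.continuous).continuousOn)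
    (fun u hu => (hA.der W u w (hs.trans_lt hu.1) (h u (Ioo_subset_Icc_self hu)).1).1) c2
  have k4 := intervalIntegral.norm_integral_le_of_norm_le_const (a := s) (b := s') (C := d)
    (f := fun u => 2 / Zf W u w - 2 / Zf W s w) fun u hu => by
      rw [uIoc_of_le hs'] at hu
      rw [div_eq_mul_inv, div_eq_mul_inv, ← mul_sub, norm_mul, Complex.norm_two]
      linarith [k2 u (Ioc_subset_Icc_self hu)]
  rw [intervalIntegral.integral_sub c2 intervalIntegrable_const, k3,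
    intervalIntegral.integral_const, abs_of_nonneg (sub_nonneg.2 hs')] at k4
  refine ⟨k2, DTay_arg (by linarith [(h s m0).2.2]) (by linarith [(h s' m1).2.2]) (h s m0).2.1 h0 h1
    (hW s' m1) (k1 s' m1) (le_of_eq_of_le (congrArg norm ?_) (k4.trans (by nlinarith)))⟩
  simp only [Pi.add_apply, Function.comp_apply, Complex.real_smul]
  push_cast
  ring

theorem DTay_le {ν : Measure ℂ} [IsProbabilityMeasure ν] {f : ℂ → ℝ} {c : ℝ}
    (h : ∀ᵐ w ∂ν, |f w| ≤ c) : |∫ w, f w ∂ν| ≤ c := by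
  simpa using norm_integral_le_of_norm_le_const (μ := ν) (f := f) h

theorem s_tay (hA : P164.FlowAStmt) (hM : P164.FlowMStmt) (h : S_far) : S_tay := by
  intro T R
  obtain ⟨C, hC, h⟩ := h T R
  refine ⟨16 * C, by linarith, ?_⟩
  rintro w₀ ν W s s' d h1 h2 ⟨hν, h3⟩ d0 d1 s0 ss sd hR hW
  have n0 : 0 < ‖w₀‖ := by linarith
  have g : ∀ᵐ w ∂ν, ∀ u ∈ Icc 0 s', w ∈ P164.dom W u ∧ ‖w₀ - Zf W u w‖ ≤ C ∧
      ‖w₀‖ / 2 ≤ ‖Zf W u w‖ ∧ 2 ≤ (Zf W u w).im ∧ ‖(Zf W u w)⁻¹‖ ≤ 1 := by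
    filter_upwards [h3] with w hw u hu
    obtain ⟨k1, k2⟩ := h w₀ w W s' (by linarith) h2 hw hR u hu
    rw [norm_sub_rev] at k2
    have k3 := norm_sub_norm_le w₀ (Zf W u w)
    have k4 := (abs_le.1 ((Complex.abs_im_le_norm _).trans k2)).2
    rw [Complex.sub_im] at k4
    exact ⟨k1, k2, by linarith, by linarith, by
      rw [norm_inv]; exact inv_le_one_of_one_le₀ (by linarith)⟩
  have sub : Icc s s' ⊆ Icc 0 s' := Icc_subset_Icc_left s0
  have m0 : s ∈ Icc 0 s' := ⟨s0, ss⟩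
  have g2 := g.mono fun w hw => DTay_pt hA d0 d1 s0 ss sd hW fun u hu =>
    ⟨(hw u (sub hu)).1, by linarith [(hw u (sub hu)).2.2.1], (hw u (sub hu)).2.2.2.1⟩
  have mZ : Measurable fun p : ℝ × ℂ => Zf W p.1 p.2 :=
    hM.Z_meas.comp (measurable_snd.prodMk (measurable_const.prodMk measurable_fst))
  have mz : ∀ u, Measurable fun w => Zf W u w := fun u => mZ.comp measurable_prodMk_left
  have i0 : ∀ u, Integrable (fun w => (Zf W u w).arg) ν := fun u =>
    .of_bound (Complex.measurable_arg.comp (mz u)).aestronglyMeasurable π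
      (.of_forall fun w => Complex.abs_arg_le_pi _)
  have b1 : ∀ u ∈ Icc 0 s', ∀ᵐ w ∂ν, |((Zf W u w)⁻¹).im| ≤ 1 := fun u hu =>
    g.mono fun w hw => (Complex.abs_im_le_norm _).trans (hw u hu).2.2.2.2
  have i1 : ∀ u ∈ Icc 0 s', Integrable (fun w => ((Zf W u w)⁻¹).im) ν := fun u hu =>
    .of_bound (Complex.measurable_im.comp (mz u).inv).aestronglyMeasurable 1 (b1 u hu)
  have i2 : Integrable (fun w => ((Zf W s w)⁻¹ ^ 2).im) ν :=
    .of_bound (Complex.measurable_im.comp ((mz s).inv.pow_const 2)).aestronglyMeasurable 1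
      (g.mono fun w hw => (Complex.abs_im_le_norm _).trans (by
        rw [norm_pow]; exact pow_le_one₀ (norm_nonneg _) (hw s m0).2.2.2.2))
  have d3 : 0 ≤ d ^ 3 := by positivity
  have g3 : ∀ᵐ w ∂ν, ‖(Zf W s w)⁻¹ - w₀⁻¹‖ ≤ 2 * C / ‖w₀‖ ^ 2 := g.mono fun w hw =>
    (DTay_inv (half_pos n0) n0 (hw s m0).2.2.1 le_rfl (hw s m0).2.1).trans_eq (by field_simp)
  refine ⟨?_, ?_, ?_, ?_⟩
  · have k := DTay_le (g2.mono fun w hw => hw.2)
    rw [integral_sub (((i0 s').sub' (i0 s)).fun_add ((i1 s m0).mul_const _)) (i2.mul_const _),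
      integral_add ((i0 s').sub' (i0 s)) ((i1 s m0).mul_const _), integral_sub (i0 s') (i0 s),
      integral_mul_const, integral_mul_const] at k
    rw [obsM, obsM, ← sub_div, mul_div_cancel₀ _ Real.pi_ne_zero]
    exact k.trans (by nlinarith)
  · have mc : Measurable fun u => co1 ν W u ^ 2 := ((Complex.measurable_im.comp
      mZ.inv).stronglyMeasurable.integral_prod_right' (ν := ν)).measurable.pow_const 2
    have ic : ∀ t ∈ Icc 0 s', IntervalIntegrable (fun u => co1 ν W u ^ 2) volume 0 t := fun t ht =>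
      (intervalIntegrable_iff_integrableOn_Icc_of_le ht.1).2 (.of_bound measure_Icc_lt_top
        mc.aestronglyMeasurable 1 (ae_restrict_of_forall_mem measurableSet_Icc fun u hu => by
          rw [norm_pow]
          exact pow_le_one₀ (norm_nonneg _) (DTay_le (b1 u ⟨hu.1, hu.2.trans ht.2⟩))))
    have k := intervalIntegral.norm_integral_le_of_norm_le_const (a := s) (b := s') (C := d)
      (f := fun u => co1 ν W u ^ 2 - co1 ν W s ^ 2) fun u hu => by
        rw [uIoc_of_le ss] at hu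
        have hu' := Ioc_subset_Icc_self hu
        have k1 := DTay_le (f := fun w => ((Zf W u w)⁻¹).im - ((Zf W s w)⁻¹).im)
          (g2.mono fun w hw => (Complex.abs_im_le_norm _).trans (hw.1 u hu'))
        rw [integral_sub (i1 u (sub hu')) (i1 s m0)] at k1
        rw [sq_sub_sq, norm_mul]
        exact (mul_le_mul ((norm_add_le _ _).trans (add_le_add (DTay_le (b1 u (sub hu')))
          (DTay_le (b1 s m0)))) k1 (abs_nonneg _) (by norm_num)).trans_eq (by ring)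
    rw [intervalIntegral.integral_sub ((ic s m0).symm.trans (ic s' ⟨s0.trans ss, le_rfl⟩))
      intervalIntegrable_const, intervalIntegral.integral_const, abs_of_nonneg (sub_nonneg.2 ss),
      ← intervalIntegral.integral_interval_sub_left (ic s' ⟨s0.trans ss, le_rfl⟩) (ic s m0),
      smul_eq_mul, mul_comm (s' - s)] at k
    rw [obsQ, obsQ, mul_assoc, ← mul_sub, ← mul_sub, abs_mul]
    have p1 : |2 / π| ≤ 1 := by
      rw [abs_of_pos (by positivity)]
      exact div_le_one_of_le₀ Real.two_le_pi Real.pi_pos.le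
    exact (mul_le_mul p1 k (abs_nonneg _) zero_le_one).trans (by nlinarith)
  · have k := DTay_le (f := fun w => ((Zf W s w)⁻¹).im - (w₀⁻¹).im)
      (g3.mono fun w hw => (Complex.abs_im_le_norm _).trans hw)
    rw [integral_sub (i1 s m0) (integrable_const _), integral_const, probReal_univ, one_smul] at k
    exact k.trans (div_le_div_of_nonneg_right (by linarith) (by positivity))
  · have k := DTay_le (f := fun w => ((Zf W s w)⁻¹ ^ 2).im - (w₀⁻¹ ^ 2).im)
      (c := 6 * C / ‖w₀‖ ^ 3) ((g.and g3).mono fun w hw =>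
        (Complex.abs_im_le_norm ((Zf W s w)⁻¹ ^ 2 - w₀⁻¹ ^ 2)).trans (by
        have k1 : ‖(Zf W s w)⁻¹‖ ≤ (‖w₀‖ / 2)⁻¹ := by
          rw [norm_inv]; exact inv_anti₀ (half_pos n0) (hw.1 s m0).2.2.1
        rw [sq_sub_sq, norm_mul]
        refine (mul_le_mul ((norm_add_le _ _).trans (add_le_add k1 (norm_inv w₀).le)) hw.2
          (norm_nonneg _) (by positivity)).trans_eq ?_
        field_simp
        norm_num))
    rw [integral_sub i2 (integrable_const _), integral_const, probReal_univ, one_smul] at k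
    exact k.trans (div_le_div_of_nonneg_right (by linarith) (by positivity))

end Vale.Agent.P153.Drive
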