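import Vale.Agent.P153.SLE.Drv

/-! Tightness of the driving functions. -/

open Set Filter Topology MeasureTheory
open scoped Real

noncomputable section
namespace Vale.Agent.P153.Drive

open Vale.Agent.P164 (Pth)

/-- The window has not been left at time `r`. -/
def DTightQ (w : ℝ → ℝ) (v h x r : ℝ) : Prop := r ≤ v + h ∧ ∀ u ∈ Icc v r, |w u - w v| ≤ x

theorem DTight_inv {w : ℝ → ℝ} {s z τ : ℕ → ℝ} {v h x d : ℝ} (hv : 0 ≤ v) (hd : 0 < d)
    (h1 : 4 * d ≤ x) (h2 : 2 * d ^ 2 ≤ h) (s0 : s 0 = 0)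
    (ds : ∀ j, s j ≤ s (j + 1) ∧ s (j + 1) ≤ s j + 2 * d ^ 2)
    (osc : ∀ j, ∀ u ∈ Icc (s j) (s (j + 1)), |w u - w (s j)| ≤ 2 * d) (z0 : z 0 = 0)
    (τ0 : τ 0 = 0)
    (hin : ∀ j, v ≤ s j ∧ DTightQ w v h x (s j) →
      z (j + 1) = z j + (w (s (j + 1)) - w (s j)) ∧ τ (j + 1) = τ j + (s (j + 1) - s j))
    (hout : ∀ j, ¬ (v ≤ s j ∧ DTightQ w v h x (s j)) → z (j + 1) = z j ∧ τ (j + 1) = τ j)
    (j : ℕ) :
    (s j < v ∧ z j = 0 ∧ τ j = 0) ∨
    (v ≤ s j ∧ DTightQ w v h x (s j) ∧ |z j - (w (s j) - w v)| ≤ 4 * d ∧ τ j ≤ s j - v) ∨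
    (v ≤ s j ∧ ¬ DTightQ w v h x (s j) ∧ |z j| ≤ x + 6 * d ∧ τ j ≤ h + 2 * d ^ 2 ∧
      ((∃ u ∈ Icc v (v + h), x < |w u - w v|) → x - 8 * d ≤ |z j|)) := by
  have o2 : ∀ j, ∀ u ∈ Icc (s j) (s (j + 1)), ∀ u' ∈ Icc (s j) (s (j + 1)),
      |w u - w u'| ≤ 4 * d := fun j u hu u' hu' => by
    have k1 := abs_le.1 (osc j u hu)
    have k2 := abs_le.1 (osc j u' hu')
    rw [abs_le]
    constructor <;> linarith [k1.1, k1.2, k2.1, k2.2]
  induction j with
  | zero =>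
    rcases hv.eq_or_lt with rfl | hv'
    · refine Or.inr (Or.inl ⟨s0.ge, ⟨by nlinarith [sq_nonneg d], fun u hu => ?_⟩, ?_, ?_⟩)
      · rw [s0] at hu
        rw [le_antisymm hu.2 hu.1, sub_self, abs_zero]
        linarith
      · rw [z0, s0, sub_self, sub_self, abs_zero]
        linarith
      · rw [τ0, s0, sub_self]
    · exact Or.inl ⟨s0 ▸ hv', z0, τ0⟩
  | succ j ih =>
    obtain ⟨d1, d2⟩ := ds j
    have m1 : s (j + 1) ∈ Icc (s j) (s (j + 1)) := ⟨d1, le_rfl⟩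
    rcases ih with ⟨a1, a2, a3⟩ | ⟨a1, a2, a3, a4⟩ | ⟨a1, a2, a3, a4, a5⟩
    · obtain ⟨e1, e2⟩ := hout j fun k => absurd k.1 (not_le.2 a1)
      rw [e1, e2, a2, a3]
      rcases lt_or_ge (s (j + 1)) v with k | k
      · exact Or.inl ⟨k, rfl, rfl⟩
      · have mv : v ∈ Icc (s j) (s (j + 1)) := ⟨a1.le, k⟩
        refine Or.inr (Or.inl ⟨k, ⟨by linarith, fun u hu =>
          (o2 j u ⟨a1.le.trans hu.1, hu.2⟩ v mv).trans h1⟩, ?_, by linarith⟩)
        rw [zero_sub, abs_neg]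
        exact o2 j _ m1 v mv
    · obtain ⟨e1, e2⟩ := hin j ⟨a1, a2⟩
      have b1 : |z (j + 1) - (w (s (j + 1)) - w v)| ≤ 4 * d := by
        rw [e1]
        exact (le_of_eq (congrArg _ (by ring))).trans a3
      by_cases hq : DTightQ w v h x (s (j + 1))
      · exact Or.inr (Or.inl ⟨a1.trans d1, hq, b1, by linarith⟩)
      · have b2 := abs_le.1 (a2.2 (s j) ⟨a1, le_rfl⟩)
        have b3 := abs_le.1 (osc j _ m1)
        have b4 := abs_le.1 b1
        refine Or.inr (Or.inr ⟨a1.trans d1, hq, abs_le.2 ⟨by linarith, by linarith⟩,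
          by linarith [a2.1], fun ⟨u, hu, hu'⟩ => ?_⟩)
        obtain ⟨y, hy, hy'⟩ : ∃ y ∈ Icc v (s (j + 1)), x < |w y - w v| := by
          by_cases k : s (j + 1) ≤ v + h
          · by_contra k'
            exact hq ⟨k, fun y hy => not_lt.1 fun l => k' ⟨y, hy, l⟩⟩
          · exact ⟨u, ⟨hu.1, hu.2.trans (not_le.1 k).le⟩, hu'⟩
        have b5 : s j ≤ y := not_lt.1 fun k => not_le.2 hy' (a2.2 y ⟨hy.1, k.le⟩)
        have b6 := abs_le.1 (o2 j y ⟨b5, hy.2⟩ _ m1)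
        rcases lt_abs.1 hy' with k | k
        · exact le_abs.2 (Or.inl (by linarith))
        · exact le_abs.2 (Or.inr (by linarith))
    · obtain ⟨e1, e2⟩ := hout j fun k => a2 k.2
      rw [e1, e2]
      exact Or.inr (Or.inr ⟨a1.trans d1, fun k => a2 ⟨d1.trans k.1, fun u hu =>
        k.2 u ⟨hu.1, hu.2.trans d1⟩⟩, a3, a4, a5⟩)

open Classical in
/-- The indicator of the window. -/
def DTightI (W : Cfg → Pth) (s : ℕ → Cfg → ℝ) (v h x : ℝ) (j : ℕ) (H : Cfg) : ℝ :=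
  if v ≤ s j H ∧ DTightQ (W H) v h x (s j H) then 1 else 0

/-- The stopped sum of the increments of `y`. -/
def DTightS (W : Cfg → Pth) (s y : ℕ → Cfg → ℝ) (v h x : ℝ) (j : ℕ) (H : Cfg) : ℝ :=
  ∑ i ∈ Finset.range j, DTightI W s v h x i H * dl y i H

variable {ι : Type} {S : Set Cfg} {l : ℕ → Cfg → ι} {W : Cfg → Pth} {s : ℕ → Cfg → ℝ}
  {T R d v h x : ℝ}

theorem DTight_det (P : Path S l W s T R d) (hv : 0 ≤ v) (hd : 0 < d) (h1 : 16 * d ≤ x)
    (h2 : 2 * d ^ 2 ≤ h) {H : Cfg} (hH : H ∈ S) (j : ℕ) :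
    |DTightS W s (pos W s) v h x j H| ≤ 2 * x ∧ 0 ≤ DTightS W s s v h x j H ∧
      DTightS W s s v h x j H ≤ 2 * h ∧ (v + h < s j H →
        (∃ u ∈ Icc v (v + h), x < |W H u - W H v|) → x / 2 ≤ |DTightS W s (pos W s) v h x j H|) := by
  have hh : 0 ≤ h := le_trans (by positivity) h2
  have k := DTight_inv (w := W H) (s := fun j => s j H) (x := x)
    (z := fun j => DTightS W s (pos W s) v h x j H) (τ := fun j => DTightS W s s v h x j H)
    hv hd (by linarith) h2 (P.s0 H hH)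
    (fun j => by
      have := P.ds j H hH
      unfold dl at this
      constructor <;> linarith [this.1, this.2])
    (fun j => P.osc j H hH) (Finset.sum_range_zero _) (Finset.sum_range_zero _)
    (fun j hj => by simp only [DTightS, Finset.sum_range_succ, DTightI, if_pos hj, one_mul, dl, pos,
      and_self])
    (fun j hj => by simp only [DTightS, Finset.sum_range_succ, DTightI, if_neg hj, zero_mul,
      add_zero, and_self]) j
  refine ⟨?_, Finset.sum_nonneg fun i _ => mul_nonneg ?_ (P.ds i H hH).1, ?_, fun a b => ?_⟩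
  · rcases k with k | k | k
    · rw [k.2.1, abs_zero]
      linarith
    · have b1 := abs_le.1 (k.2.1.2 _ ⟨k.1, le_rfl⟩)
      have b2 := abs_le.1 k.2.2.1
      exact abs_le.2 ⟨by linarith, by linarith⟩
    · linarith [k.2.2.1]
  · unfold DTightI
    split_ifs
    exacts [zero_le_one, le_rfl]
  · rcases k with k | k | k
    · linarith [k.2.2]
    · linarith [k.2.2.2, k.2.1.1]
    · linarith [k.2.2.2.1]
  · rcases k with k | k | k
    · linarith [k.1]
    · linarith [k.2.1.1]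
    · linarith [k.2.2.2.2 b]

theorem DTight_expo (μ : ℝ) (j : ℕ) (H : Cfg) :
    expo W s (fun j H => (μ * DTightI W s v h x j H : ℝ)) j H = (Real.exp
      (μ * DTightS W s (pos W s) v h x j H - 2 * μ ^ 2 * DTightS W s s v h x j H) : ℝ) := by
  rw [expo, Complex.ofReal_exp, DTightS, DTightS, Finset.mul_sum, Finset.mul_sum,
    ← Finset.sum_sub_distrib, Complex.ofReal_sum]
  refine congrArg _ (Finset.sum_congr rfl fun i _ => ?_)
  unfold DTightI
  split_ifs <;> push_cast <;> ring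

theorem DTight_ad (P : Path S l W s T R d) (hv : 0 ≤ v) (j : ℕ) {H H' : Cfg} (hH : H ∈ S)
    (hH' : H' ∈ S) (e : l j H' = l j H) : DTightI W s v h x j H' = DTightI W s v h x j H := by
  obtain ⟨e1, e2⟩ := P.ad j H hH H' hH' e
  have k : (v ≤ s j H' ∧ DTightQ (W H') v h x (s j H')) ↔
      (v ≤ s j H ∧ DTightQ (W H) v h x (s j H)) := by
    rw [e1]
    refine and_congr_right fun k => and_congr_right fun _ => forall₂_congr fun u hu => ?_
    rw [e2 ⟨hv.trans hu.1, hu.2⟩, e2 ⟨hv, k⟩]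
  by_cases k' : v ≤ s j H ∧ DTightQ (W H) v h x (s j H)
  · rw [DTightI, DTightI, if_pos k', if_pos (k.2 k')]
  · rw [DTightI, DTightI, if_neg k', if_neg (mt k.1 k')]

theorem DTight_win (P : Path S l W s T R d) (hv : 0 ≤ v) (hd : 0 < d) (h1 : 16 * d ≤ x)
    (h2 : 2 * d ^ 2 ≤ h) {J : ℕ}
    (hE : ∀ lam : ℕ → Cfg → ℂ, (∀ j, ∀ H ∈ S, ‖lam j H‖ ≤ x / (16 * h)) →
      (∀ j, ∀ H ∈ S, ∀ H' ∈ S, l j H' = l j H → lam j H' = lam j H) →
      (∀ j < J, ∀ H ∈ S, ‖expo W s lam j H‖ ≤ Real.exp (x / (16 * h) * (2 * x))) →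
      Ex S (fun H => (expo W s lam J H).re) ≤ 2) :
    Pr S {H | v + h < s J H ∧ ∃ u ∈ Icc v (v + h), x < |W H u - W H v|}
      ≤ 8 * 64 ^ 2 * h ^ 2 / x ^ 4 := by
  have hh : 0 < h := lt_of_lt_of_le (by positivity) h2
  have hx : 0 < x := by linarith
  obtain ⟨a, ha⟩ : ∃ a, a = x / (16 * h) := ⟨_, rfl⟩
  have a0 : 0 < a := by rw [ha]; positivity
  rw [← ha] at hE
  have k : ∀ μ : ℝ, |μ| = a → Ex S (fun H => Real.exp
      (μ * DTightS W s (pos W s) v h x J H - 2 * μ ^ 2 * DTightS W s s v h x J H)) ≤ 2 := by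
    intro μ hμ
    have := hE (fun j H => (μ * DTightI W s v h x j H : ℝ)) (fun j H _ => ?_)
      (fun j H hH H' hH' e => by rw [DTight_ad P hv j hH hH' e]) fun j _ H hH => ?_
    · simpa only [DTight_expo, Complex.ofReal_re] using this
    · rw [Complex.norm_real, Real.norm_eq_abs, abs_mul, hμ]
      unfold DTightI
      split_ifs
      · simp
      · simpa using a0.le
    · obtain ⟨b1, b2, -⟩ := DTight_det (x := x) (h := h) P hv hd h1 h2 hH j
      rw [DTight_expo, Complex.norm_real, Real.norm_eq_abs, abs_of_pos (Real.exp_pos _),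
        Real.exp_le_exp]
      have b3 := le_abs_self (μ * DTightS W s (pos W s) v h x j H)
      rw [abs_mul, hμ] at b3
      have b4 := mul_le_mul_of_nonneg_left b1 a0.le
      have b5 := mul_nonneg (sq_nonneg μ) b2
      linarith
  have m := markov (S := S) (c := Real.exp (x ^ 2 / (64 * h)))
    (E := {H | v + h < s J H ∧ ∃ u ∈ Icc v (v + h), x < |W H u - W H v|})
    (f := fun H => Real.exp (a * DTightS W s (pos W s) v h x J H
        - 2 * a ^ 2 * DTightS W s s v h x J H) + Real.exp (-a * DTightS W s (pos W s) v h x J H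
        - 2 * (-a) ^ 2 * DTightS W s s v h x J H)) (fun H _ => by positivity) fun H hH hb => by
      obtain ⟨-, -, b2, b3⟩ := DTight_det (x := x) (h := h) P hv hd h1 h2 hH J
      have b4 := mul_le_mul_of_nonneg_left b2 (sq_nonneg a)
      have e : x ^ 2 / (64 * h) = a * (x / 2) - 2 * (a ^ 2 * (2 * h)) := by
        rw [ha]
        field_simp
        ring
      rcases le_abs.1 (b3 hb.1 hb.2) with b | b
      · have b5 := mul_le_mul_of_nonneg_left b a0.le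
        exact le_add_of_le_of_nonneg (Real.exp_le_exp.2 (by linarith)) (Real.exp_pos _).le
      · have b5 := mul_le_mul_of_nonneg_left b a0.le
        exact le_add_of_nonneg_of_le (Real.exp_pos _).le (Real.exp_le_exp.2 (by linarith))
  rw [Ex_add] at m
  have k1 := k a (abs_of_pos a0)
  have k2 := k (-a) (by rw [abs_neg, abs_of_pos a0])
  have y0 : 0 ≤ x ^ 2 / (64 * h) := by positivity
  have q := Real.quadratic_le_exp_of_nonneg y0
  have q' : (x ^ 2 / (64 * h)) ^ 2 / 2 ≤ Real.exp (x ^ 2 / (64 * h)) := by linarith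
  have r := (mul_le_mul_of_nonneg_right q' (Pr_nonneg S _)).trans m
  rw [le_div_iff₀ (by positivity)]
  have e : (x ^ 2 / (64 * h)) ^ 2 / 2 = x ^ 4 / (2 * 64 ^ 2 * h ^ 2) := by field_simp
  rw [e, div_mul_eq_mul_div, div_le_iff₀ (by positivity)] at r
  have r2 := mul_le_mul_of_nonneg_right (add_le_add k1 k2)
    (show 0 ≤ 2 * 64 ^ 2 * h ^ 2 by positivity)
  linarith

theorem s_tight (h1 : S_exp) (h2 : S_fin) : S_tight := by
  intro S W ⟨ι, hM⟩ T x η hx hη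
  obtain ⟨U, hU⟩ : ∃ U, U = max T 0 + 1 := ⟨_, rfl⟩
  have U1 : 1 ≤ U := by rw [hU]; linarith [le_max_right T 0]
  have TU : T + 1 ≤ U := by rw [hU]; linarith [le_max_left T 0]
  refine ⟨min 1 (η * x ^ 4 / (16 * 64 ^ 2 * (U + 1))), by positivity, fun h h0 hh => ?_⟩
  have hh1 : h ≤ 1 := hh.trans (min_le_left _ _)
  have hh2 := hh.trans (min_le_right _ _)
  rw [le_div_iff₀ (by positivity)] at hh2
  obtain ⟨R, R8, hR⟩ : ∃ R : ℝ, 8 ≤ R ∧ 16 * (2 + 4 * (U + 2)) / η ≤ R :=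
    ⟨max _ _, le_max_left _ _, le_max_right _ _⟩
  rw [div_le_iff₀ hη] at hR
  obtain ⟨L, hL⟩ : ∃ L, L = 4 * (5 * (U + 2) + 1) / η := ⟨_, rfl⟩
  have L0 : 0 < L := by rw [hL]; positivity
  obtain ⟨C, C0, hC⟩ := hM U R U1 (by linarith)
  obtain ⟨C', C0', hC'⟩ := h1 (x / (16 * h))
  obtain ⟨B, hB⟩ : ∃ B, B = Real.exp (x / (16 * h) * (2 * x)) := ⟨_, rfl⟩
  have B0 : 0 < B := hB ▸ Real.exp_pos _
  obtain ⟨M, hM'⟩ : ∃ M, M = B * (C' * (1 + C)) + (2 * R + 5) * C + 1 := ⟨_, rfl⟩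
  have p1 : 0 ≤ B * (C' * (1 + C)) := by positivity
  have p2 : C ≤ (2 * R + 5) * C := le_mul_of_one_le_left C0 (by linarith)
  have M0 : 0 < M := by rw [hM']; linarith
  obtain ⟨d, d0, d1, d2, d3, d4⟩ : ∃ d : ℝ, 0 < d ∧ d ≤ 1 ∧ d ≤ x / 16 ∧ d ≤ h / 2 ∧
      d ≤ 1 / ((L + 1) * M) := ⟨min (min 1 (x / 16)) (min (h / 2) (1 / ((L + 1) * M))),
    by positivity, (min_le_left _ _).trans (min_le_left _ _),
    (min_le_left _ _).trans (min_le_right _ _), (min_le_right _ _).trans (min_le_left _ _),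
    (min_le_right _ _).trans (min_le_right _ _)⟩
  rw [le_div_iff₀ (by positivity)] at d4
  have dd : d ^ 2 ≤ d := by nlinarith
  obtain ⟨J, J1, J2⟩ : ∃ J : ℕ, L ≤ J * d ^ 2 ∧ J * d ^ 2 ≤ L + 1 := by
    refine ⟨⌈L / d ^ 2⌉₊, (div_le_iff₀ (by positivity)).1 (Nat.le_ceil _), ?_⟩
    have := mul_le_mul_of_nonneg_right (Nat.ceil_lt_add_one (a := L / d ^ 2) (by positivity)).le
      (sq_nonneg d)
    rw [add_mul, div_mul_cancel₀ _ (by positivity)] at this
    linarith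
  have J0 : 1 ≤ J := Nat.pos_of_ne_zero fun e => by
    rw [e, Nat.cast_zero, zero_mul] at J1
    linarith
  have J3 : ∀ m : ℝ, 0 ≤ m → m ≤ M → J * m * d ^ 3 ≤ 1 := fun m m0 m1 => by
    have := mul_le_mul J2 m1 m0 (by linarith)
    have := mul_le_mul_of_nonneg_left this d0.le
    linarith
  filter_upwards [hC d d0 d1] with n ⟨l, s, P, Q⟩
  have f := h2 ι (S n) l (W n) s U R d C J P Q d0 d1 C0 U1 R8 J0
  have f1 : (5 * (U + 2) + J * C * d ^ 3) / (J * d ^ 2) ≤ η / 4 := by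
    rw [div_le_iff₀ (by linarith)]
    have := J3 C C0 (by linarith)
    have e : η / 4 * L = 5 * (U + 2) + 1 := by rw [hL]; field_simp
    have := mul_le_mul_of_nonneg_left J1 (show 0 ≤ η / 4 by positivity)
    linarith
  have f2 : 4 * (1 + 4 * (U + 2) + J * (2 * R + 5) * C * d ^ 3) / R ^ 2 ≤ η / 4 := by
    rw [div_le_iff₀ (by positivity)]
    have := J3 ((2 * R + 5) * C) (C0.trans p2) (by linarith)
    have : R * η ≤ R ^ 2 * η := mul_le_mul_of_nonneg_right (by nlinarith) hη.le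
    linarith
  have g : ∀ i : ℕ, Pr (S n) {H | i * h + h < s J H ∧ ∃ u ∈ Icc (i * h) (i * h + h),
      x < |W n H u - W n H (i * h)|} ≤ 8 * 64 ^ 2 * h ^ 2 / x ^ 4 := fun i =>
    DTight_win P (by positivity) d0 (by linarith) (by linarith) fun lam a1 a2 a3 => by
      have := (abs_le.1 (hC' ι (S n) l (W n) s U R d C B lam J 1 P Q d0 d1 C0 (by simp) a1 a2
        (hB ▸ a3))).2
      simp only [one_mul, Complex.one_re] at this
      have := J3 _ p1 (by linarith)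
      linarith
  have u1 := Pr_biUnion_le (S n) (Finset.range (⌊U / h⌋₊ + 1)) fun i : ℕ =>
    {H | i * h + h < s J H ∧ ∃ u ∈ Icc (i * h) (i * h + h), x < |W n H u - W n H (i * h)|}
  have u2 := Finset.sum_le_card_nsmul (Finset.range (⌊U / h⌋₊ + 1)) _ _ fun i _ => g i
  rw [Finset.card_range, nsmul_eq_mul, Nat.cast_add_one] at u2
  have u3 : ((⌊U / h⌋₊ : ℝ) + 1) * (8 * 64 ^ 2 * h ^ 2 / x ^ 4) ≤ η / 2 := by
    have k1 : (⌊U / h⌋₊ : ℝ) * h ≤ U := (le_div_iff₀ h0).1 (Nat.floor_le (by positivity))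
    rw [← mul_div_assoc, div_le_iff₀ (by positivity)]
    have k2 : ((⌊U / h⌋₊ : ℝ) + 1) * h * h ≤ (U + 1) * h :=
      mul_le_mul_of_nonneg_right (by linarith) h0.le
    linarith
  refine (Pr_mono (E' := {H | s J H ≤ U} ∪ ⋃ i ∈ Finset.range (⌊U / h⌋₊ + 1),
    {H | i * h + h < s J H ∧ ∃ u ∈ Icc (i * h) (i * h + h), x < |W n H u - W n H (i * h)|})
    fun H _ hb => ?_).trans ((Pr_union_le _ _ _).trans (by linarith))
  obtain ⟨i, k1, u, k2, k3⟩ := hb
  rcases le_or_gt (s J H) U with k | k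
  · exact Or.inl k
  · refine Or.inr (mem_iUnion₂.2 ⟨i, Finset.mem_range.2 (Nat.lt_succ_of_le (Nat.le_floor
      ((le_div_iff₀ h0).2 (by linarith)))), by linarith, u, ⟨k2.1, by linarith [k2.2]⟩, k3⟩)

end Vale.Agent.P153.Drive
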