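import Vale.Agent.P153.Seal.RefL
import Vale.Agent.P164.Stm

/-! Convergence of the driving functions from the observables: definitions and statements. -/

open Set Filter Topology MeasureTheory
open scoped Real

noncomputable section
namespace Vale.Agent.P153.Drive

open Vale.Agent.P164 (Pth Zf Wie)
open Vale.Agent.P153.Seal (cex)

/-- The time is at most `T` and the path has stayed in `[-R, R]`. -/
def Run (T R s : ℝ) (W : Pth) : Prop := s ≤ T ∧ ∀ u ∈ Icc 0 s, |W u| ≤ R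

/-- The mean observable. -/
def obsM (ν : Measure ℂ) (W : Pth) (s : ℝ) : ℝ := (∫ w, Complex.arg (Zf W s w) ∂ν) / π

def co1 (ν : Measure ℂ) (W : Pth) (s : ℝ) : ℝ := ∫ w, ((Zf W s w)⁻¹).im ∂ν

def co2 (ν : Measure ℂ) (W : Pth) (s : ℝ) : ℝ := ∫ w, ((Zf W s w)⁻¹ ^ 2).im ∂ν

/-- The decrease of the Green energy. -/
def obsQ (ν : Measure ℂ) (W : Pth) (s : ℝ) : ℝ := 2 / π * ∫ u in (0 : ℝ)..s, co1 ν W u ^ 2

/-- Conditional variance. -/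
def cvar {ι : Type} (S : Set Cfg) (l : Cfg → ι) (Y : Cfg → ℝ) (H : Cfg) : ℝ :=
  cex S l (fun K => Y K ^ 2) H - cex S l Y H ^ 2

/-- A probability measure near `w₀`. -/
def Near (ν : Measure ℂ) (w₀ : ℂ) : Prop := IsProbabilityMeasure ν ∧ ∀ᵐ w ∂ν, ‖w - w₀‖ ≤ 1

/-- The input from the lattice. -/
structure Drv {ι : Type} (S : ℕ → Set Cfg) (lab : ℕ → ℕ → Cfg → ι) (t : ℕ → ℕ → Cfg → ℝ)
    (W : ℕ → Cfg → Pth) (K : ℕ → ℝ) : Prop where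
  good : ∀ n, Good (S n)
  bdd : ∃ b : ℝ, ∀ n, |K n| ≤ b
  ref : ∀ᶠ n in atTop, ∀ m, ∀ H ∈ S n, ∀ H' ∈ S n, lab n (m + 1) H' = lab n (m + 1) H →
    lab n m H' = lab n m H
  t0 : ∀ᶠ n in atTop, ∀ H ∈ S n, t n 0 H = 0 ∧ ∀ m, t n m H ≤ t n (m + 1) H
  ad : ∀ᶠ n in atTop, ∀ m, ∀ H ∈ S n, ∀ H' ∈ S n, lab n m H' = lab n m H →
    t n m H' = t n m H ∧ EqOn (W n H') (W n H) (Icc 0 (t n m H))
  start : ∀ e : ℝ, 0 < e → ∀ᶠ n in atTop, ∀ H ∈ S n, |W n H 0| ≤ e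
  fin : ∀ T R : ℝ, ∀ᶠ n in atTop, ∀ H ∈ S n, ∃ m, ¬ Run T R (t n m H) (W n H)
  step : ∀ T R e : ℝ, 0 < e → ∀ᶠ n in atTop, ∀ H ∈ S n, ∀ m, Run T R (t n m H) (W n H) →
    t n (m + 1) H ≤ t n m H + e ∧
      ∀ u ∈ Icc (t n m H) (t n (m + 1) H), |W n H u - W n H (t n m H)| ≤ e
  obs : ∀ T R : ℝ, ∃ A : ℝ, ∀ w₀ : ℂ, A ≤ ‖w₀‖ → ‖w₀‖ ≤ 2 * w₀.im →
    ∃ (ν : Measure ℂ) (Y : ℕ → Cfg → ℝ) (q : ℝ), Near ν w₀ ∧ ∀ e : ℝ, 0 < e → ∀ᶠ n in atTop,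
      ∀ H ∈ S n, ∀ m, Run T R (t n m H) (W n H) →
        |cex (S n) (lab n m) (Y n) H - obsM ν (W n H) (t n m H)| ≤ e ∧
        |cvar (S n) (lab n m) (Y n) H - K n * (q - obsQ ν (W n H) (t n m H))| ≤ e

/-- Uniform continuity for the uniform norm on `[0, T]`. -/
def UC (T : ℝ) (Φ : Pth → ℝ) : Prop :=
  ∀ e : ℝ, 0 < e → ∃ d : ℝ, 0 < d ∧ ∀ V V' : Pth, (∀ u ∈ Icc 0 T, |V u - V' u| ≤ d) →
    |Φ V - Φ V'| ≤ e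

/-- Convergence in law to the Brownian motion of speed four. -/
def Conv (S : ℕ → Set Cfg) (W : ℕ → Cfg → Pth) : Prop :=
  ∀ μ : Measure Pth, Wie 4 μ → (∀ᵐ V ∂μ, V 0 = 0) → ∀ (T B : ℝ) (Φ : Pth → ℝ), (∀ V, |Φ V| ≤ B) →
    UC T Φ → Tendsto (fun n => Ex (S n) fun H => Φ (W n H)) atTop (𝓝 (∫ V, Φ V ∂μ))

/-- The theorem of this module. -/
def Out : Prop := ∀ (ι : Type) S (lab : ℕ → ℕ → Cfg → ι) t W K, Drv S lab t W K →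
  Tendsto K atTop (𝓝 (2 / π)) ∧ Conv S W

/-! ### Mesoscopic steps -/

/-- Increment. -/
def dl (x : ℕ → Cfg → ℝ) (j : ℕ) (H : Cfg) : ℝ := x (j + 1) H - x j H

/-- Position at the times `s`. -/
def pos (W : Cfg → Pth) (s : ℕ → Cfg → ℝ) (j : ℕ) (H : Cfg) : ℝ := W H (s j H)

/-- The stopping times. -/
structure Path {ι : Type} (S : Set Cfg) (l : ℕ → Cfg → ι) (W : Cfg → Pth) (s : ℕ → Cfg → ℝ)
    (T R d : ℝ) : Prop where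
  good : Good S
  ref : ∀ j, ∀ H ∈ S, ∀ H' ∈ S, l (j + 1) H' = l (j + 1) H → l j H' = l j H
  ad : ∀ j, ∀ H ∈ S, ∀ H' ∈ S, l j H' = l j H → s j H' = s j H ∧ EqOn (W H') (W H) (Icc 0 (s j H))
  s0 : ∀ H ∈ S, s 0 H = 0
  w0 : ∀ H ∈ S, |W H 0| ≤ d
  ds : ∀ j, ∀ H ∈ S, 0 ≤ dl s j H ∧ dl s j H ≤ 2 * d ^ 2
  osc : ∀ j, ∀ H ∈ S, ∀ u ∈ Icc (s j H) (s (j + 1) H), |W H u - W H (s j H)| ≤ 2 * d
  go : ∀ j, ∀ H ∈ S, Run T R (s j H) (W H) →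
    d ^ 2 ≤ dl s j H ∨ d ≤ |dl (pos W s) j H| ∨ ¬ Run T R (s (j + 1) H) (W H)
  stop : ∀ j, ∀ H ∈ S, ¬ Run T R (s j H) (W H) → s (j + 1) H = s j H
  bd : ∀ j, ∀ H ∈ S, Run (T + 2) (R + 2) (s j H) (W H)

/-- The conditional moments. -/
structure Mom {ι : Type} (S : Set Cfg) (l : ℕ → Cfg → ι) (W : Cfg → Pth) (s : ℕ → Cfg → ℝ)
    (d C : ℝ) : Prop where
  m1 : ∀ j, ∀ H ∈ S, |cex S (l j) (dl (pos W s) j) H| ≤ C * d ^ 3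
  m2 : ∀ j, ∀ H ∈ S, |cex S (l j) (fun K => dl (pos W s) j K ^ 2 - 4 * dl s j K) H| ≤ C * d ^ 3

/-- Existence of skeletons at all scales. -/
def Meso (S : ℕ → Set Cfg) (W : ℕ → Cfg → Pth) : Prop :=
  ∃ ι : Type, ∀ T R : ℝ, 1 ≤ T → 1 ≤ R → ∃ C : ℝ, 0 ≤ C ∧ ∀ d : ℝ, 0 < d → d ≤ 1 → ∀ᶠ n in atTop,
    ∃ (l : ℕ → Cfg → ι) (s : ℕ → Cfg → ℝ), Path (S n) l (W n) s T R d ∧ Mom (S n) l (W n) s d C

/-- Construction of the stopping times; the label at a stopping time gives the same cell. -/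
def S_stop : Prop := ∀ (ι : Type) S (lab : ℕ → ℕ → Cfg → ι) t W K, Drv S lab t W K →
  ∀ T R d : ℝ, 1 ≤ T → 1 ≤ R → 0 < d → d ≤ 1 → ∀ᶠ n in atTop, ∃ σ : ℕ → Cfg → ℕ,
    Path (S n) (fun j H => (σ j H, lab n (σ j H) H)) (W n) (fun j H => t n (σ j H) H) T R d ∧
    ∀ j, ∀ H ∈ S n, ∀ f : Cfg → ℝ,
      cex (S n) (fun H => (σ j H, lab n (σ j H) H)) f H = cex (S n) (lab n (σ j H)) f H

/-- Far points stay alive and move little. -/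
def S_far : Prop := ∀ T R : ℝ, ∃ C : ℝ, 1 ≤ C ∧ ∀ (w₀ w : ℂ) (W : Pth) (s : ℝ), 8 * C ≤ ‖w₀‖ →
  ‖w₀‖ ≤ 2 * w₀.im → ‖w - w₀‖ ≤ 1 → Run T R s W → ∀ u ∈ Icc 0 s,
    w ∈ P164.dom W u ∧ ‖Zf W u w - w₀‖ ≤ C

/-- Expansion of the observables. -/
def S_tay : Prop := ∀ T R : ℝ, ∃ C : ℝ, 1 ≤ C ∧ ∀ (w₀ : ℂ) (ν : Measure ℂ) (W : Pth) (s s' d : ℝ),
  C ≤ ‖w₀‖ → ‖w₀‖ ≤ 2 * w₀.im → Near ν w₀ → 0 < d → d ≤ 1 → 0 ≤ s → s ≤ s' → s' ≤ s + 2 * d ^ 2 →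
  Run T R s' W → (∀ u ∈ Icc s s', |W u - W s| ≤ 2 * d) →
    |π * (obsM ν W s' - obsM ν W s) + co1 ν W s * (W s' - W s) -
      co2 ν W s * (2 * (s' - s) - (W s' - W s) ^ 2 / 2)| ≤ C * d ^ 3 ∧
    |obsQ ν W s' - obsQ ν W s - 2 / π * co1 ν W s ^ 2 * (s' - s)| ≤ C * d ^ 3 ∧
    |co1 ν W s - (w₀⁻¹).im| ≤ C / ‖w₀‖ ^ 2 ∧ |co2 ν W s - (w₀⁻¹ ^ 2).im| ≤ C / ‖w₀‖ ^ 3

/-- The observables only depend on the past. -/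
def S_past : Prop := ∀ (ν : Measure ℂ) (V W : Pth) (s : ℝ), 0 ≤ s → EqOn V W (Icc 0 s) →
  obsM ν V s = obsM ν W s ∧ co1 ν V s = co1 ν W s ∧ co2 ν V s = co2 ν W s ∧ obsQ ν V s = obsQ ν W s

def S_meso : Prop := ∀ (ι : Type) S (lab : ℕ → ℕ → Cfg → ι) t W K, Drv S lab t W K → Meso S W

def S_K : Prop := ∀ (ι : Type) S (lab : ℕ → ℕ → Cfg → ι) t W K, Drv S lab t W K →
  Tendsto K atTop (𝓝 (2 / π))

/-- The exponential functional. -/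
def expo (W : Cfg → Pth) (s : ℕ → Cfg → ℝ) (lam : ℕ → Cfg → ℂ) (J : ℕ) (H : Cfg) : ℂ :=
  Complex.exp (∑ j ∈ Finset.range J, (lam j H * (dl (pos W s) j H : ℝ) - 2 * lam j H ^ 2 * (dl s j H : ℝ)))

/-- The exponential functional is nearly a martingale. -/
def S_exp : Prop := ∀ Λ : ℝ, ∃ C' : ℝ, 0 ≤ C' ∧ ∀ (ι : Type) S (l : ℕ → Cfg → ι) W s
  (T R d C B : ℝ) (lam : ℕ → Cfg → ℂ) (J : ℕ) (c : ℂ), Path S l W s T R d → Mom S l W s d C →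
  0 < d → d ≤ 1 → 0 ≤ C → ‖c‖ ≤ 1 → (∀ j, ∀ H ∈ S, ‖lam j H‖ ≤ Λ) →
  (∀ j, ∀ H ∈ S, ∀ H' ∈ S, l j H' = l j H → lam j H' = lam j H) →
  (∀ j < J, ∀ H ∈ S, ‖expo W s lam j H‖ ≤ B) →
  |Ex S (fun H => (c * expo W s lam J H).re) - c.re| ≤ J * B * (C' * (1 + C)) * d ^ 3

/-- The skeleton reaches the final time. -/
def S_fin : Prop := ∀ (ι : Type) S (l : ℕ → Cfg → ι) W s (T R d C : ℝ) (J : ℕ),
  Path S l W s T R d → Mom S l W s d C → 0 < d → d ≤ 1 → 0 ≤ C → 1 ≤ T → 8 ≤ R → 1 ≤ J →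
  Pr S {H | s J H ≤ T} ≤ (5 * (T + 2) + J * C * d ^ 3) / (J * d ^ 2) +
    4 * (1 + 4 * (T + 2) + J * (2 * R + 5) * C * d ^ 3) / R ^ 2

/-- The increments on the grid of step `h`. -/
def inc (h : ℝ) (i : ℕ) (V : Pth) : ℝ := V ((i + 1) * h) - V (i * h)

/-- Convergence of the characteristic functions. -/
def Chr (S : ℕ → Set Cfg) (W : ℕ → Cfg → Pth) : Prop :=
  ∀ (h : ℝ) (k : ℕ) (θ : ℕ → ℝ) (c : ℂ), 0 < h → ‖c‖ ≤ 1 →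
    Tendsto (fun n => Ex (S n) fun H =>
      (c * Complex.exp (Complex.I * (∑ i ∈ Finset.range k, θ i * inc h i (W n H) : ℝ))).re) atTop
      (𝓝 (c.re * Real.exp (-(2 * h * ∑ i ∈ Finset.range k, θ i ^ 2))))

/-- Tightness. -/
def Tight (S : ℕ → Set Cfg) (W : ℕ → Cfg → Pth) : Prop :=
  ∀ T x η : ℝ, 0 < x → 0 < η → ∃ h₀ : ℝ, 0 < h₀ ∧ ∀ h : ℝ, 0 < h → h ≤ h₀ → ∀ᶠ n in atTop,
    Pr (S n) {H | ∃ i : ℕ, i * h ≤ T ∧ ∃ u ∈ Icc (i * h) ((i + 1) * h),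
      x < |W n H u - W n H (i * h)|} ≤ η

/-- Convergence of the finite dimensional laws. -/
def Fdd (S : ℕ → Set Cfg) (W : ℕ → Cfg → Pth) : Prop :=
  ∀ μ : Measure Pth, Wie 4 μ → ∀ (h B : ℝ) (k : ℕ) (f : (Fin k → ℝ) → ℝ), 0 < h → Continuous f →
    (∀ y, |f y| ≤ B) → Tendsto (fun n => Ex (S n) fun H => f fun i => inc h i (W n H)) atTop
      (𝓝 (∫ V, f (fun i => inc h i V) ∂μ))

def S_chr : Prop := ∀ S W, Meso S W → Chr S W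

def S_tight : Prop := ∀ S W, Meso S W → Tight S W

/-- The characteristic function of Brownian increments. -/
def S_wchr : Prop := ∀ μ : Measure Pth, Wie 4 μ → ∀ (h : ℝ) (k : ℕ) (θ : ℕ → ℝ), 0 < h →
  ∫ V, Complex.exp (Complex.I * (∑ i ∈ Finset.range k, θ i * inc h i V : ℝ)) ∂μ =
    Real.exp (-(2 * h * ∑ i ∈ Finset.range k, θ i ^ 2))

def S_fdd : Prop := ∀ S W, (∀ n, Good (S n)) → Chr S W → Fdd S W

def S_conv : Prop := ∀ S W, (∀ n, Good (S n)) →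
  (∀ e : ℝ, 0 < e → ∀ᶠ n in atTop, ∀ H ∈ S n, |W n H 0| ≤ e) → Fdd S W → Tight S W → Conv S W

theorem out_of (h1 : S_meso) (h2 : S_K) (h3 : S_chr) (h4 : S_tight) (h5 : S_fdd) (h6 : S_conv) :
    Out := fun ι S lab t W K h =>
  ⟨h2 ι S lab t W K h, h6 S W h.good h.start (h5 S W h.good (h3 S W (h1 ι S lab t W K h)))
    (h4 S W (h1 ι S lab t W K h))⟩

end Vale.Agent.P153.Drive
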