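import Vale.Agent.P153.SLE.Fnd
import Vale.Agent.P153.SLE.DChr
import Vale.Agent.P153.SLE.DConv
import Vale.Agent.P153.SLE.DExp
import Vale.Agent.P153.SLE.DFar
import Vale.Agent.P153.SLE.DFdd
import Vale.Agent.P153.SLE.DFin
import Vale.Agent.P153.SLE.DK
import Vale.Agent.P153.SLE.DMeso
import Vale.Agent.P153.SLE.DStop
import Vale.Agent.P153.SLE.DTay
import Vale.Agent.P153.SLE.DTight

/-! Convergence of the driving functions, assembled. -/

namespace Vale.Agent.P153.Drive

open Vale.Agent.P153.SLE (fA fM)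

theorem out_all : Out :=
  have ht : S_tay := s_tay fA fM (s_far fA)
  out_of (s_meso s_stop ht (s_past fA)) (s_K s_stop ht (s_past fA)) (s_chr s_exp s_fin)
    (s_tight s_exp s_fin) (s_fdd s_wchr) s_conv

end Vale.Agent.P153.Drive
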