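import Vale.Agent.P153.SLE.Basic

/-! The last step: from sequential continuity to a lower bound for probabilities. -/

open Set Filter Topology Metric Complex MeasureTheory ProbabilityTheory
open scoped ENNReal NNReal BoundedContinuousFunction

noncomputable section
namespace Vale.Agent.P153.SLE

open Vale.Agent.P164 (Pth HP Zf Xf Yf Rf Up fi dom unbd Wie Sup Generates)
open Vale.Agent.P153.CA (cay icay)

namespace Fin1

theorem near {X : Type} [MetricSpace X] {u v : ℕ → X} {ψ : ℕ → ℕ} {V : X} (hψ : StrictMono ψ)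
    (h : ∀ j, dist (u j) (v j) < 1 / ((j : ℝ) + 1)) (hv : Tendsto (v ∘ ψ) atTop (𝓝 V)) :
    Tendsto (u ∘ ψ) atTop (𝓝 V) := by
  refine hv.congr_dist (squeeze_zero (fun _ => dist_nonneg) (fun k => ?_)
    (tendsto_one_div_add_atTop_nhds_zero_nat.comp hψ.tendsto_atTop))
  rw [dist_comm]
  exact (h (ψ k)).le

theorem claim {X : Type} [TopologicalSpace X] [TopologicalSpace.MetrizableSpace X] {K K' : Set X}
    (hK : IsCompact K) (hK' : IsCompact K') (H : ℕ → Set Cfg) (W W' : ℕ → Cfg → X)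
    (E : ℕ → ℕ → Set Cfg) (P : ℕ → Cfg → Prop)
    (hyp : ∀ (φ : ℕ → ℕ) (h : ℕ → Cfg) (V V' : X), Tendsto φ atTop atTop → (∀ k, h k ∈ H (φ k)) →
      V ∈ K → V' ∈ K' → Tendsto (fun k => W (φ k) (h k)) atTop (𝓝 V) →
      Tendsto (fun k => W' (φ k) (h k)) atTop (𝓝 V') → (∀ j, ∀ᶠ k in atTop, h k ∈ E j (φ k)) →
      ∀ᶠ k in atTop, P (φ k) (h k)) :
    ∃ (j : ℕ) (O O' : Set X), IsOpen O ∧ K ⊆ O ∧ IsOpen O' ∧ K' ⊆ O' ∧ ∀ᶠ n in atTop, ∀ h ∈ H n,
      W n h ∈ O → W' n h ∈ O' → (∀ i ≤ j, h ∈ E i n) → P n h := by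
  letI := TopologicalSpace.metrizableSpaceMetric X
  by_contra hc
  have fr : ∀ j : ℕ, ∃ᶠ n in atTop, ∃ h ∈ H n, W n h ∈ thickening (1 / ((j : ℝ) + 1)) K ∧
      W' n h ∈ thickening (1 / ((j : ℝ) + 1)) K' ∧ (∀ i ≤ j, h ∈ E i n) ∧ ¬ P n h := fun j => by
    by_contra k
    refine hc ⟨j, thickening (1 / ((j : ℝ) + 1)) K, thickening (1 / ((j : ℝ) + 1)) K',
      isOpen_thickening, self_subset_thickening Nat.one_div_pos_of_nat K,
      isOpen_thickening, self_subset_thickening Nat.one_div_pos_of_nat K',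
      (not_frequently.1 k).mono fun n hn h a b c d => ?_⟩
    by_contra e
    exact hn ⟨h, a, b, c, d, e⟩
  obtain ⟨φ, hφ, k⟩ := extraction_forall_of_frequently fr
  choose h h1 h2 h3 h4 h5 using k
  simp only [mem_thickening_iff] at h2 h3
  choose v v1 v2 using h2
  choose v' w1 w2 using h3
  obtain ⟨⟨V, V'⟩, ⟨a1, a2⟩, ψ, hψ, ht⟩ := (hK.prod hK').tendsto_subseq
    (x := fun j => (v j, v' j)) fun j => ⟨v1 j, w1 j⟩
  have := hyp (φ ∘ ψ) (h ∘ ψ) V V' (hφ.tendsto_atTop.comp hψ.tendsto_atTop) (fun k => h1 _) a1 a2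
    (near (u := fun j => W (φ j) (h j)) hψ v2 ((continuous_fst.tendsto _).comp ht))
    (near (u := fun j => W' (φ j) (h j)) hψ w2 ((continuous_snd.tendsto _).comp ht))
    fun j => (eventually_ge_atTop j).mono fun k hk => h4 _ j (hk.trans (hψ.le_apply))
  exact h5 _ this.exists.choose_spec

theorem inner (μ : Measure Pth) [IsProbabilityMeasure μ] {B : Set Pth} (hB : MeasurableSet B)
    {η : ℝ} (hη : 0 < η) : ∃ K, K ⊆ B ∧ IsCompact K ∧ μ.real B - η < μ.real K := by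
  obtain ⟨K, h1, h2, h3⟩ := hB.exists_isCompact_lt_add (measure_ne_top μ B)
    (ENNReal.ofReal_pos.2 hη).ne'
  refine ⟨K, h1, h2, ?_⟩
  have := (ENNReal.toReal_lt_toReal (measure_ne_top μ B)
    (ENNReal.add_ne_top.2 ⟨measure_ne_top μ K, ENNReal.ofReal_ne_top⟩)).2 h3
  rw [ENNReal.toReal_add (measure_ne_top μ K) ENNReal.ofReal_ne_top,
    ENNReal.toReal_ofReal hη.le] at this
  unfold Measure.real
  linarith

theorem geo (η : ℝ) (hη : 0 ≤ η) (j : ℕ) : ∑ i ∈ Finset.range j, η / 2 ^ i ≤ 2 * η := by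
  have : ∑ i ∈ Finset.range j, η / 2 ^ i = 2 * η - 2 * η / 2 ^ j := by
    induction j with
    | zero => simp
    | succ j ih => rw [Finset.sum_range_succ, ih, pow_succ]; field_simp; ring
  rw [this]
  have : 0 ≤ 2 * η / 2 ^ j := by positivity
  linarith

end Fin1

theorem s_fin1 (h1 : S_port) : S_fin1 := by
  intro μ H W W' Z G A hμ hH hW hW' hG hA hS a b hb
  set η := (μ.real {V | a < G V} - b) / 8 with hη
  have η0 : 0 < η := by rw [hη]; linarith
  obtain ⟨N, n1, n2, n3⟩ := exists_measurable_superset_of_null (ae_iff.1 hA)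
  have mG : MeasurableSet {V | a < G V} := measurableSet_lt measurable_const hG
  obtain ⟨K, k1, k2, k3⟩ := Fin1.inner μ (mG.diff n2) η0
  obtain ⟨K', l1, l2, l3⟩ := Fin1.inner μ n2.compl η0
  have e1 : μ.real ({V | a < G V} \ N) = μ.real {V | a < G V} := by
    unfold Measure.real; rw [measure_sdiff_null n3]
  have e2 : μ.real Nᶜ = 1 := by
    unfold Measure.real; rw [(prob_compl_eq_one_iff n2).2 n3, ENNReal.toReal_one]
  have inA : ∀ V, V ∉ N → V ∈ A := fun V h => by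
    by_contra k
    exact h (n1 k)
  obtain ⟨E, hE, hq⟩ := hS η η0
  obtain ⟨j, O, O', o1, o2, o3, o4, hc⟩ := Fin1.claim k2 l2 H W W' E (fun n h => a < Z n h)
    fun φ h V V' b1 b2 b3 b4 b5 b6 b7 =>
      (hq φ h V V' b1 b2 (inA V (k1 b3).2) (inA V' (l1 b4)) b5 b6 b7).eventually
        (lt_mem_nhds (k1 b3).1)
  have p1 := h1 μ H W O (μ.real {V | a < G V} - η) hμ hH hW o1
    (by rw [← e1]; exact k3.trans_le (measureReal_mono o2))
  have p2 := h1 μ H W' O' (1 - η) hμ hH hW' o3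
    (by rw [← e2]; exact l3.trans_le (measureReal_mono o4))
  have p3 : ∀ᶠ n in atTop, ∀ i ∈ Finset.range (j + 1), Pr (H n) (E i n)ᶜ ≤ η / 2 ^ i :=
    (Filter.eventually_all_finset _).2 fun i _ => hE i
  filter_upwards [hc, p1, p2, p3] with n c1 c2 c3 c4
  have q1 := Pr_inter_ge (H n) {h | W n h ∈ O} {h | W' n h ∈ O'}
  have q2 := (Pr_biUnion_le (H n) (Finset.range (j + 1)) fun i => (E i n)ᶜ).trans
    ((Finset.sum_le_sum c4).trans (Fin1.geo η η0.le _))
  have q3 := Pr_union_le (H n) {h | a < Z n h} (⋃ i ∈ Finset.range (j + 1), (E i n)ᶜ)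
  have q4 : Pr (H n) ({h | W n h ∈ O} ∩ {h | W' n h ∈ O'}) ≤
      Pr (H n) ({h | a < Z n h} ∪ ⋃ i ∈ Finset.range (j + 1), (E i n)ᶜ) :=
    Pr_mono fun h hh k => by
      by_cases m : ∀ i ≤ j, h ∈ E i n
      · exact Or.inl (c1 h hh k.1 k.2 m)
      · push Not at m
        obtain ⟨i, m1, m2⟩ := m
        exact Or.inr (mem_biUnion (Finset.mem_coe.2 (Finset.mem_range.2 (Nat.lt_succ_of_le m1))) m2)
  linarith

end Vale.Agent.P153.SLE
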