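import Vale.Agent.P153.SLE.Basic

/-! Existence of radial limits. -/

open Set Filter Topology Metric Complex MeasureTheory ProbabilityTheory
open scoped ENNReal NNReal BoundedContinuousFunction

noncomputable section
namespace Vale.Agent.P153.SLE

open Vale.Agent.P164 (Pth HP Zf Xf Yf Rf Up fi dom unbd Wie Sup Generates)
open Vale.Agent.P153.CA (cay icay)

namespace Rad

theorem up_nonneg (W : Pth) (t : ℝ) (w : ℂ) : 0 ≤ Up W t w := by
  unfold Up
  split_ifs with h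
  · exact mul_nonneg h.1.le (Real.exp_pos _).le
  · exact le_rfl

theorem step (W : Pth) {t y z a : ℝ} (ht : 0 ≤ t) (hz : 0 < z) (h1 : z / 2 ≤ y) (h2 : y ≤ z)
    (h : Up W t (fi W t (z * I)) ≤ a) :
    dist (fi W t (z * I)) (fi W t (y * I)) ≤ a * Real.exp 4 := by
  have k := koe.disp W t (z * I) (y * I) (z / 2) ht (half_pos hz) (by simp; linarith) (by simpa)
  have e : ‖(y : ℂ) * I - z * I‖ / (z / 2) ≤ 1 := by
    rw [← sub_mul, norm_mul, norm_I, mul_one, ← ofReal_sub, norm_real, Real.norm_eq_abs,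
      div_le_one (half_pos hz)]
    exact abs_le.2 ⟨by linarith, by linarith⟩
  rw [dist_comm, dist_eq_norm]
  refine k.trans (mul_le_mul ((mul_le_of_le_one_right (up_nonneg _ _ _) e).trans h)
    (Real.exp_le_exp.2 ?_) (Real.exp_pos _).le ((up_nonneg _ _ _).trans h))
  rw [mul_div_assoc]
  linarith

/-- The ratio of the geometric bound. -/
def q : ℝ := (1 / 2 : ℝ) ^ (1 / 32 : ℝ)

theorem q_pos : 0 < q := Real.rpow_pos_of_pos (by norm_num) _

theorem q_lt : q < 1 := Real.rpow_lt_one (by norm_num) (by norm_num) (by norm_num)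

theorem pw (j n : ℕ) {a : ℝ} (h : a = n / 32) : ((1 / 2 : ℝ) ^ j) ^ a = (q ^ j) ^ n := by
  rw [q, ← pow_mul, ← Real.rpow_natCast (1 / 2) j, ← Real.rpow_mul (by norm_num),
    ← Real.rpow_mul_natCast (by norm_num), h]
  congr 1
  push_cast
  ring

theorem occ_le (h2 : S_occ) {μ : Measure Pth} (hμ : Wie 4 μ) (T M : ℕ) :
    ∀ᵐ W ∂μ, ∀ᶠ j : ℕ in atTop,
      occ ((1 / 2) ^ j) (T + 1) (2 * T + 3 * M + 8) W < ENNReal.ofReal ((q ^ j) ^ 70) := by
  obtain ⟨C, hC⟩ := h2 μ (2 * T + 3 * M + 8) hμ (by positivity)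
  have hq := q_pos
  have hs : Summable fun j : ℕ => C * (q ^ 2) ^ j :=
    (summable_geometric_of_lt_one (by positivity) (pow_lt_one₀ hq.le q_lt two_ne_zero)).mul_left C
  have key : ∀ j : ℕ, μ {W | ENNReal.ofReal ((q ^ j) ^ 70) ≤
      occ ((1 / 2) ^ j) (T + 1) (2 * T + 3 * M + 8) W} ≤ ENNReal.ofReal (C * (q ^ 2) ^ j) := by
    intro j
    obtain ⟨h3, h4⟩ := hC ((1 / 2) ^ j) (T + 1) (by positivity) (by positivity)
    have hp : 0 < (q ^ j) ^ 70 := by positivity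
    refine (meas_ge_le_lintegral_div h3.aemeasurable (ENNReal.ofReal_pos.2 hp).ne'
      ENNReal.ofReal_ne_top).trans ((ENNReal.div_le_div_right h4 _).trans (le_of_eq ?_))
    rw [← ENNReal.ofReal_div_of_pos hp, pw j 72 (by norm_num)]
    congr 1
    field_simp
    ring
  filter_upwards [ae_eventually_notMem
    (ne_top_of_le_ne_top hs.tsum_ofReal_ne_top (ENNReal.tsum_le_tsum key))] with W hW
  exact hW.mono fun j h => not_le.1 h

end Rad

theorem s_rad0 : S_rad0 := by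
  intro W q q0 q1 h
  set F : ℕ → ℝ → ℂ := fun j t => fi W t (((1 / 2 : ℝ) ^ j : ℝ) * I) with hF
  refine ⟨fun t => limUnder atTop fun j => F j t, fun T => tendstoUniformlyOn_iff.2 fun e he => ?_⟩
  obtain ⟨A, hA⟩ := h ⌈T⌉₊
  have l1 : Tendsto (fun j : ℕ => |A| * q ^ j * Real.exp 4 / (1 - q) + |A| * q ^ j * Real.exp 4)
      atTop (𝓝 0) := by
    have l0 := ((tendsto_pow_atTop_nhds_zero_of_lt_one q0.le q1).const_mul |A|).mul_const
      (Real.exp 4)
    simpa using (l0.div_const (1 - q)).add l0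
  obtain ⟨J, hJ⟩ := eventually_atTop.1 (hA.and (l1.eventually_lt_const he))
  filter_upwards [Ioc_mem_nhdsGT (show (0 : ℝ) < (1 / 2) ^ J by positivity)] with y hy t ht
  obtain ⟨j, j1, j2⟩ := exists_nat_pow_near_of_lt_one hy.1
    (hy.2.trans (pow_le_one₀ (by norm_num) (by norm_num))) (show (0 : ℝ) < 1 / 2 by norm_num)
    (by norm_num)
  have hj : J ≤ j := Nat.lt_succ_iff.1
    ((pow_lt_pow_iff_right_of_lt_one₀ (by norm_num) (by norm_num)).1 (j1.trans_le hy.2))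
  have up : ∀ i, J ≤ i → Up W t (F i t) ≤ |A| * q ^ i := fun i hi =>
    ((hJ i hi).1 t ⟨ht.1, ht.2.trans (Nat.le_ceil T)⟩).trans
      (mul_le_mul_of_nonneg_right (le_abs_self A) (by positivity))
  have geo : ∀ n, dist (F (n + j) t) (F (n + 1 + j) t) ≤ |A| * q ^ j * Real.exp 4 * q ^ n :=
    fun n => by
      refine (Rad.step W ht.1 (by positivity) (le_of_eq (by ring))
        (pow_le_pow_of_le_one (by norm_num) (by norm_num) (by omega))
        (up (n + j) (by omega))).trans (le_of_eq (by ring))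
  obtain ⟨a, ha⟩ := cauchySeq_tendsto_of_complete (cauchySeq_of_le_geometric q _ q1 geo)
  have d1 := dist_le_of_le_geometric_of_tendsto₀ q _ q1 geo ha
  have d2 := Rad.step W ht.1 (by positivity) (by rw [pow_succ] at j1; linarith) j2 (up j hj)
  rw [((tendsto_add_atTop_iff_nat (f := fun j => F j t) j).1 ha).limUnder_eq]
  rw [zero_add, dist_comm] at d1
  exact ((dist_triangle _ _ _).trans (add_le_add d1 d2)).trans_lt (hJ j hj).2

theorem s_rad (h0 : S_rad0) (h1 : S_osc) (h2 : S_occ) (h3 : S_dbd) : S_rad := by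
  intro μ hμ
  obtain ⟨c, hc, h3⟩ := h3
  filter_upwards [h1 μ hμ, ae_all_iff.2 fun T => ae_all_iff.2 fun M => Rad.occ_le h2 hμ T M]
    with W k1 k2
  refine h0 W Rad.q Rad.q_pos Rad.q_lt fun T => ⟨√(64 / c), ?_⟩
  obtain ⟨M, -, hM, -⟩ := exists_bound W (T + 1)
  filter_upwards [k1 T, k2 T ⌈M⌉₊] with j k3 k4 t ht
  have hp : 0 < Rad.q ^ j := pow_pos Rad.q_pos j
  have hp1 : Rad.q ^ j ≤ 1 := pow_le_one₀ Rad.q_pos.le Rad.q_lt.le
  have e1 := Rad.pw j 68 (a := 17 / 8) (by norm_num)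
  have e2 : ((1 / 2 : ℝ) ^ j) ^ 2 = (Rad.q ^ j) ^ 64 := by
    rw [← Rad.pw j 64 (a := (2 : ℕ)) (by norm_num), Real.rpow_natCast]
  have p68 : 0 < (Rad.q ^ j) ^ 68 := pow_pos hp 68
  have k5 := h3 W T ⌈M⌉₊ ((1 / 2) ^ j) ((Rad.q ^ j) ^ 68 / 64) t
    (fun v hv => (hM v hv).trans (Nat.le_ceil M)) ht (by positivity)
    (pow_le_one₀ (by norm_num) (by norm_num)) (by positivity)
    (by rw [e2]; gcongr ?_ / 64; exact pow_le_pow_of_le_one hp.le hp1 (by norm_num))
    fun v hv => k3 t ht v ⟨hv.1, hv.2.trans (by rw [e1]; linarith)⟩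
  have k6 := (ENNReal.ofReal_le_ofReal_iff (pow_pos hp 70).le).1 (k5.trans k4.le)
  rw [← Real.sqrt_sq hp.le, ← Real.sqrt_mul (by positivity)]
  refine Real.le_sqrt_of_sq_le ?_
  rw [div_mul_eq_mul_div, le_div_iff₀ hc]
  refine le_of_mul_le_mul_right ?_ p68
  linarith

end Vale.Agent.P153.SLE
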