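import Vale.Agent.P153.SLE.Det

/-! The reversed domains approximate the reversed domain. -/

open Set Filter Topology Metric Complex

namespace Vale.Agent.P153.SLE

open Vale.Agent.P153.CA (circ)

namespace RevA

theorem shift (ρ : unitInterval ≃o unitInterval) (u : unitInterval) :
    ∃ ρ' : unitInterval ≃o unitInterval, ∀ t : unitInterval, ∃ (x : unitInterval) (j : ℕ),
      (x : ℝ) + j = t + u ∧ (ρ' t : ℝ) + ρ u = ρ x + j := by
  let R : ℝ → ℝ := fun x => ρ (projIcc 0 1 zero_le_one x)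
  have hc : Continuous R := continuous_subtype_val.comp (ρ.continuous.comp continuous_projIcc)
  have hm : Monotone R := fun x y h => ρ.monotone (monotone_projIcc _ h)
  have hs : StrictMonoOn R (Icc 0 1) := fun x hx y hy h =>
    ρ.strictMono (strictMonoOn_projIcc _ hx hy h)
  have h0 : ∀ x ≤ 0, R x = 0 := fun x hx => by
    simp only [R, projIcc_of_le_left _ hx]; exact congrArg _ ρ.map_bot
  have h1 : ∀ x, 1 ≤ x → R x = 1 := fun x hx => by
    simp only [R, projIcc_of_right_le _ hx]; exact congrArg _ ρ.map_top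
  have hv : ∀ x : unitInterval, R x = ρ x := fun x => by simp only [R, projIcc_val]
  have u0 := u.2.1
  have u1 := u.2.2
  obtain ⟨σ, hσ⟩ := Det.iso (f := fun t => R (t + u) + R (t + u - 1) - R u) (by fun_prop)
    (fun x hx y hy h => by
      have a1 := hm (show x + u ≤ y + u by linarith)
      have a2 := hm (show x + u - 1 ≤ y + u - 1 by linarith)
      rcases lt_or_ge (x + u) 1 with k | k
      · have a3 := hs ⟨add_nonneg hx.1 u0, k.le⟩ ⟨le_min (add_nonneg hy.1 u0) zero_le_one,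
          min_le_right _ _⟩ (lt_min (by linarith) k)
        linarith [hm (min_le_left (y + u) 1)]
      · linarith [hs (a := x + u - 1) (b := y + u - 1) ⟨by linarith, by linarith [hx.2]⟩
          ⟨by linarith, by linarith [hy.2]⟩ (by linarith)])
    (by simp [h0 (u - 1) (by linarith)]) (by simp [h1 (1 + u) (by linarith)])
  refine ⟨σ.symm, fun t => ?_⟩
  have e := hσ (σ.symm t)
  rw [σ.apply_symm_apply, hv u] at e
  rcases le_total (t + u : ℝ) 1 with k | k
  · have m : (t + u : ℝ) ∈ unitInterval := ⟨add_nonneg t.2.1 u0, k⟩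
    refine ⟨⟨t + u, m⟩, 0, by simp, ?_⟩
    rw [← hv ⟨t + u, m⟩, ← e, h0 (t + u - 1) (by linarith)]
    simp
  · have m : (t + u - 1 : ℝ) ∈ unitInterval := ⟨by linarith, by linarith [t.2.2]⟩
    refine ⟨⟨t + u - 1, m⟩, 1, by simp, ?_⟩
    rw [← hv ⟨t + u - 1, m⟩, ← e, h1 _ k]
    simp only [Nat.cast_one]
    ring

theorem per (q : ℕ → ℂ) {N : ℕ} (hN : 0 < N) (k : ℕ) {t : ℝ} (ht : 0 ≤ t) :
    poly q N (t + k / N) = poly (fun i => q (i + k)) N t := by
  have h : (N : ℝ) * (t + k / N) = N * t + k := by field_simp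
  rw [poly, poly, h, Nat.floor_add_natCast (by positivity), Int.fract_add_natCast,
    add_right_comm _ k 1]

theorem bmod (L : LDom) {i : ℕ} (hi : i ≤ L.N) : L.β (i % L.N) = L.β i := by
  rcases hi.eq_or_lt with rfl | h
  · rw [Nat.mod_self, L.closed]
  · rw [Nat.mod_eq_of_lt h]

theorem bd_eq (L : LDom) {t : ℝ} (ht : t ∈ Icc (0 : ℝ) 1) (j : ℕ) :
    poly (fun i => emb (L.β (i % L.N))) L.N (t + j) = L.bd t := by
  have hN : 0 < L.N := L.k_pos.trans L.k_lt
  have hN' : (0 : ℝ) < L.N := by positivity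
  have e : (j : ℝ) = (j * L.N : ℕ) / L.N := by push_cast; field_simp
  rw [e, per _ hN _ ht.1, LDom.bd, poly, poly]
  simp only [Nat.add_mul_mod_self_right]
  rcases ht.2.eq_or_lt with rfl | h
  · simp [L.closed]
  · have : ⌊L.N * t⌋₊ < L.N := (Nat.floor_lt (mul_nonneg hN'.le ht.1)).2 (mul_lt_of_lt_one_right hN' h)
    rw [bmod L this.le, bmod L this]

theorem bd_rev {L L' : LDom} (hN : L'.N = L.N) (hβ : ∀ i, L'.β i = L.β ((i + L.k) % L.N))
    {s t : ℝ} {j : ℕ} (hs : 0 ≤ s) (ht : t ∈ Icc (0 : ℝ) 1) (e : s + L.k / L.N = t + j) :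
    L'.bd s = L.bd t := by
  rw [← bd_eq L ht j, ← e, per _ (L.k_pos.trans L.k_lt) _ hs, LDom.bd, hN, funext hβ]

theorem frac (L : LDom) : (L.k / L.N : ℝ) ∈ Icc (0 : ℝ) 1 :=
  ⟨by positivity, div_le_one_of_le₀ (Nat.cast_le.2 L.k_lt.le) (by positivity)⟩

theorem bd_k (L : LDom) : L.bd (L.k / L.N) = emb (L.β L.k) := by
  have hN : (L.N : ℝ) ≠ 0 := (Nat.cast_pos.2 (L.k_pos.trans L.k_lt)).ne'
  simp [LDom.bd, poly, mul_div_cancel₀ _ hN]

theorem circ_add (t : ℝ) (j : ℕ) : circ (t + j) = circ t := by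
  rw [circ, circ, exp_eq_exp_iff_exists_int]
  exact ⟨-j, by push_cast; ring⟩

theorem circ_half (t : ℝ) : circ (t + 1 / 2) = -circ t := by
  rw [circ, circ, ← exp_sub_pi_mul_I]
  congr 1
  push_cast; ring

theorem circ_mem (t : ℝ) : circ t ∈ closedBall (0 : ℂ) 1 := by
  have : circ t = exp ((Real.pi * (1 - 2 * t) : ℝ) * I) := by
    rw [circ]; congr 1; push_cast; ring
  rw [mem_closedBall_zero_iff, this, norm_exp_ofReal_mul_I]

theorem near {ψ : ℂ → ℂ} (hψ : IsJordanMap ψ) (hC : Continuous fun t => ψ (circ t)) {d : ℝ}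
    (hd : 0 < d) : ∃ e, 0 < e ∧ ∀ u ∈ Icc (0 : ℝ) 1, dist (ψ (circ u)) (ψ 1) < e →
      dist u (1 / 2) < d := by
  obtain ⟨e, he, h⟩ := ((isCompact_Icc (a := (0 : ℝ)) (b := 1)).diff
    (isOpen_ball (x := (1 / 2 : ℝ)) (ε := d))).exists_forall_le' (a := 0)
    (hC.dist (continuous_const (y := ψ 1))).continuousOn fun u hu => by
      refine dist_pos.2 fun k => hu.2 ?_
      obtain ⟨n, hn⟩ := exp_eq_one_iff.1 (hψ.2.1 (circ_mem u) (by simp) k)
      have h1 : 1 - 2 * u = 2 * n := by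
        have := congrArg im hn
        simp at this
        nlinarith [Real.pi_pos]
      have h2 : (n : ℝ) < 1 := by linarith [hu.1.1]
      have h3 : (-1 : ℝ) < n := by linarith [hu.1.2]
      have h4 : n = 0 := by
        norm_cast at h2 h3
        omega
      rw [h4] at h1
      rw [show u = 1 / 2 by simp at h1; linarith]
      exact mem_ball_self hd
  exact ⟨e, he, fun u hu k => by_contra fun k' => (h u ⟨hu, k'⟩).not_gt k⟩

end RevA

open RevA

theorem bd_rev_image {L L' : LDom} (hN : L'.N = L.N) (hβ : ∀ i, L'.β i = L.β ((i + L.k) % L.N)) :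
    L'.bd '' Icc 0 1 = L.bd '' Icc 0 1 := by
  obtain ⟨a0, a1⟩ := frac L
  refine Subset.antisymm ?_ ?_ <;> rintro _ ⟨t, ⟨t0, t1⟩, rfl⟩
  · rcases le_total (t + L.k / L.N) 1 with h | h
    · exact ⟨_, ⟨by linarith, h⟩, (bd_rev hN hβ (j := 0) t0 ⟨by linarith, h⟩ (by simp)).symm⟩
    · have k : t + L.k / L.N - 1 ∈ Icc (0 : ℝ) 1 := ⟨by linarith, by linarith⟩
      exact ⟨_, k, (bd_rev hN hβ (j := 1) t0 k (by simp)).symm⟩
  · rcases le_total (L.k / L.N : ℝ) t with h | h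
    · exact ⟨t - L.k / L.N, ⟨by linarith, by linarith⟩,
        bd_rev hN hβ (j := 0) (by linarith) ⟨t0, t1⟩ (by simp)⟩
    · exact ⟨t + 1 - L.k / L.N, ⟨by linarith, by linarith⟩,
        bd_rev hN hβ (j := 1) (by linarith) ⟨t0, t1⟩ (by simp)⟩

theorem approx_rev {ψ : ℂ → ℂ} {L : ℕ → LDom} {δ : ℕ → ℝ} (hψ : IsJordanMap ψ)
    (hL : Approx ψ L δ) (L' : ℕ → LDom) (hN : ∀ n, (L' n).N = (L n).N)
    (hk : ∀ n, (L' n).k = (L n).N - (L n).k)
    (hβ : ∀ n i, (L' n).β i = (L n).β ((i + (L n).k) % (L n).N)) :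
    Approx (fun z => ψ (-z)) L' δ := by
  have hC : Continuous fun t => ψ (circ t) :=
    hψ.1.comp_continuous (by unfold circ; fun_prop) circ_mem
  refine ⟨hL.1, hL.2.1, Metric.tendsto_nhds.2 fun e he => ?_, fun e he => ?_⟩
  · filter_upwards [hL.2.2.2 _ (half_pos he)] with n ⟨ρ, h⟩
    have h0 := h 0
    rw [show ρ 0 = 0 from ρ.map_bot] at h0
    rw [hβ, hk, Nat.sub_add_cancel (L n).k_lt.le, Nat.mod_self]
    refine lt_of_le_of_lt ?_ (half_lt_self he)
    simpa [LDom.bd, poly] using h0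
  obtain ⟨d, hd, h1⟩ := Metric.uniformContinuousOn_iff.1
    ((isCompact_Icc (a := (0 : ℝ)) (b := 2)).uniformContinuousOn_of_continuous hC.continuousOn) _
    (half_pos he)
  obtain ⟨r, hr, h2⟩ := near hψ hC hd
  filter_upwards [hL.2.2.2 _ (lt_min (half_pos he) (half_pos hr)),
    Metric.tendsto_nhds.1 hL.2.2.1 _ (half_pos hr)] with n ⟨ρ, h⟩ h3
  set u := ρ.symm ⟨_, frac (L n)⟩
  have hu : (ρ u : ℝ) = (L n).k / (L n).N := by simp [u]
  have h4 : dist (u : ℝ) (1 / 2) < d := h2 u u.2 (by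
    have := (h u).trans (min_le_right _ _)
    rw [hu, bd_k] at this
    have k := dist_triangle_left (ψ (circ u)) (ψ 1) (δ n * emb ((L n).β (L n).k))
    exact k.trans_lt (by unfold circ; linarith))
  obtain ⟨ρ', h5⟩ := shift ρ u
  refine ⟨ρ', fun t => ?_⟩
  obtain ⟨x, j, e1, e2⟩ := h5 t
  have a1 := (h x).trans (min_le_left _ _)
  have a2 := h1 (t + u) ⟨add_nonneg t.2.1 u.2.1, by linarith [t.2.2, u.2.2]⟩ (t + 1 / 2)
    ⟨by linarith [t.2.1], by linarith [t.2.2]⟩ (by rwa [dist_add_left])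
  rw [← e1, circ_add, circ_half] at a2
  rw [bd_rev (hN n) (hβ n) (ρ' t).2.1 (ρ x).2 (hu ▸ e2)]
  refine (dist_triangle _ (ψ (circ x)) _).trans ?_
  unfold circ at a2 ⊢
  linarith

end Vale.Agent.P153.SLE
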