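import Vale.Agent.P153.Core
import Vale.Agent.P153.CA.Stm
import Vale.Agent.P164.Stm2

/-! Convergence of the interface: definitions and statements. See `skel/P153/SLE.md`. -/

open Set Filter Topology Metric Complex MeasureTheory ProbabilityTheory
open scoped ENNReal NNReal BoundedContinuousFunction

noncomputable section
namespace Vale.Agent.P153.SLE

open Vale.Agent.P164 (Pth HP Zf Xf Yf Rf Up fi dom unbd Wie Sup Generates)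
open Vale.Agent.P153.CA (cay icay)

universe u

/-! ### The interface with the lattice part -/

/-- The law of twice a Brownian motion, frozen at negative times. -/
def BM (μ : Measure Pth) : Prop := Wie 4 μ ∧ ∀ᵐ W ∂μ, ∀ t ≤ 0, W t = 0

/-- A simple curve in the disc from `-1` to `1`. -/
structure DC (c : ℝ → ℂ) : Prop where
  cont : ContinuousOn c (Icc 0 1)
  inj : InjOn c (Icc 0 1)
  c0 : c 0 = -1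
  c1 : c 1 = 1
  ins : ∀ s ∈ Ioo (0 : ℝ) 1, ‖c s‖ < 1

/-- The reversed curve. -/
def rev (c : ℝ → ℂ) (s : ℝ) : ℂ := -c (1 - s)

/-- `W` drives the curve up to the parameter `S`, with capacity time `τ`. -/
structure Drv (c : ℝ → ℂ) (S : ℝ) (τ : ℝ → ℝ) (W : Pth) : Prop where
  S0 : 0 ≤ S
  S1 : S < 1
  t0 : τ 0 = 0
  cont : ContinuousOn τ (Icc 0 S)
  mono : StrictMonoOn τ (Icc 0 S)
  W0 : W 0 = 0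
  dom : ∀ s ∈ Icc 0 S, dom W (τ s) = HP \ (fun v => icay (c v)) '' Ioc 0 s

/-- The curve comes `k` close to the end point and later is `e` far from it. -/
def Bk (c : ℝ → ℂ) (k e : ℝ) : Prop :=
  ∃ s v, 0 ≤ s ∧ s ≤ v ∧ v ≤ 1 ∧ ‖c s - 1‖ < k ∧ e < ‖c v - 1‖

/-- Convergence in law of path valued variables. -/
def Law (μ : Measure Pth) (H : ℕ → Set Cfg) (W : ℕ → Cfg → Pth) : Prop :=
  ∀ G : Pth →ᵇ ℝ, Tendsto (fun n => Ex (H n) fun h => G (W n h)) atTop (𝓝 (∫ V, G V ∂μ))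

/-- What the lattice part gives for one direction. -/
structure Conv (μ : Measure Pth) (H : ℕ → Set Cfg) (c : ℕ → Cfg → ℝ → ℂ) (S : ℕ → Cfg → ℝ)
    (τ : ℕ → Cfg → ℝ → ℝ) (W : ℕ → Cfg → Pth) : Prop where
  drv : ∀ᶠ n in atTop, ∀ h ∈ H n, DC (c n h) ∧ Drv (c n h) (S n h) (τ n h) (W n h)
  law : Law μ H W
  cap : ∀ T : ℝ, Tendsto (fun n => Pr (H n) {h | τ n h (S n h) < T}) atTop (𝓝 0)
  back : ∀ e η : ℝ, 0 < e → 0 < η → ∃ k, 0 < k ∧ ∀ᶠ n in atTop, Pr (H n) {h | Bk (c n h) k e} ≤ η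

/-- The output of the lattice part. -/
def GEOA : Prop :=
  ∀ (ψ : ℂ → ℂ) (L : ℕ → LDom) (δ : ℕ → ℝ) (ε : ℤ) (μ : Measure Pth), IsJordanMap ψ →
    Approx ψ L δ → (ε = 1 ∨ ε = -1) → BM μ →
    ∃ (Ψ : ℕ → ℂ → ℂ) (c : ℕ → Cfg → ℝ → ℂ), TendstoUniformlyOn Ψ ψ atTop (closedBall 0 1) ∧
      (∀ᶠ n in atTop, Good ((L n).Hts ε) ∧ ∀ h ∈ (L n).Hts ε, Continuous ((L n).iface (δ n) h) ∧
        ∃ ρ : unitInterval ≃o unitInterval, ∀ t, (L n).iface (δ n) h (ρ t) = Ψ n (c n h t)) ∧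
      (∃ S τ W, Conv μ (fun n => (L n).Hts ε) c S τ W) ∧
      ∃ S τ W, Conv μ (fun n => (L n).Hts ε) (fun n h => rev (c n h)) S τ W

/-- Bounded functionals that are continuous for the curve distance. -/
def CC (F : (unitInterval → ℂ) → ℝ) : Prop :=
  (∃ M, ∀ c, |F c| ≤ M) ∧ ∀ c, Continuous c → ∀ e : ℝ, 0 < e → ∃ d : ℝ, 0 < d ∧
    ∀ c', Continuous c' → cdist c' c < d → |F c' - F c| < e

/-- The interface converges to the trace driven by twice a Brownian motion. -/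
def SLEconv : Prop :=
  ∀ (ψ : ℂ → ℂ) (L : ℕ → LDom) (δ : ℕ → ℝ) (ε : ℤ), IsJordanMap ψ → Approx ψ L δ →
    (ε = 1 ∨ ε = -1) → ∀ (Ω : Type u) [MeasurableSpace Ω] (P : Measure Ω) (B : ℝ≥0 → Ω → ℝ),
    IsBrownianReal B P → ∃ γ : Ω → unitInterval → ℂ,
      (∀ᵐ ω ∂P, IsTrace ψ (fun t => 2 * B t.toNNReal ω) (γ ω)) ∧
      ∀ F, CC F → Integrable (fun ω => F (γ ω)) P ∧
        Tendsto (fun n => avg ((L n).Hts ε) fun h => F ((L n).iface (δ n) h)) atTop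
          (𝓝 (∫ ω, F (γ ω) ∂P))

/-! ### The Loewner flow -/

def S_alv : Prop := ∀ (W : Pth) (T c : ℝ) (w : ℂ), 0 ≤ T → 0 < c → 0 < w.im →
  (∀ t ∈ Icc 0 T, w ∈ dom W t → c ≤ Rf W t w) → w ∈ dom W T

def S_bnd : Prop := ∀ (W : Pth) (T M : ℝ) (w : ℂ), (∀ v ∈ Icc 0 T, |W v| ≤ M) →
  (∀ t ∈ Icc 0 T, w ∈ dom W t → ‖Zf W t w + W t - w‖ ≤ 2 * T + 2 * M + 2) ∧
  (0 ≤ T → 0 < w.im → 2 * T + 3 * M + 3 ≤ ‖w‖ → w ∈ dom W T)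

/-- Joint continuity of the flow. -/
def S_zc : Prop := ∀ (w : ℂ) (W : Pth) (t : ℝ), 0 ≤ t → w ∈ dom W t →
  (∀ᶠ p : ℂ × Pth × ℝ in 𝓝 (w, W, t), p.1 ∈ dom p.2.1 (max p.2.2 0)) ∧
  ContinuousAt (fun p : ℂ × Pth × ℝ => Zf p.2.1 p.2.2 p.1) (w, W, t) ∧
  ContinuousAt (fun V : Pth => Up V t w) W

/-- Joint continuity of the inverse maps. -/
def S_fic : Prop :=
  ContinuousOn (fun p : Pth × ℝ × ℂ => fi p.1 p.2.1 p.2.2) {p | 0 ≤ p.2.1 ∧ 0 < p.2.2.im}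

/-- The flow property. -/
def S_comp : Prop := ∀ (W W' : Pth) (s v : ℝ), 0 ≤ s → 0 ≤ v →
  (∀ r, 0 ≤ r → W (s + r) - W s = W' r) →
  (∀ w ∈ dom W s, (w ∈ dom W (s + v) ↔ Zf W s w ∈ dom W' v) ∧
    (w ∈ dom W (s + v) → Zf W (s + v) w = Zf W' v (Zf W s w))) ∧
  ∀ ζ : ℂ, 0 < ζ.im → fi W (s + v) ζ = fi W s (fi W' v ζ)

/-- Points near a point that dies at time `t` are mapped near the driving point. -/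
def S_acc : Prop := ∀ (W : Pth) (t : ℝ) (z : ℂ), 0 < t → z ∉ dom W t →
  (∀ t' ∈ Ico 0 t, z ∈ dom W t') → Tendsto (Zf W t) (𝓝[dom W t] z) (𝓝 0)

/-- A semicircle with a short image. -/
def S_vis : Prop := ∀ M T : ℝ, ∃ C : ℝ, 0 < C ∧ ∀ (W : Pth) (t r1 r2 : ℝ),
  (∀ v ∈ Icc 0 T, |W v| ≤ M) → t ∈ Icc 0 T → 0 < r1 → r1 < r2 → r2 ≤ 1 → ∃ ρ ∈ Ioo r1 r2,
    ∀ ζ : ℂ, 0 < ζ.im → ‖ζ‖ = ρ → ‖fi W t ζ - fi W t (ρ * I)‖ ≤ C / √(Real.log (r2 / r1))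

/-- Comparison of points near the real line. -/
def S_nrd : Prop := ∀ r T : ℝ, 0 < r → 0 ≤ T → ∃ η : ℝ, 0 < η ∧ ∀ (W : Pth) (σ : ℝ) (w0 w : ℂ),
  (σ = 1 ∨ σ = -1) → w0 ∈ dom W T → (∀ t ∈ Icc 0 T, r ≤ σ * Xf W t w0) → 0 < w.im → w.im ≤ η →
  σ * w0.re ≤ σ * w.re → w ∈ dom W T ∧ ∀ t ∈ Icc 0 T, r / 2 ≤ σ * Xf W t w

/-- The capacity of a hull in a half disc. -/
def S_cap : Prop := ∀ (W : Pth) (t R : ℝ), 0 ≤ t → 0 < R →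
  {z : ℂ | 0 < z.im ∧ R < ‖z‖} ⊆ dom W t → 2 * t ≤ R ^ 2

/-! ### The trace -/

/-- No real point is swallowed. -/
def NR (W : Pth) : Prop := ∀ T x σ : ℝ, 0 ≤ T → 0 < x → (σ = 1 ∨ σ = -1) →
  ∃ (w : ℂ) (r : ℝ), 0 < r ∧ w ∈ dom W T ∧ σ * w.re ≤ x ∧ ∀ t ∈ Icc 0 T, r ≤ σ * Xf W t w

/-- Radial limits, locally uniformly in time. -/
def Rad (W : Pth) (γ : ℝ → ℂ) : Prop :=
  ∀ T : ℝ, TendstoUniformlyOn (fun (y : ℝ) t => fi W t (y * I)) γ (𝓝[>] 0) (Icc 0 T)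

/-- A driving function with a simple trace. -/
structure Gd (W : Pth) (γ : ℝ → ℂ) : Prop where
  w0 : W 0 = 0
  rad : Rad W γ
  nr : NR W
  cont : ContinuousOn γ (Ici 0)
  g0 : γ 0 = 0
  inj : InjOn γ (Ici 0)
  pos : ∀ t, 0 < t → 0 < (γ t).im
  dom : ∀ t, 0 ≤ t → dom W t = HP \ γ '' Icc 0 t
  unb : ∀ R : ℝ, ∃ t, 0 ≤ t ∧ R ≤ ‖γ t‖
  gen : Generates W γ

/-- Limits along paths agree with the radial limit. -/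
def S_vis0 : Prop := ∀ (W : Pth) (γ p : ℝ → ℂ) (t a b : ℝ) (z : ℂ), Rad W γ → 0 ≤ t → a < b →
  ContinuousOn p (Ico a b) → (∀ v ∈ Ico a b, 0 < (p v).im) → Tendsto p (𝓝[<] b) (𝓝 0) →
  Tendsto (fun v => fi W t (p v)) (𝓝[<] b) (𝓝 z) → z = γ t

/-- The radial limit generates the chain. -/
def S_gen : Prop := ∀ (W : Pth) (γ : ℝ → ℂ), Rad W γ → ContinuousOn γ (Ici 0) ∧ γ 0 = W 0 ∧
  ∀ t, 0 ≤ t → 0 ≤ (γ t).im ∧ γ t ∉ dom W t ∧ dom W t = unbd γ t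

/-- The trace keeps entering the domain, and after a shift it returns only to its start. -/
def S_ret : Prop :=
  (∀ (W : Pth) (γ : ℝ → ℂ) (a b : ℝ), Rad W γ → 0 ≤ a → a < b → ∃ s ∈ Ioo a b, γ s ∈ dom W a) ∧
  ∀ (W W' : Pth) (γ η : ℝ → ℂ) (s v : ℝ), Rad W γ → Rad W' η → NR W' → 0 ≤ s → 0 ≤ v →
    (∀ r, 0 ≤ r → W (s + r) - W s = W' r) → γ (s + v) ∈ dom W s ∨ γ (s + v) = γ s

def S_simp : Prop := ∀ (W : Pth) (γ : ℝ → ℂ), W 0 = 0 → Rad W γ → NR W →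
  (∀ q : ℚ, 0 ≤ q → ∃ (W' : Pth) (η : ℝ → ℂ), Rad W' η ∧ NR W' ∧
    ∀ r, 0 ≤ r → W (q + r) - W q = W' r) → Gd W γ

/-- The maximal inequality. -/
def S_doob : Prop := ∀ (μ : Measure Pth) (N : ℝ → Pth → ℝ≥0∞) (T : ℝ) (a : ℝ≥0∞), Wie 4 μ →
  Sup μ N → (∀ t (V W : Pth), 0 ≤ t → EqOn V W (Icc 0 t) → N t V = N t W) →
  (∀ W, ContinuousOn (fun t => N t W) (Ici 0)) →
  a * μ {W | ∃ t ∈ Icc 0 T, a < N t W} ≤ ∫⁻ W, N 0 W ∂μ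

def S_tail : Prop := ∀ (μ : Measure Pth) (s h x : ℝ), Wie 4 μ → 0 ≤ s → 0 < h → 0 < x →
  μ {W | ∃ t ∈ Icc s (s + h), x < |W t - W s|} ≤ ENNReal.ofReal (2 * Real.exp (-(x ^ 2 / (8 * h))))

def S_osc : Prop := ∀ μ : Measure Pth, Wie 4 μ → ∀ᵐ W ∂μ, ∀ T : ℕ, ∀ᶠ j : ℕ in atTop,
  ∀ s ∈ Icc (0 : ℝ) T, ∀ t ∈ Icc s (s + ((1 / 2 : ℝ) ^ j) ^ (17 / 8 : ℝ)), |W t - W s| ≤ (1 / 2) ^ j

/-- Time spent by the points of a ball in the box of size `y`. -/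
def occ (y T R : ℝ) (W : Pth) : ℝ≥0∞ :=
  ∫⁻ w in ball (0 : ℂ) R, volume {s | s ∈ Icc 0 T ∧ y / 2 ≤ Yf W s w ∧ Rf W s w ≤ 3 * y}

def S_occ1 : Prop := ∃ C : ℝ, 0 < C ∧ ∀ (μ : Measure Pth) (y T : ℝ) (w : ℂ), Wie 4 μ → 0 < y →
  0 ≤ T → 0 < w.im → ∫⁻ W, volume {s | s ∈ Icc 0 T ∧ y / 2 ≤ Yf W s w ∧ Rf W s w ≤ 3 * y} ∂μ ≤
    ENNReal.ofReal (C * y ^ (9 / 4 : ℝ) * w.im ^ (-(1 / 4) : ℝ))

def S_occ : Prop := ∀ (μ : Measure Pth) (R : ℝ), Wie 4 μ → 0 < R → ∃ C : ℝ, ∀ y T : ℝ, 0 < y →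
  0 ≤ T → Measurable (occ y T R) ∧ ∫⁻ W, occ y T R W ∂μ ≤ ENNReal.ofReal (C * y ^ (9 / 4 : ℝ))

def S_dbd : Prop := ∃ c : ℝ, 0 < c ∧ ∀ (W : Pth) (T M y h t : ℝ),
  (∀ v ∈ Icc 0 (T + 1), |W v| ≤ M) → t ∈ Icc 0 T → 0 < y → y ≤ 1 → 0 < h → h ≤ y ^ 2 / 64 →
  (∀ v ∈ Icc t (t + h), |W v - W t| ≤ y) →
  ENNReal.ofReal (c * h * Up W t (fi W t (y * I)) ^ 2) ≤ occ y (T + 1) (2 * T + 3 * M + 8) W

def S_rad0 : Prop := ∀ (W : Pth) (q : ℝ), 0 < q → q < 1 → (∀ T : ℕ, ∃ A : ℝ, ∀ᶠ j : ℕ in atTop,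
  ∀ t ∈ Icc (0 : ℝ) T, Up W t (fi W t (((1 / 2 : ℝ) ^ j : ℝ) * I)) ≤ A * q ^ j) → ∃ γ, Rad W γ

def S_rad : Prop := ∀ μ : Measure Pth, Wie 4 μ → ∀ᵐ W ∂μ, ∃ γ, Rad W γ

/-- The logarithmic supermartingale. -/
def S_nr1 : Prop := ∀ (μ : Measure Pth) (w : ℂ) (δ : ℝ), Wie 4 μ → 0 < δ →
  ∃ N : ℝ → Pth → ℝ≥0∞, Sup μ N ∧
    (∀ t (V W : Pth), 0 ≤ t → EqOn V W (Icc 0 t) → N t V = N t W) ∧
    (∀ W, ContinuousOn (fun t => N t W) (Ici 0)) ∧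
    (∀ W t, 0 ≤ t → 2 * δ ≤ Yf W t w → ENNReal.ofReal (Real.exp (-(4 * t)) *
      (1 + Real.log (1 + 1 / Rf W t w ^ 2) / 2)) ≤ N t W) ∧
    ∀ W, N 0 W ≤ ENNReal.ofReal (1 + Real.log (1 + 1 / Rf W 0 w ^ 2) / 2)

def S_nrp : Prop := ∀ μ : Measure Pth, BM μ → ∀ᵐ W ∂μ, NR W

def S_good : Prop := ∀ μ : Measure Pth, BM μ → ∀ᵐ W ∂μ, ∃ γ, Gd W γ

def S_wien : Prop := ∀ (Ω : Type u) [MeasurableSpace Ω] (P : Measure Ω) (B : ℝ≥0 → Ω → ℝ),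
  IsBrownianReal B P → ∃ X : Ω → Pth, AEMeasurable X P ∧ BM (P.map X) ∧
    ∀ᵐ ω ∂P, ∀ t, X ω t = 2 * B t.toNNReal ω

/-! ### From the driving functions to the curves -/

/-- Limits of points of the hulls lie on the trace. -/
def S_h1 : Prop := ∀ (l : Filter ℕ) (V : Pth) (γ : ℝ → ℂ) (W : ℕ → Pth) (t : ℕ → ℝ) (z : ℕ → ℂ)
  (t0 : ℝ) (z0 : ℂ), l.NeBot → Gd V γ → Tendsto W l (𝓝 V) → Tendsto t l (𝓝 t0) →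
  Tendsto z l (𝓝 z0) → (∀ᶠ n in l, 0 ≤ t n ∧ 0 < (z n).im ∧ z n ∉ dom (W n) (t n)) →
  z0 ∈ γ '' Icc 0 t0

/-- Points of the trace are limits of points of the hulls; the hulls are bounded. -/
def S_h2 : Prop :=
  (∀ (V : Pth) (γ : ℝ → ℂ) (m e : ℝ), Gd V γ → 0 < m → 0 < e →
    ∀ᶠ W : Pth in 𝓝 V, ∃ z : ℂ, 0 < z.im ∧ z ∉ dom W m ∧ ‖z - γ m‖ < e) ∧
  ∀ (V : Pth) (T : ℝ), ∃ R : ℝ, ∀ᶠ W : Pth in 𝓝 V, ∀ t ∈ Icc 0 T, ∀ z : ℂ, 0 < z.im →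
    z ∉ dom W t → ‖z‖ ≤ R

/-- A connected set from a fixed point to the tip passes near the tip of the trace. -/
def S_visn : Prop := ∀ (V : Pth) (γ : ℝ → ℂ) (t0 β : ℝ) (x : ℂ), Gd V γ → 0 ≤ t0 → x ∈ dom V t0 →
  0 < β → ∀ᶠ p : Pth × ℝ in 𝓝 (V, t0), 0 ≤ p.2 → ∀ P : Set ℂ, IsPreconnected P →
    P ⊆ dom p.1 p.2 → x ∈ P → (∀ e, 0 < e → ∃ w ∈ P, ‖Zf p.1 p.2 w‖ < e) →
    ∃ w ∈ P, ‖w - γ t0‖ < β

def S_nwd : Prop := ∀ (γ : ℝ → ℂ) (a b : ℝ), ContinuousOn γ (Icc a b) → InjOn γ (Icc a b) →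
  interior (γ '' Icc a b) = ∅

/-- A sequence of curves whose driving functions converge. -/
structure Sq (l : Filter ℕ) (c : ℕ → ℝ → ℂ) (S : ℕ → ℝ) (τ : ℕ → ℝ → ℝ) (W : ℕ → Pth) (V : Pth)
    (γ : ℝ → ℂ) : Prop where
  gd : Gd V γ
  tr : Tendsto γ atTop (cocompact ℂ)
  drv : ∀ᶠ n in l, DC (c n) ∧ Drv (c n) (S n) (τ n) (W n)
  lim : Tendsto W l (𝓝 V)
  cap : Tendsto (fun n => τ n (S n)) l atTop
  back : ∀ e, 0 < e → ∃ k, 0 < k ∧ ∀ᶠ n in l, ¬ Bk (c n) k e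

theorem Sq.mono {l l' : Filter ℕ} {c S τ W V γ} (h : Sq l c S τ W V γ) (hl : l' ≤ l) :
    Sq l' c S τ W V γ :=
  ⟨h.gd, h.tr, hl h.drv, h.lim.mono_left hl, h.cap.mono_left hl,
    fun e he => (h.back e he).imp fun _ k => ⟨k.1, hl k.2⟩⟩

/-- Bounded points of the curves are visited at bounded capacity time. -/
def S_ap : Prop := ∀ l c S τ W V γ, Sq l c S τ W V γ → ∀ R : ℝ, ∃ T : ℝ, ∀ᶠ n in l,
  ∀ v ∈ Ioo (0 : ℝ) 1, ‖icay (c n v)‖ ≤ R → v ≤ S n ∧ τ n v ≤ T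

/-- A point of the curve that is visible from a fixed point is near the tip of the trace. -/
def S_tip : Prop := ∀ (U : Ultrafilter ℕ) c S τ W V γ, Sq U c S τ W V γ → ∀ Q : Set ℂ,
  IsCompact Q → Q ⊆ HP → ∃ T : ℝ, ∀ (x : ℂ) (v : ℕ → ℝ) (P : ℕ → Set ℂ), x ∉ γ '' Icc 0 T →
    (∀ᶠ n in U, v n ∈ Ioo (0 : ℝ) 1 ∧ IsPreconnected (P n) ∧ x ∈ P n ∧ P n ⊆ Q ∧
      Disjoint (P n) ((fun s => icay (c n s)) '' Ioo 0 1) ∧ icay (c n (v n)) ∈ closure (P n)) →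
    ∃ t0, 0 ≤ t0 ∧ γ t0 ∈ Q ∧ Tendsto (fun n => τ n (v n)) U (𝓝 t0) ∧ ∀ᶠ n in U, v n ≤ S n

/-- The first point of the curve on a segment. -/
def S_seg : Prop := ∀ (c : ℝ → ℂ) (Q : Set ℂ) (x p : ℂ), DC c → Convex ℝ Q → Q ⊆ HP → x ∈ Q →
  p ∈ Q → x ∉ (fun s => icay (c s)) '' Ioo 0 1 → p ∈ (fun s => icay (c s)) '' Ioo 0 1 →
  ∃ v ∈ Ioo (0 : ℝ) 1, ∃ P : Set ℂ, IsPreconnected P ∧ x ∈ P ∧ P ⊆ Q ∧
    Disjoint P ((fun s => icay (c s)) '' Ioo 0 1) ∧ icay (c v) ∈ closure P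

/-- A point that is visible for both directions. -/
def S_vp : Prop := ∀ (U : Ultrafilter ℕ) c S τ W V γ S' τ' W' V' γ', Sq U c S τ W V γ →
  Sq U (fun n => rev (c n)) S' τ' W' V' γ' → ∀ m β : ℝ, 0 < m → 0 < β →
  closedBall (γ m) β ⊆ HP → ∃ (v : ℕ → ℝ) (t0 t1 : ℝ), 0 ≤ t0 ∧ 0 < t1 ∧
    γ t0 ∈ closedBall (γ m) β ∧ -(γ' t1)⁻¹ ∈ closedBall (γ m) β ∧
    Tendsto (fun n => τ n (v n)) U (𝓝 t0) ∧ Tendsto (fun n => τ' n (1 - v n)) U (𝓝 t1) ∧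
    ∀ᶠ n in U, v n ∈ Ioo (0 : ℝ) 1 ∧ v n ≤ S n ∧ 1 - v n ≤ S' n

/-- The reversed trace lies on the trace. -/
def S_rng : Prop := ∀ (U : Ultrafilter ℕ) c S τ W V γ S' τ' W' V' γ', Sq U c S τ W V γ →
  Sq U (fun n => rev (c n)) S' τ' W' V' γ' → ∀ σ : ℝ, 0 < σ → ∃ m, 0 ≤ m ∧ γ m = -(γ' σ)⁻¹

/-- A backtrack fixes the order of the points on the reversed trace. -/
def S_ord : Prop := ∀ (U : Ultrafilter ℕ) c S τ W V γ S' τ' W' V' γ', Sq U c S τ W V γ →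
  Sq U (fun n => rev (c n)) S' τ' W' V' γ' → ∀ (v : ℕ → ℝ) (s t : ℝ), 0 ≤ s →
  (∀ᶠ n in U, v n ∈ Ioc 0 (S n)) → Tendsto (fun n => τ n (v n)) U (𝓝 t) →
  Tendsto (fun n => icay (c n (v n))) U (𝓝 (γ s)) → ∀ m ∈ Ioo s t,
    ∃ a b : ℝ, 0 < a ∧ a ≤ b ∧ γ s = -(γ' a)⁻¹ ∧ γ m = -(γ' b)⁻¹

def S_top : Prop := ∀ (V V' : Pth) (γ γ' : ℝ → ℂ) (s t : ℝ), Gd V γ → Gd V' γ' →
  Tendsto γ atTop (cocompact ℂ) → (∀ σ : ℝ, 0 < σ → ∃ m, 0 ≤ m ∧ γ m = -(γ' σ)⁻¹) → 0 ≤ s → s < t →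
  (∀ m ∈ Ioo s t, ∃ a b : ℝ, 0 < a ∧ a ≤ b ∧ γ s = -(γ' a)⁻¹ ∧ γ m = -(γ' b)⁻¹) → False

/-- Uniform convergence in capacity time. -/
def Key (c : ℕ → ℝ → ℂ) (S : ℕ → ℝ) (τ : ℕ → ℝ → ℝ) (γ : ℝ → ℂ) : Prop :=
  ∀ T e : ℝ, 0 < e → ∀ᶠ n in atTop, ∀ s ∈ Icc 0 (S n), τ n s ≤ T → ‖c n s - cay (γ (τ n s))‖ ≤ e

def S_key : Prop := ∀ c S τ W V γ S' τ' W' V' γ', Sq atTop c S τ W V γ →
  Sq atTop (fun n => rev (c n)) S' τ' W' V' γ' → Key c S τ γ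

open Classical in
/-- The trace in the disc. -/
def dsc (γ : ℝ → ℂ) (t : unitInterval) : ℂ := if (t : ℝ) < 1 then cay (γ (t / (1 - t))) else 1

def S_det : Prop := ∀ c S τ W V γ, Sq atTop c S τ W V γ → Key c S τ γ → ∀ e : ℝ, 0 < e →
  ∀ᶠ n in atTop, ∃ ρ : unitInterval ≃o unitInterval, ∀ t, ‖c n (ρ t) - dsc γ t‖ ≤ e

def S_dsc : Prop := ∀ (V : Pth) (γ : ℝ → ℂ), Gd V γ → Tendsto γ atTop (cocompact ℂ) →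
  Continuous (dsc γ) ∧ (∀ t, ‖dsc γ t‖ ≤ 1) ∧
    ∀ ψ, IsJordanMap ψ → IsTrace ψ V fun t => ψ (dsc γ t)

/-- Two points of the trace are visited in the right order. -/
def S_two : Prop := ∀ (V : Pth) (γ : ℝ → ℂ) (t1 t2 e : ℝ), Gd V γ → 0 < t1 → t1 < t2 → 0 < e →
  ∀ᶠ W : Pth in 𝓝 V, ∀ c S τ, DC c → Drv c S τ W → t2 ≤ τ S → ∃ s v, 0 < s ∧ s ≤ v ∧ v < 1 ∧
    ‖icay (c s) - γ t1‖ < e ∧ ‖icay (c v) - γ t2‖ < e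

/-! ### Probability -/

def S_port : Prop := ∀ (μ : Measure Pth) (H : ℕ → Set Cfg) (W : ℕ → Cfg → Pth) (O : Set Pth)
  (a : ℝ), IsProbabilityMeasure μ → (∀ᶠ n in atTop, Good (H n)) → Law μ H W → IsOpen O →
  a < μ.real O → ∀ᶠ n in atTop, a < Pr (H n) {h | W n h ∈ O}

/-- Transience. -/
def S_tr : Prop := ∀ μ H c S τ W, BM μ → (∀ᶠ n in atTop, Good (H n)) → Conv μ H c S τ W →
  ∀ᵐ V ∂μ, ∀ γ, Gd V γ → Tendsto γ atTop (cocompact ℂ)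

def S_meas : Prop := ∀ (ψ : ℂ → ℂ) (F : (unitInterval → ℂ) → ℝ) (M : ℝ), IsJordanMap ψ → CC F →
  (∀ c, |F c| ≤ M) → ∃ G : Pth → ℝ, Measurable G ∧ (∀ V, |G V| ≤ M) ∧
    ∀ V γ, Gd V γ → Tendsto γ atTop (cocompact ℂ) → G V = F fun t => ψ (dsc γ t)

/-- The sequential hypothesis of the last step. -/
def Sqc (H : ℕ → Set Cfg) (W W' : ℕ → Cfg → Pth) (Z : ℕ → Cfg → ℝ) (G : Pth → ℝ) (A : Set Pth) :
    Prop :=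
  ∀ η : ℝ, 0 < η → ∃ E : ℕ → ℕ → Set Cfg, (∀ j, ∀ᶠ n in atTop, Pr (H n) (E j n)ᶜ ≤ η / 2 ^ j) ∧
    ∀ (φ : ℕ → ℕ) (h : ℕ → Cfg) (V V' : Pth), Tendsto φ atTop atTop → (∀ k, h k ∈ H (φ k)) →
      V ∈ A → V' ∈ A → Tendsto (fun k => W (φ k) (h k)) atTop (𝓝 V) →
      Tendsto (fun k => W' (φ k) (h k)) atTop (𝓝 V') → (∀ j, ∀ᶠ k in atTop, h k ∈ E j (φ k)) →
      Tendsto (fun k => Z (φ k) (h k)) atTop (𝓝 (G V))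

def S_fin1 : Prop := ∀ (μ : Measure Pth) H W W' Z G A, IsProbabilityMeasure μ →
  (∀ᶠ n in atTop, Good (H n)) → Law μ H W → Law μ H W' → Measurable G → (∀ᵐ V ∂μ, V ∈ A) →
  Sqc H W W' Z G A → ∀ a b : ℝ, b < μ.real {V | a < G V} →
    ∀ᶠ n in atTop, b < Pr (H n) {h | a < Z n h}

def S_fin2 : Prop := ∀ (μ : Measure Pth) (H : ℕ → Set Cfg) (Z : ℕ → Cfg → ℝ) (G : Pth → ℝ) (M : ℝ),
  IsProbabilityMeasure μ → (∀ᶠ n in atTop, Good (H n)) → Measurable G → (∀ V, |G V| ≤ M) →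
  (∀ n h, |Z n h| ≤ M) → (∀ a b : ℝ, b < μ.real {V | a < G V} →
    ∀ᶠ n in atTop, b < Pr (H n) {h | a < Z n h}) →
  ∀ b : ℝ, b < ∫ V, G V ∂μ → ∀ᶠ n in atTop, b < Ex (H n) (Z n)

end Vale.Agent.P153.SLE
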